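import Crest.Agent.R80.Defs

/-!
# R80: algebraic identities for the Lamé system
-/

set_option autoImplicit false

namespace Crest.Agent.R80

open Finset

variable {𝒜 : Type} [CommRing 𝒜] [Algebra ℂ 𝒜]

namespace DA

variable (D : DA 𝒜)

theorem d_two (j : Fin 3) : D.d j (2 : 𝒜) = 0 := by
  have : (2 : 𝒜) = 1 + 1 := by norm_num
  rw [this, map_add, Derivation.map_one_eq_zero, add_zero]

theorem str_R (L : Lame 𝒜) (V : I4 → 𝒜) (i j : Fin 3) :
    D.str (D.R L V) i j = D.str (fun k => V (some k)) i j +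
      2 * (L.m * D.d i (D.d j (V none)) - V none * D.d i (D.d j L.m)) := by
  simp only [str, R, map_add, map_sub, d_mul, D.comm j i]
  ring

theorem div_R (L : Lame 𝒜) (V : I4 → 𝒜) :
    D.div (D.R L V) = D.div (fun k => V (some k)) + (L.m * D.lap (V none) - V none * D.lap L.m) := by
  simp only [div, R, map_add, map_sub, d_mul, lap_apply, Fin.sum_univ_three]
  ring

theorem P_sys_none (L : Lame 𝒜) (V : I4 → 𝒜) :
    D.P (D.sys L) V none = D.lap (V none) +
      L.p * ((L.lam + L.mu) * D.div (fun k => V (some k)) - L.lam * D.lap L.m * V none) := by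
  simp [P_apply, sys, Fintype.sum_option, div, Fin.sum_univ_three]
  ring

theorem P_sys_some (L : Lame 𝒜) (V : I4 → 𝒜) (i : Fin 3) :
    D.P (D.sys L) V (some i) = D.lap (V (some i)) +
      L.m * (∑ j, D.str (fun k => V (some k)) i j * D.d j L.mu -
        D.div (fun k => V (some k)) * D.d i L.mu) -
      2 * ∑ j, D.d i (D.d j L.m) * D.d j (V none) -
      2 * L.m * (∑ j, D.d j (L.mu * D.d i (D.d j L.m))) * V none := by
  fin_cases i <;> simp [P_apply, sys, Fintype.sum_option, div, str, Fin.sum_univ_three] <;> ring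

theorem T_sys_none (L : Lame 𝒜) (θ : C3) (V : I4 → 𝒜) :
    D.T (D.sys L).A θ V none = (2 : ℂ) • D.dir θ (V none) +
      L.p * (L.lam + L.mu) * dot θ fun k => V (some k) := by
  simp [T_apply, sys, Fintype.sum_option, dot, Fin.sum_univ_three, mul_add]

theorem T_sys_some (L : Lame 𝒜) (θ : C3) (V : I4 → 𝒜) (i : Fin 3) :
    D.T (D.sys L).A θ V (some i) = (2 : ℂ) • D.dir θ (V (some i)) +
      L.m * (V (some i) * D.dir θ L.mu + θ i • ∑ k, V (some k) * D.d k L.mu -
        dot θ (fun k => V (some k)) * D.d i L.mu) -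
      2 * D.d i (D.dir θ L.m) * V none := by
  fin_cases i <;>
    simp [T_apply, sys, Fintype.sum_option, dot, dir_apply, Fin.sum_univ_three, Algebra.smul_def] <;>
    ring

/-- the reduction of the Lamé system -/
theorem lame_R (L : Lame 𝒜) (V : I4 → 𝒜) (i : Fin 3) :
    D.lame L (D.R L V) i = D.d i ((L.lam * L.m + 2) * D.P (D.sys L) V none) +
      L.mu * D.P (D.sys L) V (some i) := by
  have h1 : (L.lam * L.m + 2) * D.P (D.sys L) V none =
      L.lam * D.div (D.R L V) + 2 * D.lap (V none) + L.mu * D.div (fun k => V (some k)) := by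
    rw [P_sys_none, div_R]
    linear_combination ((L.lam + L.mu) * D.div (fun k => V (some k)) -
      L.lam * D.lap L.m * V none) * L.p_mul
  have h2 : ∀ j, L.mu * D.str (D.R L V) i j = L.mu * D.str (fun k => V (some k)) i j +
      2 * D.d i (D.d j (V none)) - 2 * (V none * (L.mu * D.d i (D.d j L.m))) := by
    intro j
    rw [str_R]
    linear_combination (2 * D.d i (D.d j (V none))) * L.mu_m
  have h3 : ∑ j, D.d j (D.d i (D.d j (V none))) = D.d i (D.lap (V none)) := by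
    simp only [lap_apply, map_sum, D.comm i]
  have h4 : ∑ j, D.d j (D.str (fun k => V (some k)) i j) =
      D.lap (V (some i)) + D.d i (D.div fun k => V (some k)) := by
    simp only [str, div, lap_apply, map_add, map_sum, sum_add_distrib, D.comm i]
    ring
  rw [h1, P_sys_some, lame]
  simp only [h2, map_add, map_sub, sum_add_distrib, sum_sub_distrib]
  have e1 : ∑ j, D.d j (L.mu * D.str (fun k => V (some k)) i j) =
      L.mu * ∑ j, D.d j (D.str (fun k => V (some k)) i j) +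
        ∑ j, D.str (fun k => V (some k)) i j * D.d j L.mu := by
    simp only [d_mul, sum_add_distrib, mul_sum]
  have e2 : ∑ j, D.d j (2 * D.d i (D.d j (V none))) = 2 * D.d i (D.lap (V none)) := by
    rw [← h3]
    simp only [d_mul, d_two, mul_zero, add_zero, mul_sum]
  have e3 : ∑ j, D.d j (2 * (V none * (L.mu * D.d i (D.d j L.m)))) =
      2 * (V none * ∑ j, D.d j (L.mu * D.d i (D.d j L.m))) +
        2 * (L.mu * ∑ j, D.d i (D.d j L.m) * D.d j (V none)) := by
    simp only [D.d_mul _ 2, D.d_mul _ (V none), d_two, mul_zero, add_zero, Fin.sum_univ_three]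
    ring
  rw [e1, e2, e3, h4, D.d_mul i 2, d_two, D.d_mul i L.mu]
  linear_combination (-(∑ j, D.str (fun k => V (some k)) i j * D.d j L.mu -
        D.div (fun k => V (some k)) * D.d i L.mu) +
      2 * (∑ j, D.d j (L.mu * D.d i (D.d j L.m))) * V none) * L.mu_m

theorem R_ker (L : Lame 𝒜) (f : 𝒜) : D.R L (D.ker L f) = 0 := by
  funext i
  simp [R, ker]

theorem P_sysK (L : Lame 𝒜) (f : Unit → 𝒜) :
    D.P (D.sysK L) f () = D.lap (f ()) + L.mu * D.lap L.m * f () := by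
  simp [P_apply, sysK]

theorem div_ker (L : Lame 𝒜) (f : 𝒜) :
    D.div (fun k => D.ker L f (some k)) = f * D.lap L.m - L.m * D.lap f := by
  simp only [div, ker, map_sub, d_mul, lap_apply, Fin.sum_univ_three]
  ring

theorem P_ker_none (L : Lame 𝒜) (f : 𝒜) :
    D.P (D.sys L) (D.ker L f) none = L.p * (D.lap f + L.mu * D.lap L.m * f) := by
  rw [P_sys_none, div_ker]
  simp only [ker]
  linear_combination (-D.lap f) * L.p_mul - (L.p * D.lap f) * L.mu_m

theorem P_ker_some (L : Lame 𝒜) (f : 𝒜) (i : Fin 3) :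
    D.P (D.sys L) (D.ker L f) (some i) = -(L.m * D.d i (D.lap f + L.mu * D.lap L.m * f)) := by
  have h := D.lame_R L (D.ker L f) i
  have h0 : D.lame L (D.R L (D.ker L f)) i = 0 := by
    simp [R_ker, lame, div, str]
  have h1 : (L.lam * L.m + 2) * D.P (D.sys L) (D.ker L f) none =
      D.lap f + L.mu * D.lap L.m * f := by
    rw [P_ker_none]
    linear_combination (D.lap f + L.mu * D.lap L.m * f) * L.p_mul
  rw [h0, h1] at h
  linear_combination (-L.m) * h - D.P (D.sys L) (D.ker L f) (some i) * L.mu_m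

/-- quadratic, linear and constant parts in `ζ` of the twisted density -/
theorem den_expand (L1 L2 : Lame 𝒜) (θ : C3) (hθ : ∑ j, θ j ^ 2 = 0) (c : ℂ) (V Y : I4 → 𝒜) :
    2 * (L2.lam - L1.lam) * (D.divT L1 (c • θ) V * D.divT L2 (-(c • θ)) Y) +
      (L2.mu - L1.mu) * ∑ i, ∑ j, D.strT L1 (c • θ) V i j * D.strT L2 (-(c • θ)) Y i j =
    c ^ 2 • D.den2 L1 L2 θ V Y +
      c • (2 * (L2.lam - L1.lam) * (dot θ (D.av L1 V) * D.div (D.R L2 Y) -
          D.div (D.R L1 V) * dot θ (D.av L2 Y)) +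
        2 * (L2.mu - L1.mu) * ∑ i, ∑ j, θ i • (D.av L1 V j * D.str (D.R L2 Y) i j -
          D.av L2 Y j * D.str (D.R L1 V) i j)) +
      D.den L1 L2 (D.R L1 V) (D.R L2 Y) := by
  have hθ' : algebraMap ℂ 𝒜 (θ 0) ^ 2 + algebraMap ℂ 𝒜 (θ 1) ^ 2 + algebraMap ℂ 𝒜 (θ 2) ^ 2 = 0 := by
    have := congrArg (algebraMap ℂ 𝒜) hθ
    simpa [Fin.sum_univ_three] using this
  have hq : ∀ u : Fin 3 → 𝒜, D.dir θ (dot θ u) = ∑ i, ∑ j, (θ i * θ j) • D.d i (u j) := by
    intro u
    simp only [dir_apply, dot, Fin.sum_univ_three, map_add, Derivation.map_smul, smul_smul]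
    abel
  simp only [den2, hq, den, divT, strT, str]
  generalize D.R L1 V = u
  generalize D.R L2 Y = v
  generalize D.av L1 V = a
  generalize D.av L2 Y = a'
  generalize D.div u = du
  generalize D.div v = dv
  generalize L1.m * V none = f
  generalize L2.m * Y none = g
  generalize L2.lam - L1.lam = dl
  generalize L2.mu - L1.mu = dm
  simp only [dot, Fin.sum_univ_three, Pi.smul_apply, Pi.neg_apply, smul_eq_mul]
  simp only [Algebra.smul_def, map_mul, map_neg, map_pow, map_ofNat]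
  generalize algebraMap ℂ 𝒜 (θ 0) = t0 at *
  generalize algebraMap ℂ 𝒜 (θ 1) = t1 at *
  generalize algebraMap ℂ 𝒜 (θ 2) = t2 at *
  generalize algebraMap ℂ 𝒜 c = c'
  linear_combination (dm * (-2 * c' ^ 2 * (a 0 * a' 0 + a 1 * a' 1 + a 2 * a' 2) +
    4 * c' ^ 3 * (g * (t0 * a 0 + t1 * a 1 + t2 * a 2) - f * (t0 * a' 0 + t1 * a' 1 + t2 * a' 2)) +
    4 * c' ^ 4 * f * g * (t0 ^ 2 + t1 ^ 2 + t2 ^ 2))) * hθ'

end DA

namespace EA

variable (X : EA 𝒜)

theorem d_ex_mul (ζ : C3) (j : Fin 3) (f : 𝒜) :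
    X.d j (X.ex ζ * f) = X.ex ζ * (X.d j f + ζ j • f) := by
  rw [X.toDA.d_mul, X.d_ex]
  simp only [Algebra.smul_def]
  ring

theorem R_tw (L : Lame 𝒜) (ζ : C3) (V : I4 → 𝒜) (i : Fin 3) :
    X.R L (X.tw ζ V) i = X.ex ζ * (X.R L V i + ζ i • (L.m * V none)) := by
  simp only [DA.R, tw, d_ex_mul, Algebra.smul_def]
  ring

theorem str_R_tw (L : Lame 𝒜) (ζ : C3) (V : I4 → 𝒜) (i j : Fin 3) :
    X.str (X.R L (X.tw ζ V)) i j = X.ex ζ * X.strT L ζ V i j := by
  simp only [DA.str, R_tw, d_ex_mul]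
  simp only [DA.str, DA.strT, DA.av, map_add, Derivation.map_smul, DA.d_mul]
  simp only [DA.R, Algebra.smul_def, map_mul, map_ofNat]
  ring

theorem div_R_tw (L : Lame 𝒜) (ζ : C3) (hζ : ∑ j, ζ j ^ 2 = 0) (V : I4 → 𝒜) :
    X.div (X.R L (X.tw ζ V)) = X.ex ζ * X.divT L ζ V := by
  have h' : algebraMap ℂ 𝒜 (ζ 0) ^ 2 + algebraMap ℂ 𝒜 (ζ 1) ^ 2 + algebraMap ℂ 𝒜 (ζ 2) ^ 2 = 0 := by
    have := congrArg (algebraMap ℂ 𝒜) hζ
    simpa [Fin.sum_univ_three] using this
  simp only [DA.div, R_tw, d_ex_mul]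
  simp only [DA.div, DA.divT, DA.av, dot, map_add, Derivation.map_smul, DA.d_mul,
    Fin.sum_univ_three]
  simp only [DA.R, Algebra.smul_def]
  linear_combination (X.ex ζ * L.m * V none) * h'

theorem den_tw (L1 L2 : Lame 𝒜) (ζ : C3) (hζ : ∑ j, ζ j ^ 2 = 0) (V Y : I4 → 𝒜) :
    X.den L1 L2 (X.R L1 (X.tw ζ V)) (X.R L2 (X.tw (-ζ) Y)) =
      2 * (L2.lam - L1.lam) * (X.divT L1 ζ V * X.divT L2 (-ζ) Y) +
        (L2.mu - L1.mu) * ∑ i, ∑ j, X.strT L1 ζ V i j * X.strT L2 (-ζ) Y i j := by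
  have hζ' : ∑ j, (-ζ) j ^ 2 = 0 := by simpa using hζ
  have e : ∀ a b : 𝒜, X.ex ζ * a * (X.ex (-ζ) * b) = a * b := fun a b => by
    linear_combination (a * b) * X.ex_neg ζ
  simp only [DA.den, str_R_tw, X.div_R_tw L1 ζ hζ, X.div_R_tw L2 _ hζ', e]

end EA

end Crest.Agent.R80
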