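import Crest.Agent.R80.Sm
import Crest.Agent.R80.Lame

/-!
# R80: the scalar Carleman estimate with convexified linear weight
-/

set_option autoImplicit false

namespace Crest.Agent.R80

open MeasureTheory Finset

/-- The pointwise identity: `g` has gradient `κ α`, `a = |α|²`, `S v = Δ v + a g² v`, `A v = -2 g ∂_α v - κ a v`. -/
theorem DA.carl_id {𝒜 : Type} [CommRing 𝒜] [Algebra ℂ 𝒜] (D : DA 𝒜) (α : Fin 3 → 𝒜) (κ a g u v : 𝒜)
    (hα : ∀ i j, D.d i (α j) = 0) (hκ : ∀ i, D.d i κ = 0) (ha : a = ∑ j, α j ^ 2)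
    (hg : ∀ i, D.d i g = κ * α i) :
    (D.lap v + a * g ^ 2 * v) * (-2 * g * ∑ j, α j * D.d j u - κ * a * u) +
      (D.lap u + a * g ^ 2 * u) * (-2 * g * ∑ j, α j * D.d j v - κ * a * v) =
    4 * κ * ((∑ j, α j * D.d j v) * ∑ j, α j * D.d j u) + 4 * κ * a ^ 2 * g ^ 2 * (v * u) +
      ∑ j, D.d j (-2 * g * ((∑ l, α l * D.d l u) * D.d j v + (∑ l, α l * D.d l v) * D.d j u) +
        2 * g * α j * ∑ l, D.d l v * D.d l u - κ * a * (u * D.d j v + v * D.d j u) -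
        2 * a * g * g * g * α j * (v * u)) := by
  subst ha
  simp only [DA.lap_apply, Fin.sum_univ_three, pow_two, map_add, map_sub, map_neg, neg_mul, D.d_mul,
    D.d_two, hα, hκ, hg, D.comm 1 0, D.comm 2 0, D.comm 2 1]
  ring

theorem DA.carl1_conj {𝒜 : Type} [CommRing 𝒜] [Algebra ℂ 𝒜] (D : DA 𝒜) (α : Fin 3 → 𝒜)
    (κ a g E φ : 𝒜) (hα : ∀ i j, D.d i (α j) = 0) (ha : a = ∑ j, α j ^ 2)
    (hg : ∀ i, D.d i g = κ * α i) (hE : ∀ i, D.d i E = E * (g * α i)) :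
    (∀ j, E * D.d j φ = D.d j (E * φ) - g * α j * (E * φ)) ∧
      E * D.lap φ = (D.lap (E * φ) + a * g ^ 2 * (E * φ)) +
        (-2 * g * ∑ j, α j * D.d j (E * φ) - κ * a * (E * φ)) := by
  subst ha
  refine ⟨fun j => ?_, ?_⟩
  · simp only [D.d_mul, hE]
    ring
  · simp only [DA.lap_apply, Fin.sum_univ_three, map_add, D.d_mul, hα, hg, hE]
    ring

theorem DA.carl1_div {𝒜 : Type} [CommRing 𝒜] [Algebra ℂ 𝒜] (D : DA 𝒜) (u v : 𝒜) :
    ∑ j, D.d j (u * D.d j v) = ∑ j, D.d j v * D.d j u + u * D.lap v := by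
  simp only [DA.lap_apply, Fin.sum_univ_three, D.d_mul]
  ring

theorem carl1_cj {R : ℝ} {f : Sm} (h : Cs R f) : Cs R f.cj := by
  refine subset_trans (closure_mono fun x hx => ?_) h
  simpa using hx

theorem carl1_lap {R : ℝ} {f : Sm} (h : Cs R f) : Cs R (sm.lap f) := by
  rw [DA.lap_apply]
  exact Cs.sum fun j _ => (h.pd j).pd j

theorem carl1_int {R : ℝ} {f : Sm} (h : Cs R f) : Integrable fun x => ‖f x‖ ^ 2 := by
  have h1 : Continuous fun x => ‖f x‖ ^ 2 := f.cont.norm.pow 2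
  refine h1.integrable_of_hasCompactSupport (h.compact.mono fun x hx h0 => hx ?_)
  simp [h0]

set_option maxHeartbeats 800000 in
theorem carl1_pt {α : Fin 3 → ℝ} {a κ δ g : ℝ} {v L d1 d2 : ℂ} {p : Fin 3 → ℂ}
    (ha : a = ∑ j, α j ^ 2) (hδ : 0 < δ) (hκ : 0 ≤ κ) (k1 : 2 ≤ δ * κ * a) (k2 : 1 ≤ δ * κ * a ^ 2)
    (hg : (1 + κ) ^ 2 * ‖v‖ ^ 2 ≤ g ^ 2 * ‖v‖ ^ 2)
    (h1 : (L + a * g ^ 2 * v) * (-2 * g * ∑ j, α j * (starRingEnd ℂ) (p j) - κ * a * (starRingEnd ℂ) v) +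
      ((starRingEnd ℂ) L + a * g ^ 2 * (starRingEnd ℂ) v) * (-2 * g * ∑ j, α j * p j - κ * a * v) =
      4 * κ * ((∑ j, α j * p j) * ∑ j, α j * (starRingEnd ℂ) (p j)) +
        4 * κ * a ^ 2 * g ^ 2 * (v * (starRingEnd ℂ) v) + d1)
    (h2 : d2 = ∑ j, p j * (starRingEnd ℂ) (p j) + (starRingEnd ℂ) v * L) :
    ‖v‖ ^ 2 + ∑ j, ‖p j - g * α j * v‖ ^ 2 ≤
      δ * (‖(L + a * g ^ 2 * v) + (-2 * g * ∑ j, α j * p j - κ * a * v)‖ ^ 2 + (κ * a * d2 - d1).re) := by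
  have ha0 : 0 ≤ a := by rw [ha]; positivity
  have eq : ∑ j, (α j : ℂ) * (starRingEnd ℂ) (p j) = (starRingEnd ℂ) (∑ j, α j * p j) := by simp
  rw [eq] at h1
  set q : ℂ := ∑ j, α j * p j with hq
  obtain ⟨S, hS⟩ : ∃ S, S = L + a * g ^ 2 * v := ⟨_, rfl⟩
  obtain ⟨A, hA⟩ : ∃ A, A = -2 * g * q - κ * a * v := ⟨_, rfl⟩
  have hL : L = S - a * g ^ 2 * v := by rw [hS]; ring
  have e1 : (starRingEnd ℂ) L + a * g ^ 2 * (starRingEnd ℂ) v = (starRingEnd ℂ) S := by simp [hS]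
  have e2 : -2 * g * (starRingEnd ℂ) q - κ * a * (starRingEnd ℂ) v = (starRingEnd ℂ) A := by
    simp [hA, map_ofNat]
  rw [e1, e2, ← hS, ← hA] at h1
  rw [← hS, ← hA]
  have hd1 : d1 = S * (starRingEnd ℂ) A + (starRingEnd ℂ) S * A -
      ((4 * κ * ‖q‖ ^ 2 + 4 * κ * a ^ 2 * g ^ 2 * ‖v‖ ^ 2 : ℝ) : ℂ) := by
    rw [h1, Complex.mul_conj', Complex.mul_conj']
    push_cast
    ring
  have hd2 : d2 = ((∑ j, ‖p j‖ ^ 2 - a * g ^ 2 * ‖v‖ ^ 2 : ℝ) : ℂ) + (starRingEnd ℂ) v * S := by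
    rw [h2, hL, mul_sub, mul_left_comm, mul_comm ((starRingEnd ℂ) v) v]
    simp only [Complex.mul_conj']
    push_cast
    ring
  have b1 : ∑ j, ‖p j - g * α j * v‖ ^ 2 ≤ 2 * ∑ j, ‖p j‖ ^ 2 + 2 * a * (g ^ 2 * ‖v‖ ^ 2) := by
    rw [ha, Finset.mul_sum, Finset.mul_sum, Finset.sum_mul, ← Finset.sum_add_distrib]
    refine Finset.sum_le_sum fun j _ => ?_
    have h3 := norm_sub_le (p j) (g * α j * v)
    have h4 : ‖(g : ℂ) * α j * v‖ ^ 2 = α j ^ 2 * (g ^ 2 * ‖v‖ ^ 2) := by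
      simp only [norm_mul, Complex.norm_real, Real.norm_eq_abs, mul_pow, sq_abs]
      ring
    have h5 := pow_le_pow_left₀ (norm_nonneg _) h3 2
    nlinarith [sq_nonneg (‖p j‖ - ‖(g : ℂ) * α j * v‖)]
  have nS : ‖S‖ ^ 2 = S.re ^ 2 + S.im ^ 2 := by rw [Complex.sq_norm, Complex.normSq_apply]; ring
  have nA : ‖A‖ ^ 2 = A.re ^ 2 + A.im ^ 2 := by rw [Complex.sq_norm, Complex.normSq_apply]; ring
  have nv : ‖v‖ ^ 2 = v.re ^ 2 + v.im ^ 2 := by rw [Complex.sq_norm, Complex.normSq_apply]; ring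
  have r1 : ‖S + A‖ ^ 2 + (κ * a * d2 - d1).re = ‖A‖ ^ 2 + 4 * κ * ‖q‖ ^ 2 +
      ((S.re + κ * a * v.re / 2) ^ 2 + (S.im + κ * a * v.im / 2) ^ 2) +
      (κ * a * ∑ j, ‖p j‖ ^ 2 + 3 * κ * a ^ 2 * (g ^ 2 * ‖v‖ ^ 2) - κ ^ 2 * a ^ 2 / 4 * ‖v‖ ^ 2) := by
    rw [hd1, hd2, Complex.sq_norm (S + A), Complex.normSq_apply, nA]
    simp only [Complex.sub_re, Complex.add_re, Complex.add_im, Complex.mul_re, Complex.mul_im,
      Complex.ofReal_re, Complex.ofReal_im, Complex.conj_re, Complex.conj_im]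
    linear_combination (κ ^ 2 * a ^ 2 / 4) * nv
  have hP : 0 ≤ ∑ j, ‖p j‖ ^ 2 := by positivity
  have hn : 0 ≤ ‖v‖ ^ 2 := by positivity
  generalize ∑ j, ‖p j‖ ^ 2 = P at *
  generalize g ^ 2 * ‖v‖ ^ 2 = G at *
  generalize ‖v‖ ^ 2 = n at *
  have g1 : n ≤ G := by nlinarith [mul_nonneg hκ hn, mul_nonneg (sq_nonneg κ) hn]
  have g2 : κ * n ≤ G := by nlinarith [mul_nonneg hκ hn, mul_nonneg (sq_nonneg κ) hn]
  have hG : 0 ≤ G := hn.trans g1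
  have b2 : κ * a * P + 2 * κ * a ^ 2 * G ≤ ‖S + A‖ ^ 2 + (κ * a * d2 - d1).re := by
    rw [r1]
    have : κ * a ^ 2 * (κ * n) ≤ κ * a ^ 2 * G := mul_le_mul_of_nonneg_left g2 (by positivity)
    have h6 : 0 ≤ κ * a ^ 2 * G := by positivity
    have h7 : 0 ≤ ‖A‖ ^ 2 + 4 * κ * ‖q‖ ^ 2 +
      ((S.re + κ * a * v.re / 2) ^ 2 + (S.im + κ * a * v.im / 2) ^ 2) := by positivity
    nlinarith
  have b3 := mul_le_mul_of_nonneg_left b2 hδ.le
  have b4 := mul_le_mul_of_nonneg_right k1 hP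
  have b5 := mul_le_mul_of_nonneg_right k1 (mul_nonneg ha0 hG)
  have b6 := mul_le_mul_of_nonneg_right k2 hG
  nlinarith

/-- Put `ψ = cw α κ τ` (as an element of `Sm`), `v = exp ψ * φ`, `u = cj v`, `g = τ + κ ⟪α, x⟫`, `a = ‖α‖²`; `∇ψ = g α`.  Then `exp ψ * lap φ = S v + A v`
(an identity in `Sm`, `pd_exp`), and `‖S v + A v‖² ≥ ‖S v‖² + (S v * A u + S u * A v)`; integrate `carl_id` (`Cs.integral_pd`):
`T := ∫ e^{2ψ} ‖lap φ‖² ≥ ∫ ‖S v‖² + 4 κ a² ∫ g² ‖v‖²`.  Also `∫ ∑ ‖∂ⱼ v‖² = -∫ u * lap v = -∫ u * S v + a ∫ g² ‖v‖²`, so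
`κ a ∫ ‖∇v‖² ≤ ∫ ‖S v‖² + κ² a² / 4 ∫ ‖v‖² + κ a² ∫ g² ‖v‖² ≤ ∫ ‖S v‖² + 2 κ a² ∫ g² ‖v‖²` when `g ≥ 1 + κ` on the ball
(`τ0 = κ ‖α‖ |R| + 1 + κ`).  Hence `T ≥ κ a ∫ ‖∇v‖² + 2 κ a² ∫ g² ‖v‖²`; `exp ψ * ∂ⱼ φ = ∂ⱼ v - g αⱼ v` gives `∫ e^{2ψ} ‖∇φ‖² ≤ 2 T / (κ a)`, and
`∫ e^{2ψ} ‖φ‖² ≤ T / (2 κ a²)`.  Choose `κ` with `2 / (κ a) + 1 / (2 κ a²) ≤ δ`. -/
theorem carleman1 (α : E3) (hα : α ≠ 0) (R δ : ℝ) (hδ : 0 < δ) : ∃ κ τ0 : ℝ, 0 ≤ κ ∧
    ∀ τ, τ0 ≤ τ → ∀ φ : Sm, Cs R φ →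
      ∫ x, Real.exp (2 * cw α κ τ x) * (‖φ x‖ ^ 2 + ∑ j, ‖pd j φ x‖ ^ 2) ≤
        δ * ∫ x, Real.exp (2 * cw α κ τ x) * ‖sm.lap φ x‖ ^ 2 := by
  have ha0 : 0 < ∑ j, α j ^ 2 := by
    rw [← EuclideanSpace.real_norm_sq_eq]
    exact pow_pos (norm_pos_iff.2 hα) 2
  set a : ℝ := ∑ j, α j ^ 2 with ha
  set κ : ℝ := (2 / a + 1 / a ^ 2) / δ with hκ
  have hκ0 : 0 < κ := by positivity
  have k1 : 2 ≤ δ * κ * a := by
    have : δ * κ * a = 2 + 1 / a := by rw [hκ]; field_simp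
    have h2 : 0 < 1 / a := by positivity
    linarith
  have k2 : 1 ≤ δ * κ * a ^ 2 := by
    have : δ * κ * a ^ 2 = 2 * a + 1 := by rw [hκ]; field_simp
    linarith
  refine ⟨κ, κ * ‖α‖ * |R| + 1 + κ, hκ0.le, fun τ hτ φ hφ => ?_⟩
  set c : ℝ → Sm := fun r => algebraMap ℂ Sm (r : ℂ) with hc
  have dc : ∀ i r, pd i (c r) = 0 := fun i r => (pd i).map_algebraMap _
  set l : Sm := ∑ j, c (α j) * xS j with hl
  have dl : ∀ i, pd i l = c (α i) := by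
    intro i
    simp only [hl, map_sum, Derivation.leibniz, dc, pd_xS, smul_eq_mul, mul_zero, add_zero,
      mul_ite, mul_one]
    simp
  have lx : ∀ x, l x = (inner ℝ α x : ℝ) := by
    intro x
    simp [hl, hc, PiLp.inner_apply, mul_comm]
  set g : Sm := c τ + c κ * l with hg
  have dg : ∀ i, pd i g = c κ * c (α i) := by
    intro i
    simp [hg, Derivation.leibniz, dc, dl]
  set ψ : Sm := c τ * l + c (κ / 2) * (l * l) with hψ
  have dψ : ∀ i, pd i ψ = g * c (α i) := by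
    intro i
    have : c κ = 2 * c (κ / 2) := Sm.ext' fun x => by simp [hc]; ring
    simp only [hψ, hg, map_add, Derivation.leibniz, dc, dl, smul_eq_mul, this]
    ring
  have gx : ∀ x, g x = (τ + κ * inner ℝ α x : ℝ) := by
    intro x
    simp [hg, hc, lx]
  have Ex : ∀ x, ‖ψ.exp x‖ ^ 2 = Real.exp (2 * cw α κ τ x) := by
    intro x
    have : ψ x = (cw α κ τ x : ℝ) := by
      simp [hψ, hc, lx, cw]; ring
    rw [Sm.exp_apply, this, Complex.norm_exp_ofReal, ← Real.exp_nat_mul]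
    norm_num
  have dE : ∀ i, pd i ψ.exp = ψ.exp * (g * c (α i)) := fun i => by rw [pd_exp, dψ]
  have hca : c a = ∑ j, c (α j) ^ 2 := Sm.ext' fun x => by simp [hc, ha]
  set v : Sm := ψ.exp * φ with hv
  have hvc : Cs R v := hφ.mul_left _
  have huc : Cs R v.cj := carl1_cj hvc
  have i1 := sm.toDA.carl_id (fun j => c (α j)) (c κ) (c a) g v.cj v (fun i j => dc i _)
    (fun i => dc i _) hca dg
  have i2 := sm.toDA.carl1_conj (fun j => c (α j)) (c κ) (c a) g ψ.exp φ (fun i j => dc i _) hca dg dE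
  have i3 := sm.toDA.carl1_div v.cj v
  rw [← hv] at i2
  simp only [sm_d] at i1 i2 i3
  set W₁ : Fin 3 → Sm := fun j => -2 * g * ((∑ l, c (α l) * pd l v.cj) * pd j v +
    (∑ l, c (α l) * pd l v) * pd j v.cj) + 2 * g * c (α j) * ∑ l, pd l v * pd l v.cj -
      c κ * c a * (v.cj * pd j v + v * pd j v.cj) - 2 * c a * g * g * g * c (α j) * (v * v.cj)
    with hW₁
  obtain ⟨D₁, hD₁⟩ : ∃ D₁, D₁ = ∑ j, pd j (W₁ j) := ⟨_, rfl⟩
  change _ = _ + ∑ j, pd j (W₁ j) at i1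
  rw [← hD₁] at i1
  obtain ⟨D₂, hD₂⟩ : ∃ D₂, D₂ = ∑ j, pd j (v.cj * pd j v) := ⟨_, rfl⟩
  rw [← hD₂] at i3
  have hW₁c : ∀ j, Cs R (W₁ j) := fun j =>
    ((((((hvc.pd j).mul_left _).add ((huc.pd j).mul_left _)).mul_left _).add
      ((Cs.sum fun l _ => (hvc.pd l).mul_right _).mul_left _)).sub
      ((((hvc.pd j).mul_left _).add ((huc.pd j).mul_left _)).mul_left _)).sub
      ((hvc.mul_right _).mul_left _)
  set Dv : Sm := ∑ j, pd j (c κ * c a * (v.cj * pd j v) - W₁ j) with hDv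
  have hWc : ∀ j, Cs R (c κ * c a * (v.cj * pd j v) - W₁ j) := fun j =>
    (((hvc.pd j).mul_left _).mul_left _).sub (hW₁c j)
  have hDc : Cs R Dv := Cs.sum fun j _ => (hWc j).pd j
  have hD0 : ∫ x, (Dv x).re = 0 := by
    have : ∫ x, Dv x = 0 := by
      simp only [hDv, Sm.sum_apply]
      rw [integral_finsetSum _ fun j _ => ((hWc j).pd j).integrable]
      exact Finset.sum_eq_zero fun j _ => (hWc j).integral_pd j
    have h2 := integral_re (𝕜 := ℂ) hDc.integrable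
    simp only [RCLike.re_to_complex] at h2
    rw [h2, this, Complex.zero_re]
  have hDe : Dv = c κ * c a * D₂ - D₁ := by
    rw [hD₁, hD₂]
    simp only [hDv, map_sub, Finset.sum_sub_distrib, Finset.mul_sum]
    congr 1
    refine Finset.sum_congr rfl fun j _ => ?_
    rw [mul_assoc, Derivation.leibniz, Derivation.leibniz (pd j) (c a), dc, dc]
    simp [mul_assoc]
  have lapcj : sm.lap v.cj = (sm.lap v).cj := by
    simp only [DA.lap_apply, sm_d, pd_cj]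
    exact Sm.ext' fun x => by simp
  have pt : ∀ x, Real.exp (2 * cw α κ τ x) * (‖φ x‖ ^ 2 + ∑ j, ‖pd j φ x‖ ^ 2) ≤
      δ * (Real.exp (2 * cw α κ τ x) * ‖sm.lap φ x‖ ^ 2 + (Dv x).re) := by
    intro x
    have e1 : Real.exp (2 * cw α κ τ x) * (‖φ x‖ ^ 2 + ∑ j, ‖pd j φ x‖ ^ 2) =
        ‖v x‖ ^ 2 + ∑ j, ‖pd j v x - ((τ + κ * inner ℝ α x : ℝ) : ℂ) * (α j : ℂ) * v x‖ ^ 2 := by
      rw [← Ex, mul_add, Finset.mul_sum, ← mul_pow, ← norm_mul]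
      congr 1
      refine Finset.sum_congr rfl fun j _ => ?_
      have := congrArg (fun f : Sm => f x) (i2.1 j)
      simp only [Sm.mul_apply, Sm.sub_apply, gx, hc, Sm.algebraMap_apply] at this
      rw [← mul_pow, ← norm_mul, this]
    have e2 : Real.exp (2 * cw α κ τ x) * ‖sm.lap φ x‖ ^ 2 =
        ‖(sm.lap v x + (a : ℂ) * ((τ + κ * inner ℝ α x : ℝ) : ℂ) ^ 2 * v x) +
          (-2 * ((τ + κ * inner ℝ α x : ℝ) : ℂ) * ∑ j, (α j : ℂ) * pd j v x - κ * a * v x)‖ ^ 2 := by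
      have := congrArg (fun f : Sm => f x) i2.2
      simp only [Sm.mul_apply, Sm.sub_apply, Sm.add_apply, Sm.pow_apply, Sm.neg_apply, Sm.two_apply,
        Sm.sum_apply, gx, hc, Sm.algebraMap_apply] at this
      rw [← Ex, ← mul_pow, ← norm_mul, this]
    rw [e1, e2, hDe]
    have j1 := congrArg (fun f : Sm => f x) i1
    have j3 := congrArg (fun f : Sm => f x) i3
    have h4 : (4 : Sm) x = 4 := rfl
    simp only [lapcj, pd_cj, Sm.mul_apply, Sm.sub_apply, Sm.add_apply, Sm.pow_apply, Sm.neg_apply,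
      Sm.two_apply, h4, Sm.sum_apply, gx, hc, Sm.algebraMap_apply, Sm.cj_apply] at j1 j3 ⊢
    refine carl1_pt (α := fun j => α j) ha hδ hκ0.le k1 k2 ?_ j1 j3
    by_cases hx : x ∈ Metric.ball (0 : E3) R
    · have h1 : |inner ℝ α x| ≤ ‖α‖ * |R| := by
        refine (abs_real_inner_le_norm α x).trans ?_
        have : ‖x‖ ≤ |R| := (mem_ball_zero_iff.1 hx).le.trans (le_abs_self R)
        gcongr
      have h2 : 1 + κ ≤ τ + κ * inner ℝ α x := by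
        have := neg_abs_le (inner ℝ α x)
        nlinarith
      gcongr
    · have : v x = 0 := image_eq_zero_of_notMem_tsupport fun h => hx (hvc h)
      simp [this]
  have I1 : Integrable fun x => Real.exp (2 * cw α κ τ x) * (‖φ x‖ ^ 2 + ∑ j, ‖pd j φ x‖ ^ 2) := by
    have := (carl1_int (hφ.mul_left ψ.exp)).add
      (integrable_finsetSum Finset.univ fun j _ => carl1_int ((hφ.pd j).mul_left ψ.exp))
    refine this.congr (Filter.Eventually.of_forall fun x => ?_)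
    simp only [Pi.add_apply, Sm.mul_apply, norm_mul, mul_pow, Ex, mul_add, Finset.mul_sum]
  have I2 : Integrable fun x => Real.exp (2 * cw α κ τ x) * ‖sm.lap φ x‖ ^ 2 := by
    refine (carl1_int ((carl1_lap hφ).mul_left ψ.exp)).congr (Filter.Eventually.of_forall fun x => ?_)
    simp only [Sm.mul_apply, norm_mul, mul_pow, Ex]
  have I3 : Integrable fun x => (Dv x).re := hDc.integrable.re
  calc _ ≤ ∫ x, δ * (Real.exp (2 * cw α κ τ x) * ‖sm.lap φ x‖ ^ 2 + (Dv x).re) :=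
        integral_mono I1 ((I2.add I3).const_mul δ) pt
    _ = _ := by rw [integral_const_mul, integral_add I2 I3, hD0, add_zero]

end Crest.Agent.R80
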