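import Crest.Agent.R80.DegA
import Crest.Agent.R80.Lame

/-!
# R80: twisting by exponentials, leading terms, WKB solutions
-/

set_option autoImplicit false

namespace Crest.Agent.R80

open Finset

variable {𝒜 : Type} [CommRing 𝒜] [Algebra ℂ 𝒜] {ι : Type}

theorem EA.tw_add (X : EA 𝒜) (ζ : C3) (V W : ι → 𝒜) : X.tw ζ (V + W) = X.tw ζ V + X.tw ζ W := by
  funext a; simp [EA.tw, mul_add]

theorem EA.tw_sub (X : EA 𝒜) (ζ : C3) (V W : ι → 𝒜) : X.tw ζ (V - W) = X.tw ζ V - X.tw ζ W := by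
  funext a; simp [EA.tw, mul_sub]

theorem EA.tw_smul (X : EA 𝒜) (ζ : C3) (c : ℂ) (V : ι → 𝒜) : X.tw ζ (c • V) = c • X.tw ζ V := by
  funext a; simp [EA.tw]

theorem EA.tw_tw_neg (X : EA 𝒜) (ζ : C3) (V : ι → 𝒜) : X.tw ζ (X.tw (-ζ) V) = V := by
  funext a
  simp only [EA.tw]
  rw [← mul_assoc, X.ex_neg, one_mul]

theorem DA.dir_mul (D : DA 𝒜) (θ : C3) (f g : 𝒜) :
    D.dir θ (f * g) = f * D.dir θ g + g * D.dir θ f := by
  simp only [DA.dir_apply, D.d_mul, smul_add, sum_add_distrib, mul_sum, mul_smul_comm]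

theorem EA.degb_d (X : EA 𝒜) (ζ : C3) (j : Fin 3) (g : 𝒜) :
    X.ex (-ζ) * X.d j g = X.d j (X.ex (-ζ) * g) + ζ j • (X.ex (-ζ) * g) := by
  rw [X.d_ex_mul]
  simp only [Pi.neg_apply, Algebra.smul_def, map_neg]
  ring

theorem EA.degb_dw (X : EA 𝒜) (θ : C3) {d : ℤ} {f : ℕ → 𝒜} (hf : f ∈ Deg 𝒜 d) (α : List (Fin 3)) :
    (fun n => X.ex (-(w n • θ)) * X.dw α (X.ex (w n • θ) * f n)) ∈ Deg 𝒜 (d + α.length) := by
  induction α with
  | nil =>
    convert hf using 2 with n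
    · simp
    · simp only [DA.dw, LinearMap.id_apply]
      rw [← mul_assoc, mul_comm (X.ex _), X.ex_neg, one_mul]
  | cons j α ih =>
    have h1 := Deg.add (Deg.mono' (Deg.map ih (X.d j : 𝒜 →ₗ[ℂ] 𝒜))
      (show _ ≤ d + α.length + 1 by omega)) (Deg.w_smul (Deg.smul ih (θ j)))
    convert h1 using 2 with n
    · simp [add_assoc]
    · simp only [DA.dw, LinearMap.comp_apply, Derivation.coeFn_coe]
      rw [X.degb_d, smul_smul]
      rfl

/-- `g n = e^{ζ x} (w ^ k c f0 + lower order)` -/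
def EA.degbL (X : EA 𝒜) (θ : C3) (k : ℕ) (c : ℂ) (f0 : 𝒜) (g : ℕ → 𝒜) : Prop :=
  (fun n => X.ex (-(w n • θ)) * g n - (w n ^ k * c) • f0) ∈ Deg 𝒜 ((k : ℤ) - 1)

/-- `E` is a constant vector field with symbol `σ` at `θ` -/
def EA.degbS (X : EA 𝒜) (θ : C3) (E : Module.End ℂ 𝒜) (σ : ℂ) : Prop :=
  ∃ c : C3, E = X.dir c ∧ σ = ∑ j, c j * θ j

theorem EA.degbL.step {X : EA 𝒜} {θ : C3} {k : ℕ} {c : ℂ} {f0 : 𝒜} {g : ℕ → 𝒜}
    (h : X.degbL θ k c f0 g) {E : Module.End ℂ 𝒜} {σ : ℂ} (hE : X.degbS θ E σ) :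
    X.degbL θ (k + 1) (σ * c) f0 fun n => E (g n) := by
  obtain ⟨a, rfl, rfl⟩ := hE
  have h0 : (fun n => X.ex (-(w n • θ)) * g n) ∈ Deg 𝒜 k := by
    have := Deg.add (Deg.mono' h (show (k : ℤ) - 1 ≤ k by omega))
      (Deg.mono' (Deg.pow_smul (Deg.const (c • f0)) k) (show (0 : ℤ) + k ≤ k by omega))
    convert this using 2 with n
    rw [smul_smul, sub_add_cancel]
  have h1 := Deg.add (Deg.map h0 (X.dir a))
    (Deg.mono' (Deg.w_smul (Deg.smul h (∑ j, a j * θ j))) (show (k : ℤ) - 1 + 1 ≤ k by omega))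
  unfold EA.degbL
  convert h1 using 2 with n
  · push_cast; ring
  · simp only [DA.dir_apply, mul_smul_comm, X.degb_d (w n • θ), Fin.sum_univ_three,
      Pi.smul_apply, smul_eq_mul, mul_add]
    simp only [Algebra.smul_def, map_mul, map_add, map_pow]
    ring

theorem EA.degbL.pow {X : EA 𝒜} {θ : C3} {k : ℕ} {c : ℂ} {f0 : 𝒜} {g : ℕ → 𝒜}
    (h : X.degbL θ k c f0 g) {E : Module.End ℂ 𝒜} {σ : ℂ} (hE : X.degbS θ E σ) (m : ℕ) :
    X.degbL θ (k + m) (σ ^ m * c) f0 fun n => (E ^ m) (g n) := by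
  induction m with
  | zero => simpa using h
  | succ m ih =>
    have := ih.step hE
    simpa [pow_succ', mul_assoc, add_assoc] using this

/-- Reduce (span induction) to `Z = a • (dw α ∘ proj b)`, then induction on the word `α` (for all `d`-free: prove
`ex (-ζ) * dw α (ex ζ * f n) ∈ Deg (d + α.length)`), using `EA.d_ex_mul`: if `g n = ex (-ζ) * dw α (ex ζ * f n)` then
`dw α (ex ζ * f n) = ex ζ * g n` and `ex (-ζ) * d j (ex ζ * g n) = d j (g n) + w n • θ j • g n`. -/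
theorem EA.op_deg (X : EA 𝒜) {k : ℕ} {Z : (ι → 𝒜) →ₗ[ℂ] 𝒜} (hZ : Z ∈ X.Op ι (k + 1)) (θ : C3)
    {d : ℤ} {V : ℕ → ι → 𝒜} (hV : V ∈ Deg (ι → 𝒜) d) :
    (fun n => X.ex (-(w n • θ)) * Z (X.tw (w n • θ) (V n))) ∈ Deg 𝒜 (d + k) := by
  induction hZ using Submodule.span_induction with
  | mem Z h =>
    obtain ⟨α, b, hα, rfl⟩ := h
    exact Deg.mono' (X.degb_dw θ (Deg.apply hV b) α) (by omega)
  | zero => simpa using Deg.zero' (M := 𝒜) _
  | add Z Z' _ _ h h' => simpa [mul_add] using Deg.add h h'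
  | smul c Z _ h =>
    have := Deg.map h (LinearMap.mulLeft ℂ c)
    simpa [mul_left_comm] using this

theorem Ctx.F_zero (C : Ctx 𝒜) : C.F ι 0 = ⊥ := by
  rw [Ctx.F, Submodule.span_eq_bot]
  rintro β ⟨n, _, X, hX, a, rfl⟩
  have : X = 0 := by
    rw [DA.Op, Submodule.span_eq_bot.2 (by rintro X ⟨α, b, h, _⟩; omega)] at hX
    simpa using hX
  subst this
  ext V Y
  simp

theorem DA.Op_mono (D : DA 𝒜) {k k' : ℕ} (h : k ≤ k') : D.Op ι k ≤ D.Op ι k' := by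
  refine Submodule.span_mono ?_
  rintro X ⟨α, b, hα, rfl⟩
  exact ⟨α, b, hα.trans_le h, rfl⟩

theorem Ctx.F_mono (C : Ctx 𝒜) {k k' : ℕ} (h : k ≤ k') : C.F ι k ≤ C.F ι k' := by
  refine Submodule.span_mono ?_
  rintro β ⟨n, hn, X, hX, a, rfl⟩
  exact ⟨n, hn, X, C.Op_mono h hX, a, rfl⟩

/-- span induction, `EA.op_deg`, `Deg.mul`, `Deg.map` -/
theorem Ctx.ev_deg (C : Ctx 𝒜) {k : ℕ} {β : Bil 𝒜 ι} (hβ : β ∈ C.F ι k) (θ : C3) {d d' : ℤ}
    {V Y : ℕ → ι → 𝒜} (hV : V ∈ Deg (ι → 𝒜) d) (hY : Y ∈ Deg (ι → 𝒜) d') :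
    C.ev β θ V Y ∈ Deg ℂ (d + d' + k - 1) := by
  obtain _ | k := k
  · rw [C.F_zero, Submodule.mem_bot] at hβ
    subst hβ
    exact Deg.zero' _
  induction hβ using Submodule.span_induction with
  | mem β h =>
    obtain ⟨n, _, Z, hZ, a, rfl⟩ := h
    have := Deg.map (Deg.mul (C.op_deg hZ θ hV) (Deg.apply hY a)) n
    refine Deg.mono' ?_ (show d + k + d' ≤ _ by push_cast; omega)
    convert this using 2 with m
    simp only [EA.ev, pr_apply, LinearMap.proj_apply, EA.tw]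
    congr 1
    ring
  | zero => exact Deg.zero' _
  | add β β' _ _ h h' => exact Deg.add h h'
  | smul c β _ h => exact Deg.smul h c

/-- General step: if `E = ∑ cⱼ ∂ⱼ` (constant coefficients), `σ = ∑ cⱼ θⱼ` and
`ex (-ζ) * g n - (w ^ k * c) • f0 ∈ Deg (k - 1)` then `ex (-ζ) * E (g n) - (w ^ (k+1) * (σ * c)) • f0 ∈ Deg k`.
At `θ = th s` the symbols of `D0, D1, D2` are `s ^ 2, s, 1`; iterate (`Module.End.mul_apply`, `pow_succ'`);
the total order is `i / 2 + i % 2 + (k - i / 2 - i % 2) = k` and `2 * (i / 2) + i % 2 = i`. -/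
theorem EA.N_lead (X : EA 𝒜) (k i : ℕ) (hi : i ≤ 2 * k) (s : ℂ) {f : ℕ → 𝒜} {f0 : 𝒜}
    (hf : (fun n => f n - f0) ∈ Deg 𝒜 (-1)) :
    (fun n => X.ex (-(w n • th s)) * X.N k i (X.ex (w n • th s) * f n) - (w n ^ k * s ^ i) • f0) ∈
      Deg 𝒜 ((k : ℤ) - 1) := by
  have h0 : X.degbL (th s) 0 1 f0 fun n => X.ex (w n • th s) * f n := by
    unfold EA.degbL
    convert hf using 2 with n
    · simp
    · rw [← mul_assoc, mul_comm (X.ex _), X.ex_neg]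
      simp
  have s0 : X.degbS (th s) X.D0 (s ^ 2) := by
    refine ⟨![1, Complex.I, 0], ?_, ?_⟩
    · simp [DA.D0, DA.dir, Fin.sum_univ_three]
    · simp only [th, Fin.sum_univ_three, Matrix.cons_val_zero, Matrix.cons_val_one, Matrix.cons_val]
      linear_combination ((s ^ 2 + 1) / 2) * Complex.I_sq
  have s1 : X.degbS (th s) X.D1 s := by
    refine ⟨![0, 0, 1], ?_, ?_⟩
    · simp [DA.D1, DA.dir, Fin.sum_univ_three]
    · simp [th, Fin.sum_univ_three]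
  have s2 : X.degbS (th s) X.D2 1 := by
    refine ⟨![-1, Complex.I, 0], ?_, ?_⟩
    · ext f
      simp [DA.D2, DA.dir, Fin.sum_univ_three]
    · simp only [th, Fin.sum_univ_three, Matrix.cons_val_zero, Matrix.cons_val_one, Matrix.cons_val]
      linear_combination ((s ^ 2 + 1) / 2) * Complex.I_sq
  have h3 := ((h0.pow s2 (k - i / 2 - i % 2)).pow s1 (i % 2)).pow s0 (i / 2)
  have e1 : 0 + (k - i / 2 - i % 2) + i % 2 + i / 2 = k := by omega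
  have e2 : (s ^ 2) ^ (i / 2) * (s ^ (i % 2) * (1 ^ (k - i / 2 - i % 2) * 1)) = s ^ i := by
    rw [one_pow, mul_one, mul_one, ← pow_mul, ← pow_add, Nat.div_add_mod]
  rw [e1, e2] at h3
  exact h3

variable [Fintype ι]

theorem DA.T_smul (D : DA 𝒜) (A : Fin 3 → ι → ι → 𝒜) (c : ℂ) (θ : C3) (V : ι → 𝒜) :
    D.T A (c • θ) V = c • D.T A θ V := by
  funext a
  simp only [DA.T_apply, DA.dir_apply, Pi.smul_apply, smul_eq_mul, smul_add, smul_sum, smul_smul]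
  congr 1
  exact Finset.sum_congr rfl fun j _ => by rw [mul_left_comm]

theorem DA.T_neg (D : DA 𝒜) (A : Fin 3 → ι → ι → 𝒜) (θ : C3) (V : ι → 𝒜) :
    D.T A (-θ) V = -D.T A θ V := by
  have := D.T_smul A (-1) θ V
  simpa using this

theorem EA.P_tw (X : EA 𝒜) (S : Sys 𝒜 ι) (ζ : C3) (V : ι → 𝒜) :
    X.P S (X.tw ζ V) = X.tw ζ (X.P S V + X.T S.A ζ V + (∑ j, ζ j ^ 2) • V) := by
  funext a
  simp only [DA.P_apply, DA.T_apply, DA.lap_apply, DA.dir_apply, EA.tw, X.d_ex_mul, Pi.add_apply,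
    Pi.smul_apply, map_add, Derivation.map_smul, mul_add, mul_sum, sum_add_distrib, smul_add,
    Fin.sum_univ_three, mul_smul_comm, mul_left_comm _ (X.ex ζ)]
  simp only [Algebra.smul_def, map_add, map_pow, map_ofNat]
  ring

theorem EA.T_tw (X : EA 𝒜) (A : Fin 3 → ι → ι → 𝒜) (θ ζ : C3) (V : ι → 𝒜) :
    X.T A θ (X.tw ζ V) = X.tw ζ (X.T A θ V + (2 * ∑ j, θ j * ζ j) • V) := by
  funext a
  simp only [DA.T_apply, DA.dir_apply, EA.tw, X.d_ex_mul, Pi.add_apply,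
    Pi.smul_apply, mul_add, mul_sum, smul_add,
    Fin.sum_univ_three, mul_smul_comm, mul_left_comm _ (X.ex ζ)]
  simp only [Algebra.smul_def, map_add, map_mul, map_ofNat]
  ring

theorem EA.P_tw_null (X : EA 𝒜) (S : Sys 𝒜 ι) {θ : C3} (hθ : ∑ j, θ j ^ 2 = 0) (c : ℂ)
    (V : ι → 𝒜) : X.P S (X.tw (c • θ) V) = X.tw (c • θ) (X.P S V + c • X.T S.A θ V) := by
  have : ∑ j, (c • θ) j ^ 2 = 0 := by
    simp only [Pi.smul_apply, smul_eq_mul, mul_pow, ← mul_sum, hθ, mul_zero]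
  rw [X.P_tw, this, zero_smul, add_zero, X.T_smul]

theorem DA.App.mono {D : DA 𝒜} {S : Sys 𝒜 ι} {θ : C3} {N N' : ℕ} {V : ℕ → ι → 𝒜}
    (h : D.App S θ N' V) (hN : N ≤ N') : D.App S θ N V := by
  exact ⟨h.1, Deg.mono' h.2 (by omega)⟩

/-- `EA.N_lead`, `Deg.mul`, `Deg.map`, `Deg.sum` -/
theorem EA.ev_nf (X : EA 𝒜) (k : ℕ) (n : ℕ → ι → ι → Fnl 𝒜) (s : ℂ) {V Y : ℕ → ι → 𝒜}
    {V0 Y0 : ι → 𝒜} (hV : (fun m => V m - V0) ∈ Deg (ι → 𝒜) (-1))
    (hY : (fun m => Y m - Y0) ∈ Deg (ι → 𝒜) (-1)) :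
    (fun m => X.ev (X.nf k n) (th s) V Y m -
      w m ^ k * ∑ i ∈ range (2 * k + 1), s ^ i * ∑ a, ∑ b, n i a b (V0 b * Y0 a)) ∈
      Deg ℂ ((k : ℤ) - 1) := by
  have key : ∀ m, X.ev (X.nf k n) (th s) V Y m -
      w m ^ k * ∑ i ∈ range (2 * k + 1), s ^ i * ∑ a, ∑ b, n i a b (V0 b * Y0 a) =
      ∑ i ∈ range (2 * k + 1), ∑ a, ∑ b, n i a b
        ((X.ex (-(w m • th s)) * X.N k i (X.ex (w m • th s) * V m b) - (w m ^ k * s ^ i) • V0 b) *
          Y m a + w m ^ k • (s ^ i • (V0 b * (Y m a - Y0 a)))) := by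
    intro m
    simp only [EA.ev, DA.nf, LinearMap.sum_apply, pr_apply, LinearMap.comp_apply,
      LinearMap.proj_apply, EA.tw, mul_sum, ← sum_sub_distrib]
    refine Finset.sum_congr rfl fun i _ => Finset.sum_congr rfl fun a _ =>
      Finset.sum_congr rfl fun b _ => ?_
    rw [← smul_eq_mul (s ^ i), ← smul_eq_mul (w m ^ k), ← map_smul, ← map_smul, ← map_sub]
    congr 1
    simp only [Algebra.smul_def, map_mul]
    ring
  simp only [key]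
  refine Deg.sum fun i hi => Deg.sum fun a _ => Deg.sum fun b _ => Deg.map (Deg.add ?_ ?_) _
  · have h1 := X.N_lead k i (by have := mem_range.1 hi; omega) s (Deg.apply hV b)
    simpa using Deg.mul h1 (Deg.apply (Deg.of_lead hY) a)
  · have h1 := Deg.pow_smul (Deg.smul (Deg.mul (Deg.const (V0 b)) (Deg.apply hY a)) (s ^ i)) k
    exact Deg.mono' h1 (by omega)

/-- WKB.  Induction on `N` with the stronger statement: there are `V` and `E` with `V - V0 ∈ Deg (-1)` and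
`P (V n) + w n • T (V n) = w n ^ (-N) • E` for all `n`; step: `T U = -E` (`C.surj`), `V' n = V n + w n ^ (-(N+1)) • U`,
`E' = P U`. -/
theorem Ctx.wkb (C : Ctx 𝒜) (S : Sys 𝒜 ι) {θ : C3} (hθ : Null θ) {V0 : ι → 𝒜}
    (h0 : C.T S.A θ V0 = 0) (N : ℕ) :
    ∃ V, C.App S θ N V ∧ (fun n => V n - V0) ∈ Deg (ι → 𝒜) (-1) := by
  have key : ∃ (V : ℕ → ι → 𝒜) (E : ι → 𝒜), (fun n => V n - V0) ∈ Deg (ι → 𝒜) (-1) ∧
      ∀ n, C.P S (V n) + w n • C.T S.A θ (V n) = w n ^ (-(N : ℤ)) • E := by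
    induction N with
    | zero => exact ⟨fun _ => V0, C.P S V0, by simpa using Deg.zero' (M := ι → 𝒜) _,
        fun n => by simp [h0]⟩
    | succ N ih =>
      obtain ⟨V, E, hV, hE⟩ := ih
      obtain ⟨U, hU⟩ := C.surj ι S.A θ hθ (-E)
      refine ⟨fun n => V n + w n ^ (-((N + 1 : ℕ) : ℤ)) • U, C.P S U, ?_, fun n => ?_⟩
      · have := Deg.add hV (Deg.monomial (show -((N + 1 : ℕ) : ℤ) ≤ -1 by omega) U)
        convert this using 2 with n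
        exact add_sub_right_comm _ _ _
      · have e : w n * w n ^ (-((N + 1 : ℕ) : ℤ)) = w n ^ (-(N : ℤ)) := by
          rw [← zpow_one_add₀ (w_ne_zero n)]
          congr 1
          push_cast
          ring
        simp only [map_add, map_smul, hU, smul_add, smul_smul, e, smul_neg]
        rw [← hE n]
        generalize w n ^ (-((N + 1 : ℕ) : ℤ)) • C.P S U = Z
        abel
  obtain ⟨V, E, hV, hE⟩ := key
  refine ⟨V, ⟨Deg.of_lead hV, ?_⟩, hV⟩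
  simp only [hE]
  exact Deg.monomial le_rfl E

/-- `ev (κ ∘ P) θ V Y = ev κ θ (P V + w T V) Y` by `EA.P_tw_null` -/
theorem Ctx.ev_neg (C : Ctx 𝒜) {j : ℕ} {κ : Bil 𝒜 ι} (hκ : κ ∈ C.F ι j) {S : Sys 𝒜 ι} {θ : C3}
    (hθ : Null θ) {N : ℕ} {V Y : ℕ → ι → 𝒜} (hV : C.App S θ N V) {d' : ℤ}
    (hY : Y ∈ Deg (ι → 𝒜) d') : C.ev (κ ∘ₗ C.P S) θ V Y ∈ Deg ℂ (d' + j - N - 1) := by
  have := C.ev_deg hκ θ hV.2 hY
  refine Deg.mono' ?_ (show -(N : ℤ) + d' + j - 1 ≤ _ by omega)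
  convert this using 1
  funext n
  simp only [EA.ev, LinearMap.comp_apply, C.P_tw_null S hθ.1]

/-- `ev (γ.compl₂ P) θ V Y = ev γ θ V (P Y - w T Y)` -/
theorem EA.ev_compl₂ (X : EA 𝒜) (γ : Bil 𝒜 ι) (S : Sys 𝒜 ι) {θ : C3} (hθ : Null θ)
    (V Y : ℕ → ι → 𝒜) : X.ev (γ.compl₂ (X.P S)) θ V Y =
      X.ev γ θ V fun n => X.P S (Y n) + w n • X.T S.A (-θ) (Y n) := by
  funext n
  simp only [EA.ev, LinearMap.compl₂_apply]
  rw [← smul_neg, X.P_tw_null S hθ.neg.1]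

/-- take `n = n0` in `C.cgo` (any null vector) with `E = tw (-ζ) g` -/
theorem Ctx.P_surj (C : Ctx 𝒜) (S : Sys 𝒜 ι) : Function.Surjective (C.P S) := by
  intro g
  obtain ⟨K, n0, h⟩ := C.cgo ι S (th 0) (null_th 0)
  obtain ⟨c, hc⟩ := h (C.tw (-(w n0 • th 0)) g)
  obtain ⟨r, hr, -⟩ := hc n0 le_rfl
  exact ⟨C.tw (w n0 • th 0) r, by rw [C.P_tw_null S (null_th 0).1, hr, C.tw_tw_neg]⟩

end Crest.Agent.R80
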