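import Crest.Agent.R80.Carl1
import Crest.Agent.R80.DegB

/-!
# R80: Green's identity and the Carleman estimate for systems
-/

set_option autoImplicit false

namespace Crest.Agent.R80

open MeasureTheory Finset

variable {ι : Type} [Fintype ι]

theorem DA.green {𝒜 : Type} [CommRing 𝒜] [Algebra ℂ 𝒜] (D : DA 𝒜) (S : Sys 𝒜 ι) (θ : C3) (c : ℂ)
    (V φ : ι → 𝒜) :
    ∑ a, (D.P S V + c • D.T S.A θ V) a * φ a =
      ∑ b, V b * (D.P (D.tr S) φ + c • D.T (D.tr S).A (-θ) φ) b +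
        ∑ j, D.d j (∑ a, (D.d j (V a) * φ a - V a * D.d j (φ a) + (2 * c * θ j) • (V a * φ a)) +
          ∑ a, ∑ b, S.A j a b * V b * φ a) := by
  have e1 : ∑ a, (D.P S V + c • D.T S.A θ V) a * φ a =
      ∑ a, (D.lap (V a) + c • (2 : ℂ) • D.dir θ (V a)) * φ a +
        ∑ a, ∑ b, (∑ j, S.A j a b * D.d j (V b) + S.Q a b * V b +
          c • ∑ j, θ j • (S.A j a b * V b)) * φ a := by
    rw [← sum_add_distrib]
    refine sum_congr rfl fun a _ => ?_
    rw [← sum_mul, sum_add_distrib, sum_add_distrib, ← smul_sum, sum_comm,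
      sum_comm (f := fun b j => θ j • (S.A j a b * V b))]
    simp only [Pi.add_apply, Pi.smul_apply, DA.P_apply, DA.T_apply, smul_add]
    ring
  have e2 : ∑ b, V b * (D.P (D.tr S) φ + c • D.T (D.tr S).A (-θ) φ) b =
      ∑ a, V a * (D.lap (φ a) + c • (2 : ℂ) • D.dir (-θ) (φ a)) +
        ∑ a, ∑ b, V b * (∑ j, -S.A j a b * D.d j (φ a) + (S.Q a b - ∑ j, D.d j (S.A j a b)) * φ a +
          c • ∑ j, (-θ) j • (-S.A j a b * φ a)) := by
    rw [sum_comm, ← sum_add_distrib]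
    refine sum_congr rfl fun b _ => ?_
    rw [← mul_sum, sum_add_distrib, sum_add_distrib, ← smul_sum, sum_comm,
      sum_comm (f := fun a j => (-θ) j • (-S.A j a b * φ a))]
    simp only [Pi.add_apply, Pi.smul_apply, DA.P_apply, DA.T_apply, DA.tr, smul_add]
    ring
  have e3 : ∑ j, D.d j (∑ a, (D.d j (V a) * φ a - V a * D.d j (φ a) + (2 * c * θ j) • (V a * φ a)) +
          ∑ a, ∑ b, S.A j a b * V b * φ a) =
      ∑ a, ∑ j, D.d j (D.d j (V a) * φ a - V a * D.d j (φ a) + (2 * c * θ j) • (V a * φ a)) +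
        ∑ a, ∑ b, ∑ j, D.d j (S.A j a b * V b * φ a) := by
    rw [sum_congr rfl fun j _ => map_add (D.d j) _ _, sum_add_distrib]
    simp only [map_sum]
    refine congrArg₂ (fun x y : 𝒜 => x + y) sum_comm ?_
    rw [sum_comm]
    exact sum_congr rfl fun a _ => sum_comm
  rw [e1, e2, e3, add_add_add_comm]
  refine congrArg₂ (fun x y : 𝒜 => x + y) ?_ ?_
  · rw [← sum_add_distrib]
    refine sum_congr rfl fun a _ => ?_
    simp only [DA.lap_apply, DA.dir_apply, Fin.sum_univ_three, map_add, map_sub,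
      Derivation.map_smul, D.d_mul, Pi.neg_apply]
    simp only [Algebra.smul_def, map_mul, map_neg, map_ofNat]
    ring
  · rw [← sum_add_distrib]
    refine sum_congr rfl fun a _ => ?_
    rw [← sum_add_distrib]
    refine sum_congr rfl fun b _ => ?_
    simp only [Fin.sum_univ_three, D.d_mul, Pi.neg_apply]
    simp only [Algebra.smul_def, map_neg]
    ring

theorem Cs.PT {R : ℝ} (S : Sys Sm ι) (θ : C3) (c : ℂ) {φ : ι → Sm} (hφ : ∀ a, Cs R (φ a)) (a : ι) :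
    Cs R ((sm.P S φ + c • sm.T S.A θ φ) a) := by
  simp only [Pi.add_apply, Pi.smul_apply, DA.P_apply, DA.T_apply, DA.dir_apply]
  exact (((carl1_lap (hφ a)).add (Cs.sum fun j _ => Cs.sum fun b _ => ((hφ b).pd j).mul_left _)).add
    (Cs.sum fun b _ => (hφ b).mul_left _)).add
    ((((Cs.sum fun j _ => ((hφ a).pd j).smul _).smul _).add
      (Cs.sum fun j _ => Cs.sum fun b _ => ((hφ b).mul_left _).smul _)).smul _)

theorem green_int {R : ℝ} (S : Sys Sm ι) (θ : C3) (c : ℂ) (V : ι → Sm) {φ : ι → Sm}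
    (hφ : ∀ a, Cs R (φ a)) :
    ∑ a, ∫ x, (sm.P S V + c • sm.T S.A θ V) a x * φ a x =
      ∑ b, ∫ x, V b x * (sm.P (sm.tr S) φ + c • sm.T (sm.tr S).A (-θ) φ) b x := by
  have h := sm.toDA.green S θ c V φ
  have hW : ∀ j, Cs R (∑ a, (pd j (V a) * φ a - V a * pd j (φ a) + (2 * c * θ j) • (V a * φ a)) +
      ∑ a, ∑ b, S.A j a b * V b * φ a) := fun j =>
    (Cs.sum fun a _ => (((hφ a).mul_left _).sub (((hφ a).pd j).mul_left _)).add
      (((hφ a).mul_left _).smul _)).add (Cs.sum fun a _ => Cs.sum fun b _ => (hφ a).mul_left _)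
  have c1 : ∀ a, Cs R ((sm.P S V + c • sm.T S.A θ V) a * φ a) := fun a => (hφ a).mul_left _
  have c2 : ∀ b, Cs R (V b * (sm.P (sm.tr S) φ + c • sm.T (sm.tr S).A (-θ) φ) b) := fun b =>
    (Cs.PT _ _ _ hφ b).mul_left _
  have h1 := congrArg (fun f : Sm => ∫ x, f x) h
  simp only [sm_d, Sm.add_apply (∑ _, _), Sm.sum_apply] at h1
  rw [integral_finsetSum _ fun a _ => (c1 a).integrable,
    integral_add (integrable_finsetSum _ fun a _ => (c2 a).integrable)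
      (integrable_finsetSum _ fun j _ => ((hW j).pd j).integrable),
    integral_finsetSum _ fun a _ => (c2 a).integrable,
    integral_finsetSum _ fun j _ => ((hW j).pd j).integrable,
    sum_eq_zero fun j _ => (hW j).integral_pd j, add_zero] at h1
  exact h1

/-- Test with `η * cj f`, `η ≥ 0` a real bump around a point of the ball (or `IsOpen.ae_eq_zero_of_integral_contDiff_smul_eq_zero` and continuity). -/
theorem mem_vanI_of_integral {R : ℝ} {f : Sm} (h : ∀ φ : Sm, Cs R φ → ∫ x, f x * φ x = 0) :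
    f ∈ vanI R := by
  have h1 := (Metric.isOpen_ball (x := (0 : E3)) (ε := R)).ae_eq_zero_of_integral_contDiff_smul_eq_zero
    (μ := volume) (f := (f : E3 → ℂ)) (f.cont.locallyIntegrable.locallyIntegrableOn _)
    fun g hg _ hs => by
      have hc : Cs R (Sm.ofR g hg) := by
        refine subset_trans (closure_mono fun x hx => ?_) hs
        simpa using hx
      have := h _ hc
      simpa [mul_comm] using this
  intro x hx
  exact Measure.eqOn_open_of_ae_eq (μ := volume) (f := (f : E3 → ℂ)) (g := fun _ => 0)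
    ((ae_restrict_iff' Metric.isOpen_ball.measurableSet).2 h1) Metric.isOpen_ball
    f.cont.continuousOn continuousOn_const hx

theorem carl2_int {R : ℝ} {e : E3 → ℝ} (he : Continuous e) {f : Sm} (h : Cs R f) :
    Integrable fun x => e x * ‖f x‖ ^ 2 := by
  have h1 : Continuous fun x => e x * ‖f x‖ ^ 2 := he.mul (f.cont.norm.pow 2)
  refine h1.integrable_of_hasCompactSupport (h.compact.mono fun x hx h0 => hx ?_)
  simp [h0]

theorem carl2_cs {κ : Type} [Fintype κ] (u v : κ → ℂ) :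
    ‖∑ i, u i * v i‖ ^ 2 ≤ (∑ i, ‖u i‖ ^ 2) * ∑ i, ‖v i‖ ^ 2 := by
  refine le_trans ?_ (sum_mul_sq_le_sq_mul_sq univ (fun i => ‖u i‖) fun i => ‖v i‖)
  refine pow_le_pow_left₀ (norm_nonneg _) ((norm_sum_le _ _).trans (le_of_eq ?_)) 2
  simp only [norm_mul]

theorem carl2_pt (S : Sys Sm ι) (ϕ : ι → Sm) (x : E3) :
    ∑ a, ‖sm.lap (ϕ a) x‖ ^ 2 ≤ 3 * ∑ a, ‖sm.P S ϕ a x‖ ^ 2 +
      3 * ((∑ a, (∑ p : Fin 3 × ι, ‖S.A p.1 a p.2 x‖ ^ 2 + ∑ b, ‖S.Q a b x‖ ^ 2)) *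
        ∑ a, (‖ϕ a x‖ ^ 2 + ∑ j, ‖pd j (ϕ a) x‖ ^ 2)) := by
  have e : ∑ a, (‖ϕ a x‖ ^ 2 + ∑ j, ‖pd j (ϕ a) x‖ ^ 2) =
      ∑ a, ‖ϕ a x‖ ^ 2 + ∑ p : Fin 3 × ι, ‖pd p.1 (ϕ p.2) x‖ ^ 2 := by
    rw [sum_add_distrib, Fintype.sum_prod_type, sum_comm]
  rw [e, sum_mul, mul_sum, mul_sum, ← sum_add_distrib]
  refine sum_le_sum fun a _ => ?_
  have h1 := carl2_cs (fun p : Fin 3 × ι => S.A p.1 a p.2 x) fun p => pd p.1 (ϕ p.2) x
  have h2 := carl2_cs (fun b => S.Q a b x) fun b => ϕ b x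
  have e2 : sm.lap (ϕ a) x = sm.P S ϕ a x - ∑ p : Fin 3 × ι, S.A p.1 a p.2 x * pd p.1 (ϕ p.2) x -
      ∑ b, S.Q a b x * ϕ b x := by
    rw [DA.P_apply, Fintype.sum_prod_type]
    simp only [Sm.add_apply, Sm.sum_apply, Sm.mul_apply, sm_d]
    ring
  rw [e2]
  have a1 : 0 ≤ ∑ p : Fin 3 × ι, ‖S.A p.1 a p.2 x‖ ^ 2 := by positivity
  have a2 : 0 ≤ ∑ b, ‖S.Q a b x‖ ^ 2 := by positivity
  have a3 : 0 ≤ ∑ a, ‖ϕ a x‖ ^ 2 := by positivity
  have a4 : 0 ≤ ∑ p : Fin 3 × ι, ‖pd p.1 (ϕ p.2) x‖ ^ 2 := by positivity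
  generalize ∑ p : Fin 3 × ι, S.A p.1 a p.2 x * pd p.1 (ϕ p.2) x = y at *
  generalize ∑ b, S.Q a b x * ϕ b x = z at *
  generalize sm.P S ϕ a x = p at *
  have h3 : ‖p - y - z‖ ≤ ‖p‖ + ‖y‖ + ‖z‖ :=
    (norm_sub_le _ _).trans (add_le_add_left (norm_sub_le _ _) _)
  have h4 := pow_le_pow_left₀ (norm_nonneg _) h3 2
  nlinarith [sq_nonneg (‖p‖ - ‖y‖), sq_nonneg (‖p‖ - ‖z‖), sq_nonneg (‖y‖ - ‖z‖),
    mul_nonneg a1 a3, mul_nonneg a2 a4]

/-- Let `α = -Re θ ≠ 0` (from `Null`), `τ = n + 1`, `ϕ = tw (w n • θ) φ`, so `P ϕ = tw (w n • θ) (P φ + w n • T φ)` (`P_tw_null`) and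
`‖exS (w n • θ) x‖ = exp (-τ ⟪α, x⟫)`.  On `closedBall 0 R` all coefficients are bounded by `M`, so (all functions vanish off the ball)
`∑ a ‖lap (ϕ a)‖² ≤ 2 ∑ a ‖P ϕ a‖² + M' ∑ b (‖ϕ b‖² + ∑ j ‖∂ⱼ ϕ b‖²)` pointwise (Cauchy-Schwarz, `sq_sum_le_card_mul_sum_sq`).  Apply `carleman1` with `δ M' ≤ 1/2`, sum over `a` and absorb;
finally `exp (2 τ ⟪α, x⟫) ≤ exp (2 cw) ≤ exp (κ ‖α‖² R²) exp (2 τ ⟪α, x⟫)` on the ball. -/
theorem carleman2 (S : Sys Sm ι) {θ : C3} (hθ : Null θ) (R : ℝ) : ∃ (n0 : ℕ) (C : ℝ), 0 ≤ C ∧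
    ∀ n, n0 ≤ n → ∀ φ : ι → Sm, (∀ a, Cs R (φ a)) →
      ∑ a, ∫ x, ‖φ a x‖ ^ 2 ≤ C * ∑ a, ∫ x, ‖(sm.P S φ + w n • sm.T S.A θ φ) a x‖ ^ 2 := by
  set α : E3 := WithLp.toLp 2 fun j => -(θ j).re with hαd
  have hα : α ≠ 0 := by
    intro h0
    have hre : ∀ j, (θ j).re = 0 := fun j => by
      have := congrArg (fun v : E3 => v j) h0
      simpa [hαd] using this
    have h1 := congrArg Complex.re hθ.1
    simp only [Fin.sum_univ_three, Complex.add_re, sq, Complex.mul_re, hre, Complex.zero_re] at h1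
    refine hθ.2 (funext fun j => Complex.ext (hre j) ?_)
    have a0 := mul_self_nonneg (θ 0).im
    have a1 := mul_self_nonneg (θ 1).im
    have a2 := mul_self_nonneg (θ 2).im
    fin_cases j <;> simp only [Pi.zero_apply, Complex.zero_im] <;> apply mul_self_eq_zero.1 <;>
      simp only [Fin.zero_eta, Fin.mk_one, Fin.reduceFinMk] <;> linarith
  have hm : Continuous fun x : E3 =>
      ∑ a, (∑ p : Fin 3 × ι, ‖S.A p.1 a p.2 x‖ ^ 2 + ∑ b, ‖S.Q a b x‖ ^ 2) :=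
    continuous_finsetSum _ fun a _ =>
      (continuous_finsetSum _ fun p _ => (S.A p.1 a p.2).cont.norm.pow 2).add
        (continuous_finsetSum _ fun b _ => (S.Q a b).cont.norm.pow 2)
  obtain ⟨M₀, hM₀⟩ := (isCompact_closedBall (0 : E3) R).exists_bound_of_continuousOn hm.continuousOn
  set M := |M₀| + 1 with hM
  have hM0 : 0 < M := by positivity
  obtain ⟨κ, τ0, hκ, hC⟩ := carleman1 α hα R (1 / (6 * M)) (by positivity)
  refine ⟨⌈τ0⌉₊, 1 / M * Real.exp (κ * (‖α‖ * R) ^ 2), by positivity, fun n hn φ hφ => ?_⟩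
  set τ : ℝ := n + 1 with hτ
  have hτ0 : τ0 ≤ τ := by
    have : (⌈τ0⌉₊ : ℝ) ≤ n := by exact_mod_cast hn
    have := Nat.le_ceil τ0
    linarith
  set ϕ : ι → Sm := sm.tw (w n • θ) φ with hϕ
  have hϕc : ∀ a, Cs R (ϕ a) := fun a => (hφ a).mul_left _
  set F := sm.P S φ + w n • sm.T S.A θ φ with hF
  have hFc : ∀ a, Cs R (F a) := Cs.PT S θ _ hφ
  have hP : sm.P S ϕ = sm.tw (w n • θ) F := sm.P_tw_null S hθ.1 _ φ
  have hPc : ∀ a, Cs R (sm.P S ϕ a) := fun a => by rw [hP]; exact (hFc a).mul_left _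
  have hex : ∀ x, ‖exS (w n • θ) x‖ ^ 2 = Real.exp (-(2 * τ * inner ℝ α x)) := by
    intro x
    rw [exS_apply, Complex.norm_exp, ← Real.exp_nat_mul]
    congr 1
    simp [hαd, hτ, w, PiLp.inner_apply, Fin.sum_univ_three]
    ring
  set e : E3 → ℝ := fun x => Real.exp (2 * cw α κ τ x) with he
  have hec : Continuous e := by
    simp only [he, cw]
    fun_prop
  have hee : ∀ x, e x * ‖exS (w n • θ) x‖ ^ 2 = Real.exp (κ * inner ℝ α x ^ 2) := by
    intro x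
    rw [hex, he, ← Real.exp_add]
    congr 1
    simp only [cw]
    ring
  set N : ι → E3 → ℝ := fun a x => e x * (‖ϕ a x‖ ^ 2 + ∑ j, ‖pd j (ϕ a) x‖ ^ 2) with hN
  have iN : ∀ a, Integrable (N a) := by
    intro a
    have := (carl2_int hec (hϕc a)).add
      (integrable_finsetSum univ fun j _ => carl2_int hec ((hϕc a).pd j))
    refine this.congr (Filter.Eventually.of_forall fun x => ?_)
    simp only [hN, Pi.add_apply, mul_add, mul_sum]
  have k1 : ∑ a, ∫ x, N a x ≤ 1 / (6 * M) * ∑ a, ∫ x, e x * ‖sm.lap (ϕ a) x‖ ^ 2 := by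
    rw [mul_sum]
    exact sum_le_sum fun a _ => hC τ hτ0 (ϕ a) (hϕc a)
  have k2 : ∑ a, ∫ x, e x * ‖sm.lap (ϕ a) x‖ ^ 2 ≤
      3 * (∑ a, ∫ x, e x * ‖sm.P S ϕ a x‖ ^ 2) + 3 * M * ∑ a, ∫ x, N a x := by
    have i1 := integrable_finsetSum univ fun a _ => carl2_int hec (hPc a)
    have i2 := integrable_finsetSum univ fun a _ => iN a
    rw [← integral_finsetSum _ fun a _ => carl2_int hec (carl1_lap (hϕc a)),
      ← integral_finsetSum _ fun a _ => carl2_int hec (hPc a), ← integral_finsetSum _ fun a _ => iN a,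
      ← integral_const_mul, ← integral_const_mul, ← integral_add (i1.const_mul _) (i2.const_mul _)]
    refine integral_mono (integrable_finsetSum _ fun a _ => carl2_int hec (carl1_lap (hϕc a)))
      ((i1.const_mul _).add (i2.const_mul _)) fun x => ?_
    have he0 : 0 < e x := Real.exp_pos _
    simp only [hN, ← mul_sum]
    by_cases hx : x ∈ Metric.ball (0 : E3) R
    · have h1 := carl2_pt S ϕ x
      have h2 := (le_abs_self _).trans (hM₀ x (Metric.ball_subset_closedBall hx))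
      have h3 : M₀ ≤ M := by linarith [le_abs_self M₀]
      have h4 : 0 ≤ ∑ a, (‖ϕ a x‖ ^ 2 + ∑ j, ‖pd j (ϕ a) x‖ ^ 2) := by positivity
      have h5 := mul_le_mul_of_nonneg_right (h2.trans h3) h4
      have h6 : ∑ a, ‖sm.lap (ϕ a) x‖ ^ 2 ≤ 3 * ∑ a, ‖sm.P S ϕ a x‖ ^ 2 +
          3 * M * ∑ a, (‖ϕ a x‖ ^ 2 + ∑ j, ‖pd j (ϕ a) x‖ ^ 2) := by linarith
      have := mul_le_mul_of_nonneg_left h6 he0.le
      linarith
    · have : ∀ a, sm.lap (ϕ a) x = 0 := fun a =>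
        image_eq_zero_of_notMem_tsupport fun h => hx (carl1_lap (hϕc a) h)
      simp only [this, norm_zero, ne_eq, OfNat.ofNat_ne_zero, not_false_eq_true, zero_pow,
        sum_const_zero, mul_zero]
      positivity
  have k3 : ∑ a, ∫ x, ‖φ a x‖ ^ 2 ≤ ∑ a, ∫ x, N a x := by
    refine sum_le_sum fun a _ => integral_mono (carl1_int (hφ a)) (iN a) fun x => ?_
    have he0 : 0 < e x := Real.exp_pos _
    have h1 : e x * ‖ϕ a x‖ ^ 2 = Real.exp (κ * inner ℝ α x ^ 2) * ‖φ a x‖ ^ 2 := by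
      rw [← hee, mul_assoc, ← mul_pow, ← norm_mul]
      rfl
    have h2 : 1 ≤ Real.exp (κ * inner ℝ α x ^ 2) := Real.one_le_exp (by positivity)
    have h3 : 0 ≤ e x * ∑ j, ‖pd j (ϕ a) x‖ ^ 2 := by positivity
    have h4 := mul_le_mul_of_nonneg_right h2 (sq_nonneg ‖φ a x‖)
    simp only [hN, mul_add]
    linarith
  have k4 : ∑ a, ∫ x, e x * ‖sm.P S ϕ a x‖ ^ 2 ≤
      Real.exp (κ * (‖α‖ * R) ^ 2) * ∑ a, ∫ x, ‖F a x‖ ^ 2 := by
    rw [mul_sum]
    refine sum_le_sum fun a _ => ?_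
    rw [← integral_const_mul]
    refine integral_mono (carl2_int hec (hPc a)) ((carl1_int (hFc a)).const_mul _) fun x => ?_
    have h1 : e x * ‖sm.P S ϕ a x‖ ^ 2 = Real.exp (κ * inner ℝ α x ^ 2) * ‖F a x‖ ^ 2 := by
      rw [hP, ← hee, mul_assoc, ← mul_pow, ← norm_mul]
      rfl
    simp only [h1]
    by_cases hx : x ∈ Metric.ball (0 : E3) R
    · have h2 : |inner ℝ α x| ≤ ‖α‖ * R := by
        refine (abs_real_inner_le_norm α x).trans ?_
        have : ‖x‖ ≤ R := (mem_ball_zero_iff.1 hx).le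
        gcongr
      have h3 : inner ℝ α x ^ 2 ≤ (‖α‖ * R) ^ 2 := by
        rw [← sq_abs]
        gcongr
      gcongr
    · have : F a x = 0 := image_eq_zero_of_notMem_tsupport fun h => hx (hFc a h)
      simp [this]
  have k5 : 1 / (6 * M) * (3 * (∑ a, ∫ x, e x * ‖sm.P S ϕ a x‖ ^ 2) + 3 * M * ∑ a, ∫ x, N a x) =
      1 / M * (∑ a, ∫ x, e x * ‖sm.P S ϕ a x‖ ^ 2) / 2 + (∑ a, ∫ x, N a x) / 2 := by
    field_simp
    ring
  have k6 := mul_le_mul_of_nonneg_left k2 (by positivity : 0 ≤ 1 / (6 * M))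
  have k7 := mul_le_mul_of_nonneg_left k4 (by positivity : 0 ≤ 1 / M)
  rw [mul_assoc]
  linarith

end Crest.Agent.R80
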