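import Crest.Agent.R80.Sm
import Crest.Agent.R80.DegB

/-!
# R80: Fourier decay of localised weak solutions (interior regularity with polynomial bounds)
-/

set_option autoImplicit false

namespace Crest.Agent.R80

open MeasureTheory Finset
open scoped FourierTransform

theorem fourier_eq_exS (f : E3 → ℂ) (ξ : E3) :
    𝓕 f ξ = ∫ x, f x * exS (fun j => -(2 * Real.pi * Complex.I) * ξ j) x := by
  rw [Real.fourier_eq']
  refine integral_congr_ae (Filter.Eventually.of_forall fun x => ?_)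
  simp only [exS_apply, smul_eq_mul]
  rw [mul_comm]
  congr 2
  simp only [PiLp.inner_apply, RCLike.inner_apply, conj_trivial]
  push_cast
  rw [Finset.mul_sum, Finset.sum_mul]
  exact Finset.sum_congr rfl fun j _ => by ring

theorem Cs.integrable_mul {R : ℝ} {a : Sm} (ha : Cs R a) {r : E3 → ℂ} (hr : MemLp r 2) :
    Integrable fun x => a x * r x := by
  have h : MemLp (a : E3 → ℂ) 2 volume := a.cont.memLp_of_hasCompactSupport ha.compact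
  exact h.integrable_mul hr

/-- `HasCompactSupport.toSchwartzMap` and decay of the Fourier transform of a Schwartz map (`SchwartzMap.one_add_le_sup_seminorm_apply`
or `SchwartzMap.decay`), or `Real.pow_mul_norm_iteratedFDeriv_fourier_le` -/
theorem Cs.fourier_decay {R : ℝ} {a : Sm} (ha : Cs R a) (k : ℕ) :
    ∃ C : ℝ, ∀ ξ : E3, ‖𝓕 (a : E3 → ℂ) ξ‖ * (1 + ‖ξ‖) ^ k ≤ C := by
  let g := ha.compact.toSchwartzMap a.smooth
  have h := fun ξ => SchwartzMap.one_add_le_sup_seminorm_apply (𝕜 := ℂ) (m := (k, 0)) (k := k)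
    (n := 0) le_rfl le_rfl (𝓕 g) ξ
  simp only [norm_iteratedFDeriv_zero] at h
  exact ⟨_, fun ξ => (mul_comm _ _).trans_le (h ξ)⟩

/-- the frequency -/
noncomputable def dcZ (ξ : E3) : C3 := fun j => -(2 * Real.pi * Complex.I) * ξ j

/-- the localised Fourier transform -/
noncomputable def dcF (ρ : E3 → ℂ) (ξ : E3) (g : Sm) : ℂ := 𝓕 (fun x => g x * ρ x) ξ

theorem dcF_eq (ρ : E3 → ℂ) (ξ : E3) (g : Sm) :
    dcF ρ ξ g = ∫ x, (exS (dcZ ξ) * g) x * ρ x := by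
  rw [dcF, fourier_eq_exS]
  refine integral_congr_ae (Filter.Eventually.of_forall fun x => ?_)
  change g x * ρ x * exS (dcZ ξ) x = exS (dcZ ξ) x * g x * ρ x
  ring

theorem dcF_add {R : ℝ} {ρ : E3 → ℂ} (hρ : MemLp ρ 2) (ξ : E3) {g g' : Sm} (hg : Cs R g)
    (hg' : Cs R g') : dcF ρ ξ (g + g') = dcF ρ ξ g + dcF ρ ξ g' := by
  rw [dcF_eq, dcF_eq, dcF_eq, ← integral_add ((hg.mul_left _).integrable_mul hρ)
    ((hg'.mul_left _).integrable_mul hρ)]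
  refine integral_congr_ae (Filter.Eventually.of_forall fun x => ?_)
  simp only [Sm.mul_apply, Sm.add_apply]
  ring

theorem dcF_smul (ρ : E3 → ℂ) (ξ : E3) (c : ℂ) (g : Sm) : dcF ρ ξ (c • g) = c * dcF ρ ξ g := by
  rw [dcF_eq, dcF_eq, ← integral_const_mul]
  refine integral_congr_ae (Filter.Eventually.of_forall fun x => ?_)
  simp only [Sm.mul_apply, Sm.smul_apply]
  ring

theorem dcF_zero (ρ : E3 → ℂ) (ξ : E3) : dcF ρ ξ 0 = 0 := by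
  simpa using dcF_smul ρ ξ 0 0

theorem dc_norm_Z (ξ : E3) (j : Fin 3) : ‖dcZ ξ j‖ ≤ 7 * ‖ξ‖ := by
  have h1 : ‖ξ j‖ ≤ ‖ξ‖ := PiLp.norm_apply_le ξ j
  have h2 := Real.pi_lt_d2
  have h3 := Real.pi_pos
  simp only [dcZ, norm_mul, norm_neg, Complex.norm_I, Complex.norm_real, Complex.norm_ofNat,
    Real.norm_of_nonneg h3.le, mul_one]
  exact mul_le_mul (by linarith) h1 (norm_nonneg _) (by norm_num)

theorem dc_norm_sq (ξ : E3) : ‖ξ‖ ^ 2 ≤ ‖∑ j, dcZ ξ j ^ 2‖ := by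
  have h : ∑ j, dcZ ξ j ^ 2 = ((-(4 * Real.pi ^ 2 * ‖ξ‖ ^ 2) : ℝ) : ℂ) := by
    rw [EuclideanSpace.real_norm_sq_eq]
    push_cast
    rw [Finset.mul_sum, ← Finset.sum_neg_distrib]
    refine Finset.sum_congr rfl fun j _ => ?_
    simp only [dcZ]
    linear_combination (4 * (Real.pi : ℂ) ^ 2 * (ξ j : ℂ) ^ 2) * Complex.I_sq
  rw [h, Complex.norm_real, norm_neg, Real.norm_of_nonneg (by positivity)]
  have h2 := Real.pi_gt_three
  have h3 : 1 ≤ 4 * Real.pi ^ 2 := by nlinarith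
  exact le_mul_of_one_le_left (sq_nonneg _) h3

section
variable {ι : Type} [Fintype ι]

theorem dc_cs_P (S : Sys Sm ι) {R : ℝ} {ψ : ι → Sm} (h : ∀ c, Cs R (ψ c)) (b : ι) :
    Cs R (sm.P S ψ b) := by
  rw [DA.P_apply, DA.lap_apply]
  exact ((Cs.sum fun j _ => ((h b).pd j).pd j).add
    (Cs.sum fun j _ => Cs.sum fun c _ => ((h c).pd j).mul_left _)).add
    (Cs.sum fun c _ => (h c).mul_left _)

theorem dc_cs_T (A : Fin 3 → ι → ι → Sm) (θ : C3) {R : ℝ} {ψ : ι → Sm} (h : ∀ c, Cs R (ψ c))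
    (b : ι) : Cs R (sm.T A θ ψ b) := by
  rw [DA.T_apply, DA.dir_apply]
  exact ((Cs.sum fun j _ => ((h b).pd j).smul _).smul _).add
    (Cs.sum fun j _ => Cs.sum fun c _ => ((h c).mul_left _).smul _)

theorem dc_T_eq (A : Fin 3 → ι → ι → Sm) (ζ : C3) (ψ : ι → Sm) :
    sm.T A ζ ψ = ζ 0 • sm.T A ![1, 0, 0] ψ + ζ 1 • sm.T A ![0, 1, 0] ψ + ζ 2 • sm.T A ![0, 0, 1] ψ := by
  funext b
  simp only [Pi.add_apply, Pi.smul_apply, DA.T_apply, DA.dir_apply, Fin.sum_univ_three,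
    Matrix.cons_val_zero, Matrix.cons_val_one, Matrix.cons_val, one_smul, zero_smul, add_zero,
    zero_add, ← Finset.smul_sum]
  module

/-- the pairing of `r` with `e^{ζ x} ψ` -/
noncomputable def dcG (r : ι → E3 → ℂ) (ξ : E3) (ψ : ι → Sm) : ℂ := ∑ b, dcF (r b) ξ (ψ b)

theorem dcG_add {R : ℝ} {r : ι → E3 → ℂ} (hr : ∀ b, MemLp (r b) 2) (ξ : E3) {ψ ψ' : ι → Sm}
    (h : ∀ b, Cs R (ψ b)) (h' : ∀ b, Cs R (ψ' b)) : dcG r ξ (ψ + ψ') = dcG r ξ ψ + dcG r ξ ψ' := by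
  rw [dcG, dcG, dcG, ← Finset.sum_add_distrib]
  exact Finset.sum_congr rfl fun b _ => dcF_add (hr b) ξ (h b) (h' b)

theorem dcG_smul (r : ι → E3 → ℂ) (ξ : E3) (c : ℂ) (ψ : ι → Sm) :
    dcG r ξ (c • ψ) = c * dcG r ξ ψ := by
  rw [dcG, dcG, Finset.mul_sum]
  exact Finset.sum_congr rfl fun b _ => dcF_smul (r b) ξ c (ψ b)

/-- the hypotheses on `r` -/
def dcH (S : Sys Sm ι) (θ : C3) (R M : ℝ) (E : ι → Sm) (n : ℕ) (r : ι → E3 → ℂ) : Prop :=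
  (∀ b, MemLp (r b) 2) ∧ (∀ b, ∫ x, ‖r b x‖ ^ 2 ≤ M) ∧
    ∀ φ : ι → Sm, (∀ c, Cs R (φ c)) →
      ∑ b, ∫ x, r b x * (sm.P S φ + w n • sm.T S.A θ φ) b x = ∑ c, ∫ x, E c x * φ c x

theorem dc_ident {S : Sys Sm ι} {θ : C3} {R M : ℝ} {E : ι → Sm} {n : ℕ} {r : ι → E3 → ℂ}
    (H : dcH S θ R M E n r) (ξ : E3) {ψ : ι → Sm} (h : ∀ c, Cs R (ψ c)) :
    (∑ j, dcZ ξ j ^ 2) * dcG r ξ ψ = ∑ c, 𝓕 ((E c * ψ c : Sm) : E3 → ℂ) ξ - dcG r ξ (sm.P S ψ) -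
      dcZ ξ 0 * dcG r ξ (sm.T S.A ![1, 0, 0] ψ) - dcZ ξ 1 * dcG r ξ (sm.T S.A ![0, 1, 0] ψ) -
      dcZ ξ 2 * dcG r ξ (sm.T S.A ![0, 0, 1] ψ) - w n * dcG r ξ (sm.T S.A θ ψ) -
      w n * (2 * ∑ j, θ j * dcZ ξ j) * dcG r ξ ψ := by
  have h1 := H.2.2 (sm.tw (dcZ ξ) ψ) fun c => (h c).mul_left _
  rw [EA.P_tw, EA.T_tw, ← EA.tw_smul, ← EA.tw_add] at h1
  have h2 : ∀ χ : ι → Sm, ∑ b, ∫ x, r b x * sm.tw (dcZ ξ) χ b x = dcG r ξ χ := fun χ =>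
    Finset.sum_congr rfl fun b _ => by
      rw [dcF_eq]
      exact integral_congr_ae (Filter.Eventually.of_forall fun x => mul_comm _ _)
  have h3 : ∀ c, ∫ x, E c x * sm.tw (dcZ ξ) ψ c x = 𝓕 ((E c * ψ c : Sm) : E3 → ℂ) ξ := fun c => by
    rw [fourier_eq_exS]
    refine integral_congr_ae (Filter.Eventually.of_forall fun x => ?_)
    change E c x * (exS (dcZ ξ) x * ψ c x) = E c x * ψ c x * exS (dcZ ξ) x
    ring
  have cP := dc_cs_P S h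
  have cT := fun θ' => dc_cs_T S.A θ' h
  have cs : ∀ {χ : ι → Sm} (c : ℂ), (∀ b, Cs R (χ b)) → ∀ b, Cs R ((c • χ) b) :=
    fun c hχ b => (hχ b).smul c
  have ca : ∀ {χ χ' : ι → Sm}, (∀ b, Cs R (χ b)) → (∀ b, Cs R (χ' b)) → ∀ b, Cs R ((χ + χ') b) :=
    fun hχ hχ' b => (hχ b).add (hχ' b)
  rw [h2, dcG_add H.1 ξ (ca (ca cP (cT _)) (cs _ h)) (cs _ (ca (cT _) (cs _ h))),
    dcG_add H.1 ξ (ca cP (cT _)) (cs _ h), dcG_add H.1 ξ cP (cT _), dcG_smul, dcG_smul,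
    dcG_add H.1 ξ (cT _) (cs _ h), dcG_smul, dc_T_eq S.A (dcZ ξ),
    dcG_add H.1 ξ (ca (cs _ (cT _)) (cs _ (cT _))) (cs _ (cT _)),
    dcG_add H.1 ξ (cs _ (cT _)) (cs _ (cT _)), dcG_smul, dcG_smul, dcG_smul] at h1
  simp only [h3] at h1
  linear_combination h1

theorem dc_real {t N X e p a0 a1 a2 q Θ c : ℝ} (ht : 0 ≤ t) (hN : 1 ≤ N) {K : ℝ} (hK : 1 ≤ K)
    (he : 0 ≤ e) (hp : 0 ≤ p) (h0 : 0 ≤ a0) (h1 : 0 ≤ a1) (h2 : 0 ≤ a2) (hq : 0 ≤ q) (hΘ : 0 ≤ Θ)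
    (hc : 0 ≤ c) (hX : X ≤ c * K)
    (h : t ^ 2 * X ≤ e + p * K + 7 * t * (a0 * K) + 7 * t * (a1 * K) + 7 * t * (a2 * K) + N * (q * K) +
      N * (2 * (Θ * (7 * t))) * (c * K)) (hX0 : 0 ≤ X) :
    X * (1 + t) ≤ (2 * c + 2 * (e + p + 7 * (a0 + a1 + a2) + q + 14 * Θ * c)) * (K * N) := by
  have hK0 : 0 ≤ K := by linarith
  have hKN : K ≤ K * N := le_mul_of_one_le_right hK0 hN
  have hU : K * N ≤ K * N * (1 + t) := le_mul_of_one_le_right (by positivity) (by linarith)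
  have hU' : t * (K * N) ≤ K * N * (1 + t) := by nlinarith
  have hU'' : t * K ≤ K * N * (1 + t) := (mul_le_mul_of_nonneg_left hKN ht).trans hU'
  generalize hUU : K * N * (1 + t) = U at hU hU' hU''
  have b1 : e ≤ e * U := le_mul_of_one_le_right he (by linarith)
  have b2 : p * K ≤ p * U := mul_le_mul_of_nonneg_left (by linarith) hp
  have b3 : (a0 + a1 + a2) * (t * K) ≤ (a0 + a1 + a2) * U :=
    mul_le_mul_of_nonneg_left hU'' (by positivity)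
  have b4 : q * (K * N) ≤ q * U := mul_le_mul_of_nonneg_left hU hq
  have b5 : Θ * c * (t * (K * N)) ≤ Θ * c * U := mul_le_mul_of_nonneg_left hU' (by positivity)
  have b6 : c * K ≤ c * U := mul_le_mul_of_nonneg_left (by linarith) hc
  have b7 : X * (1 + t) ^ 2 ≤ X * (2 + 2 * t ^ 2) :=
    mul_le_mul_of_nonneg_left (by nlinarith [sq_nonneg (1 - t)]) hX0
  refine le_of_mul_le_mul_right ?_ (show 0 < 1 + t by linarith)
  rw [mul_assoc _ (K * N), hUU]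
  nlinarith

theorem dc_main (S : Sys Sm ι) (θ : C3) (R M : ℝ) (E : ι → Sm) (k : ℕ) : ∀ ψ : ι → Sm,
    (∀ c, Cs R (ψ c)) → ∃ C : ℝ, 0 ≤ C ∧ ∀ n r, dcH S θ R M E n r → ∀ ξ : E3,
      ‖dcG r ξ ψ‖ * (1 + ‖ξ‖) ^ k ≤ C * ((n : ℝ) + 1) ^ k := by
  induction k with
  | zero =>
    intro ψ h
    refine ⟨∑ b, ((∫ x, ‖ψ b x‖ ^ 2) + |M|), Finset.sum_nonneg fun b _ =>
      add_nonneg (integral_nonneg fun x => by positivity) (abs_nonneg _), fun n r H ξ => ?_⟩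
    rw [pow_zero, pow_zero, mul_one, mul_one]
    refine (norm_sum_le _ _).trans (Finset.sum_le_sum fun b _ => ?_)
    have m1 : MemLp (ψ b : E3 → ℂ) 2 volume := (ψ b).cont.memLp_of_hasCompactSupport (h b).compact
    have i1 : Integrable fun x => ‖ψ b x‖ ^ 2 := (memLp_two_iff_integrable_sq_norm m1.1).1 m1
    have i2 : Integrable fun x => ‖r b x‖ ^ 2 :=
      (memLp_two_iff_integrable_sq_norm (H.1 b).1).1 (H.1 b)
    calc ‖dcF (r b) ξ (ψ b)‖ ≤ ∫ x, ‖ψ b x * r b x‖ :=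
          VectorFourier.norm_fourierIntegral_le_integral_norm _ _ _ _ _
      _ ≤ ∫ x, (‖ψ b x‖ ^ 2 + ‖r b x‖ ^ 2) := by
          refine integral_mono ((h b).integrable_mul (H.1 b)).norm (i1.add i2) fun x => ?_
          simp only [norm_mul]
          nlinarith [sq_nonneg (‖ψ b x‖ - ‖r b x‖), mul_nonneg (norm_nonneg (ψ b x)) (norm_nonneg (r b x))]
      _ = (∫ x, ‖ψ b x‖ ^ 2) + ∫ x, ‖r b x‖ ^ 2 := integral_add i1 i2
      _ ≤ _ := add_le_add le_rfl ((H.2.1 b).trans (le_abs_self M))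
  | succ k ih =>
    intro ψ h
    obtain ⟨c, hc, bc⟩ := ih ψ h
    obtain ⟨p, hp, bp⟩ := ih _ (dc_cs_P S h)
    obtain ⟨a0, h0, b0⟩ := ih _ (dc_cs_T S.A ![1, 0, 0] h)
    obtain ⟨a1, h1, b1⟩ := ih _ (dc_cs_T S.A ![0, 1, 0] h)
    obtain ⟨a2, h2, b2⟩ := ih _ (dc_cs_T S.A ![0, 0, 1] h)
    obtain ⟨q, hq, bq⟩ := ih _ (dc_cs_T S.A θ h)
    choose e he using fun c => ((h c).mul_left (E c)).fourier_decay k
    have he0 : 0 ≤ ∑ c, e c := Finset.sum_nonneg fun c _ => le_trans (by positivity) (he c 0)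
    have hΘ : 0 ≤ ∑ j, ‖θ j‖ := by positivity
    refine ⟨2 * c + 2 * (∑ c, e c + p + 7 * (a0 + a1 + a2) + q + 14 * (∑ j, ‖θ j‖) * c),
      by positivity, fun n r H ξ => ?_⟩
    rw [pow_succ, pow_succ, ← mul_assoc]
    have hN : (1 : ℝ) ≤ n + 1 := by linarith [Nat.cast_nonneg (α := ℝ) n]
    refine dc_real (norm_nonneg ξ) hN (one_le_pow₀ hN) he0 hp h0 h1 h2 hq hΘ hc (bc n r H ξ) ?_
      (by positivity)
    have hW : 0 ≤ (1 + ‖ξ‖) ^ k := by positivity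
    have e1 : ‖∑ c, 𝓕 ((E c * ψ c : Sm) : E3 → ℂ) ξ‖ * (1 + ‖ξ‖) ^ k ≤ ∑ c, e c := by
      refine (mul_le_mul_of_nonneg_right (norm_sum_le _ _) hW).trans ?_
      rw [Finset.sum_mul]
      exact Finset.sum_le_sum fun c _ => he c ξ
    have e2 : ‖2 * ∑ j, θ j * dcZ ξ j‖ ≤ 2 * ((∑ j, ‖θ j‖) * (7 * ‖ξ‖)) := by
      rw [norm_mul, Complex.norm_ofNat, Finset.sum_mul]
      refine mul_le_mul_of_nonneg_left ((norm_sum_le _ _).trans (Finset.sum_le_sum fun j _ => ?_))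
        (by norm_num)
      rw [norm_mul]
      exact mul_le_mul_of_nonneg_left (dc_norm_Z ξ j) (norm_nonneg _)
    have m : ∀ {u v : ℂ} {α β : ℝ}, ‖u‖ ≤ α → ‖v‖ * (1 + ‖ξ‖) ^ k ≤ β →
        ‖u * v‖ * (1 + ‖ξ‖) ^ k ≤ α * β := fun hu hv => by
      rw [norm_mul, mul_assoc]
      exact mul_le_mul hu hv (by positivity) ((norm_nonneg _).trans hu)
    have t0 := m (dc_norm_Z ξ 0) (b0 n r H ξ)
    have t1 := m (dc_norm_Z ξ 1) (b1 n r H ξ)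
    have t2 := m (dc_norm_Z ξ 2) (b2 n r H ξ)
    have t3 := m (norm_w n).le (bq n r H ξ)
    have t4 := m (u := w n * (2 * ∑ j, θ j * dcZ ξ j))
      (α := ((n : ℝ) + 1) * (2 * ((∑ j, ‖θ j‖) * (7 * ‖ξ‖)))) (by
      rw [norm_mul, norm_w]
      exact mul_le_mul_of_nonneg_left e2 (by linarith)) (bc n r H ξ)
    have t5 := bp n r H ξ
    have hI := dc_ident H ξ h
    have t6 : ‖ξ‖ ^ 2 * (‖dcG r ξ ψ‖ * (1 + ‖ξ‖) ^ k) ≤
        ‖(∑ j, dcZ ξ j ^ 2) * dcG r ξ ψ‖ * (1 + ‖ξ‖) ^ k := by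
      rw [norm_mul, mul_assoc]
      exact mul_le_mul_of_nonneg_right (dc_norm_sq ξ) (by positivity)
    refine t6.trans ?_
    rw [hI]
    refine (mul_le_mul_of_nonneg_right ((norm_sub_le _ _).trans (add_le_add ((norm_sub_le _ _).trans
      (add_le_add ((norm_sub_le _ _).trans (add_le_add ((norm_sub_le _ _).trans (add_le_add
        ((norm_sub_le _ _).trans (add_le_add (norm_sub_le _ _) le_rfl)) le_rfl)) le_rfl)) le_rfl))
          le_rfl)) hW).trans ?_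
    simp only [add_mul]
    linarith

end

/-- Induction on `k` for all `a`.  `k = 0`: `‖𝓕 (a r) ξ‖ ≤ ∫ ‖a‖ ‖r‖ ≤ (∫ ‖a‖² + M) / 2`.  Step: let `ζ j = -2 π i ξ j`, fix `c : ι` and test with
`φ = tw ζ (Pi.single c a)`; by `P_tw`, `T_tw` with `ψ = Pi.single c a`:
`(P φ + w T_θ φ) b = exS ζ * (P ψ + ∑ ζ j • T_{eⱼ} ψ + (∑ ζ j²) • ψ + w • T_θ ψ + w * 2 (θ · ζ) • ψ) b` (`T A ζ ψ = ∑ j, ζ j • T A (Pi.single j 1) ψ`), `∑ ζ j² = -4 π² ‖ξ‖²`.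
All of `P ψ b`, `T_{eⱼ} ψ b`, `T_θ ψ b`, `a` are fixed functions with support in the ball, so by the induction hypothesis and `fourier_decay` for `E c * a`,
`4 π² ‖ξ‖² ‖𝓕 (a r c) ξ‖ (1 + ‖ξ‖) ^ k ≤ C' (1 + ‖ξ‖) (n + 1) ^ (k + 1)`; for `‖ξ‖ ≥ 1` use `(1 + ‖ξ‖)² ≤ 4 ‖ξ‖²`, for `‖ξ‖ ≤ 1` use `1 + ‖ξ‖ ≤ 2`. -/
theorem decay {ι : Type} [Fintype ι] (S : Sys Sm ι) (θ : C3) (R M : ℝ) (E : ι → Sm) (k : ℕ) (a : Sm)
    (ha : Cs R a) : ∃ C : ℝ, ∀ (n : ℕ) (r : ι → E3 → ℂ), (∀ b, MemLp (r b) 2) →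
      (∀ b, ∫ x, ‖r b x‖ ^ 2 ≤ M) →
      (∀ φ : ι → Sm, (∀ c, Cs R (φ c)) →
        ∑ b, ∫ x, r b x * (sm.P S φ + w n • sm.T S.A θ φ) b x = ∑ c, ∫ x, E c x * φ c x) →
      ∀ (b : ι) (ξ : E3), ‖𝓕 (fun x => a x * r b x) ξ‖ * (1 + ‖ξ‖) ^ k ≤ C * ((n : ℝ) + 1) ^ k := by
  classical
  have hs : ∀ b c, Cs R ((Pi.single b a : ι → Sm) c) := fun b c => by
    by_cases h : c = b
    · rw [h, Pi.single_eq_same]
      exact ha
    · rw [Pi.single_eq_of_ne h]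
      exact Cs.zero R
  choose C h0 hC using fun b => dc_main S θ R M E k (Pi.single b a) (hs b)
  refine ⟨∑ b, C b, fun n r h1 h2 h3 b ξ => ?_⟩
  have h := hC b n r ⟨h1, h2, h3⟩ ξ
  rw [dcG, Finset.sum_eq_single b (fun c _ hc => by rw [Pi.single_eq_of_ne hc, dcF_zero])
    (by simp), Pi.single_eq_same] at h
  exact h.trans (mul_le_mul_of_nonneg_right
    (Finset.single_le_sum (fun c _ => h0 c) (Finset.mem_univ b)) (by positivity))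

end Crest.Agent.R80
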