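import Crest.Agent.R80.Sm

/-!
# R80: smooth representative of a function with rapidly decaying Fourier transform
-/

set_option autoImplicit false

namespace Crest.Agent.R80

open MeasureTheory Finset
open scoped FourierTransform

/-- the multiplier corresponding to `pd j` -/
noncomputable def repM (j : Fin 3) (h : E3 → ℂ) (ξ : E3) : ℂ :=
  -(2 * Real.pi * Complex.I) * ((ξ j : ℂ) * h ξ)

/-- the constant -/
noncomputable def repJ : ℝ := ∫ ξ : E3, (1 + ‖ξ‖) ^ (-(4 : ℝ))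

theorem repJ_nonneg : 0 ≤ repJ := integral_nonneg fun ξ => by positivity

theorem rep_intJ : Integrable fun ξ : E3 => (1 + ‖ξ‖) ^ (-(4 : ℝ)) :=
  integrable_one_add_norm (by simp; norm_num)

theorem repM_cont (j : Fin 3) {h : E3 → ℂ} (hc : Continuous h) : Continuous (repM j h) := by
  unfold repM
  fun_prop

theorem rep_mono {h : E3 → ℂ} {B : ℝ} {k l : ℕ} (hkl : k ≤ l) (hB : ∀ ξ : E3, ‖h ξ‖ * (1 + ‖ξ‖) ^ l ≤ B)
    (ξ : E3) : ‖h ξ‖ * (1 + ‖ξ‖) ^ k ≤ B := by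
  refine le_trans ?_ (hB ξ)
  have : (1 : ℝ) ≤ 1 + ‖ξ‖ := by linarith [norm_nonneg ξ]
  gcongr

theorem repM_bd (j : Fin 3) {h : E3 → ℂ} {B : ℝ} {k : ℕ} (hB : ∀ ξ : E3, ‖h ξ‖ * (1 + ‖ξ‖) ^ (k + 1) ≤ B)
    (ξ : E3) : ‖repM j h ξ‖ * (1 + ‖ξ‖) ^ k ≤ 2 * Real.pi * B := by
  have h1 : |ξ j| ≤ 1 + ‖ξ‖ := by
    have := PiLp.norm_apply_le ξ j
    rw [Real.norm_eq_abs] at this
    linarith
  have h2 : ‖repM j h ξ‖ = 2 * Real.pi * (|ξ j| * ‖h ξ‖) := by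
    simp [repM, abs_of_pos Real.pi_pos]
  have h3 := Real.pi_pos
  calc ‖repM j h ξ‖ * (1 + ‖ξ‖) ^ k ≤ 2 * Real.pi * ((1 + ‖ξ‖) * ‖h ξ‖) * (1 + ‖ξ‖) ^ k := by
        rw [h2]; gcongr
    _ = 2 * Real.pi * (‖h ξ‖ * (1 + ‖ξ‖) ^ (k + 1)) := by ring
    _ ≤ 2 * Real.pi * B := by gcongr; exact hB ξ

theorem rep_le {a B : ℝ} {ξ : E3} (h : a * (1 + ‖ξ‖) ^ 4 ≤ B) : a ≤ B * (1 + ‖ξ‖) ^ (-(4 : ℝ)) := by
  have h0 : (0 : ℝ) < 1 + ‖ξ‖ := by positivity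
  rw [Real.rpow_neg h0.le, ← div_eq_mul_inv, le_div_iff₀ (by positivity)]
  exact_mod_cast h

theorem rep_int {h : E3 → ℂ} (hc : Continuous h) {B : ℝ} (hB : ∀ ξ : E3, ‖h ξ‖ * (1 + ‖ξ‖) ^ 4 ≤ B) :
    Integrable h :=
  (rep_intJ.const_mul B).mono' hc.aestronglyMeasurable (Filter.Eventually.of_forall fun ξ => rep_le (hB ξ))

theorem rep_int_pow {h : E3 → ℂ} (hc : Continuous h) {B : ℝ} {n : ℕ}
    (hB : ∀ ξ : E3, ‖h ξ‖ * (1 + ‖ξ‖) ^ (n + 4) ≤ B) : Integrable fun ξ : E3 => ‖ξ‖ ^ n * ‖h ξ‖ := by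
  refine (rep_intJ.const_mul B).mono' (by fun_prop : Continuous _).aestronglyMeasurable
    (Filter.Eventually.of_forall fun ξ => rep_le (le_trans ?_ (hB ξ)))
  rw [Real.norm_of_nonneg (by positivity), pow_add, mul_comm (‖ξ‖ ^ n), ← mul_assoc]
  gcongr
  linarith

theorem rep_norm {h : E3 → ℂ} (hc : Continuous h) {B : ℝ} (hB : ∀ ξ : E3, ‖h ξ‖ * (1 + ‖ξ‖) ^ 4 ≤ B)
    (x : E3) : ‖𝓕 h x‖ ≤ repJ * B := by
  refine (VectorFourier.norm_fourierIntegral_le_integral_norm _ _ _ _ _).trans ?_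
  rw [repJ, mul_comm, ← integral_const_mul]
  exact integral_mono (rep_int hc hB).norm (rep_intJ.const_mul B) fun ξ => rep_le (hB ξ)

theorem rep_fderiv {h : E3 → ℂ} (hc : Continuous h) {B : ℝ} (hB : ∀ ξ : E3, ‖h ξ‖ * (1 + ‖ξ‖) ^ 5 ≤ B)
    (j : Fin 3) (x : E3) : fderiv ℝ (𝓕 h) x (e j) = 𝓕 (repM j h) x := by
  have h1 : Integrable h := rep_int hc (rep_mono (by norm_num) hB)
  have h2 : Integrable fun ξ : E3 => ‖ξ‖ * ‖h ξ‖ := by simpa using rep_int_pow (n := 1) hc hB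
  have h3 : Integrable (VectorFourier.fourierSMulRight (innerSL ℝ) h) := by
    refine (h2.const_mul (2 * Real.pi * ‖innerSL (E := E3) ℝ‖)).mono'
      h1.aestronglyMeasurable.fourierSMulRight (Filter.Eventually.of_forall fun ξ => ?_)
    refine (VectorFourier.norm_fourierSMulRight_le _ _ _).trans_eq ?_
    ring
  rw [Real.fderiv_fourier h1 h2, Real.fourier_continuousLinearMap_apply h3]
  refine congrFun (congrArg _ (funext fun ξ => ?_)) x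
  have : innerSL ℝ ξ (e j) = ξ j := by
    rw [innerSL_apply_apply, EuclideanSpace.inner_single_right]
    simp
  simp [repM, this]

theorem rep_dual {f g : E3 → ℂ} (hf : Integrable f) (hg : Integrable g) :
    ∫ x, 𝓕 f x * g x = ∫ x, f x * 𝓕 g x := by
  have := VectorFourier.integral_fourierIntegral_smul_eq_flip (μ := volume) (ν := volume) (L := innerₗ E3)
    Real.continuous_fourierChar continuous_inner hf hg
  rw [flip_innerₗ] at this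
  exact this

/-- `G = 𝓕 g` is continuous (`Real.continuous_fourier`-like, `VectorFourier.fourierIntegral_continuous`), `‖ξ‖ ^ n * ‖G ξ‖` is integrable
(`integrable_one_add_norm`, `finrank = 3 < 4`).  `g' = 𝓕⁻ G = 𝓕 (G ∘ neg)` (`Real.fourierInv_eq_fourier_comp_neg`-like) is smooth by `Real.contDiff_fourier`.
Duality: `∫ g' φ = ∫ G (𝓕⁻ φ) = ∫ g 𝓕 (𝓕⁻ φ) = ∫ g φ` (`VectorFourier.integral_fourierIntegral_smul_eq_flip`, Fourier inversion for the Schwartz function `φ`).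
Bounds: `pd j (𝓕 h) = 𝓕 (fun ξ => -2 π i ξ j * h ξ)` (`Real.fderiv_fourier` / `hasFDerivAt_fourier`), `‖𝓕 h x‖ ≤ ∫ ‖h‖`;
`c0 = (2 π)² * ∫ (1 + ‖ξ‖) ^ (-4)`. -/
theorem exists_rep : ∃ c0 : ℝ, 0 ≤ c0 ∧ ∀ g : E3 → ℂ, Integrable g →
    (∀ k : ℕ, ∃ C : ℝ, ∀ ξ : E3, ‖𝓕 g ξ‖ * (1 + ‖ξ‖) ^ k ≤ C) →
    ∃ g' : Sm, (∀ (R : ℝ) (φ : Sm), Cs R φ → ∫ x, g' x * φ x = ∫ x, g x * φ x) ∧
      ∀ B : ℝ, (∀ ξ : E3, ‖𝓕 g ξ‖ * (1 + ‖ξ‖) ^ 6 ≤ B) → ∀ x i j,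
        ‖g' x‖ ≤ c0 * B ∧ ‖pd i g' x‖ ≤ c0 * B ∧ ‖pd i (pd j g') x‖ ≤ c0 * B := by
  have hπ := Real.pi_gt_three
  have hJ := repJ_nonneg
  refine ⟨repJ * (2 * Real.pi) ^ 2, by positivity, fun g hg hd => ?_⟩
  have hG : Continuous (𝓕 g) :=
    VectorFourier.fourierIntegral_continuous Real.continuous_fourierChar continuous_inner hg
  set H : E3 → ℂ := fun ξ => 𝓕 g (-ξ) with hH
  have hHc : Continuous H := hG.comp continuous_neg
  have hHB : ∀ (k : ℕ) (B : ℝ), (∀ ξ : E3, ‖𝓕 g ξ‖ * (1 + ‖ξ‖) ^ k ≤ B) →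
      ∀ ξ : E3, ‖H ξ‖ * (1 + ‖ξ‖) ^ k ≤ B := fun k B hB ξ => by
    simpa using hB (-ξ)
  have hsm : ContDiff ℝ (⊤ : ℕ∞) (𝓕 H) := Real.contDiff_fourier fun n _ => by
    obtain ⟨C, hC⟩ := hd (n + 4)
    exact rep_int_pow hHc (hHB _ _ hC)
  refine ⟨Sm.mk' (𝓕 H) hsm, fun R φ hφ => ?_, fun B hB x i j => ?_⟩
  · obtain ⟨C, hC⟩ := hd 4
    have hHi : Integrable H := rep_int hHc (hHB _ _ hC)
    have hφi : Integrable (φ : E3 → ℂ) := hφ.integrable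
    have hφF : Integrable (𝓕 (φ : E3 → ℂ)) :=
      (𝓕 (hφ.compact.toSchwartzMap φ.smooth)).integrable
    have hφF' : Integrable fun ξ : E3 => 𝓕 (φ : E3 → ℂ) (-ξ) := hφF.comp_neg
    simp only [Sm.mk'_apply]
    rw [rep_dual hHi hφi, ← integral_neg_eq_self]
    simp only [hH, neg_neg]
    rw [rep_dual hg hφF', ← Real.fourierInv_eq_fourier_comp_neg, φ.cont.fourierInv_fourier_eq hφi hφF]
  · have hB0 : 0 ≤ B := le_trans (by positivity) (hB 0)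
    have h6 := hHB _ _ hB
    have e1 : ∀ (j : Fin 3) (y : E3), pd j (Sm.mk' (𝓕 H) hsm) y = 𝓕 (repM j H) y := fun j y =>
      rep_fderiv hHc (rep_mono (by norm_num) h6) j y
    have e2 : pd i (pd j (Sm.mk' (𝓕 H) hsm)) x = 𝓕 (repM i (repM j H)) x := by
      rw [pd_apply, funext (e1 j)]
      exact rep_fderiv (repM_cont j hHc) (repM_bd j h6) i x
    have p1 : (1 : ℝ) ≤ 2 * Real.pi := by linarith
    have p2 : (2 * Real.pi) ≤ (2 * Real.pi) ^ 2 := by nlinarith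
    refine ⟨(rep_norm hHc (rep_mono (by norm_num) h6) x).trans ?_, ?_, ?_⟩
    · rw [mul_assoc]
      gcongr
      nlinarith
    · rw [e1]
      refine (rep_norm (repM_cont i hHc) (repM_bd i (rep_mono (by norm_num) h6)) x).trans ?_
      rw [mul_assoc repJ]
      gcongr
    · rw [e2]
      refine (rep_norm (repM_cont i (repM_cont j hHc)) (repM_bd i (repM_bd j h6)) x).trans_eq ?_
      ring

end Crest.Agent.R80
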