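import Crest.Agent.R80.Sm

/-!
# R80: weak solutions by duality
-/

set_option autoImplicit false

namespace Crest.Agent.R80

open MeasureTheory Finset Metric

/-- `ℓ` vanishes on `ker T`, so it factors through `range T` (`LinearMap.quotKerEquivRange` or a direct `choose`), `LinearMap.mkContinuous`,
`exists_extension_norm_eq`, `InnerProductSpace.toDual`. -/
theorem exists_riesz {D H : Type} [AddCommGroup D] [Module ℂ D] [NormedAddCommGroup H]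
    [InnerProductSpace ℂ H] [CompleteSpace H] (T : D →ₗ[ℂ] H) (ℓ : D →ₗ[ℂ] ℂ) (B : ℝ) (hB : 0 ≤ B)
    (h : ∀ φ, ‖ℓ φ‖ ≤ B * ‖T φ‖) : ∃ r : H, ‖r‖ ≤ B ∧ ∀ φ, ℓ φ = inner ℂ r (T φ) := by
  have hker : LinearMap.ker T ≤ LinearMap.ker ℓ := by
    intro φ hφ
    have h1 := h φ
    rw [LinearMap.mem_ker.1 hφ, norm_zero, mul_zero] at h1
    exact norm_le_zero_iff.1 h1
  let g : LinearMap.range T →ₗ[ℂ] ℂ :=
    (LinearMap.ker T).liftQ ℓ hker ∘ₗ (T.quotKerEquivRange).symm.toLinearMap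
  have hg : ∀ φ, g ⟨T φ, LinearMap.mem_range_self T φ⟩ = ℓ φ := by
    intro φ
    simp only [g, LinearMap.comp_apply, LinearEquiv.coe_coe]
    rw [LinearMap.quotKerEquivRange_symm_apply_image]
    rfl
  have hb : ∀ v : LinearMap.range T, ‖g v‖ ≤ B * ‖v‖ := by
    rintro ⟨_, φ, rfl⟩
    rw [hg]
    exact h φ
  obtain ⟨G, hG, hGn⟩ := exists_extension_norm_eq (LinearMap.range T) (g.mkContinuous B hb)
  refine ⟨(InnerProductSpace.toDual ℂ H).symm G, ?_, fun φ => ?_⟩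
  · rw [LinearIsometryEquiv.norm_map, hGn]
    exact g.mkContinuous_norm_le hB hb
  · rw [InnerProductSpace.toDual_symm_apply, ← hg]
    exact (hG ⟨T φ, LinearMap.mem_range_self T φ⟩).symm

theorem wk_norm_sq (u : Lp ℂ 2 (volume : Measure E3)) : ‖u‖ ^ 2 = ∫ x, ‖u x‖ ^ 2 := by
  have h := L2.inner_def (𝕜 := ℝ) u u
  simp only [real_inner_self_eq_norm_sq] at h
  exact h

theorem wk_riesz {D H : Type} [AddCommMonoid D] [Module ℂ D] [NormedAddCommGroup H]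
    [InnerProductSpace ℂ H] [CompleteSpace H] (J : D →ₗ[ℂ] H) (L : D →ₗ[ℂ] D) (ε : H) (c : ℝ)
    (hc : 0 ≤ c) (h : ∀ φ, ‖J φ‖ ≤ c * ‖J (L φ)‖) :
    ∃ ρ : H, ‖ρ‖ ≤ ‖ε‖ * c ∧ ∀ φ, inner ℂ ε (J φ) = inner ℂ ρ (J (L φ)) :=
  letI : AddCommGroup D := Module.addCommMonoidToAddCommGroup ℂ
  exists_riesz (J ∘ₗ L) (innerₛₗ ℂ ε ∘ₗ J) (‖ε‖ * c) (by positivity) fun φ =>
    calc ‖inner ℂ ε (J φ)‖ ≤ ‖ε‖ * ‖J φ‖ := norm_inner_le_norm _ _
      _ ≤ ‖ε‖ * (c * ‖J (L φ)‖) := mul_le_mul_of_nonneg_left (h φ) (norm_nonneg _)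
      _ = ‖ε‖ * c * ‖J (L φ)‖ := by ring

/-- test functions -/
def wkD (ι : Type) (R : ℝ) : Submodule ℂ (ι → Sm) where
  carrier := {φ | ∀ a, Cs R (φ a)}
  add_mem' := fun hf hg a => (hf a).add (hg a)
  zero_mem' := fun _ => Cs.zero R
  smul_mem' := fun c _ hf a => (hf a).smul c

theorem wk_mem {ι : Type} {R : ℝ} (φ : wkD ι R) (a : ι) :
    MemLp (φ.1 a : E3 → ℂ) 2 (volume : Measure E3) :=
  (φ.1 a).cont.memLp_of_hasCompactSupport (φ.2 a).compact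

/-- the embedding into `L²` -/
noncomputable def wkJ (ι : Type) (R : ℝ) :
    wkD ι R →ₗ[ℂ] PiLp 2 (fun _ : ι => Lp ℂ 2 (volume : Measure E3)) where
  toFun := fun φ => WithLp.toLp 2 fun a => (wk_mem φ a).toLp _
  map_add' := fun φ ψ => by
    ext1 a
    exact MemLp.toLp_add (wk_mem φ a) (wk_mem ψ a)
  map_smul' := fun c φ => by
    ext1 a
    exact MemLp.toLp_const_smul c (wk_mem φ a)

theorem wkJ_ae {ι : Type} {R : ℝ} (φ : wkD ι R) (a : ι) :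
    (wkJ ι R φ a : E3 → ℂ) =ᵐ[volume] (φ.1 a : E3 → ℂ) :=
  MemLp.coeFn_toLp (wk_mem φ a)

theorem wkJ_norm {ι : Type} [Fintype ι] {R : ℝ} (φ : wkD ι R) :
    ‖wkJ ι R φ‖ ^ 2 = ∑ a, ∫ x, ‖φ.1 a x‖ ^ 2 := by
  rw [PiLp.norm_sq_eq_of_L2]
  refine Finset.sum_congr rfl fun a _ => ?_
  rw [wk_norm_sq]
  refine integral_congr_ae ?_
  filter_upwards [wkJ_ae φ a] with x hx
  rw [hx]

theorem wkJ_inner {ι : Type} [Fintype ι] {R : ℝ}
    (ρ : PiLp 2 (fun _ : ι => Lp ℂ 2 (volume : Measure E3))) (φ : wkD ι R) :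
    inner ℂ ρ (wkJ ι R φ) = ∑ b, ∫ x, (starRingEnd ℂ) (ρ b x) * φ.1 b x := by
  rw [PiLp.inner_apply]
  refine Finset.sum_congr rfl fun b _ => ?_
  rw [L2.inner_def]
  refine integral_congr_ae ?_
  filter_upwards [wkJ_ae φ b] with x hx
  rw [hx, RCLike.inner_apply, mul_comm]

theorem wk_memE (R : ℝ) (E : Sm) :
    MemLp ((ball (0 : E3) R).indicator fun x => (starRingEnd ℂ) (E x)) 2
      (volume : Measure E3) := by
  rw [memLp_indicator_iff_restrict measurableSet_ball]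
  have hc : Continuous fun x => (starRingEnd ℂ) (E x) :=
    Complex.continuous_conj.comp E.cont
  obtain ⟨M, hM⟩ := (isCompact_closedBall (0 : E3) R).exists_bound_of_continuousOn
    hc.continuousOn
  have : IsFiniteMeasure ((volume : Measure E3).restrict (ball (0 : E3) R)) :=
    isFiniteMeasure_restrict.2 measure_ball_lt_top.ne
  refine MemLp.of_bound hc.aestronglyMeasurable M ?_
  filter_upwards [ae_restrict_mem measurableSet_ball] with x hx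
  exact hM x (ball_subset_closedBall hx)

theorem wk_eps {ι : Type} [Fintype ι] (R : ℝ) (E : ι → Sm) :
    ∃ ε : PiLp 2 (fun _ : ι => Lp ℂ 2 (volume : Measure E3)),
      ‖ε‖ ^ 2 = ∑ a, ∫ x in ball (0 : E3) R, ‖E a x‖ ^ 2 ∧
      ∀ φ : wkD ι R, inner ℂ ε (wkJ ι R φ) = ∑ a, ∫ x, E a x * φ.1 a x := by
  obtain ⟨ε, hε⟩ : ∃ ε : PiLp 2 (fun _ : ι => Lp ℂ 2 (volume : Measure E3)), ∀ a,
      (ε a : E3 → ℂ) =ᵐ[volume] (ball (0 : E3) R).indicator fun x => (starRingEnd ℂ) (E a x) :=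
    ⟨WithLp.toLp 2 fun a => (wk_memE R (E a)).toLp _, fun a => MemLp.coeFn_toLp (wk_memE R (E a))⟩
  refine ⟨ε, ?_, fun φ => ?_⟩
  · rw [PiLp.norm_sq_eq_of_L2]
    refine Finset.sum_congr rfl fun a _ => ?_
    rw [wk_norm_sq, ← integral_indicator measurableSet_ball]
    refine integral_congr_ae ?_
    filter_upwards [hε a] with x hx
    rw [hx]
    by_cases hxb : x ∈ ball (0 : E3) R
    · rw [Set.indicator_of_mem hxb, Set.indicator_of_mem hxb, Complex.norm_conj]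
    · rw [Set.indicator_of_notMem hxb, Set.indicator_of_notMem hxb, norm_zero]
      norm_num
  · rw [wkJ_inner]
    refine Finset.sum_congr rfl fun a _ => ?_
    refine integral_congr_ae ?_
    filter_upwards [hε a] with x hx
    rw [hx]
    by_cases hxb : x ∈ ball (0 : E3) R
    · rw [Set.indicator_of_mem hxb, Complex.conj_conj]
    · have : φ.1 a x = 0 := image_eq_zero_of_notMem_tsupport fun h => hxb (φ.2 a h)
      rw [this, mul_zero, mul_zero]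

/-- Apply `exists_riesz` to the submodule `D` of all `φ` with `Cs R (φ a)`, `H = PiLp 2 (fun _ : ι => Lp ℂ 2 volume)`,
`T φ b = (L φ b).toLp` (`Continuous.memLp_of_hasCompactSupport`), `ℓ φ = ∑ a, ∫ E a * φ a`, `B² = C * ∑ a, ∫_{ball} ‖E a‖²` (Cauchy-Schwarz);
the functions are `r b = conj (ρ b)` (`L2.inner_def`, `PiLp.inner_apply`). -/
theorem weak_sol {ι : Type} [Fintype ι] (L : (ι → Sm) →ₗ[ℂ] (ι → Sm)) (R C : ℝ) (hC : 0 ≤ C)
    (hL : ∀ φ : ι → Sm, (∀ a, Cs R (φ a)) → ∀ a, Cs R (L φ a))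
    (hest : ∀ φ : ι → Sm, (∀ a, Cs R (φ a)) →
      ∑ a, ∫ x, ‖φ a x‖ ^ 2 ≤ C * ∑ a, ∫ x, ‖L φ a x‖ ^ 2) (E : ι → Sm) :
    ∃ r : ι → E3 → ℂ, (∀ b, MemLp (r b) 2) ∧
      (∀ b, ∫ x, ‖r b x‖ ^ 2 ≤ C * ∑ a, ∫ x in ball (0 : E3) R, ‖E a x‖ ^ 2) ∧
      ∀ φ : ι → Sm, (∀ a, Cs R (φ a)) →
        ∑ b, ∫ x, r b x * L φ b x = ∑ a, ∫ x, E a x * φ a x := by
  let L' : wkD ι R →ₗ[ℂ] wkD ι R := L.restrict fun φ hφ => hL φ hφ
  obtain ⟨ε, hεn, hℓ⟩ := wk_eps R E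
  have hb : ∀ φ : wkD ι R, ‖wkJ ι R φ‖ ≤ Real.sqrt C * ‖wkJ ι R (L' φ)‖ := fun φ => by
    refine (pow_le_pow_iff_left₀ (norm_nonneg _) (by positivity) two_ne_zero).1 ?_
    rw [mul_pow, Real.sq_sqrt hC, wkJ_norm, wkJ_norm]
    exact hest φ.1 φ.2
  obtain ⟨ρ, hρ, hρe⟩ := wk_riesz (D := wkD ι R) (wkJ ι R) L' ε (Real.sqrt C)
    (Real.sqrt_nonneg C) hb
  refine ⟨fun b x => (starRingEnd ℂ) (ρ b x), fun b => ?_, fun b => ?_, fun φ hφ => ?_⟩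
  · exact (Lp.memLp (ρ b)).star
  · simp only [Complex.norm_conj]
    rw [← wk_norm_sq, ← hεn]
    have h1 : ‖ρ b‖ ≤ ‖ε‖ * Real.sqrt C := (PiLp.norm_apply_le ρ b).trans hρ
    calc ‖ρ b‖ ^ 2 ≤ (‖ε‖ * Real.sqrt C) ^ 2 := pow_le_pow_left₀ (norm_nonneg _) h1 2
      _ = C * ‖ε‖ ^ 2 := by rw [mul_pow, Real.sq_sqrt hC]; ring
  · have h1 := hρe ⟨φ, hφ⟩
    have h2 := hℓ ⟨φ, hφ⟩
    rw [h2, wkJ_inner] at h1
    exact h1.symm

end Crest.Agent.R80
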