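import Crest.Agent.R80.Carl2
import Crest.Agent.R80.Weak
import Crest.Agent.R80.Decay
import Crest.Agent.R80.Rep

/-!
# R80: exact solutions with polynomial bounds
-/

set_option autoImplicit false

namespace Crest.Agent.R80

open MeasureTheory Finset Metric

theorem exists_cutoff (R : ℝ) : ∃ a : Sm, Cs (|R| + 2) a ∧ ∀ x ∈ ball (0 : E3) R, a x = 1 := by
  have hR := abs_nonneg R
  let b : ContDiffBump (0 : E3) := ⟨|R| + 1 / 2, |R| + 1, by linarith, by linarith⟩
  refine ⟨Sm.ofR b b.contDiff, ?_, fun x hx => ?_⟩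
  · have h1 : tsupport (Sm.ofR b b.contDiff : E3 → ℂ) ⊆ tsupport b :=
      closure_mono fun x hx h => hx (by simp [h])
    refine h1.trans ?_
    rw [b.tsupport_eq]
    exact closedBall_subset_ball (by simp [b])
  · have : b x = 1 := b.one_of_mem_closedBall
      (closedBall_subset_closedBall (by simp only [b]; linarith [le_abs_self R]) (ball_subset_closedBall hx))
    simp [this]

/-- `K = 6`, `R' = |R| + 2`; `n0, C₀` from `carleman2` for `(tr S, -θ, R')`; `weak_sol` with `L = P (tr S) + w n • T (tr S).A (-θ)` gives `ρ`; `a` from `exists_cutoff`;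
`r b` is the representative (`exists_rep`) of `a * ρ b` (`decay` for all `k`, with `M = C₀ * ∑ ∫_{ball} ‖E‖²`).  For `φ` supported in `ball 0 R`:
`∫ r b * L φ b = ∫ a * ρ b * L φ b = ∫ ρ b * L φ b` (`Cs.PT`), so by `green_int` `∑ ∫ (P r + w T r - E) c * φ c = 0`; `φ = Pi.single c ψ`, `mem_vanI_of_integral`. -/
theorem cgoS (R : ℝ) (ι : Type) [Fintype ι] (S : Sys Sm ι) {θ : C3} (hθ : Null θ) :
    ∃ K n0 : ℕ, ∀ E : ι → Sm, ∃ C : ℝ, ∀ n, n0 ≤ n → ∃ r : ι → Sm,
      (∀ a, (sm.P S r + w n • sm.T S.A θ r) a - E a ∈ vanI R) ∧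
      ∀ b i j x, ‖r b x‖ ≤ C * ((n : ℝ) + 1) ^ K ∧ ‖pd i (r b) x‖ ≤ C * ((n : ℝ) + 1) ^ K ∧
        ‖pd i (pd j (r b)) x‖ ≤ C * ((n : ℝ) + 1) ^ K := by
  classical
  obtain ⟨n0, C0, hC0, hcar⟩ := carleman2 (sm.tr S) hθ.neg (|R| + 2)
  obtain ⟨a, ha, ha1⟩ := exists_cutoff R
  obtain ⟨c0, hc0, hrep⟩ := exists_rep
  refine ⟨6, n0, fun E => ?_⟩
  choose C hC using fun k => decay (sm.tr S) (-θ) (|R| + 2)
    (C0 * ∑ c, ∫ x in ball (0 : E3) (|R| + 2), ‖E c x‖ ^ 2) E k a ha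
  refine ⟨c0 * C 6, fun n hn => ?_⟩
  obtain ⟨ρ, h1, h2, h3⟩ := weak_sol (sm.P (sm.tr S) + w n • sm.T (sm.tr S).A (-θ)) (|R| + 2) C0 hC0
    (fun φ hφ c => Cs.PT _ _ _ hφ c) (hcar n hn) E
  have hd := fun k => hC k n ρ h1 h2 h3
  choose r hr1 hr2 using fun b => hrep (fun x => a x * ρ b x) (ha.integrable_mul (h1 b))
    fun k => ⟨_, hd k b⟩
  refine ⟨r, fun c => mem_vanI_of_integral fun ψ hψ => ?_, fun b i j x => ?_⟩
  · have hs : ∀ d, Cs R ((Pi.single c ψ : ι → Sm) d) := fun d => by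
      by_cases h : d = c
      · rw [h, Pi.single_eq_same]
        exact hψ
      · rw [Pi.single_eq_of_ne h]
        exact Cs.zero R
    have hs' : ∀ d, Cs (|R| + 2) ((Pi.single c ψ : ι → Sm) d) := fun d =>
      (hs d).trans (ball_subset_ball (by linarith [le_abs_self R]))
    have hsum : ∀ F : ι → Sm, ∑ d, ∫ x, F d x * (Pi.single c ψ : ι → Sm) d x = ∫ x, F c x * ψ x := fun F => by
      rw [Finset.sum_eq_single c (fun d _ hd => by simp [Pi.single_eq_of_ne hd]) (by simp), Pi.single_eq_same]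
    have g1 := green_int S θ (w n) r hs
    have g2 := h3 _ hs'
    rw [hsum] at g1 g2
    have g3 : ∀ b, ∫ x, r b x * (sm.P (sm.tr S) (Pi.single c ψ) +
        w n • sm.T (sm.tr S).A (-θ) (Pi.single c ψ)) b x = ∫ x, ρ b x *
          (sm.P (sm.tr S) + w n • sm.T (sm.tr S).A (-θ)) (Pi.single c ψ) b x := fun b => by
      have hL := Cs.PT (sm.tr S) (-θ) (w n) hs b
      rw [hr1 b R _ hL]
      refine integral_congr_ae (Filter.Eventually.of_forall fun x => ?_)
      by_cases hx : x ∈ ball (0 : E3) R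
      · simp only [ha1 x hx, one_mul]
        rfl
      · have h0 := image_eq_zero_of_notMem_tsupport fun h => hx (hL h)
        change _ = ρ b x * (sm.P (sm.tr S) (Pi.single c ψ) +
          w n • sm.T (sm.tr S).A (-θ) (Pi.single c ψ)) b x
        simp only [h0, mul_zero]
    simp only [g3] at g1
    simp only [Sm.sub_apply, sub_mul]
    have hi : ∀ f : Sm, Integrable fun x => f x * ψ x := fun f => (hψ.mul_left f).integrable
    rw [integral_sub (hi _) (hi _), g1, g2, sub_self]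
  · rw [mul_assoc]
    exact hr2 b _ (hd 6 b) x i j

end Crest.Agent.R80
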