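import Crest.Agent.R80.DegB

/-!
# R80: generation by transport solutions and completeness of products
-/

set_option autoImplicit false

namespace Crest.Agent.R80

open Finset

variable {𝒜 : Type} [CommRing 𝒜] [Algebra ℂ 𝒜] {ι : Type} [Fintype ι]

theorem DA.T_endA [DecidableEq ι] (D : DA 𝒜) (A1 A2 : Fin 3 → ι → ι → 𝒜) (θ : C3) (V Y : ι → 𝒜)
    (p : ι × ι) : D.T (endA A1 A2) θ (fun q => V q.2 * Y q.1) p =
      V p.2 * D.T A2 θ Y p.1 + D.T A1 θ V p.2 * Y p.1 := by
  obtain ⟨a, b⟩ := p
  simp only [DA.T_apply, endA, D.dir_mul, Fintype.sum_prod_type, add_mul, ite_mul, zero_mul,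
    smul_add, sum_add_distrib, smul_ite, smul_zero, mul_add, mul_sum, sum_mul, mul_smul_comm,
    smul_mul_assoc]
  have e1 : ∀ j, ∑ x, ∑ y, (if b = y then θ j • (A2 j a x * (V y * Y x)) else 0) =
      ∑ x, θ j • (V b * (A2 j a x * Y x)) := fun j =>
    Finset.sum_congr rfl fun x _ => by rw [Finset.sum_ite_eq, if_pos (mem_univ _), mul_left_comm]
  have e2 : ∀ j, ∑ x, ∑ y, (if a = x then θ j • (A1 j b y * (V y * Y x)) else 0) =
      ∑ y, θ j • (A1 j b y * V y * Y a) := fun j => by
    rw [Finset.sum_comm]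
    exact Finset.sum_congr rfl fun y _ => by rw [Finset.sum_ite_eq, if_pos (mem_univ _), mul_assoc]
  simp only [e1, e2, mul_comm (Y a) (D.dir θ (V b))]
  abel

theorem DA.T_mul_hol (D : DA 𝒜) (A : Fin 3 → ι → ι → 𝒜) (θ : C3) {h : 𝒜} (hh : D.dir θ h = 0)
    (V : ι → 𝒜) : D.T A θ (h • V) = h • D.T A θ V := by
  funext a
  simp only [DA.T_apply, Pi.smul_apply, smul_eq_mul, D.dir_mul, hh, mul_zero, add_zero, mul_add,
    mul_sum, mul_smul_comm, mul_left_comm h]

theorem DA.compl_dir_prod {κ : Type} [DecidableEq κ] (D : DA 𝒜) (θ : C3) (s : Finset κ) (f : κ → 𝒜) :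
    D.dir θ (∏ i ∈ s, f i) = ∑ i ∈ s, (∏ j ∈ s.erase i, f j) * D.dir θ (f i) := by
  induction s using Finset.induction_on with
  | empty => simp [DA.dir_apply]
  | insert a s ha ih =>
    rw [prod_insert ha, sum_insert ha, D.dir_mul, ih, erase_insert ha, add_comm, mul_sum]
    congr 1
    refine Finset.sum_congr rfl fun i hi => ?_
    have hne : a ≠ i := fun e => ha (e ▸ hi)
    rw [erase_insert_of_ne hne, prod_insert (fun h => ha (mem_of_mem_erase h)), mul_assoc]

theorem compl_expand [DecidableEq ι] {n : ℕ} (M : Fin n → Matrix ι ι 𝒜) (G : Fin n → 𝒜)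
    (hG : ∑ i, G i * (M i).det = 1) (Z : ι → 𝒜) :
    Z = ∑ i, ∑ k, (G i * Matrix.cramer (M i) Z k) • fun a => M i a k := by
  funext a
  have h : ∀ i, ∑ k, G i * Matrix.cramer (M i) Z k * M i a k = G i * (M i).det * Z a := fun i => by
    have := congrFun (Matrix.mulVec_cramer (M i) Z) a
    simp only [Matrix.mulVec, dotProduct, Pi.smul_apply, smul_eq_mul] at this
    rw [mul_assoc, ← this, mul_sum]
    exact Finset.sum_congr rfl fun k _ => by ring
  simp only [Finset.sum_apply, Pi.smul_apply, smul_eq_mul, h, ← sum_mul, hG, one_mul]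

/-- Liouville's formula.  `Matrix.det_apply'`, Leibniz rule for `dir θ` on a finite product (induction on the `Finset`), so
`dir θ (det C) = ∑ i, det (C.updateRow i (dir θ ∘ C i))`; row `i` of `2 • dir θ C` is `-∑ k, a i k • C k` with
`a i k = ∑ j, θ j • A j i k`; `Matrix.det_updateRow_sum`. -/
theorem DA.dir_det [DecidableEq ι] (D : DA 𝒜) (A : Fin 3 → ι → ι → 𝒜) (θ : C3) (M : Matrix ι ι 𝒜)
    (h : ∀ k, D.T A θ (fun a => M a k) = 0) :
    (2 : ℂ) • D.dir θ M.det = -((∑ j, θ j • ∑ a, A j a a) * M.det) := by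
  have h1 : (2 : ℂ) • D.dir θ M.det =
      ∑ i, (M.updateRow i fun k => (2 : ℂ) • D.dir θ (M i k)).det := by
    simp only [← Matrix.det_transpose M]
    simp only [← Matrix.det_transpose (M.updateRow _ _)]
    simp only [Matrix.det_apply', map_sum, D.dir_mul, D.compl_dir_prod, smul_sum]
    rw [Finset.sum_comm]
    refine Finset.sum_congr rfl fun σ _ => ?_
    have h0 : D.dir θ ((Equiv.Perm.sign σ : ℤ) : 𝒜) = 0 := by simp [DA.dir_apply]
    rw [h0, mul_zero, add_zero, mul_sum, smul_sum]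
    refine Finset.sum_congr rfl fun i _ => ?_
    rw [← Finset.mul_prod_erase univ _ (mem_univ i)]
    have : ∏ x ∈ univ.erase i, (M.updateRow i fun k => (2 : ℂ) • D.dir θ (M i k)).transpose (σ x) x =
        ∏ x ∈ univ.erase i, M.transpose (σ x) x :=
      Finset.prod_congr rfl fun x hx => by
        simp [Matrix.updateRow_ne (Finset.ne_of_mem_erase hx)]
    rw [this]
    simp [mul_comm]
  have h2 : ∀ i, (fun k => (2 : ℂ) • D.dir θ (M i k)) =
      ∑ l, (-∑ j, θ j • A j i l) • M l := fun i => by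
    funext k
    have := congrFun (h k) i
    rw [DA.T_apply, Pi.zero_apply, Finset.sum_comm] at this
    rw [eq_neg_of_add_eq_zero_left this]
    simp [sum_mul]
  rw [h1]
  simp only [h2, Matrix.det_updateRow_sum, smul_eq_mul, neg_mul, sum_neg_distrib, smul_sum, sum_mul]
  rw [Finset.sum_comm]

/-- `Z = ∑ i, G i • det (C i) • Z = ∑ i, G i • C i *ᵥ cramer (C i) Z` (`Matrix.mulVec_cramer`) -/
theorem Ctx.span_sol (C : Ctx 𝒜) (A : Fin 3 → ι → ι → 𝒜) {θ : C3} (hθ : Null θ) (Z : ι → 𝒜) :
    Z ∈ Submodule.span 𝒜 {V | C.T A θ V = 0} := by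
  classical
  obtain ⟨n, M, G, hM, hG⟩ := C.gen ι A θ hθ
  rw [compl_expand M G hG Z]
  exact Submodule.sum_mem _ fun i _ => Submodule.sum_mem _ fun k _ =>
    Submodule.smul_mem _ _ (Submodule.subset_span (hM i k))

/-- by `span_sol` the hypothesis holds for every `V`; take `V = Pi.single b 1` -/
theorem Ctx.eq_zero_of_sol (C : Ctx 𝒜) (A : Fin 3 → ι → ι → 𝒜) {θ : C3} (hθ : Null θ)
    (n : ι → Fnl 𝒜) (h : ∀ V, C.T A θ V = 0 → ∀ φ, ∑ b, n b (V b * φ) = 0) (b : ι) : n b = 0 := by
  classical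
  have key : ∀ V ∈ Submodule.span 𝒜 {V | C.T A θ V = 0}, ∀ φ, ∑ b, n b (V b * φ) = 0 := by
    intro V hV
    induction hV using Submodule.span_induction with
    | mem V hV => exact h V hV
    | zero => simp
    | add V W _ _ h1 h2 =>
      intro φ
      simp [add_mul, sum_add_distrib, h1 φ, h2 φ]
    | smul c V _ h1 =>
      intro φ
      have := h1 (c * φ)
      simpa [mul_assoc, mul_left_comm] using this
  ext φ
  have := key (Pi.single b 1) (C.span_sol A hθ _) φ
  rw [Finset.sum_eq_single b (fun b' _ hb => by simp [hb]) (by simp)] at this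
  simpa using this

/-- Completeness of products.  For a solution `V` and any `ψ` put `λ V ψ = ∑ a b, n a b (V b * Y a)` with any `Y` such that
`T A2 θ Y = ψ` (`C.surj`; independent of `Y` by `h`); `λ` is additive in both slots and `λ (g • V) ψ = λ V (g • ψ)` if `dir θ g = 0`.
Take `(M i, G i)` from `C.gen` for `A1`, and `(ω l, G' l)` from `C.gen` for the scalar system (`ι = Unit`) `A' j = -∑ a, A1 j a a`, so that
`ω l * det M` is killed by `dir θ` whenever the columns of `M` solve the transport equation (`dir_det`); this applies to `det (M i)` and to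
`cramer (M i) V k = det ((M i).updateCol k V)`.  Define the additive map
`t Z = ∑ i l k, λ (column k of M i) (fun a => G i * G' l * (ω l * cramer (M i) (fun b => Z (a, b)) k))`; then `t 0 = 0` and
`t (V ⊗ ψ) = ∑ i l, λ (ω l • M i *ᵥ cramer (M i) V) (G i * G' l • ψ) = ∑ i l, λ V ((ω l * det (M i) * G i * G' l) • ψ) = λ V ψ`.
Every `Z` is a finite sum of products `V ⊗ Y` with `V` a solution (Cramer as in `span_sol`, row by row), and for those
`t (T (endA A1 A2) θ (V ⊗ Y)) = t (V ⊗ T Y) = ∑ n a b (V b * Y a)` (`T_endA`).  Hence `∑ n a b (Z (a, b)) = t (T Z) = 0`. -/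
theorem Ctx.complete [DecidableEq ι] (C : Ctx 𝒜) (A1 A2 : Fin 3 → ι → ι → 𝒜) {θ : C3} (hθ : Null θ)
    (n : ι → ι → Fnl 𝒜)
    (h : ∀ V Y, C.T A1 θ V = 0 → C.T A2 θ Y = 0 → ∑ a, ∑ b, n a b (V b * Y a) = 0)
    (Z : ι × ι → 𝒜) (hZ : C.T (endA A1 A2) θ Z = 0) : ∑ a, ∑ b, n a b (Z (a, b)) = 0 := by
  obtain ⟨g, hg⟩ := (C.T A2 θ).exists_rightInverse_of_surjective
    (LinearMap.range_eq_top.2 (C.surj ι A2 θ hθ))
  have hg' : ∀ ψ, C.T A2 θ (g ψ) = ψ := fun ψ => LinearMap.congr_fun hg ψ
  let B : Bil 𝒜 ι := ∑ a, ∑ b, pr (n a b) (LinearMap.proj b) (LinearMap.proj a)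
  have hB : ∀ V Y, B V Y = ∑ a, ∑ b, n a b (V b * Y a) := fun V Y => by
    simp [B, LinearMap.sum_apply]
  have hlam : ∀ V, C.T A1 θ V = 0 → ∀ Y, B V (g (C.T A2 θ Y)) = B V Y := fun V hV Y => by
    rw [← sub_eq_zero, ← map_sub, hB]
    exact h V _ hV (by rw [map_sub, hg', sub_self])
  have hhol : ∀ V, C.T A1 θ V = 0 → ∀ c, C.dir θ c = 0 → ∀ ψ,
      B V (g (c • ψ)) = B (c • V) (g ψ) := fun V hV c hc ψ => by
    have := hlam V hV (c • g ψ)
    rw [C.T_mul_hol A2 θ hc, hg'] at this
    rw [this, hB, hB]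
    simp [mul_left_comm, mul_assoc]
  obtain ⟨n1, M, G, hM, hG⟩ := C.gen ι A1 θ hθ
  obtain ⟨n2, M', G', hM', hG'⟩ := C.gen Unit (fun j _ _ => -∑ a, A1 j a a) θ hθ
  have hω : ∀ l (N : Matrix ι ι 𝒜), (∀ k, C.T A1 θ (fun a => N a k) = 0) →
      C.dir θ (M' l () () * N.det) = 0 := fun l N hN => by
    have h1 := C.dir_det A1 θ N hN
    have h2 := congrFun (hM' l ()) ()
    simp only [DA.T_apply, Fintype.sum_unique, neg_mul, smul_neg, sum_neg_distrib,
      Pi.zero_apply, ← smul_mul_assoc, ← sum_mul] at h2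
    have h3 : (2 : ℂ) • C.dir θ (M' l () () * N.det) = 0 := by
      rw [C.toDA.dir_mul, smul_add, ← mul_smul_comm, ← mul_smul_comm, h1]
      linear_combination N.det * h2
    exact (smul_eq_zero.1 h3).resolve_left two_ne_zero
  have hG'' : ∑ l, G' l * M' l () () = 1 := by simpa [Matrix.det_unique] using hG'
  let t : (ι × ι → 𝒜) →+ ℂ := AddMonoidHom.mk' (fun Z => ∑ i, ∑ l, ∑ k,
      B (fun a => M i a k) (g fun a => G i * G' l * (M' l () () *
        Matrix.cramer (M i) (fun b => Z (a, b)) k))) (fun Z Z' => by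
    simp only [← sum_add_distrib, ← map_add]
    refine Finset.sum_congr rfl fun i _ => Finset.sum_congr rfl fun l _ =>
      Finset.sum_congr rfl fun k _ => ?_
    congr 2
    funext a
    have : (fun b => (Z + Z') (a, b)) = (fun b => Z (a, b)) + fun b => Z' (a, b) := rfl
    rw [this, map_add]
    simp [mul_add])
  have ht : ∀ V, C.T A1 θ V = 0 → ∀ ψ : ι → 𝒜, t (fun p => V p.2 * ψ p.1) = B V (g ψ) := by
    intro V hV ψ
    have e1 : ∀ i l k, B (fun a => M i a k) (g fun a => G i * G' l * (M' l () () *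
        Matrix.cramer (M i) (fun b => V b * ψ a) k)) =
        B ((M' l () () * Matrix.cramer (M i) V k) • fun a => M i a k) (g ((G i * G' l) • ψ)) := by
      intro i l k
      rw [← hhol _ (hM i k) _ (by
        rw [Matrix.cramer_apply]
        refine hω l _ fun k' => ?_
        by_cases hk : k' = k
        · subst hk
          simpa using hV
        · simpa [Matrix.updateCol_ne hk] using hM i k')]
      congr 2
      funext a
      have : (fun b => V b * ψ a) = ψ a • V := by
        funext b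
        simp [mul_comm]
      rw [this, map_smul]
      simp only [Pi.smul_apply, smul_eq_mul]
      ring
    have e2 : ∀ i l, ∑ k, (M' l () () * Matrix.cramer (M i) V k) • (fun a => M i a k) =
        (M' l () () * (M i).det) • V := by
      intro i l
      funext a
      have := congrFun (Matrix.mulVec_cramer (M i) V) a
      simp only [Matrix.mulVec, dotProduct, Pi.smul_apply, smul_eq_mul] at this
      simp only [Finset.sum_apply, Pi.smul_apply, smul_eq_mul, mul_assoc, ← mul_sum, ← this]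
      congr 1
      exact Finset.sum_congr rfl fun k _ => mul_comm _ _
    change (∑ i, ∑ l, ∑ k, B (fun a => M i a k) (g fun a => G i * G' l * (M' l () () *
        Matrix.cramer (M i) (fun b => V b * ψ a) k))) = _
    simp only [e1, ← LinearMap.sum_apply, ← map_sum, e2]
    simp only [← hhol V hV _ (hω _ _ (hM _)), ← map_sum, smul_smul, ← sum_smul]
    congr 2
    have : ∑ i, ∑ l, M' l () () * (M i).det * (G i * G' l) =
        (∑ i, G i * (M i).det) * ∑ l, G' l * M' l () () := by
      rw [Finset.sum_mul_sum]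
      exact Finset.sum_congr rfl fun i _ => Finset.sum_congr rfl fun l _ => by ring
    rw [this, hG, hG'', one_mul, one_smul]
  have hexp : Z = ∑ i, ∑ k, fun p : ι × ι =>
      M i p.2 k * (G i * Matrix.cramer (M i) (fun b => Z (p.1, b)) k) := by
    funext p
    have := congrFun (compl_expand M G hG fun b => Z (p.1, b)) p.2
    simp only [Finset.sum_apply, Pi.smul_apply, smul_eq_mul] at this ⊢
    rw [this]
    exact Finset.sum_congr rfl fun i _ => Finset.sum_congr rfl fun k _ => mul_comm _ _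
  have h0 : t (C.T (endA A1 A2) θ Z) = 0 := by rw [hZ, map_zero]
  rw [← h0]
  conv_rhs => rw [hexp]
  conv_lhs => rw [hexp]
  simp only [map_sum, Finset.sum_apply]
  have e3 : ∀ i k, t (C.T (endA A1 A2) θ fun p : ι × ι =>
      M i p.2 k * (G i * Matrix.cramer (M i) (fun b => Z (p.1, b)) k)) =
      ∑ a, ∑ b, n a b (M i b k * (G i * Matrix.cramer (M i) (fun b => Z (a, b)) k)) := by
    intro i k
    have e4 : (C.T (endA A1 A2) θ fun p : ι × ι =>
        M i p.2 k * (G i * Matrix.cramer (M i) (fun b => Z (p.1, b)) k)) = fun p : ι × ι =>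
        M i p.2 k * C.T A2 θ (fun a => G i * Matrix.cramer (M i) (fun b => Z (a, b)) k) p.1 := by
      funext p
      have := C.T_endA A1 A2 θ (fun a => M i a k)
        (fun a => G i * Matrix.cramer (M i) (fun b => Z (a, b)) k) p
      rw [hM i k] at this
      simpa using this
    rw [e4, ht _ (hM i k), hlam _ (hM i k), hB]
  simp only [e3]
  simp only [Finset.sum_comm (s := (univ : Finset ι)) (t := (univ : Finset (Fin n1)))]
  refine Finset.sum_congr rfl fun i _ => ?_
  conv_rhs => rw [Finset.sum_comm]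
  refine Finset.sum_congr rfl fun a _ => Finset.sum_comm

end Crest.Agent.R80
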