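import Mathlib

/-!
# R80: currying smooth compactly supported functions
-/

set_option autoImplicit false

namespace Crest.Agent.R80

open scoped ContDiff BoundedContinuousFunction

/-- `BoundedContinuousFunction.ofNormedAddCommGroup`; `Continuous.bounded_above_of_compact_support` -/
theorem exists_curry {G Q F : Type} [NormedAddCommGroup G] [NormedAddCommGroup Q]
    [NormedAddCommGroup F] (H : G × Q → F) (hH : Continuous H) (hc : HasCompactSupport H) :
    ∃ H' : Q → (G →ᵇ F), ∀ q z, H' q z = H (z, q) := by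
  obtain ⟨C, hC⟩ := hH.bounded_above_of_compact_support hc
  exact ⟨fun q => BoundedContinuousFunction.ofNormedAddCommGroup (fun z => H (z, q))
    (hH.comp (continuous_id.prodMk continuous_const)) C fun z => hC _, fun _ _ => rfl⟩

theorem Curry_unif {G Q F : Type} [NormedAddCommGroup G] [NormedAddCommGroup Q]
    [NormedAddCommGroup F] {H : G × Q → F} (hH : Continuous H) (hc : HasCompactSupport H)
    {ε : ℝ} (hε : 0 < ε) : ∃ δ > 0, ∀ q q' : Q, dist q' q < δ → ∀ z, ‖H (z, q') - H (z, q)‖ ≤ ε := by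
  obtain ⟨δ, hδ, h⟩ := Metric.uniformContinuous_iff.1 (hc.uniformContinuous_of_continuous hH) ε hε
  refine ⟨δ, hδ, fun q q' hq z => ?_⟩
  rw [← dist_eq_norm]
  refine (h ?_).le
  rw [Prod.dist_eq]
  simpa [hδ] using hq

theorem Curry_cont {G Q F : Type} [NormedAddCommGroup G] [NormedAddCommGroup Q]
    [NormedAddCommGroup F] {H : G × Q → F} (hH : Continuous H) (hc : HasCompactSupport H)
    {H' : Q → (G →ᵇ F)} (h : ∀ q z, H' q z = H (z, q)) : Continuous H' := by
  refine Metric.continuous_iff.2 fun q ε hε => ?_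
  obtain ⟨δ, hδ, hb⟩ := Curry_unif hH hc (half_pos hε)
  refine ⟨δ, hδ, fun q' hq' => lt_of_le_of_lt ?_ (half_lt_self hε)⟩
  rw [BoundedContinuousFunction.dist_le (half_pos hε).le]
  intro z
  rw [dist_eq_norm, h, h]
  exact hb q q' hq' z

/-- `Λ h v z = h z v` -/
noncomputable def Curry_Λ (G Q F : Type) [NormedAddCommGroup G] [NormedAddCommGroup Q]
    [NormedSpace ℝ Q] [NormedAddCommGroup F] [NormedSpace ℝ F] :
    (G →ᵇ (Q →L[ℝ] F)) →L[ℝ] Q →L[ℝ] (G →ᵇ F) :=
  LinearMap.mkContinuous₂ (LinearMap.mk₂ ℝ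
    (fun (h : G →ᵇ (Q →L[ℝ] F)) (v : Q) =>
      (ContinuousLinearMap.apply ℝ F v).compLeftContinuousBounded G h)
    (fun h h' v => by ext z; simp) (fun c h v => by ext z; simp)
    (fun h v v' => by ext z; simp) (fun c h v => by ext z; simp)) 1
    (fun h v => by
      refine (BoundedContinuousFunction.norm_le (by positivity)).2 fun z => ?_
      show ‖h z v‖ ≤ _
      rw [one_mul]
      exact (h z).le_opNorm v |>.trans
        (mul_le_mul_of_nonneg_right (h.norm_coe_le_norm z) (norm_nonneg _)))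

theorem Curry_Λ_apply {G Q F : Type} [NormedAddCommGroup G] [NormedAddCommGroup Q]
    [NormedSpace ℝ Q] [NormedAddCommGroup F] [NormedSpace ℝ F] (h : G →ᵇ (Q →L[ℝ] F)) (v : Q)
    (z : G) : Curry_Λ G Q F h v z = h z v := rfl

theorem Curry_nat {G Q : Type} [NormedAddCommGroup G] [NormedSpace ℝ G] [NormedAddCommGroup Q]
    [NormedSpace ℝ Q] (n : ℕ) : ∀ {F : Type} [NormedAddCommGroup F] [NormedSpace ℝ F]
    (H : G × Q → F) (_ : ContDiff ℝ ∞ H) (_ : HasCompactSupport H) (H' : Q → (G →ᵇ F))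
    (_ : ∀ q z, H' q z = H (z, q)), ContDiff ℝ n H' := by
  induction n with
  | zero =>
    intro F _ _ H hH hc H' h
    exact contDiff_zero.2 (Curry_cont hH.continuous hc h)
  | succ n ih =>
    intro F _ _ H hH hc H' h
    set H1 : G × Q → (Q →L[ℝ] F) := fun p => (fderiv ℝ H p).comp (ContinuousLinearMap.inr ℝ G Q)
      with hH1
    have s1 : ContDiff ℝ ∞ H1 :=
      (hH.fderiv_right (m := ∞) (by simp)).clm_comp contDiff_const
    have c1 : HasCompactSupport H1 :=
      (hc.fderiv ℝ).comp_left (g := fun L : G × Q →L[ℝ] F => L.comp (ContinuousLinearMap.inr ℝ G Q))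
        (by simp)
    obtain ⟨H1', h1⟩ := exists_curry H1 s1.continuous c1
    have hd : ∀ z q, HasFDerivAt (fun q => H (z, q)) (H1 (z, q)) q := fun z q =>
      ((hH.differentiable (by simp)) (z, q)).hasFDerivAt.comp q (hasFDerivAt_prodMk_right z q)
    have k0 := ih H1 s1 c1 H1' h1
    have k1 := ContinuousLinearMap.contDiff (𝕜 := ℝ) (n := n) (E := G →ᵇ (Q →L[ℝ] F))
      (F := Q →L[ℝ] (G →ᵇ F)) (Curry_Λ G Q F)
    have k2 := k1.comp k0
    push_cast
    refine contDiff_succ_iff_hasFDerivAt.2 ⟨fun q => Curry_Λ G Q F (H1' q), k2, fun q => ?_⟩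
    rw [hasFDerivAt_iff_isLittleO, Asymptotics.isLittleO_iff]
    intro ε hε
    obtain ⟨δ, hδ, hb⟩ := Curry_unif s1.continuous c1 hε
    filter_upwards [Metric.ball_mem_nhds q hδ] with q' hq'
    refine (BoundedContinuousFunction.norm_le (by positivity)).2 fun z => ?_
    have := (convex_ball q δ).norm_image_sub_le_of_norm_hasFDerivWithin_le'
      (f := fun q => H (z, q)) (f' := fun q => H1 (z, q)) (φ := H1 (z, q)) (C := ε)
      (fun x _ => (hd z x).hasFDerivWithinAt) (fun x hx => hb q x hx z)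
      (Metric.mem_ball_self hδ) hq'
    simpa only [BoundedContinuousFunction.coe_sub, Pi.sub_apply, Curry_Λ_apply, h, h1] using this

/-- Prove `ContDiff ℝ (n : ℕ) H'` by induction on `n` for all `F, H, H'` (then `contDiff_infty`).  `n = 0`: uniform continuity of `H`
(`HasCompactSupport.uniformContinuous_of_continuous`).  Step: `H1 p = (fderiv ℝ H p).comp (ContinuousLinearMap.inr ℝ G Q)` is smooth with compact
support and values in `Q →L[ℝ] F`; let `H1'` be its currying and `Λ : (G →ᵇ (Q →L[ℝ] F)) →L[ℝ] Q →L[ℝ] (G →ᵇ F)`, `Λ h v z = h z v`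
(`LinearMap.mkContinuous₂`).  `HasFDerivAt H' (Λ (H1' q)) q`: by the mean value inequality on the ball around `q`
(`Convex.norm_image_sub_le_of_norm_hasFDerivWithin_le'`) and uniform continuity of `H1`,
`‖H (z, q') - H (z, q) - H1 (z, q) (q' - q)‖ ≤ ε ‖q' - q‖` uniformly in `z`.  Conclude with `contDiff_succ_iff_hasFDerivAt`. -/
theorem curry_smooth {G Q F : Type} [NormedAddCommGroup G] [NormedSpace ℝ G] [NormedAddCommGroup Q]
    [NormedSpace ℝ Q] [NormedAddCommGroup F] [NormedSpace ℝ F] (H : G × Q → F)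
    (hH : ContDiff ℝ ∞ H) (hc : HasCompactSupport H) (H' : Q → (G →ᵇ F))
    (h : ∀ q z, H' q z = H (z, q)) : ContDiff ℝ ∞ H' := by
  exact contDiff_infty.2 fun n => Curry_nat n H hH hc H' h

end Crest.Agent.R80
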