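import Crest.Agent.R80.GkB
import Crest.Agent.R80.Curry

/-!
# R80: `dbar` systems with parameters
-/

set_option autoImplicit false

namespace Crest.Agent.R80

open MeasureTheory Finset
open scoped ContDiff BoundedContinuousFunction

/-- Neumann series with parameters -/
theorem core_fix {P X : Type} [NormedAddCommGroup P] [NormedSpace ℝ P] [NormedAddCommGroup X]
    [NormedSpace ℝ X] [CompleteSpace X] {K : P → X →L[ℝ] X} {h : P → X} (hK : ContDiff ℝ ∞ K)
    (hh : ContDiff ℝ ∞ h) (hn : ∀ p, ‖K p‖ ≤ 1 / 2) :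
    ∃ U : P → X, ContDiff ℝ ∞ U ∧ (∀ p, U p = K p (U p) + h p) ∧
      (∀ p V, V = K p V + h p → V = U p) ∧ ∀ p, ‖U p‖ ≤ 2 * ‖h p‖ := by
  have hlt : ∀ p, ‖K p‖ < 1 := fun p => (hn p).trans_lt (by norm_num)
  have hKle : ∀ p V, ‖K p V‖ ≤ 1 / 2 * ‖V‖ := fun p V =>
    ((K p).le_opNorm V).trans (mul_le_mul_of_nonneg_right (hn p) (norm_nonneg _))
  have heq : ∀ p, Ring.inverse (1 - K p) (h p) = K p (Ring.inverse (1 - K p) (h p)) + h p := by
    intro p
    have hu : IsUnit (1 - K p) := (Units.oneSub (K p) (hlt p)).isUnit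
    have h1 := congrArg (fun T : X →L[ℝ] X => T (h p)) (Ring.mul_inverse_cancel _ hu)
    simp only [mul_apply_eq_comp, _root_.sub_apply,
      one_apply_eq_self] at h1
    rw [add_comm]
    exact sub_eq_iff_eq_add.1 h1
  refine ⟨fun p => Ring.inverse (1 - K p) (h p), ?_, heq, fun p V hV => ?_, fun p => ?_⟩
  · refine ContDiff.clm_apply (contDiff_iff_contDiffAt.2 fun p => ?_) hh
    have h1 : ContDiffAt ℝ ∞ (Ring.inverse : (X →L[ℝ] X) → (X →L[ℝ] X)) (1 - K p) :=
      contDiffAt_ringInverse ℝ (Units.oneSub (K p) (hlt p))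
    exact h1.comp p (contDiff_const.sub hK).contDiffAt
  · have h1 : V - Ring.inverse (1 - K p) (h p) = K p (V - Ring.inverse (1 - K p) (h p)) := by
      rw [map_sub]
      nth_rewrite 1 [hV, heq p]
      abel
    have h2 := hKle p (V - Ring.inverse (1 - K p) (h p))
    rw [← h1] at h2
    have h3 : ‖V - Ring.inverse (1 - K p) (h p)‖ ≤ 0 := by linarith
    exact sub_eq_zero.1 (norm_le_zero_iff.1 h3)
  · have h1 := norm_add_le (K p (Ring.inverse (1 - K p) (h p))) (h p)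
    rw [← heq p] at h1
    have h2 := hKle p (Ring.inverse (1 - K p) (h p))
    simp only
    linarith

/-- translates of a smooth function of compact support depend smoothly on the translation -/
theorem core_translate {Q : Type} [NormedAddCommGroup Q] [NormedSpace ℝ Q] {a : ℂ × Q → ℂ}
    (ha : ContDiff ℝ ∞ a) (hc : HasCompactSupport a) {m : ℂ → ℂ → ℂ}
    (hm : ContDiff ℝ ∞ fun p : ℂ × ℂ => m p.1 p.2) (hm1 : ∀ y z, ‖m y z‖ ≤ 1) :
    ∃ A : ℂ × Q → (ℂ →ᵇ ℂ), ContDiff ℝ ∞ A ∧ ∀ p z, A p z = m p.1 z * a (z + p.1, p.2) := by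
  obtain ⟨C, hC⟩ := ha.continuous.bounded_above_of_compact_support hc
  have hcont : ∀ p : ℂ × Q, Continuous fun z : ℂ => m p.1 z * a (z + p.1, p.2) := fun p =>
    (hm.continuous.comp (Continuous.prodMk_right p.1)).mul (ha.continuous.comp (by fun_prop))
  have hbd : ∀ (p : ℂ × Q) (z : ℂ), ‖m p.1 z * a (z + p.1, p.2)‖ ≤ C := fun p z => by
    rw [norm_mul]
    exact (mul_le_of_le_one_left (norm_nonneg _) (hm1 _ _)).trans (hC _)
  refine ⟨fun p => BoundedContinuousFunction.ofNormedAddCommGroup _ (hcont p) C (hbd p),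
    contDiff_iff_contDiffAt.2 fun p0 => ?_, fun p z => rfl⟩
  let χ : ContDiffBump p0.1 := ⟨1, 2, one_pos, one_lt_two⟩
  let H : ℂ × (ℂ × Q) → ℂ := fun r => χ r.2.1 • (m r.2.1 r.1 * a (r.1 + r.2.1, r.2.2))
  have hH : ContDiff ℝ ∞ H := by
    refine (χ.contDiff.comp (contDiff_fst.comp contDiff_snd)).smul (ContDiff.mul ?_ ?_)
    · exact hm.comp ((contDiff_fst.comp contDiff_snd).prodMk contDiff_fst)
    · exact ha.comp ((contDiff_fst.add (contDiff_fst.comp contDiff_snd)).prodMk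
        (contDiff_snd.comp contDiff_snd))
  have hHc : HasCompactSupport H := by
    have hK : IsCompact ((fun r : ℂ × (ℂ × Q) => ((r.2.1 - r.1, (r.1, r.2.2)) : ℂ × (ℂ × Q))) ''
        (tsupport χ ×ˢ tsupport a)) :=
      (χ.hasCompactSupport.isCompact.prod hc.isCompact).image (by fun_prop)
    refine HasCompactSupport.intro hK fun r hr => ?_
    by_contra hne
    have h1 : χ r.2.1 ≠ 0 := fun h => hne (by simp only [H, h, zero_smul])
    have h2 : a (r.1 + r.2.1, r.2.2) ≠ 0 := fun h => hne (by simp only [H, h, mul_zero, smul_zero])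
    exact hr ⟨(r.2.1, (r.1 + r.2.1, r.2.2)), ⟨subset_tsupport _ h1, subset_tsupport _ h2⟩, by simp⟩
  obtain ⟨H', hH'⟩ := exists_curry H hH.continuous hHc
  refine (curry_smooth H hH hHc H' hH').contDiffAt.congr_of_eventuallyEq ?_
  have h1 : ∀ᶠ p : ℂ × Q in nhds p0, χ p.1 = 1 :=
    continuous_fst.continuousAt.eventually χ.eventuallyEq_one
  filter_upwards [h1] with p hp
  ext z
  rw [hH']
  simp only [H, hp, one_smul]
  rfl

theorem core_mt_smooth (κ : ℝ) : ContDiff ℝ ∞ fun p : ℂ × ℂ => mt κ p.1 p.2 := by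
  have h1 : ContDiff ℝ ∞ fun p : ℂ × ℂ => (starRingEnd ℂ) p.1 :=
    Complex.conjCLE.contDiff.comp contDiff_fst
  have h2 : ContDiff ℝ ∞ fun p : ℂ × ℂ => (starRingEnd ℂ) p.2 :=
    Complex.conjCLE.contDiff.comp contDiff_snd
  exact (Complex.contDiff_exp (𝕜 := ℝ)).comp
    (contDiff_const.mul ((h1.mul contDiff_snd).sub (contDiff_fst.mul h2)))

theorem core_mt_zero (κ : ℝ) (z : ℂ) : mt κ 0 z = 1 := by simp [mt]

/-- the operator `U ↦ (S (∑ j, α i j * U j))ᵢ` -/
noncomputable def coreK {ι : Type} [Fintype ι] [DecidableEq ι] (S : (ℂ →ᵇ ℂ) →L[ℝ] (ℂ →ᵇ ℂ))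
    (α : ι → ι → (ℂ →ᵇ ℂ)) : (ι → (ℂ →ᵇ ℂ)) →L[ℝ] (ι → (ℂ →ᵇ ℂ)) :=
  ∑ i, ∑ j, ((ContinuousLinearMap.single ℝ (fun _ : ι => ℂ →ᵇ ℂ) i).comp S).comp
    ((ContinuousLinearMap.mul ℝ (ℂ →ᵇ ℂ) (α i j)).comp (ContinuousLinearMap.proj j))

theorem coreK_apply {ι : Type} [Fintype ι] [DecidableEq ι] (S : (ℂ →ᵇ ℂ) →L[ℝ] (ℂ →ᵇ ℂ))
    (α : ι → ι → (ℂ →ᵇ ℂ)) (U : ι → (ℂ →ᵇ ℂ)) (i : ι) :
    coreK S α U i = S (∑ j, α i j * U j) := by
  simp only [coreK, _root_.sum_apply, ContinuousLinearMap.comp_apply,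
    ContinuousLinearMap.single_apply, ContinuousLinearMap.mul_apply', ContinuousLinearMap.proj_apply,
    Finset.sum_apply, map_sum]
  rw [Finset.sum_eq_single i]
  · simp
  · intro k _ hk
    simp [Pi.single_eq_of_ne hk.symm]
  · simp

theorem coreK_smooth {P ι : Type} [NormedAddCommGroup P] [NormedSpace ℝ P] [Fintype ι]
    [DecidableEq ι] (S : (ℂ →ᵇ ℂ) →L[ℝ] (ℂ →ᵇ ℂ)) {α : ι → ι → P → (ℂ →ᵇ ℂ)}
    (hα : ∀ i j, ContDiff ℝ ∞ (α i j)) : ContDiff ℝ ∞ fun p => coreK S fun i j => α i j p := by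
  unfold coreK
  refine ContDiff.sum fun i _ => ContDiff.sum fun j _ => ?_
  exact contDiff_const.clm_comp
    ((((ContinuousLinearMap.mul ℝ (ℂ →ᵇ ℂ)).contDiff.comp (hα i j))).clm_comp contDiff_const)

theorem coreK_norm {ι : Type} [Fintype ι] [DecidableEq ι] {S : (ℂ →ᵇ ℂ) →L[ℝ] (ℂ →ᵇ ℂ)}
    {α : ι → ι → (ℂ →ᵇ ℂ)} {M e : ℝ} (hM : 0 ≤ M) (he : 0 ≤ e) (hS : ∀ f, ‖S f‖ ≤ e * ‖f‖)
    (hα : ∀ i j, ‖α i j‖ ≤ M) : ‖coreK S α‖ ≤ e * (Fintype.card ι * M) := by
  refine ContinuousLinearMap.opNorm_le_bound _ (by positivity) fun U => ?_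
  refine (pi_norm_le_iff_of_nonneg (by positivity)).2 fun i => ?_
  rw [coreK_apply, mul_assoc]
  refine (hS _).trans (mul_le_mul_of_nonneg_left ?_ he)
  refine (norm_sum_le _ _).trans ?_
  refine (Finset.sum_le_card_nsmul _ _ (M * ‖U‖) fun j _ => ?_).trans (le_of_eq ?_)
  · exact (norm_mul_le _ _).trans (mul_le_mul (hα i j) (norm_le_pi_norm U j) (norm_nonneg _) hM)
  · rw [nsmul_eq_mul, Finset.card_univ, mul_assoc]

/-- Let `𝔅 = ℂ →ᵇ ℂ`, `X = ι → 𝔅`, `ε' = min (ε / 2) (1 / (2 * (card ι * |M| + 1)))`, `κ` from `exists_gk_small`, `S` from `exists_Sop`.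
For `α : ι → ι → 𝔅` let `K α : X →L[ℂ] X`, `(K α U) i = S (∑ j, α i j * U j)`; `α ↦ K α` is a continuous linear map and `‖K α‖ ≤ 1/2` if
`‖α i j‖ ≤ M`.  For `(y0, q)` put `α (y0, q) i j z = a i j (z + y0, q)`, `γ (y0, q) i z = mt κ y0 z * g i (z + y0, q)`,
`U (y0, q) = Ring.inverse (1 - K (α (y0, q))) (fun i => S (γ (y0, q) i))`, the unique solution of `U = K α U + S γ`, `‖U‖ ≤ 2 ε' ‖γ‖`.
Smoothness of `(y0, q) ↦ α, γ` at a point: multiply by a bump in `y0` equal to `1` near the point and use `curry_smooth`, `ContDiffAt.congr_of_eventuallyEq`;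
then `contDiffAt_ringInverse ℝ`, `Units.oneSub`.  Put `u i (y0, q) = U (y0, q) i 0`.  By `gk_shift` and uniqueness
`U (y0, q) i z = mt κ y0 z * U (0, q) i (z + y0)`, so `u i (z, q) = U (0, q) i z = ∫ gk κ z y * f (z - y)` with
`f z = ∑ j, a i j (z, q) * u j (z, q) + g i (z, q)` smooth of compact support; `Sop_eq`. -/
theorem core (ι : Type) [Fintype ι] (M ε : ℝ) (hε : 0 < ε) : ∃ κ : ℝ, 0 < κ ∧
    ∀ (Q : Type) [NormedAddCommGroup Q] [NormedSpace ℝ Q] [FiniteDimensional ℝ Q]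
      (a : ι → ι → ℂ × Q → ℂ) (g : ι → ℂ × Q → ℂ),
      (∀ i j, ContDiff ℝ ∞ (a i j)) → (∀ i j, HasCompactSupport (a i j)) → (∀ i j p, ‖a i j p‖ ≤ M) →
      (∀ i, ContDiff ℝ ∞ (g i)) → (∀ i, HasCompactSupport (g i)) →
      ∃ u : ι → ℂ × Q → ℂ, (∀ i, ContDiff ℝ ∞ (u i)) ∧
        (∀ i z q, dbar (fun z => u i (z, q)) z + (κ : ℂ) / 2 * z * u i (z, q) =
          ∑ j, a i j (z, q) * u j (z, q) + g i (z, q)) ∧
        ∀ G : ℝ, (∀ i p, ‖g i p‖ ≤ G) → ∀ i p, ‖u i p‖ ≤ ε * G := by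
  classical
  set e : ℝ := min (ε / 2) (1 / (2 * (Fintype.card ι * |M| + 1))) with he
  have he0 : 0 < e := lt_min (half_pos hε) (by positivity)
  obtain ⟨κ, hκ, hgk⟩ := exists_gk_small he0
  obtain ⟨S, hSn, hS⟩ := exists_Sop hκ hgk
  refine ⟨κ, hκ, fun Q _ _ _ a g ha hac haM hg hgc => ?_⟩
  set S' : (ℂ →ᵇ ℂ) →L[ℝ] (ℂ →ᵇ ℂ) := S.restrictScalars ℝ with hS'
  have hS'a : ∀ f z, S' f z = ∫ y, gk κ z y * f (z - y) := hS
  have hS'n : ∀ f, ‖S' f‖ ≤ e * ‖f‖ := fun f =>
    (S.le_opNorm f).trans (mul_le_mul_of_nonneg_right hSn (norm_nonneg _))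
  choose α hαs hα using fun i j => core_translate (ha i j) (hac i j) (m := fun _ _ => 1)
    contDiff_const (by simp)
  choose γ hγs hγ using fun i => core_translate (hg i) (hgc i) (core_mt_smooth κ)
    fun y z => (norm_mt κ y z).le
  simp only [one_mul] at hα
  have hαn : ∀ i j p, ‖α i j p‖ ≤ |M| := fun i j p =>
    (BoundedContinuousFunction.norm_le (abs_nonneg M)).2 fun z => by
      rw [hα]; exact (haM i j _).trans (le_abs_self M)
  have hKn : ∀ p, ‖coreK S' fun i j => α i j p‖ ≤ 1 / 2 := fun p => by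
    refine (coreK_norm (abs_nonneg M) he0.le hS'n fun i j => hαn i j p).trans ?_
    have h1 : e ≤ 1 / (2 * (Fintype.card ι * |M| + 1)) := min_le_right _ _
    rw [le_div_iff₀ (by positivity)] at h1
    nlinarith
  obtain ⟨U, hUs, hUe, hUu, hUn⟩ := core_fix (coreK_smooth S' hαs)
    (h := fun p i => S' (γ i p)) (contDiff_pi.2 fun i => S'.contDiff.comp (hγs i)) hKn
  have hUi : ∀ p i z, U p i z = ∫ y, gk κ z y *
      (∑ j, a i j (z - y + p.1, p.2) * U p j (z - y) + mt κ p.1 (z - y) * g i (z - y + p.1, p.2)) := by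
    intro p i z
    have h1 := congrFun (hUe p) i
    rw [Pi.add_apply, coreK_apply, ← map_add] at h1
    rw [h1, hS'a]
    simp only [BoundedContinuousFunction.add_apply, BoundedContinuousFunction.coe_sum,
      Finset.sum_apply, BoundedContinuousFunction.mul_apply, hα, hγ]
  have hshift : ∀ (y0 : ℂ) (q : Q) i z, U (y0, q) i z = mt κ y0 z * U (0, q) i (z + y0) := by
    intro y0 q
    have hc : ∀ i, Continuous fun z => mt κ y0 z * U (0, q) i (z + y0) := fun i =>
      ((core_mt_smooth κ).continuous.comp (Continuous.prodMk_right y0)).mul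
        ((U (0, q) i).continuous.comp (by fun_prop))
    have hb : ∀ i z, ‖mt κ y0 z * U (0, q) i (z + y0)‖ ≤ ‖U (0, q) i‖ := fun i z => by
      rw [norm_mul, norm_mt, one_mul]
      exact (U (0, q) i).norm_coe_le_norm _
    let V : ι → (ℂ →ᵇ ℂ) := fun i =>
      BoundedContinuousFunction.ofNormedAddCommGroup _ (hc i) _ (hb i)
    have hV : ∀ i z, V i z = mt κ y0 z * U (0, q) i (z + y0) := fun i z => rfl
    have h1 : V = U (y0, q) := by
      refine hUu (y0, q) V (funext fun i => ?_)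
      rw [Pi.add_apply, coreK_apply, ← map_add]
      ext z
      rw [hS'a, hV, hUi, ← integral_const_mul]
      refine integral_congr_ae (Filter.Eventually.of_forall fun y => ?_)
      simp only [BoundedContinuousFunction.add_apply, BoundedContinuousFunction.coe_sum,
        Finset.sum_apply, BoundedContinuousFunction.mul_apply, hα, hγ, hV, core_mt_zero, add_zero,
        one_mul]
      rw [← mul_assoc, mul_comm (mt κ y0 z), gk_shift, show z + y0 - y = z - y + y0 by ring,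
        mul_assoc, mul_add (mt κ y0 (z - y)), Finset.mul_sum]
      congr 3
      funext j
      ring
    intro i z
    rw [← h1, hV]
  have hus : ∀ i, ContDiff ℝ ∞ fun p => U p i 0 := fun i =>
    (BoundedContinuousFunction.evalCLM ℝ (0 : ℂ) : (ℂ →ᵇ ℂ) →L[ℝ] ℂ).contDiff.comp
      (contDiff_pi.1 hUs i)
  have hu0 : ∀ (z : ℂ) (q : Q) i, U (z, q) i 0 = U (0, q) i z := fun z q i => by
    rw [hshift, mt_zero, one_mul, zero_add]
  refine ⟨fun i p => U p i 0, hus, fun i z q => ?_, fun G hG i p => ?_⟩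
  · set f : ℂ → ℂ := fun z => ∑ j, a i j (z, q) * U (z, q) j 0 + g i (z, q) with hf
    have hι : ContDiff ℝ ∞ fun z : ℂ => (z, q) := contDiff_id.prodMk contDiff_const
    have hf1 : ContDiff ℝ 1 f := by
      refine ContDiff.of_le (n := ∞) ?_ (by exact_mod_cast le_top)
      exact (ContDiff.sum fun j _ => ((ha i j).comp hι).mul ((hus j).comp hι)).add ((hg i).comp hι)
    have hsl : ∀ {b : ℂ × Q → ℂ}, HasCompactSupport b → HasCompactSupport fun z : ℂ => b (z, q) :=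
      fun {b} hb => HasCompactSupport.intro (hb.isCompact.image continuous_fst) fun z hz => by
        by_contra hne
        exact hz ⟨(z, q), subset_tsupport _ hne, rfl⟩
    have hfc : HasCompactSupport f := by
      refine HasCompactSupport.add ?_ (hsl (hgc i))
      have := HasCompactSupport.finset_sum (s := Finset.univ)
        (f := fun j => fun z : ℂ => a i j (z, q) * U (z, q) j 0)
        fun j _ => (hsl (hac i j)).mul_right
      convert this using 1
      funext z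
      simp
    have hrep : ∀ z, U (z, q) i 0 = ∫ y, gk κ z y * f (z - y) := fun z => by
      rw [hu0, hUi]
      simp only [hf, hu0, core_mt_zero, add_zero, one_mul]
    have := Sop_eq hκ f hf1 hfc z
    simp only [← hrep] at this
    exact this
  · have hG0 : 0 ≤ G := (norm_nonneg _).trans (hG i p)
    have h1 : ‖fun i => S' (γ i p)‖ ≤ e * G := by
      refine (pi_norm_le_iff_of_nonneg (by positivity)).2 fun k => (hS'n _).trans ?_
      refine mul_le_mul_of_nonneg_left ((BoundedContinuousFunction.norm_le hG0).2 fun z => ?_) he0.le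
      rw [hγ, norm_mul, norm_mt, one_mul]
      exact hG k _
    have h2 : e ≤ ε / 2 := min_le_left _ _
    refine ((U p i).norm_coe_le_norm 0).trans ((norm_le_pi_norm (U p) i).trans ((hUn p).trans ?_))
    nlinarith

end Crest.Agent.R80
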