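import Crest.Agent.R80.Core

/-!
# R80: peaked solutions and transport equations on the planes spanned by `Re θ`, `Im θ`
-/

set_option autoImplicit false

namespace Crest.Agent.R80

open MeasureTheory Finset
open scoped ContDiff

theorem c2_dbar_add {f g : ℂ → ℂ} {z : ℂ} (hf : DifferentiableAt ℝ f z) (hg : DifferentiableAt ℝ g z) :
    dbar (fun z => f z + g z) z = dbar f z + dbar g z := by
  simp only [dbar, fderiv_fun_add hf hg, _root_.add_apply]
  ring

theorem c2_dbar_mul {f g : ℂ → ℂ} {z : ℂ} (hf : DifferentiableAt ℝ f z) (hg : DifferentiableAt ℝ g z) :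
    dbar (fun z => f z * g z) z = f z * dbar g z + g z * dbar f z := by
  simp only [dbar, fderiv_fun_mul hf hg, _root_.add_apply, _root_.smul_apply, smul_eq_mul]
  ring

theorem c2_dbar_hol {f : ℂ → ℂ} {z : ℂ} (hf : DifferentiableAt ℂ f z) : dbar f z = 0 := by
  have h := (hf.hasDerivAt.hasFDerivAt.restrictScalars ℝ).fderiv
  simp only [dbar, h, ContinuousLinearMap.coe_restrictScalars', ContinuousLinearMap.toSpanSingleton_apply,
    smul_eq_mul]
  linear_combination (deriv f z / 2) * Complex.I_sq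

theorem c2_dbar_E (k b z : ℂ) :
    dbar (fun z => Complex.exp (k * (z * (starRingEnd ℂ) z - b))) z =
      k * z * Complex.exp (k * (z * (starRingEnd ℂ) z - b)) := by
  have h0 : HasFDerivAt (fun z : ℂ => (starRingEnd ℂ) z) Complex.conjCLE.toContinuousLinearMap z :=
    Complex.conjCLE.toContinuousLinearMap.hasFDerivAt
  have h1 : HasFDerivAt (fun z : ℂ => Complex.exp (k * (z * (starRingEnd ℂ) z - b))) _ z :=
    ((((hasFDerivAt_id z).fun_mul h0).sub_const b).const_mul k).cexp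
  simp only [dbar, h1.fderiv, _root_.add_apply, _root_.smul_apply, smul_eq_mul, id,
    ContinuousLinearMap.id_apply, ContinuousLinearEquiv.coe_coe, Complex.conjCLE_apply, map_one,
    Complex.conj_I]
  linear_combination (k * ((starRingEnd ℂ) z - z) *
    Complex.exp (k * (z * (starRingEnd ℂ) z - b)) / 2) * Complex.I_sq

theorem c2_norm {κ : ℝ} (hκ : 0 < κ) (z0 z : ℂ) :
    ‖Complex.exp (κ * (starRingEnd ℂ) z0 * (z - z0)) *
      Complex.exp (-(κ / 2) * (z * (starRingEnd ℂ) z - z0 * (starRingEnd ℂ) z0))‖ ≤ 1 := by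
  rw [← Complex.exp_add, Complex.norm_exp, Real.exp_le_one_iff]
  have : (κ * (starRingEnd ℂ) z0 * (z - z0) +
      -(κ / 2) * (z * (starRingEnd ℂ) z - z0 * (starRingEnd ℂ) z0)).re =
      -(κ / 2 * ((z.re - z0.re) ^ 2 + (z.im - z0.im) ^ 2)) := by
    simp
    ring
  rw [this, neg_nonpos]
  positivity

/-- Let `M ≥ 0` bound all `a i j`, take `κ` from `core` with `ε₁ = ε / (card ι * M * ‖c‖ + 1)`.  Put `E z = exp (κ/2 (z z̄ - z0 z̄0))`,
`h z = exp (κ z̄0 (z - z0)) / E z` (`‖h z‖ = exp (-κ ‖z - z0‖² / 2) ≤ 1`, `h z0 = E z0 = 1`),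
`g' i = ∑ j, a i j * h * c j + g i / E`, `u i = E * (h * c i + u' i)`; `dbar E = κ/2 z E`, `E * h` is holomorphic. -/
theorem core2 (ι : Type) [Fintype ι] (Q : Type) [NormedAddCommGroup Q] [NormedSpace ℝ Q]
    [FiniteDimensional ℝ Q] (a : ι → ι → ℂ × Q → ℂ) (g : ι → ℂ × Q → ℂ)
    (ha : ∀ i j, ContDiff ℝ ∞ (a i j)) (hac : ∀ i j, HasCompactSupport (a i j))
    (hg : ∀ i, ContDiff ℝ ∞ (g i)) (hgc : ∀ i, HasCompactSupport (g i)) (z0 : ℂ) (c : ι → ℂ) (ε : ℝ)
    (hε : 0 < ε) : ∃ u : ι → ℂ × Q → ℂ, (∀ i, ContDiff ℝ ∞ (u i)) ∧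
      (∀ i z q, dbar (fun z => u i (z, q)) z = ∑ j, a i j (z, q) * u j (z, q) + g i (z, q)) ∧
      ((∀ i p, g i p = 0) → ∀ i q, ‖u i (z0, q) - c i‖ ≤ ε) := by
  obtain ⟨M, hM0, hM⟩ : ∃ M : ℝ, 0 ≤ M ∧ ∀ i j p, ‖a i j p‖ ≤ M := by
    choose C hC using fun i j => (ha i j).continuous.bounded_above_of_compact_support (hac i j)
    refine ⟨∑ i, ∑ j, |C i j|, by positivity, fun i j p => (hC i j p).trans ((le_abs_self _).trans ?_)⟩
    exact (Finset.single_le_sum (f := fun j => |C i j|) (fun _ _ => abs_nonneg _)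
      (Finset.mem_univ j)).trans (Finset.single_le_sum (f := fun i => ∑ j, |C i j|)
        (fun _ _ => by positivity) (Finset.mem_univ i))
  have hG0 : 0 ≤ Fintype.card ι * (M * ‖c‖) := by positivity
  obtain ⟨κ, hκ, H⟩ := core ι M (ε / (Fintype.card ι * (M * ‖c‖) + 1)) (by positivity)
  have hE : ∀ k : ℂ, ContDiff ℝ ∞ fun z : ℂ =>
      Complex.exp (k * (z * (starRingEnd ℂ) z - z0 * (starRingEnd ℂ) z0)) := fun k =>
    (Complex.contDiff_exp (𝕜 := ℝ)).comp
      (contDiff_const.mul ((contDiff_id.mul Complex.conjCLE.contDiff).sub contDiff_const))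
  have hH : ContDiff ℝ ∞ fun z : ℂ => Complex.exp (κ * (starRingEnd ℂ) z0 * (z - z0)) :=
    (Complex.contDiff_exp (𝕜 := ℝ)).comp (contDiff_const.mul (contDiff_id.sub contDiff_const))
  have hH' : Differentiable ℂ fun z : ℂ => Complex.exp (κ * (starRingEnd ℂ) z0 * (z - z0)) := by
    fun_prop
  have hn := c2_norm hκ z0
  have hd := c2_dbar_E (κ / 2) (z0 * (starRingEnd ℂ) z0)
  have hE1 := hE (κ / 2)
  have hE2 := hE (-(κ / 2))
  have hEE : ∀ z : ℂ, Complex.exp (κ / 2 * (z * (starRingEnd ℂ) z - z0 * (starRingEnd ℂ) z0)) *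
      Complex.exp (-(κ / 2) * (z * (starRingEnd ℂ) z - z0 * (starRingEnd ℂ) z0)) = 1 := fun z => by
    rw [← Complex.exp_add, neg_mul, add_neg_cancel, Complex.exp_zero]
  obtain ⟨E, hEd⟩ : ∃ E : ℂ → ℂ, E = fun z =>
    Complex.exp (κ / 2 * (z * (starRingEnd ℂ) z - z0 * (starRingEnd ℂ) z0)) := ⟨_, rfl⟩
  obtain ⟨E', hEd'⟩ : ∃ E' : ℂ → ℂ, E' = fun z =>
    Complex.exp (-(κ / 2) * (z * (starRingEnd ℂ) z - z0 * (starRingEnd ℂ) z0)) := ⟨_, rfl⟩
  obtain ⟨h, hh⟩ : ∃ h : ℂ → ℂ, h = fun z => Complex.exp (κ * (starRingEnd ℂ) z0 * (z - z0)) :=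
    ⟨_, rfl⟩
  have hE0 : E z0 = 1 := by simp [hEd]
  have hh0 : h z0 = 1 := by simp [hh]
  replace hn : ∀ z, ‖h z * E' z‖ ≤ 1 := by rw [hh, hEd']; exact hn
  replace hd : ∀ z, dbar E z = κ / 2 * z * E z := by rw [hEd]; exact hd
  replace hEE : ∀ z, E z * E' z = 1 := by rw [hEd, hEd']; exact hEE
  rw [← hEd] at hE1
  rw [← hEd'] at hE2
  rw [← hh] at hH hH'
  clear hEd hEd' hh hE
  obtain ⟨u, hu, hu1, hu2⟩ := H Q a
    (fun i p => ∑ j, a i j p * (h p.1 * E' p.1 * c j) + g i p * E' p.1) ha hac hM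
    (fun i => (ContDiff.sum fun j _ => (ha i j).mul (((hH.comp contDiff_fst).mul
      (hE2.comp contDiff_fst)).mul contDiff_const)).add ((hg i).mul (hE2.comp contDiff_fst)))
    (fun i => by
      refine HasCompactSupport.add ?_ (hgc i).mul_right
      have := HasCompactSupport.finset_sum (s := Finset.univ)
        (f := fun j => fun p : ℂ × Q => a i j p * (h p.1 * E' p.1 * c j))
        fun j _ => (hac i j).mul_right
      convert this using 1
      funext z
      simp)
  refine ⟨fun i p => h p.1 * c i + E p.1 * u i p, fun i => ((hH.comp contDiff_fst).mul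
    contDiff_const).add ((hE1.comp contDiff_fst).mul (hu i)), fun i z q => ?_, fun h0 i q => ?_⟩
  · have d1 : DifferentiableAt ℂ (fun z => h z * c i) z := (hH' z).mul_const _
    have d2 : DifferentiableAt ℝ E z := hE1.differentiable (by simp) z
    have d3 : DifferentiableAt ℝ (fun z => u i (z, q)) z :=
      ((hu i).comp (contDiff_id.prodMk contDiff_const)).differentiable (by simp) z
    have e1 := hu1 i z q
    have e2 : E z * ∑ j, a i j (z, q) * (h z * E' z * c j) = ∑ j, a i j (z, q) * (h z * c j) := by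
      rw [Finset.mul_sum]
      refine Finset.sum_congr rfl fun j _ => ?_
      linear_combination (a i j (z, q) * (h z * c j)) * hEE z
    have e3 : E z * ∑ j, a i j (z, q) * u j (z, q) = ∑ j, a i j (z, q) * (E z * u j (z, q)) := by
      rw [Finset.mul_sum]
      exact Finset.sum_congr rfl fun j _ => by ring
    simp only [mul_add, Finset.sum_add_distrib]
    rw [c2_dbar_add (d1.restrictScalars ℝ) (d2.fun_mul d3), c2_dbar_hol d1, c2_dbar_mul d2 d3, hd]
    linear_combination E z * e1 + e2 + e3 + g i (z, q) * hEE z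
  · have h1 := hu2 (Fintype.card ι * (M * ‖c‖)) (fun i p => by
      rw [h0, zero_mul, add_zero]
      refine (norm_sum_le _ _).trans ((Finset.sum_le_card_nsmul _ _ (M * ‖c‖) fun j _ => ?_).trans
        (by rw [nsmul_eq_mul, Finset.card_univ]))
      rw [norm_mul, norm_mul]
      exact mul_le_mul (hM i j p) ((mul_le_of_le_one_left (norm_nonneg _) (hn _)).trans
        (norm_le_pi_norm c j)) (by positivity) hM0) i (z0, q)
    simp only [hh0, hE0, one_mul, add_sub_cancel_left]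
    refine h1.trans ?_
    rw [div_mul_eq_mul_div, div_le_iff₀ (by positivity)]
    nlinarith

end Crest.Agent.R80
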