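import Mathlib

/-!
# R80 (S0107, Calderón problem for isotropic elasticity): abstract definitions.  DO NOT CHANGE (owner helper71).

Overview.  `𝒜` is a commutative differential algebra (smooth functions on a ball).  The substitution
`u = w + m ∇f - f ∇m` (`m = 1/μ`) reduces the Lamé system to a `4 × 4` system `P V = 0`, `V = (w, f)`, with principal
part `Δ`.  The bilinear form `b (V, Y) = ∫_Ω (σ₂ - σ₁)(u) : ∇v` vanishes on pairs of solutions.  Testing with CGO solutions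
and inducting on the order one finds a first order operator `T` (coefficients: linear functionals) with
`b (V, Y) = ⟨T V, P₂ Y⟩` for all solutions `V` and all `Y`.  Constants, rotations and the kernel of `V ↦ u` force `T = 0`.
-/

set_option autoImplicit false

namespace Crest.Agent.R80

open Finset Filter Asymptotics

abbrev C3 : Type := Fin 3 → ℂ

/-- nonzero null vectors -/
def Null (θ : C3) : Prop := ∑ j, θ j ^ 2 = 0 ∧ θ ≠ 0

/-- parametrisation of the null cone -/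
noncomputable def th (s : ℂ) : C3 := ![(s ^ 2 - 1) / 2, -(Complex.I * (s ^ 2 + 1)) / 2, s]

/-- second chart: `th s = s ^ 2 • th' s⁻¹` -/
noncomputable def th' (r : ℂ) : C3 := ![(1 - r ^ 2) / 2, -(Complex.I * (1 + r ^ 2)) / 2, r]

theorem null_th (s : ℂ) : Null (th s) := by
  refine ⟨?_, fun h => ?_⟩
  · simp only [th, Fin.sum_univ_three, Matrix.cons_val_zero, Matrix.cons_val_one, Matrix.cons_val]
    linear_combination ((s ^ 2 + 1) ^ 2 / 4) * Complex.I_sq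
  · have h0 := congrFun h 0
    have h2 := congrFun h 2
    simp only [th, Matrix.cons_val_zero, Matrix.cons_val, Pi.zero_apply] at h0 h2
    rw [h2] at h0
    norm_num at h0

theorem null_th' (r : ℂ) : Null (th' r) := by
  refine ⟨?_, fun h => ?_⟩
  · simp only [th', Fin.sum_univ_three, Matrix.cons_val_zero, Matrix.cons_val_one, Matrix.cons_val]
    linear_combination ((r ^ 2 + 1) ^ 2 / 4) * Complex.I_sq
  · have h0 := congrFun h 0
    have h2 := congrFun h 2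
    simp only [th', Matrix.cons_val_zero, Matrix.cons_val, Pi.zero_apply] at h0 h2
    rw [h2] at h0
    norm_num at h0

theorem th_eq_smul {s : ℂ} (hs : s ≠ 0) : th s = s ^ 2 • th' s⁻¹ := by
  funext j
  fin_cases j <;> simp [th, th'] <;> field_simp

theorem Null.neg {θ : C3} (h : Null θ) : Null (-θ) :=
  ⟨by simpa using h.1, neg_ne_zero.2 h.2⟩

/-- the large parameter -/
noncomputable def w (n : ℕ) : ℂ := (n : ℂ) + 1

theorem w_ne_zero (n : ℕ) : w n ≠ 0 := Nat.cast_add_one_ne_zero n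

/-- Laurent polynomials in `w n` of degree at most `d` with coefficients in `M` -/
noncomputable def Deg (M : Type) [AddCommGroup M] [Module ℂ M] (d : ℤ) : Submodule ℂ (ℕ → M) :=
  Submodule.span ℂ {F | ∃ j : ℤ, j ≤ d ∧ ∃ m : M, F = fun n => w n ^ j • m}

/-- `f = O (w ^ c)` -/
def Bd (c : ℤ) (f : ℕ → ℂ) : Prop := f =O[atTop] fun n => w n ^ c

/-- coefficients of a system `Δ + ∑ A j ∂ⱼ + Q` -/
structure Sys (𝒜 ι : Type) where
  A : Fin 3 → ι → ι → 𝒜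
  Q : ι → ι → 𝒜

/-- Lamé moduli with `m = 1 / μ`, `p = 1 / (λ m + 2)` -/
structure Lame (𝒜 : Type) [CommRing 𝒜] where
  lam : 𝒜
  mu : 𝒜
  m : 𝒜
  p : 𝒜
  mu_m : mu * m = 1
  p_mul : p * (lam * m + 2) = 1

/-- three commuting derivations -/
structure DA (𝒜 : Type) [CommRing 𝒜] [Algebra ℂ 𝒜] where
  d : Fin 3 → Derivation ℂ 𝒜 𝒜
  comm : ∀ i j f, d i (d j f) = d j (d i f)

/-- linear functionals -/
abbrev Fnl (𝒜 : Type) [CommRing 𝒜] [Algebra ℂ 𝒜] : Type := 𝒜 →ₗ[ℂ] ℂ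

/-- bilinear forms in `(V, Y)` -/
abbrev Bil (𝒜 : Type) [CommRing 𝒜] [Algebra ℂ 𝒜] (ι : Type) : Type :=
  (ι → 𝒜) →ₗ[ℂ] (ι → 𝒜) →ₗ[ℂ] ℂ

/-- index set of the reduced system: `some i` for `wᵢ`, `none` for `f` -/
abbrev I4 : Type := Option (Fin 3)

section

variable {𝒜 : Type} [CommRing 𝒜] [Algebra ℂ 𝒜] {ι : Type}

/-- `(V, Y) ↦ n (X V * X' Y)` -/
noncomputable def pr (n : Fnl 𝒜) (X X' : (ι → 𝒜) →ₗ[ℂ] 𝒜) : Bil 𝒜 ι :=
  ((LinearMap.mul ℂ 𝒜).compl₁₂ X X').compr₂ n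

@[simp] theorem pr_apply (n : Fnl 𝒜) (X X' : (ι → 𝒜) →ₗ[ℂ] 𝒜) (V Y : ι → 𝒜) :
    pr n X X' V Y = n (X V * X' Y) := rfl

/-- `θ · u` -/
noncomputable def dot (θ : C3) (u : Fin 3 → 𝒜) : 𝒜 := ∑ i, θ i • u i

/-- coefficients of the transport equation for products `Z (a, b) = V b * Y a` -/
def endA [DecidableEq ι] (A1 A2 : Fin 3 → ι → ι → 𝒜) : Fin 3 → ι × ι → ι × ι → 𝒜 :=
  fun j p q => (if p.2 = q.2 then A2 j p.1 q.1 else 0) + if p.1 = q.1 then A1 j p.2 q.2 else 0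

namespace DA

variable (D : DA 𝒜)

theorem d_mul (j : Fin 3) (f g : 𝒜) : D.d j (f * g) = f * D.d j g + g * D.d j f := by
  simp [Derivation.leibniz]

/-- `θ · ∇` -/
noncomputable def dir (θ : C3) : 𝒜 →ₗ[ℂ] 𝒜 := ∑ j, θ j • (D.d j : 𝒜 →ₗ[ℂ] 𝒜)

theorem dir_apply (θ : C3) (f : 𝒜) : D.dir θ f = ∑ j, θ j • D.d j f := by
  simp [dir, LinearMap.sum_apply]

/-- the Laplacian -/
noncomputable def lap : 𝒜 →ₗ[ℂ] 𝒜 := ∑ j, (D.d j : 𝒜 →ₗ[ℂ] 𝒜) ∘ₗ (D.d j : 𝒜 →ₗ[ℂ] 𝒜)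

theorem lap_apply (f : 𝒜) : D.lap f = ∑ j, D.d j (D.d j f) := by
  simp [lap, LinearMap.sum_apply]

/-- iterated derivative along a word -/
noncomputable def dw : List (Fin 3) → 𝒜 →ₗ[ℂ] 𝒜
  | [] => LinearMap.id
  | j :: α => (D.d j : 𝒜 →ₗ[ℂ] 𝒜) ∘ₗ dw α

/-- `∂₀ + i ∂₁`, symbol `s ^ 2` at `th s` -/
noncomputable def D0 : Module.End ℂ 𝒜 :=
  (D.d 0 : 𝒜 →ₗ[ℂ] 𝒜) + Complex.I • (D.d 1 : 𝒜 →ₗ[ℂ] 𝒜)

/-- `∂₂`, symbol `s` at `th s` -/
noncomputable def D1 : Module.End ℂ 𝒜 := (D.d 2 : 𝒜 →ₗ[ℂ] 𝒜)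

/-- `-∂₀ + i ∂₁`, symbol `1` at `th s`; `Δ = D1 ^ 2 - D0 * D2` -/
noncomputable def D2 : Module.End ℂ 𝒜 :=
  -(D.d 0 : 𝒜 →ₗ[ℂ] 𝒜) + Complex.I • (D.d 1 : 𝒜 →ₗ[ℂ] 𝒜)

/-- normal form monomials of order `k` (`i ≤ 2 k`), symbol `s ^ i` at `th s` -/
noncomputable def N (k i : ℕ) : Module.End ℂ 𝒜 :=
  D.D0 ^ (i / 2) * D.D1 ^ (i % 2) * D.D2 ^ (k - i / 2 - i % 2)

variable [Fintype ι]

/-- `Δ + ∑ A j ∂ⱼ + Q` -/
noncomputable def P (S : Sys 𝒜 ι) : (ι → 𝒜) →ₗ[ℂ] (ι → 𝒜) where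
  toFun V a := D.lap (V a) + ∑ j, ∑ b, S.A j a b * D.d j (V b) + ∑ b, S.Q a b * V b
  map_add' V W := by
    funext a
    simp only [Pi.add_apply, map_add, mul_add, sum_add_distrib]
    ring
  map_smul' c V := by
    funext a
    simp only [Pi.smul_apply, map_smul, Derivation.map_smul, mul_smul_comm, RingHom.id_apply,
      smul_add, smul_sum]

theorem P_apply (S : Sys 𝒜 ι) (V : ι → 𝒜) (a : ι) :
    D.P S V a = D.lap (V a) + ∑ j, ∑ b, S.A j a b * D.d j (V b) + ∑ b, S.Q a b * V b := rfl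

/-- transport operator `2 θ · ∇ + ∑ θⱼ A j` -/
noncomputable def T (A : Fin 3 → ι → ι → 𝒜) (θ : C3) : (ι → 𝒜) →ₗ[ℂ] (ι → 𝒜) where
  toFun V a := (2 : ℂ) • D.dir θ (V a) + ∑ j, ∑ b, θ j • (A j a b * V b)
  map_add' V W := by
    funext a
    simp only [Pi.add_apply, map_add, mul_add, smul_add, sum_add_distrib]
    ring
  map_smul' c V := by
    funext a
    simp only [Pi.smul_apply, map_smul, mul_smul_comm, RingHom.id_apply, smul_add, smul_sum,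
      smul_comm c]

theorem T_apply (A : Fin 3 → ι → ι → 𝒜) (θ : C3) (V : ι → 𝒜) (a : ι) :
    D.T A θ V a = (2 : ℂ) • D.dir θ (V a) + ∑ j, ∑ b, θ j • (A j a b * V b) := rfl

/-- the transposed system -/
noncomputable def tr (S : Sys 𝒜 ι) : Sys 𝒜 ι where
  A j a b := -S.A j b a
  Q a b := S.Q b a - ∑ j, D.d j (S.A j b a)

/-- `V` is an approximate solution of `P + w T` with leading order `0` and error of order `-N` -/
def App (S : Sys 𝒜 ι) (θ : C3) (N : ℕ) (V : ℕ → ι → 𝒜) : Prop :=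
  V ∈ Deg (ι → 𝒜) 0 ∧
    (fun n => D.P S (V n) + w n • D.T S.A θ (V n)) ∈ Deg (ι → 𝒜) (-(N : ℤ))

omit [Fintype ι] in
/-- differential expressions of order `< k` -/
noncomputable def Op (ι : Type) (k : ℕ) : Submodule 𝒜 ((ι → 𝒜) →ₗ[ℂ] 𝒜) :=
  Submodule.span 𝒜 {X | ∃ (α : List (Fin 3)) (b : ι), α.length < k ∧
    X = D.dw α ∘ₗ LinearMap.proj b}

/-- bilinear form in normal form of pure order `k` -/
noncomputable def nf (k : ℕ) (n : ℕ → ι → ι → Fnl 𝒜) : Bil 𝒜 ι :=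
  ∑ i ∈ range (2 * k + 1), ∑ a, ∑ b,
    pr (n i a b) (D.N k i ∘ₗ LinearMap.proj b) (LinearMap.proj a)

/-- the first order form `⟨T V, ψ⟩` -/
noncomputable def tf (T1 : Fin 3 → ι → ι → Fnl 𝒜) (T0 : ι → ι → Fnl 𝒜) (V ψ : ι → 𝒜) : ℂ :=
  ∑ j, ∑ a, ∑ b, T1 j a b (D.d j (V b) * ψ a) + ∑ a, ∑ b, T0 a b (V b * ψ a)

/-! ### elasticity -/

/-- divergence -/
noncomputable def div (u : Fin 3 → 𝒜) : 𝒜 := ∑ i, D.d i (u i)

/-- twice the strain -/
noncomputable def str (u : Fin 3 → 𝒜) (i j : Fin 3) : 𝒜 := D.d i (u j) + D.d j (u i)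

/-- the Lamé operator -/
noncomputable def lame (L : Lame 𝒜) (u : Fin 3 → 𝒜) (i : Fin 3) : 𝒜 :=
  D.d i (L.lam * D.div u) + ∑ j, D.d j (L.mu * D.str u i j)

/-- twice the density of the difference of the energy forms -/
noncomputable def den (L1 L2 : Lame 𝒜) (u v : Fin 3 → 𝒜) : 𝒜 :=
  2 * (L2.lam - L1.lam) * (D.div u * D.div v) +
    (L2.mu - L1.mu) * ∑ i, ∑ j, D.str u i j * D.str v i j

/-- `u = w + m ∇f - f ∇m` -/
noncomputable def R (L : Lame 𝒜) (V : I4 → 𝒜) (i : Fin 3) : 𝒜 :=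
  V (some i) + L.m * D.d i (V none) - V none * D.d i L.m

/-- the reduced system -/
noncomputable def sys (L : Lame 𝒜) : Sys 𝒜 I4 where
  A j a b :=
    match a, b with
    | some i, some k => L.m * ((if i = k then D.d j L.mu else 0) + (if i = j then D.d k L.mu else 0) -
        if j = k then D.d i L.mu else 0)
    | some i, none => -2 * D.d i (D.d j L.m)
    | none, some k => if j = k then L.p * (L.lam + L.mu) else 0
    | none, none => 0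
  Q a b :=
    match a, b with
    | some _, some _ => 0
    | some i, none => -2 * L.m * ∑ j, D.d j (L.mu * D.d i (D.d j L.m))
    | none, some _ => 0
    | none, none => -(L.p * L.lam * D.lap L.m)

/-- the scalar equation satisfied by `f` when `R V = 0` -/
noncomputable def sysK (L : Lame 𝒜) : Sys 𝒜 Unit where
  A _ _ _ := 0
  Q _ _ := L.mu * D.lap L.m

/-- the element of the kernel of `R` with last component `f` -/
noncomputable def ker (L : Lame 𝒜) (f : 𝒜) : I4 → 𝒜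
  | some i => f * D.d i L.m - L.m * D.d i f
  | none => f

/-- `a = w + 2 m ∇f` -/
noncomputable def av (L : Lame 𝒜) (V : I4 → 𝒜) (i : Fin 3) : 𝒜 :=
  V (some i) + 2 * L.m * D.d i (V none)

/-- `e^{-ζ x} div (R (e^{ζ x} V))` for null `ζ` -/
noncomputable def divT (L : Lame 𝒜) (ζ : C3) (V : I4 → 𝒜) : 𝒜 :=
  D.div (D.R L V) + dot ζ (D.av L V)

/-- `e^{-ζ x} str (R (e^{ζ x} V))` -/
noncomputable def strT (L : Lame 𝒜) (ζ : C3) (V : I4 → 𝒜) (i j : Fin 3) : 𝒜 :=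
  D.str (D.R L V) i j + ζ i • D.av L V j + ζ j • D.av L V i + (2 * ζ i * ζ j) • (L.m * V none)

/-- density of the quadratic part of the twisted form -/
noncomputable def den2 (L1 L2 : Lame 𝒜) (θ : C3) (V Y : I4 → 𝒜) : 𝒜 :=
  -2 * (L2.lam - L1.lam + (L2.mu - L1.mu)) * (dot θ (D.av L1 V) * dot θ (D.av L2 Y)) +
    4 * (L2.mu - L1.mu) * (L2.m * Y none * D.dir θ (dot θ (D.R L1 V)) +
      L1.m * V none * D.dir θ (dot θ (D.R L2 Y)))

theorem div_add (u v : Fin 3 → 𝒜) : D.div (u + v) = D.div u + D.div v := by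
  simp [div, sum_add_distrib]

theorem div_smul (c : ℂ) (u : Fin 3 → 𝒜) : D.div (c • u) = c • D.div u := by
  simp [div, smul_sum]

theorem str_add (u v : Fin 3 → 𝒜) (i j : Fin 3) :
    D.str (u + v) i j = D.str u i j + D.str v i j := by
  simp only [str, Pi.add_apply, map_add]
  ring

theorem str_smul (c : ℂ) (u : Fin 3 → 𝒜) (i j : Fin 3) : D.str (c • u) i j = c • D.str u i j := by
  simp [str]

theorem R_add (L : Lame 𝒜) (V W : I4 → 𝒜) : D.R L (V + W) = D.R L V + D.R L W := by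
  funext i
  simp only [R, Pi.add_apply, map_add]
  ring

theorem R_smul (L : Lame 𝒜) (c : ℂ) (V : I4 → 𝒜) : D.R L (c • V) = c • D.R L V := by
  funext i
  simp [R, smul_sub]

theorem den_add_left (L1 L2 : Lame 𝒜) (u u' v : Fin 3 → 𝒜) :
    D.den L1 L2 (u + u') v = D.den L1 L2 u v + D.den L1 L2 u' v := by
  simp only [den, div_add, str_add, add_mul, sum_add_distrib]
  ring

theorem den_add_right (L1 L2 : Lame 𝒜) (u v v' : Fin 3 → 𝒜) :
    D.den L1 L2 u (v + v') = D.den L1 L2 u v + D.den L1 L2 u v' := by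
  simp only [den, div_add, str_add, mul_add, sum_add_distrib]
  ring

theorem den_smul_left (L1 L2 : Lame 𝒜) (c : ℂ) (u v : Fin 3 → 𝒜) :
    D.den L1 L2 (c • u) v = c • D.den L1 L2 u v := by
  simp only [den, div_smul, str_smul, smul_mul_assoc, ← smul_sum, mul_smul_comm, smul_add]

theorem den_smul_right (L1 L2 : Lame 𝒜) (c : ℂ) (u v : Fin 3 → 𝒜) :
    D.den L1 L2 u (c • v) = c • D.den L1 L2 u v := by
  simp only [den, div_smul, str_smul, mul_smul_comm, ← smul_sum, smul_add]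

/-- the form `b` -/
noncomputable def bf (I : Fnl 𝒜) (L1 L2 : Lame 𝒜) : Bil 𝒜 I4 :=
  LinearMap.mk₂ ℂ (fun V Y => I (D.den L1 L2 (D.R L1 V) (D.R L2 Y)))
    (fun V V' Y => by rw [R_add, den_add_left, map_add])
    (fun c V Y => by rw [R_smul, den_smul_left, map_smul])
    (fun V Y Y' => by rw [R_add, den_add_right, map_add])
    (fun c V Y => by rw [R_smul, den_smul_right, map_smul])

theorem bf_apply (I : Fnl 𝒜) (L1 L2 : Lame 𝒜) (V Y : I4 → 𝒜) :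
    D.bf I L1 L2 V Y = I (D.den L1 L2 (D.R L1 V) (D.R L2 Y)) := rfl

end DA

end

/-- a differential algebra with exponentials -/
structure EA (𝒜 : Type) [CommRing 𝒜] [Algebra ℂ 𝒜] extends DA 𝒜 where
  ex : C3 → 𝒜
  ex_neg : ∀ ζ, ex ζ * ex (-ζ) = 1
  d_ex : ∀ ζ j, d j (ex ζ) = ζ j • ex ζ

/-- all the analytic input -/
structure Ctx (𝒜 : Type) [CommRing 𝒜] [Algebra ℂ 𝒜] extends EA 𝒜 where
  x : Fin 3 → 𝒜
  d_x : ∀ i j, d i (x j) = if i = j then 1 else 0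
  Good : Submodule ℂ (Fnl 𝒜)
  good_mul : ∀ n ∈ Good, ∀ a : 𝒜, n ∘ₗ LinearMap.mulLeft ℂ a ∈ Good
  good_d : ∀ n ∈ Good, ∀ j, n ∘ₗ (d j : 𝒜 →ₗ[ℂ] 𝒜) ∈ Good
  nrm : Seminorm ℂ 𝒜
  nrm_mul : ∀ f g, nrm (f * g) ≤ nrm f * nrm g
  /-- the transport equation is solvable -/
  surj : ∀ (ι : Type) [Fintype ι] (A : Fin 3 → ι → ι → 𝒜) (θ : C3), Null θ →
    Function.Surjective (toDA.T A θ)
  /-- enough solutions of the homogeneous transport equation -/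
  gen : ∀ (ι : Type) [Fintype ι] [DecidableEq ι] (A : Fin 3 → ι → ι → 𝒜) (θ : C3), Null θ →
    ∃ (n : ℕ) (C : Fin n → Matrix ι ι 𝒜) (G : Fin n → 𝒜),
      (∀ i k, toDA.T A θ (fun a => C i a k) = 0) ∧ ∑ i, G i * (C i).det = 1
  /-- holomorphic dependence on the null vector and Liouville's theorem -/
  hol : ∀ (ι : Type) [Fintype ι] (A : Fin 3 → ι → ι → 𝒜) (k : ℕ) (n : ℕ → ι → Fnl 𝒜),
    (∀ i a, n i a ∈ Good) →
    (∀ s Z, toDA.T A (th s) Z = 0 → ∑ i ∈ range (2 * k + 1), s ^ i * ∑ a, n i a (Z a) = 0) →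
    ∃ t : ℕ → ι → Fnl 𝒜, (∀ i a, t i a ∈ Good) ∧
      ∀ s Z, ∑ i ∈ range (2 * k + 1), s ^ i * ∑ a, n i a (Z a) =
        ∑ i ∈ range (2 * k - 1), s ^ i * ∑ a, t i a (toDA.T A (th s) Z a)
  /-- exact solutions with polynomial bounds -/
  cgo : ∀ (ι : Type) [Fintype ι] (S : Sys 𝒜 ι) (θ : C3), Null θ → ∃ K n0 : ℕ, ∀ E : ι → 𝒜,
    ∃ C : ℝ, ∀ n, n0 ≤ n → ∃ r : ι → 𝒜, toDA.P S r + w n • toDA.T S.A θ r = E ∧
      ∀ b i j, nrm (r b) ≤ C * ((n : ℝ) + 1) ^ K ∧ nrm (d i (r b)) ≤ C * ((n : ℝ) + 1) ^ K ∧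
        nrm (d i (d j (r b))) ≤ C * ((n : ℝ) + 1) ^ K

section

variable {𝒜 : Type} [CommRing 𝒜] [Algebra ℂ 𝒜] {ι : Type}

/-- multiplication by `e^{ζ x}` -/
def EA.tw (X : EA 𝒜) (ζ : C3) (V : ι → 𝒜) : ι → 𝒜 := fun a => X.ex ζ * V a

/-- twisted evaluation of a bilinear form on two families -/
noncomputable def EA.ev (X : EA 𝒜) (β : Bil 𝒜 ι) (θ : C3) (V Y : ℕ → ι → 𝒜) : ℕ → ℂ :=
  fun n => β (X.tw (w n • θ) (V n)) (X.tw (-(w n • θ)) (Y n))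

/-- forms `∑ n (X V * Y a)` with good functionals `n` and `X` of order `< k` -/
noncomputable def Ctx.F (C : Ctx 𝒜) (ι : Type) (k : ℕ) : Submodule ℂ (Bil 𝒜 ι) :=
  Submodule.span ℂ {β | ∃ n ∈ C.Good, ∃ X ∈ C.Op ι k, ∃ a, β = pr n X (LinearMap.proj a)}

variable [Fintype ι]

/-- `β` has order `< k` modulo forms `κ (P V, Y)` -/
def Ctx.FN (C : Ctx 𝒜) (S : Sys 𝒜 ι) (k : ℕ) (β : Bil 𝒜 ι) : Prop :=
  ∃ β' ∈ C.F ι k, ∃ j : ℕ, ∃ κ ∈ C.F ι j, β = β' + κ ∘ₗ C.P S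

/-- `β` is `O (w ^ k)` on approximate solutions `V` and fixed `Y` -/
def EA.Ord (X : EA 𝒜) (S : Sys 𝒜 ι) (k : ℤ) (β : Bil 𝒜 ι) : Prop :=
  ∀ s, ∃ N : ℕ, ∀ V, X.App S (th s) N V → ∀ Y : ι → 𝒜, Bd k (X.ev β (th s) V fun _ => Y)

/-- `β` is negligible on pairs of approximate solutions -/
def EA.Van (X : EA 𝒜) (S1 S2 : Sys 𝒜 ι) (β : Bil 𝒜 ι) : Prop :=
  ∀ s, ∃ c : ℤ, ∀ (N : ℕ) V Y, X.App S1 (th s) N V → X.App S2 (-th s) N Y →
    Bd (c - N) (X.ev β (th s) V Y)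

end

end Crest.Agent.R80
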