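import Crest.Agent.R80.Defs

/-!
# R80: calculus of Laurent polynomial families (`Deg`) and of `Bd`
All proofs: `Submodule.span_induction` (or `Submodule.span_le`) on the definition of `Deg`, `zpow_add₀ (w_ne_zero n)`.
-/

set_option autoImplicit false

namespace Crest.Agent.R80

open Finset Filter Asymptotics

variable {M M' M'' : Type} [AddCommGroup M] [Module ℂ M] [AddCommGroup M'] [Module ℂ M']
  [AddCommGroup M''] [Module ℂ M'']

theorem norm_w (n : ℕ) : ‖w n‖ = (n : ℝ) + 1 := by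
  have : w n = (((n : ℝ) + 1 : ℝ) : ℂ) := by simp [w]
  rw [this, Complex.norm_real, Real.norm_of_nonneg (by positivity)]

theorem Deg.mono {d d' : ℤ} (h : d ≤ d') : Deg M d ≤ Deg M d' := by
  refine Submodule.span_mono ?_
  rintro F ⟨j, hj, m, rfl⟩
  exact ⟨j, hj.trans h, m, rfl⟩

theorem Deg.mono' {d d' : ℤ} {F : ℕ → M} (hF : F ∈ Deg M d) (h : d ≤ d') : F ∈ Deg M d' :=
  Deg.mono h hF

theorem Deg.monomial {d j : ℤ} (h : j ≤ d) (m : M) : (fun n => w n ^ j • m) ∈ Deg M d := by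
  exact Submodule.subset_span ⟨j, h, m, rfl⟩

theorem Deg.const (m : M) : (fun _ : ℕ => m) ∈ Deg M 0 := by
  simpa using Deg.monomial (le_refl (0 : ℤ)) m

theorem Deg.zero' (d : ℤ) : (fun _ : ℕ => (0 : M)) ∈ Deg M d := (Deg M d).zero_mem

theorem Deg.add {d : ℤ} {F G : ℕ → M} (hF : F ∈ Deg M d) (hG : G ∈ Deg M d) :
    (fun n => F n + G n) ∈ Deg M d := (Deg M d).add_mem hF hG

theorem Deg.sub {d : ℤ} {F G : ℕ → M} (hF : F ∈ Deg M d) (hG : G ∈ Deg M d) :
    (fun n => F n - G n) ∈ Deg M d := (Deg M d).sub_mem hF hG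

theorem Deg.neg {d : ℤ} {F : ℕ → M} (hF : F ∈ Deg M d) : (fun n => -F n) ∈ Deg M d :=
  (Deg M d).neg_mem hF

theorem Deg.smul {d : ℤ} {F : ℕ → M} (hF : F ∈ Deg M d) (c : ℂ) : (fun n => c • F n) ∈ Deg M d :=
  (Deg M d).smul_mem c hF

theorem Deg.sum {d : ℤ} {κ : Type*} {s : Finset κ} {F : κ → ℕ → M} (h : ∀ i ∈ s, F i ∈ Deg M d) :
    (fun n => ∑ i ∈ s, F i n) ∈ Deg M d := by
  have := (Deg M d).sum_mem h
  convert this using 1
  funext n
  simp

theorem Deg.zpow_smul {d : ℤ} {F : ℕ → M} (hF : F ∈ Deg M d) (j : ℤ) :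
    (fun n => w n ^ j • F n) ∈ Deg M (d + j) := by
  induction hF using Submodule.span_induction with
  | mem F h =>
    obtain ⟨i, hi, m, rfl⟩ := h
    have := Deg.monomial (M := M) (d := d + j) (j := i + j) (by omega) m
    convert this using 2 with n
    rw [smul_smul, ← zpow_add₀ (w_ne_zero n), add_comm]
  | zero => simp only [Pi.zero_apply, smul_zero]; exact Deg.zero' _
  | add F G _ _ hF hG => simpa [smul_add] using Deg.add hF hG
  | smul c F _ hF => simpa [smul_comm c] using Deg.smul hF c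

theorem Deg.pow_smul {d : ℤ} {F : ℕ → M} (hF : F ∈ Deg M d) (j : ℕ) :
    (fun n => w n ^ j • F n) ∈ Deg M (d + j) := by
  simpa using Deg.zpow_smul hF (j : ℤ)

theorem Deg.w_smul {d : ℤ} {F : ℕ → M} (hF : F ∈ Deg M d) :
    (fun n => w n • F n) ∈ Deg M (d + 1) := by
  simpa using Deg.zpow_smul hF 1

theorem Deg.map {d : ℤ} {F : ℕ → M} (hF : F ∈ Deg M d) (f : M →ₗ[ℂ] M') :
    (fun n => f (F n)) ∈ Deg M' d := by
  induction hF using Submodule.span_induction with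
  | mem F h =>
    obtain ⟨i, hi, m, rfl⟩ := h
    simpa using Deg.monomial hi (f m)
  | zero => simp only [Pi.zero_apply, map_zero]; exact Deg.zero' _
  | add F G _ _ hF hG => simpa using Deg.add hF hG
  | smul c F _ hF => simpa using Deg.smul hF c

theorem Deg.map₂ {d d' : ℤ} {F : ℕ → M} {G : ℕ → M'} (hF : F ∈ Deg M d) (hG : G ∈ Deg M' d')
    (f : M →ₗ[ℂ] M' →ₗ[ℂ] M'') : (fun n => f (F n) (G n)) ∈ Deg M'' (d + d') := by
  induction hF using Submodule.span_induction with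
  | mem F h =>
    obtain ⟨i, hi, m, rfl⟩ := h
    have := Deg.mono' (Deg.zpow_smul (Deg.map hG (f m)) i) (show d' + i ≤ d + d' by omega)
    simpa using this
  | zero => simp only [Pi.zero_apply, map_zero, LinearMap.zero_apply]; exact Deg.zero' _
  | add F G _ _ hF hG => simpa using Deg.add hF hG
  | smul c F _ hF => simpa using Deg.smul hF c

theorem Deg.mul {𝒜 : Type} [CommRing 𝒜] [Algebra ℂ 𝒜] {d d' : ℤ} {F G : ℕ → 𝒜} (hF : F ∈ Deg 𝒜 d)
    (hG : G ∈ Deg 𝒜 d') : (fun n => F n * G n) ∈ Deg 𝒜 (d + d') :=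
  Deg.map₂ hF hG (LinearMap.mul ℂ 𝒜)

theorem Deg.apply {ι : Type} {d : ℤ} {F : ℕ → ι → M} (hF : F ∈ Deg (ι → M) d) (a : ι) :
    (fun n => F n a) ∈ Deg M d :=
  Deg.map hF (LinearMap.proj a)

/-- `F n = ∑ a, Pi.single a (F n a)` (use `classical`, `LinearMap.single`). -/
theorem Deg.pi {ι : Type} [Fintype ι] {d : ℤ} {F : ℕ → ι → M} (h : ∀ a, (fun n => F n a) ∈ Deg M d) :
    F ∈ Deg (ι → M) d := by
  classical
  have := Deg.sum (s := univ) (F := fun a n => (Pi.single a (F n a) : ι → M)) fun a _ =>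
    Deg.map (h a) (LinearMap.single ℂ (fun _ : ι => M) a)
  convert this using 2 with n
  exact (Finset.univ_sum_single (F n)).symm

/-- a family with leading term `V0` has degree `0` -/
theorem Deg.of_lead {F : ℕ → M} {m : M} (h : (fun n => F n - m) ∈ Deg M (-1)) : F ∈ Deg M 0 := by
  simpa using Deg.add (Deg.mono' h (by norm_num : (-1 : ℤ) ≤ 0)) (Deg.const m)

theorem Bd.mono {c c' : ℤ} {f : ℕ → ℂ} (h : Bd c f) (hc : c ≤ c') : Bd c' f := by
  refine h.trans (IsBigO.of_bound 1 (Eventually.of_forall fun n => ?_))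
  rw [one_mul, norm_zpow, norm_zpow, norm_w]
  exact zpow_le_zpow_right₀ (by simp) hc

theorem Bd.add {c : ℤ} {f g : ℕ → ℂ} (hf : Bd c f) (hg : Bd c g) : Bd c fun n => f n + g n :=
  IsBigO.add hf hg

theorem Bd.sub {c : ℤ} {f g : ℕ → ℂ} (hf : Bd c f) (hg : Bd c g) : Bd c fun n => f n - g n :=
  IsBigO.sub hf hg

theorem Bd.neg {c : ℤ} {f : ℕ → ℂ} (hf : Bd c f) : Bd c fun n => -f n :=
  IsBigO.neg_left hf

theorem Bd.congr {c : ℤ} {f g : ℕ → ℂ} (hf : Bd c f) (h : ∀ n, f n = g n) : Bd c g := by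
  rwa [← funext h]

theorem Deg.bd {d : ℤ} {f : ℕ → ℂ} (hf : f ∈ Deg ℂ d) : Bd d f := by
  induction hf using Submodule.span_induction with
  | mem F h =>
    obtain ⟨i, hi, m, rfl⟩ := h
    refine Bd.mono ?_ hi
    simpa [Bd, mul_comm] using (isBigO_refl (fun n => w n ^ i) atTop).const_mul_left m
  | zero => exact isBigO_zero _ _
  | add F G _ _ hF hG => exact hF.add hG
  | smul c F _ hF => exact IsBigO.const_mul_left hF c

/-- `w ^ k * c = O (w ^ (k - 1))` gives `‖c‖ ≤ C / (n + 1)`. -/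
theorem Bd.coeff_zero {k : ℤ} {c : ℂ} (h : Bd (k - 1) fun n => w n ^ k * c) : c = 0 := by
  obtain ⟨C, hC⟩ := h.bound
  have h1 : ∀ᶠ n : ℕ in atTop, ‖c‖ ≤ C * (1 / ((n : ℝ) + 1)) := by
    filter_upwards [hC] with n hn
    rw [norm_mul, norm_zpow, norm_zpow, norm_w] at hn
    have hp : (0 : ℝ) < (n : ℝ) + 1 := by positivity
    rw [zpow_sub₀ hp.ne', zpow_one] at hn
    have hq : (0 : ℝ) < ((n : ℝ) + 1) ^ k := zpow_pos hp k
    refine le_of_mul_le_mul_left (hn.trans_eq ?_) hq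
    ring
  have h2 : Tendsto (fun n : ℕ => C * (1 / ((n : ℝ) + 1))) atTop (nhds 0) := by
    simpa using tendsto_one_div_add_atTop_nhds_zero_nat.const_mul C
  exact norm_le_zero_iff.1 (ge_of_tendsto h2 h1)

/-- the form in which leading coefficients are compared -/
theorem Bd.lead_eq {k : ℕ} {f : ℕ → ℂ} {c c' : ℂ} (h : Bd ((k : ℤ) - 1) fun n => f n - w n ^ k * c)
    (h' : Bd ((k : ℤ) - 1) fun n => f n - w n ^ k * c') : c = c' := by
  have := Bd.coeff_zero (k := k) (c := c - c') ((h'.sub h).congr fun n => by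
    rw [zpow_natCast]; ring)
  exact sub_eq_zero.1 this

end Crest.Agent.R80
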