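import Crest.Agent.R80.Seeley

/-!
# R80: global smooth extension
-/

set_option autoImplicit false

namespace Crest.Agent.R80

open Set Filter Topology
open scoped ContDiff

/-- `exists_contMDiffMap_forall_mem_convex_of_local` with `t x = {y ∈ K | ρ x ≤ 0 → y = f x}`; near a point with `ρ > 0` a constant `y0 ∈ K`, near a point with `ρ < 0`
the function `f`, near a point with `ρ = 0` the extension of `seeley_local` on a smaller neighbourhood where it takes values in `K`. -/
theorem exists_extension {E F : Type} [NormedAddCommGroup E] [NormedSpace ℝ E] [FiniteDimensional ℝ E]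
    [NormedAddCommGroup F] [NormedSpace ℝ F] [CompleteSpace F] {ρ : E → ℝ} (hρ : ContDiff ℝ ∞ ρ)
    (h : ∀ x, ρ x = 0 → fderiv ℝ ρ x ≠ 0) {f : E → F} (hf : ContDiffOn ℝ ∞ f {x | ρ x ≤ 0})
    {K : Set F} (hKo : IsOpen K) (hKc : Convex ℝ K) (hKn : K.Nonempty)
    (hfK : ∀ x, ρ x ≤ 0 → f x ∈ K) :
    ∃ g : E → F, ContDiff ℝ ∞ g ∧ (∀ x, g x ∈ K) ∧ ∀ x, ρ x ≤ 0 → g x = f x := by
  obtain ⟨y0, hy0⟩ := hKn
  have hc := hρ.continuous
  obtain ⟨g, hg⟩ := exists_contMDiffMap_forall_mem_convex_of_local (n := ⊤) (modelWithCornersSelf ℝ E)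
    (t := fun x => {y ∈ K | ρ x ≤ 0 → y = f x}) (fun x => by
      by_cases hx : ρ x ≤ 0
      · have : {y ∈ K | ρ x ≤ 0 → y = f x} = K ∩ {f x} := by
          ext y
          simp [hx]
        rw [this]
        exact hKc.inter (convex_singleton _)
      · simpa [hx] using hKc) (fun x => by
      rcases lt_trichotomy (ρ x) 0 with hx | hx | hx
      · refine ⟨{x | ρ x < 0}, (isOpen_lt hc continuous_const).mem_nhds hx, f,
          (hf.mono fun y (hy : ρ y < 0) => (hy.le : ρ y ≤ 0)).contMDiffOn, fun y hy => ⟨hfK y (le_of_lt hy), fun _ => rfl⟩⟩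
      · obtain ⟨U, hU, g, hg, he⟩ := seeley_local hρ h hf hx
        have h1 : ContinuousAt g x := hg.continuousOn.continuousAt hU
        have h2 : g x ∈ K := by
          rw [he x (mem_of_mem_nhds hU) hx.le]
          exact hfK x hx.le
        refine ⟨U ∩ g ⁻¹' K, inter_mem hU (h1 (hKo.mem_nhds h2)), g,
          (hg.mono inter_subset_left).contMDiffOn, fun y hy => ⟨hy.2, he y hy.1⟩⟩
      · refine ⟨{x | 0 < ρ x}, (isOpen_lt continuous_const hc).mem_nhds hx, fun _ => y0,
          contMDiffOn_const, fun y hy => ⟨hy0, fun h' => absurd hy (not_lt.2 h')⟩⟩)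
  exact ⟨g, g.contMDiff.contDiff, fun x => (hg x).1, fun x => (hg x).2⟩

end Crest.Agent.R80
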