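import Crest.Agent.R80.VanA

/-!
# R80: consequences of the identity `b (V, Y) = ⟨T V, P₂ Y⟩ + κ (P₁ V, Y)`
-/

set_option autoImplicit false

namespace Crest.Agent.R80

open Finset

variable {𝒜 : Type} [CommRing 𝒜] [Algebra ℂ 𝒜]

theorem EA.tf_tw (X : EA 𝒜) {ι : Type} [Fintype ι] (T1 : Fin 3 → ι → ι → Fnl 𝒜) (T0 : ι → ι → Fnl 𝒜)
    (ζ : C3) (V ψ : ι → 𝒜) : X.tf T1 T0 (X.tw ζ V) (X.tw (-ζ) ψ) =
      X.tf T1 T0 V ψ + ∑ j, ζ j * ∑ a, ∑ b, T1 j a b (V b * ψ a) := by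
  have e0 : ∀ f g : 𝒜, X.ex ζ * f * (X.ex (-ζ) * g) = f * g := fun f g => by
    linear_combination (f * g) * X.ex_neg ζ
  simp only [DA.tf, EA.tw, X.d_ex_mul, e0, add_mul, map_add, smul_mul_assoc, map_smul, smul_eq_mul,
    sum_add_distrib, mul_sum]
  ring

/-- `tf` as a bilinear form -/
noncomputable def fa_tf (D : DA 𝒜) {ι : Type} [Fintype ι] (T1 : Fin 3 → ι → ι → Fnl 𝒜) (T0 : ι → ι → Fnl 𝒜) :
    Bil 𝒜 ι :=
  ∑ j, ∑ a, ∑ b, pr (T1 j a b) ((D.d j : 𝒜 →ₗ[ℂ] 𝒜) ∘ₗ LinearMap.proj b) (LinearMap.proj a) +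
    ∑ a, ∑ b, pr (T0 a b) (LinearMap.proj b) (LinearMap.proj a)

/-- the symbol of `tf` as a bilinear form -/
noncomputable def fa_t1 {ι : Type} [Fintype ι] (T1 : Fin 3 → ι → ι → Fnl 𝒜) (θ : C3) : Bil 𝒜 ι :=
  ∑ j, θ j • ∑ a, ∑ b, pr (T1 j a b) (LinearMap.proj b) (LinearMap.proj a)

theorem fa_tf_apply (D : DA 𝒜) {ι : Type} [Fintype ι] (T1 : Fin 3 → ι → ι → Fnl 𝒜) (T0 : ι → ι → Fnl 𝒜)
    (V ψ : ι → 𝒜) : fa_tf D T1 T0 V ψ = D.tf T1 T0 V ψ := by
  simp [fa_tf, DA.tf, LinearMap.sum_apply]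

theorem fa_t1_apply {ι : Type} [Fintype ι] (T1 : Fin 3 → ι → ι → Fnl 𝒜) (θ : C3) (V ψ : ι → 𝒜) :
    fa_t1 T1 θ V ψ = ∑ j, θ j * ∑ a, ∑ b, T1 j a b (V b * ψ a) := by
  simp [fa_t1, LinearMap.sum_apply]

theorem fa_lead (X : EA 𝒜) {ι : Type} [Fintype ι] (T1 : Fin 3 → ι → ι → Fnl 𝒜) (T0 : ι → ι → Fnl 𝒜)
    (θ : C3) {V : ℕ → ι → 𝒜} {V0 : ι → 𝒜} (hV : (fun n => V n - V0) ∈ Deg (ι → 𝒜) (-1)) (Y1 Y2 : ι → 𝒜) :
    (fun n => X.tf T1 T0 (X.tw (w n • θ) (V n)) (X.tw (-(w n • θ)) (Y1 + -w n • Y2)) -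
      w n ^ 2 * -∑ j, θ j * ∑ a, ∑ b, T1 j a b (V0 b * Y2 a)) ∈ Deg ℂ 1 := by
  have h0 := Deg.of_lead hV
  have h1 := Deg.mono' (d' := 1) (Deg.map h0 ((fa_tf X.toDA T1 T0).flip Y1)) (by norm_num)
  have h2 := Deg.mono' (d' := 1) (Deg.w_smul (Deg.map h0 ((fa_tf X.toDA T1 T0).flip Y2))) (by norm_num)
  have h3 := Deg.mono' (d' := 1) (Deg.w_smul (Deg.map h0 ((fa_t1 T1 θ).flip Y1))) (by norm_num)
  have h4 := Deg.mono' (d' := 1) (Deg.pow_smul (Deg.map hV ((fa_t1 T1 θ).flip Y2)) 2) (by norm_num)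
  convert Deg.sub (Deg.add (Deg.sub h1 h2) h3) h4 using 2 with n
  have e : ∀ U ψ : ι → 𝒜, ∑ j, (w n • θ) j * ∑ a, ∑ b, T1 j a b (U b * ψ a) = w n * fa_t1 T1 θ U ψ := by
    intro U ψ
    simp only [fa_t1_apply, Pi.smul_apply, smul_eq_mul, mul_assoc, ← mul_sum]
  rw [X.tf_tw, e, ← fa_tf_apply, ← fa_t1_apply]
  simp only [map_add, map_smul, map_sub, LinearMap.flip_apply, smul_eq_mul]
  ring

theorem fa_P_tw (X : EA 𝒜) {ι : Type} [Fintype ι] (S : Sys 𝒜 ι) {θ : C3} (hθ : Null θ) (c : ℂ) (Y : ι → 𝒜) :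
    X.P S (X.tw (-(c • θ)) Y) = X.tw (-(c • θ)) (X.P S Y + -c • X.T S.A θ Y) := by
  rw [← neg_smul, X.P_tw_null S hθ.1]

variable (C : Ctx 𝒜) {I : Fnl 𝒜} {L1 L2 : Lame 𝒜} {T1 : Fin 3 → I4 → I4 → Fnl 𝒜}
  {T0 : I4 → I4 → Fnl 𝒜} {j0 : ℕ} {κ : Bil 𝒜 I4}

/-- Take a WKB family `V` with leading term `V0` and `N = j0 + 1`.  Evaluate the identity at `tw (w • θ) (V n)`, `tw (-(w • θ)) Y`:
left side `ev_bf_lead`; `P₂ (tw (-(w • θ)) Y) = tw (-(w • θ)) (P₂ Y - w • T₂ Y)` (`P_tw_null`), `tf_tw`; `ev_neg`; compare by `Bd.lead_eq` (`k = 2`). -/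
theorem Ctx.fin_lead (hκ : κ ∈ C.F I4 j0)
    (hT : ∀ V Y, C.bf I L1 L2 V Y = C.tf T1 T0 V (C.P (C.sys L2) Y) + κ (C.P (C.sys L1) V) Y)
    (s : ℂ) (V0 Y : I4 → 𝒜) (h0 : C.T (C.sys L1).A (th s) V0 = 0) :
    I (C.den2 L1 L2 (th s) V0 Y) =
      -∑ j, th s j * ∑ a, ∑ b, T1 j a b (V0 b * C.T (C.sys L2).A (th s) Y a) := by
  have hθ := null_th s
  obtain ⟨V, hV, hV0⟩ := C.wkb (C.sys L1) hθ h0 (j0 + 1)
  have h1 := C.ev_bf_lead I L1 L2 hθ hV0 Y
  have h2 := fa_lead C.toEA T1 T0 (th s) hV0 (C.P (C.sys L2) Y) (C.T (C.sys L2).A (th s) Y)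
  have h3 := Deg.mono' (d' := 1) (C.ev_neg hκ hθ hV (Deg.const Y)) (by push_cast; omega)
  refine Bd.lead_eq (k := 2) (Deg.bd (Deg.mono' h1 (by norm_num)))
    ((Deg.bd (Deg.mono' (Deg.add h2 h3) (by norm_num))).congr fun n => ?_)
  simp only [EA.ev]
  rw [hT, fa_P_tw C.toEA _ hθ, LinearMap.comp_apply]
  ring

/-- If `w` has zero strain then `V = (w, 0)` solves `P₁ V = 0` (`P_sys_none`, `P_sys_some`; `div w = 0` and `lap w = 0` are given) and
`b (V, ·) = 0`, so `tf V ψ = 0` for all `ψ` (`P_surj`). -/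
theorem Ctx.tf_rigid
    (hT : ∀ V Y, C.bf I L1 L2 V Y = C.tf T1 T0 V (C.P (C.sys L2) Y) + κ (C.P (C.sys L1) V) Y)
    (V : I4 → 𝒜) (h0 : V none = 0) (h1 : ∀ i j, C.str (fun k => V (some k)) i j = 0)
    (h2 : C.div (fun k => V (some k)) = 0) (h3 : ∀ i, C.lap (V (some i)) = 0) (ψ : I4 → 𝒜) :
    C.tf T1 T0 V ψ = 0 := by
  obtain ⟨Y, rfl⟩ := C.P_surj (C.sys L2) ψ
  have hP : C.P (C.sys L1) V = 0 := by
    funext a
    cases a with
    | none => simp [DA.P_sys_none, h0, h2]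
    | some i => simp [DA.P_sys_some, h0, h1, h2, h3]
  have h := hT V Y
  rw [hP, map_zero, LinearMap.zero_apply, add_zero, DA.bf_apply] at h
  rw [← h]
  simp [DA.den, DA.div_R, DA.str_R, h0, h1, h2]

/-- `tf_rigid` with `V = Pi.single (some k) 1`, `ψ = Pi.single a φ` -/
theorem Ctx.fin_T0
    (hT : ∀ V Y, C.bf I L1 L2 V Y = C.tf T1 T0 V (C.P (C.sys L2) Y) + κ (C.P (C.sys L1) V) Y)
    (a : I4) (k : Fin 3) : T0 a (some k) = 0 := by
  ext φ
  have hd : ∀ j b, C.d j ((Pi.single (some k) 1 : I4 → 𝒜) b) = 0 := by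
    intro j b
    rw [Pi.single_apply]
    split_ifs <;> simp
  have h := C.tf_rigid hT (Pi.single (some k) 1) (by simp) (fun i j => by simp [DA.str, hd])
    (by simp [DA.div, hd]) (fun i => by simp [DA.lap_apply, hd]) (Pi.single a φ)
  simp only [DA.tf, hd] at h
  simpa [Pi.single_apply, apply_ite (T0 _ _)] using h

/-- `tf_rigid` with the rotation `V = Pi.single (some k) (x j) - Pi.single (some j) (x k)`; `fin_T0` -/
theorem Ctx.fin_symm
    (hT : ∀ V Y, C.bf I L1 L2 V Y = C.tf T1 T0 V (C.P (C.sys L2) Y) + κ (C.P (C.sys L1) V) Y)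
    (a : I4) (j k : Fin 3) : T1 j a (some k) = T1 k a (some j) := by
  ext φ
  let V : I4 → 𝒜 := Pi.single (some k) (C.x j) - Pi.single (some j) (C.x k)
  have h0 : V none = 0 := by simp [V]
  have hd : ∀ i l, C.d i (V (some l)) =
      (if l = k then (if i = j then 1 else 0) else 0) - if l = j then (if i = k then 1 else 0) else 0 := by
    intro i l
    simp [V, Pi.single_apply, apply_ite (C.d i), C.d_x]
  have h := C.tf_rigid hT V h0
    (fun i l => by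
      simp only [DA.str, hd]
      split_ifs <;> simp)
    (by
      simp only [DA.div, hd]
      exact sum_eq_zero fun i _ => by split_ifs <;> simp)
    (fun l => by
      simp only [DA.lap_apply, hd]
      exact sum_eq_zero fun i _ => by split_ifs <;> simp) (Pi.single a φ)
  simp only [DA.tf, Fintype.sum_option (f := fun b => T1 _ _ b _), Fintype.sum_option (f := fun b => T0 _ b _),
    hd, h0, C.fin_T0 hT] at h
  simpa [Pi.single_apply, sub_mul, apply_ite (T1 _ _ _), sub_eq_zero] using h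

/-- a linear form vanishing on the null cone vanishes (`s = 0, 1, -1`) -/
theorem lin_zero {c : Fin 3 → ℂ} (h : ∀ s, ∑ j, th s j * c j = 0) (j : Fin 3) : c j = 0 := by
  have h0 := h 0
  have h1 := h 1
  have h2 := h (-1)
  simp only [th, Fin.sum_univ_three, Matrix.cons_val_zero, Matrix.cons_val_one, Matrix.cons_val] at h0 h1 h2
  fin_cases j
  · show c 0 = 0
    linear_combination (-2) * h0 + (1 / 2) * h1 + (1 / 2) * h2
  · show c 1 = 0
    linear_combination (Complex.I / 2) * h1 + (Complex.I / 2) * h2 + (c 1) * Complex.I_sq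
  · show c 2 = 0
    linear_combination (1 / 2) * h1 - (1 / 2) * h2

theorem fa_split (D : DA 𝒜) {k0 : I4 → Fnl 𝒜} (hk : ∀ j a k, T1 j a (some k) = if j = k then k0 a else 0)
    (h0 : ∀ a k, T0 a (some k) = 0) (V χ : I4 → 𝒜) :
    D.tf T1 T0 V χ = ∑ a, k0 a (D.div (fun k => V (some k)) * χ a) + D.tf T1 T0 (Pi.single none (V none)) χ := by
  have e : ∀ (p : Prop) [Decidable p] (a : I4) (y : 𝒜), (if p then k0 a else 0) y = if p then k0 a y else 0 :=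
    fun p _ a y => by split_ifs <;> rfl
  simp only [DA.tf, Fintype.sum_option (f := fun b => T1 _ _ b _), Fintype.sum_option (f := fun b => T0 _ b _),
    hk, h0, e, DA.div, sum_mul, map_sum, sum_ite_eq, mem_univ, if_true, LinearMap.zero_apply, sum_const_zero,
    add_zero, Pi.single_eq_same, ne_eq, reduceCtorEq, not_false_eq_true, Pi.single_eq_of_ne, map_zero, zero_mul,
    sum_add_distrib]
  rw [sum_comm (f := fun a j => k0 a _)]
  ring

/-- Kernel elements.  Fix `s`, `θ = th s`, `ζ = w n • θ`.  Let `f` be a WKB family for `sysK L1` with leading term `1` and `N = j0 + 2`,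
`F n = ex ζ * f n ()`, `φ n = lap F + μ lap m F = ex ζ * err n` with `err ∈ Deg (-N)` (`P_sysK`, `P_tw_null`).  For `V = ker L1 (F n)`:
`b (V, ·) = 0` (`R_ker`); `P₁ V = tw ζ (W n)` with `W ∈ Deg (1 - N)` (`P_ker_none`, `P_ker_some`, `d_ex_mul`), so the `κ` term is `O (w)` (`ev_deg`);
by `hk` and `fin_T0`, `tf V ψ = ∑ a, k a (div (V ∘ some) * ψ a) + ∑ j a, T1 j a none (d j F * ψ a) + ∑ a, T0 a none (F * ψ a)` and
`div (V ∘ some) = 2 F lap m - m φ` (`div_ker`, `mu_m`).  With `ψ = tw (-ζ) (P₂ Y - w • T₂ Y)` the coefficient of `w ^ 2` is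
`-∑ j, θ j * ∑ a, T1 j a none (T₂ Y a)`; it vanishes; `C.surj`, `ψ = Pi.single a φ`, `lin_zero`. -/
theorem Ctx.fin_ker (hκ : κ ∈ C.F I4 j0)
    (hT : ∀ V Y, C.bf I L1 L2 V Y = C.tf T1 T0 V (C.P (C.sys L2) Y) + κ (C.P (C.sys L1) V) Y)
    {k0 : I4 → Fnl 𝒜} (hk : ∀ j a k, T1 j a (some k) = if j = k then k0 a else 0) (j : Fin 3)
    (a : I4) : T1 j a none = 0 := by
  ext φ
  refine lin_zero (c := fun j => T1 j a none φ) (fun s => ?_) j
  have hθ := null_th s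
  obtain ⟨Y, hY⟩ := C.surj I4 (C.sys L2).A (th s) hθ (Pi.single a φ)
  obtain ⟨f, ⟨hf0, he⟩, hf⟩ := C.wkb (C.sysK L1) hθ (V0 := fun _ => 1)
    (by funext u; simp [DA.T_apply, DA.dir_apply, DA.sysK]) j0
  obtain ⟨e, he'⟩ : ∃ e : ℕ → 𝒜, e = fun n => (C.P (C.sysK L1) (f n) + w n • C.T (C.sysK L1).A (th s) (f n)) () :=
    ⟨_, rfl⟩
  have hed : e ∈ Deg 𝒜 (-(j0 : ℤ)) := he' ▸ Deg.apply he ()
  have hφ : ∀ n, C.lap (C.ex (w n • th s) * f n ()) + L1.mu * C.lap L1.m * (C.ex (w n • th s) * f n ()) =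
      C.ex (w n • th s) * e n := fun n => by
    have h := congrFun (C.P_tw_null (C.sysK L1) hθ.1 (w n) (f n)) ()
    rw [DA.P_sysK] at h
    rw [he']
    exact h
  let W : ℕ → I4 → 𝒜 := fun n b =>
    Option.casesOn b (L1.p * e n) fun i => -(L1.m * (C.d i (e n) + w n • th s i • e n))
  have hW : W ∈ Deg (I4 → 𝒜) (-(j0 : ℤ) + 1) := by
    refine Deg.pi fun b => ?_
    cases b with
    | none => exact Deg.mono' (Deg.map hed (LinearMap.mulLeft ℂ L1.p)) (by omega)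
    | some i =>
      exact Deg.neg (Deg.map (Deg.add (Deg.mono' (Deg.map hed (C.d i : 𝒜 →ₗ[ℂ] 𝒜)) (by omega))
        (Deg.w_smul (Deg.smul hed (th s i)))) (LinearMap.mulLeft ℂ L1.m))
  have hPW : ∀ n, C.P (C.sys L1) (C.ker L1 (C.ex (w n • th s) * f n ())) = C.tw (w n • th s) (W n) := by
    intro n
    funext b
    cases b with
    | none =>
      rw [DA.P_ker_none, hφ]
      simp only [EA.tw, W]
      ring
    | some i =>
      rw [DA.P_ker_some, hφ, C.d_ex_mul]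
      simp only [EA.tw, W, Pi.smul_apply, smul_eq_mul, mul_smul]
      ring
  have hdiv : ∀ n, C.div (fun k => C.ker L1 (C.ex (w n • th s) * f n ()) (some k)) =
      C.ex (w n • th s) * (2 * C.lap L1.m * f n () - L1.m * e n) := fun n => by
    rw [DA.div_ker]
    linear_combination (-L1.m) * hφ n + (C.lap L1.m * (C.ex (w n • th s) * f n ())) * L1.mu_m
  have hg : (fun n => 2 * C.lap L1.m * f n () - L1.m * e n) ∈ Deg 𝒜 0 :=
    Deg.sub (Deg.map (Deg.apply hf0 ()) (LinearMap.mulLeft ℂ (2 * C.lap L1.m)))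
      (Deg.mono' (Deg.map hed (LinearMap.mulLeft ℂ L1.m)) (by omega))
  have hψ : (fun n => C.P (C.sys L2) Y + -w n • C.T (C.sys L2).A (th s) Y) ∈ Deg (I4 → 𝒜) 1 := by
    have h := Deg.add (Deg.mono' (d' := 0 + 1) (Deg.const (C.P (C.sys L2) Y)) (by norm_num))
      (Deg.neg (Deg.w_smul (Deg.const (C.T (C.sys L2).A (th s) Y))))
    simpa only [neg_smul, zero_add] using h
  have h1 : (fun n => ∑ a, k0 a ((2 * C.lap L1.m * f n () - L1.m * e n) *
      (C.P (C.sys L2) Y + -w n • C.T (C.sys L2).A (th s) Y) a)) ∈ Deg ℂ 1 :=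
    Deg.sum fun a _ => Deg.mono' (Deg.map (Deg.mul hg (Deg.apply hψ a)) (k0 a)) (by norm_num)
  have h2 := fa_lead C.toEA T1 T0 (th s) (V := fun n => Pi.single none (f n ())) (V0 := Pi.single none 1)
    (by simpa only [Pi.sub_apply, map_sub, LinearMap.coe_single] using Deg.map (Deg.apply hf ()) (LinearMap.single ℂ (fun _ : I4 => 𝒜) none))
    (C.P (C.sys L2) Y) (C.T (C.sys L2).A (th s) Y)
  have h3 := Deg.mono' (d' := 1) (C.ev_deg hκ (th s) hW (Deg.const Y)) (by omega)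
  have h4 := Bd.lead_eq (k := 2) (c' := 0) (Deg.bd (Deg.mono' h2 (by norm_num)))
    ((Deg.bd (Deg.mono' (Deg.neg (Deg.add h1 h3)) (by norm_num))).congr fun n => ?_)
  · rw [hY] at h4
    simpa [Pi.single_apply, apply_ite (T1 _ _ _)] using h4
  · have h := hT (C.ker L1 (C.ex (w n • th s) * f n ())) (C.tw (-(w n • th s)) Y)
    have e0 : ∀ f g : 𝒜, C.ex (w n • th s) * f * (C.ex (-(w n • th s)) * g) = f * g := fun f g => by
      linear_combination (f * g) * C.ex_neg (w n • th s)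
    have e1 : (Pi.single none (C.ker L1 (C.ex (w n • th s) * f n ()) none) : I4 → 𝒜) =
        C.tw (w n • th s) (Pi.single none (f n ())) := by
      funext b
      cases b <;> simp [EA.tw, DA.ker]
    rw [DA.bf_apply, DA.R_ker, hPW, fa_P_tw C.toEA _ hθ, fa_split C.toDA hk (C.fin_T0 hT), hdiv, e1] at h
    simp only [DA.den, DA.div, DA.str, Pi.zero_apply, map_zero, sum_const_zero, zero_mul, mul_zero, add_zero] at h
    simp only [EA.tw, e0] at h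
    simp only [EA.ev, EA.tw]
    linear_combination h

end Crest.Agent.R80
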