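import Crest.Agent.R80.IndA

/-!
# R80: the induction on the order
-/

set_option autoImplicit false

namespace Crest.Agent.R80

open Finset

variable {𝒜 : Type} [CommRing 𝒜] [Algebra ℂ 𝒜] {ι : Type} [Fintype ι]

/-- The symbol kills products of transport solutions (`wkb` for `S1, th s` and `S2, -th s`; `T_neg`; `lead`; `N` large),
hence the kernel of the product transport operator (`complete`); apply `C.hol` to `endA S1.A S2.A` and `n' i (a, b) = n i a b`,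
then evaluate at `Z (a, b) = V0 b * Y a` (`T_endA`). -/
theorem Ctx.symbol_eq (C : Ctx 𝒜) {S1 S2 : Sys 𝒜 ι} {k : ℕ} {β : Bil 𝒜 ι} {n : ℕ → ι → ι → Fnl 𝒜}
    (hn : ∀ i a b, n i a b ∈ C.Good) (h : C.FN S1 k (β - C.nf k n)) (hv : C.Van S1 S2 β) :
    ∃ t : ℕ → ι → ι → Fnl 𝒜, (∀ i a b, t i a b ∈ C.Good) ∧ ∀ (s : ℂ) (V0 Y : ι → 𝒜),
      C.T S1.A (th s) V0 = 0 →
      ∑ i ∈ range (2 * k + 1), s ^ i * ∑ a, ∑ b, n i a b (V0 b * Y a) =
        ∑ i ∈ range (2 * k - 1), s ^ i * ∑ a, ∑ b, t i a b (V0 b * C.T S2.A (th s) Y a) := by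
  classical
  obtain ⟨N, hN⟩ := C.lead h
  have key : ∀ s V0 Y0, C.T S1.A (th s) V0 = 0 → C.T S2.A (th s) Y0 = 0 →
      ∑ i ∈ range (2 * k + 1), s ^ i * ∑ a, ∑ b, n i a b (V0 b * Y0 a) = 0 := by
    intro s V0 Y0 h1 h2
    obtain ⟨c, hc⟩ := hv s
    obtain ⟨V, hV, hV0⟩ := C.wkb S1 (null_th s) h1 (N + (c + 1).toNat)
    obtain ⟨Y, hY, hY0⟩ := C.wkb S2 (null_th s).neg (V0 := Y0) (by rw [C.T_neg, h2, neg_zero])
      (N + (c + 1).toNat)
    have e1 := hN s V Y V0 Y0 (hV.mono (by omega)) hV0 hY0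
    have e2 := (hc _ V Y hV hY).mono (show _ ≤ (k : ℤ) - 1 by push_cast; omega)
    exact Bd.lead_eq (c' := 0) e1 (by simpa using e2)
  obtain ⟨t, ht, he⟩ := C.hol (ι × ι) (endA S1.A S2.A) k (fun i p => n i p.1 p.2)
    (fun i p => hn i p.1 p.2) (fun s Z hZ => by
      have := C.complete S1.A S2.A (null_th s) (fun a b => ∑ i ∈ range (2 * k + 1), s ^ i • n i a b)
        (fun V Y h1 h2 => by
          rw [← key s V Y h1 h2]
          simp only [LinearMap.sum_apply, LinearMap.smul_apply, smul_eq_mul, mul_sum]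
          simp only [Finset.sum_comm (t := range (2 * k + 1))]) Z hZ
      rw [← this]
      simp only [LinearMap.sum_apply, LinearMap.smul_apply, smul_eq_mul, mul_sum,
        Fintype.sum_prod_type]
      simp only [Finset.sum_comm (t := range (2 * k + 1))])
  refine ⟨fun i a b => t i (a, b), fun i a b => ht i (a, b), fun s V0 Y h0 => ?_⟩
  have := he s fun q => V0 q.2 * Y q.1
  simp only [C.T_endA, h0, Pi.zero_apply, zero_mul, add_zero, Fintype.sum_prod_type] at this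
  exact this

/-- `k = 0` in `symbol_eq`: the right side is an empty sum, so `n 0 a b = 0` (`eq_zero_of_sol`). -/
theorem Ctx.step_zero (C : Ctx 𝒜) {S1 S2 : Sys 𝒜 ι} {β : Bil 𝒜 ι} (h : C.FN S1 1 β)
    (hv : C.Van S1 S2 β) : C.FN S1 0 β := by
  classical
  obtain ⟨n, hn, h1⟩ := h.exists_nf
  obtain ⟨t, -, ht⟩ := C.symbol_eq hn h1 hv
  have key : ∀ a b, n 0 a b = 0 := by
    intro a
    refine C.eq_zero_of_sol S1.A (null_th 0) _ fun V0 h0 φ => ?_
    have := ht 0 V0 (Pi.single a φ) h0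
    simp only [mul_zero, zero_add, range_one, sum_singleton, pow_zero, one_mul, zero_tsub,
      range_zero, sum_empty] at this
    rw [Finset.sum_eq_single a (fun a' _ ha => by simp [ha]) (by simp)] at this
    simpa using this
  have h2 : C.nf 0 n = 0 := by
    refine LinearMap.ext₂ fun V Y => ?_
    simp [DA.nf, LinearMap.sum_apply, key]
  rwa [h2, sub_zero] at h1

/-- Take `n` (`FN.exists_nf`, order `m + 1`) and `t` (`symbol_eq`); the answer is `-t`.  `β' = β + (nf m t).compl₂ P₂` lies in `FN (m + 3)`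
(`nf_compl_mem`) and satisfies `Ord m`: for an approximate solution `V` with leading term `V0` (`App.exists_lead`),
`ev β = w ^ (m+1) n(V0 Y) + O (w ^ m)` (`lead`) and by `ev_compl₂`, linearity of `ev` in `Y` and `ev_nf`,
`ev ((nf m t).compl₂ P₂) = ev (nf m t) V (P Y) - w * ev (nf m t) V (T Y) = - w ^ (m+1) t(V0 T Y) + O (w ^ m)`.  Apply `reduce` twice. -/
theorem Ctx.step_succ (C : Ctx 𝒜) {S1 S2 : Sys 𝒜 ι} {m : ℕ} {β : Bil 𝒜 ι} (h : C.FN S1 (m + 2) β)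
    (hv : C.Van S1 S2 β) : ∃ t : ℕ → ι → ι → Fnl 𝒜, (∀ i a b, t i a b ∈ C.Good) ∧
      C.FN S1 (m + 1) (β - (C.nf m t).compl₂ (C.P S2)) := by
  obtain ⟨n, hn, h1⟩ := h.exists_nf
  obtain ⟨t, ht, he⟩ := C.symbol_eq hn h1 hv
  obtain ⟨N, hN⟩ := C.lead h1
  refine ⟨-t, fun i a b => Submodule.neg_mem _ (ht i a b), ?_⟩
  have e0 : β - (C.nf m (-t)).compl₂ (C.P S2) = β + (C.nf m t).compl₂ (C.P S2) := by
    refine LinearMap.ext₂ fun V Y => ?_
    simp [DA.nf, LinearMap.sum_apply]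
  rw [e0]
  have hF : C.FN S1 (m + 3) (β + (C.nf m t).compl₂ (C.P S2)) :=
    (h.mono (by omega)).add (Ctx.FN.of_mem (C.nf_compl_mem m ht S2))
  have hO : C.Ord S1 m (β + (C.nf m t).compl₂ (C.P S2)) := by
    intro s
    refine ⟨N, fun V hV Y => ?_⟩
    obtain ⟨V0, h0, hV0⟩ := hV.exists_lead
    have hc : ∀ Z : ι → 𝒜, (fun _ : ℕ => Z - Z) ∈ Deg (ι → 𝒜) (-1) := fun Z => by
      simpa using Deg.zero' (M := ι → 𝒜) _
    have e1 := (hN s V (fun _ => Y) V0 Y hV hV0 (hc Y)).mono (show _ ≤ (m : ℤ) by push_cast; omega)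
    have e2 := (Deg.bd (C.ev_deg (C.nf_mem m ht) (th s) hV.1 (Deg.const (C.P S2 Y)))).mono
      (show _ ≤ (m : ℤ) by push_cast; omega)
    have e3 := (Deg.bd (Deg.w_smul (C.ev_nf m t s hV0 (hc (C.T S2.A (th s) Y))))).mono
      (show _ ≤ (m : ℤ) by omega)
    refine ((e1.add e2).sub e3).congr fun l => ?_
    have e4 := congrFun (C.ev_compl₂ (C.nf m t) S2 (null_th s) V fun _ => Y) l
    have e5 := he s V0 Y h0
    rw [show 2 * (m + 1) - 1 = 2 * m + 1 by omega] at e5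
    simp only [EA.ev, C.T_neg, smul_neg, ← sub_eq_add_neg, C.tw_sub, C.tw_smul, map_sub, map_smul,
      smul_eq_mul] at e4
    simp only [EA.ev, LinearMap.add_apply, e4, e5, smul_eq_mul]
    ring
  exact C.reduce (C.reduce hF (hO.mono (by push_cast; omega))) (hO.mono (by push_cast; omega))

/-- `reduce` twice (`FN 5 → FN 4 → FN 3`), `step_succ` with `m = 1` and `m = 0`, `van_sub`, `step_zero`, `F_zero`;
finally `N 0 0 = 1`, `N 1 0 = D2`, `N 1 1 = D1`, `N 1 2 = D0`, so `T1 0 = t 2 - t 0`, `T1 1 = I • (t 2 + t 0)`, `T1 2 = t 1`. -/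
theorem Ctx.main_T (C : Ctx 𝒜) {S1 S2 : Sys 𝒜 ι} {β : Bil 𝒜 ι} (h : β ∈ C.F ι 5)
    (ho : C.Ord S1 2 β) (hv : C.Van S1 S2 β) :
    ∃ (T1 : Fin 3 → ι → ι → Fnl 𝒜) (T0 : ι → ι → Fnl 𝒜) (j : ℕ), ∃ κ ∈ C.F ι j,
      ∀ V Y, β V Y = C.tf T1 T0 V (C.P S2 Y) + κ (C.P S1 V) Y := by
  have h3 : C.FN S1 3 β :=
    C.reduce (C.reduce (Ctx.FN.of_mem h) (ho.mono (by norm_num))) (ho.mono (by norm_num))
  obtain ⟨t1, ht1, h2⟩ := C.step_succ (m := 1) h3 hv
  have hv1 := C.van_sub hv (C.nf_mem 1 ht1)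
  obtain ⟨t0, ht0, h1⟩ := C.step_succ (m := 0) h2 hv1
  have hv0 := C.van_sub hv1 (C.nf_mem 0 ht0)
  obtain ⟨β', h4, j, κ, hκ, he⟩ := C.step_zero h1 hv0
  rw [C.F_zero, Submodule.mem_bot] at h4
  subst h4
  refine ⟨![fun a b => t1 2 a b - t1 0 a b, fun a b => Complex.I • (t1 2 a b + t1 0 a b),
    fun a b => t1 1 a b], t0 0, j, κ, hκ, fun V Y => ?_⟩
  have := LinearMap.congr_fun (LinearMap.congr_fun he V) Y
  simp only [LinearMap.sub_apply, zero_add, LinearMap.comp_apply, LinearMap.compl₂_apply] at this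
  rw [← this]
  have e0 : C.nf 0 t0 V (C.P S2 Y) = ∑ a, ∑ b, t0 0 a b (V b * C.P S2 Y a) := by
    simp [DA.nf, DA.N, LinearMap.sum_apply]
  have e1 : C.nf 1 t1 V (C.P S2 Y) = ∑ a, ∑ b, (t1 2 a b - t1 0 a b) (C.d 0 (V b) * C.P S2 Y a) +
      ∑ a, ∑ b, (Complex.I • (t1 2 a b + t1 0 a b)) (C.d 1 (V b) * C.P S2 Y a) +
      ∑ a, ∑ b, t1 1 a b (C.d 2 (V b) * C.P S2 Y a) := by
    simp only [DA.nf, LinearMap.sum_apply, sum_range_succ, range_zero, sum_empty, zero_add,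
      LinearMap.add_apply, ← sum_add_distrib]
    refine Finset.sum_congr rfl fun a _ => Finset.sum_congr rfl fun b _ => ?_
    simp [DA.N, DA.D0, DA.D1, DA.D2, add_mul]
    ring
  rw [e0, e1]
  simp only [DA.tf, Fin.sum_univ_three, Matrix.cons_val_zero, Matrix.cons_val_one, Matrix.cons_val]
  ring

end Crest.Agent.R80
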