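import Crest.Agent.R80.DegB

/-!
# R80: the form `b` on approximate solutions
-/

set_option autoImplicit false

namespace Crest.Agent.R80

open Finset Filter Asymptotics

variable {𝒜 : Type} [CommRing 𝒜] [Algebra ℂ 𝒜]

/-- size of a family -/
def Ctx.Sz (C : Ctx 𝒜) (c : ℤ) (g : ℕ → 𝒜) : Prop :=
  (fun n => C.nrm (g n)) =O[atTop] fun n => w n ^ c

/-- size of a vector family with two derivatives -/
def Ctx.Sz2 (C : Ctx 𝒜) {ι : Type} (c : ℤ) (r : ℕ → ι → 𝒜) : Prop :=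
  ∀ b i j, C.Sz c (fun n => r n b) ∧ C.Sz c (fun n => C.d i (r n b)) ∧
    C.Sz c fun n => C.d i (C.d j (r n b))

theorem van_le {f g : ℕ → ℝ} (h0 : ∀ n, 0 ≤ f n) (h : ∀ n, f n ≤ g n) : f =O[atTop] g :=
  isBigO_of_le _ fun n => by
    rw [Real.norm_of_nonneg (h0 n)]
    exact (h n).trans (le_abs_self _)

theorem van_bd_zpow (j : ℤ) : Bd j fun n => w n ^ j := isBigO_refl _ _

theorem van_bd_w (θ : C3) (i : Fin 3) : Bd 1 fun n => (w n • θ) i := by
  have := (van_bd_zpow 1).const_mul_left (θ i)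
  simpa only [Bd, zpow_one, Pi.smul_apply, smul_eq_mul, mul_comm] using this

theorem van_bd_ww (θ : C3) (i j : Fin 3) : Bd 2 fun n => 2 * (w n • θ) i * (w n • θ) j := by
  have := ((van_bd_w θ i).const_mul_left 2).mul (van_bd_w θ j)
  simpa only [Bd, zpow_one, zpow_two] using this

namespace Ctx.Sz

variable {C : Ctx 𝒜} {c c' : ℤ} {f g : ℕ → 𝒜}

theorem mono (h : C.Sz c f) (hc : c ≤ c') : C.Sz c' f := IsBigO.trans h ((van_bd_zpow c).mono hc)

theorem const (C : Ctx 𝒜) (a : 𝒜) : C.Sz 0 fun _ => a := by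
  simp only [Ctx.Sz, zpow_zero]
  exact isBigO_const_one _ _ _

theorem zero (C : Ctx 𝒜) (c : ℤ) : C.Sz c fun _ => 0 := by
  simp only [Ctx.Sz, map_zero]
  exact isBigO_zero _ _

theorem add (hf : C.Sz c f) (hg : C.Sz c g) : C.Sz c fun n => f n + g n :=
  (van_le (fun _ => apply_nonneg _ _) fun _ => map_add_le_add _ _ _).trans (IsBigO.add hf hg)

theorem sub (hf : C.Sz c f) (hg : C.Sz c g) : C.Sz c fun n => f n - g n :=
  (van_le (fun _ => apply_nonneg _ _) fun _ => map_sub_le_add _ _ _).trans (IsBigO.add hf hg)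

theorem sum {κ : Type} (s : Finset κ) {F : κ → ℕ → 𝒜} (h : ∀ i ∈ s, C.Sz c (F i)) :
    C.Sz c fun n => ∑ i ∈ s, F i n := by
  have := Finset.sum_induction F (C.Sz c) (fun _ _ => add) (zero C c) h
  simpa only [Finset.sum_fn] using this

theorem mul (hf : C.Sz c f) (hg : C.Sz c' g) : C.Sz (c + c') fun n => f n * g n := by
  have := (van_le (fun _ => apply_nonneg _ _) fun n => C.nrm_mul (f n) (g n)).trans (IsBigO.mul hf hg)
  simpa only [Ctx.Sz, zpow_add₀ (w_ne_zero _)] using this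

theorem cmul (hf : C.Sz c f) (a : 𝒜) : C.Sz c fun n => a * f n := by
  simpa using (const C a).mul hf

theorem mulc (hf : C.Sz c f) (a : 𝒜) : C.Sz c fun n => f n * a := by
  simpa using hf.mul (const C a)

theorem bsmul (hf : C.Sz c f) {z : ℕ → ℂ} (hz : Bd c' z) : C.Sz (c' + c) fun n => z n • f n := by
  have := IsBigO.mul hz.norm_left hf
  simpa only [Ctx.Sz, zpow_add₀ (w_ne_zero _), map_smul_eq_mul] using this

theorem smul (hf : C.Sz c f) (z : ℂ) : C.Sz c fun n => z • f n := by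
  simpa only [Ctx.Sz, map_smul_eq_mul] using IsBigO.const_mul_left hf ‖z‖

theorem of_deg (C : Ctx 𝒜) (hf : f ∈ Deg 𝒜 c) : C.Sz c f := by
  induction hf using Submodule.span_induction with
  | mem F h =>
    obtain ⟨j, hj, m, rfl⟩ := h
    exact ((const C m).bsmul (van_bd_zpow j)).mono (by omega)
  | zero => exact zero C c
  | add F G _ _ h h' => exact h.add h'
  | smul z F _ h => exact h.smul z

end Ctx.Sz

theorem Ctx.Sz2.mono {C : Ctx 𝒜} {ι : Type} {c c' : ℤ} {r : ℕ → ι → 𝒜} (h : C.Sz2 c r) (hc : c ≤ c') :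
    C.Sz2 c' r :=
  fun b i j => ⟨(h b i j).1.mono hc, (h b i j).2.1.mono hc, (h b i j).2.2.mono hc⟩

theorem Ctx.sz2_of_deg (C : Ctx 𝒜) {ι : Type} {d : ℤ} {V : ℕ → ι → 𝒜} (hV : V ∈ Deg (ι → 𝒜) d) :
    C.Sz2 d V := by
  exact fun b i j => ⟨.of_deg C (Deg.apply hV b), .of_deg C (Deg.map (Deg.apply hV b) (C.d i : 𝒜 →ₗ[ℂ] 𝒜)),
    .of_deg C (Deg.map (Deg.map (Deg.apply hV b) (C.d j : 𝒜 →ₗ[ℂ] 𝒜)) (C.d i : 𝒜 →ₗ[ℂ] 𝒜))⟩

/-- Take `K, n0` from `C.cgo`; span induction on `E`; for a monomial `w ^ j • E0` use `r n = w n ^ j • r₀ n`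
(`choose`; `r₀ n` arbitrary for `n < n0`). -/
theorem Ctx.exists_corr (C : Ctx 𝒜) {ι : Type} [Fintype ι] (S : Sys 𝒜 ι) {θ : C3} (hθ : Null θ) :
    ∃ K : ℕ, ∀ (d : ℤ) (E : ℕ → ι → 𝒜), E ∈ Deg (ι → 𝒜) d → ∃ r : ℕ → ι → 𝒜,
      (∀ᶠ n in atTop, C.P S (r n) + w n • C.T S.A θ (r n) = E n) ∧ C.Sz2 (d + K) r := by
  obtain ⟨K, n0, h⟩ := C.cgo ι S θ hθ
  refine ⟨K, fun d E hE => ?_⟩
  induction hE using Submodule.span_induction with
  | mem F hF =>
    obtain ⟨j, hj, E0, rfl⟩ := hF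
    obtain ⟨c, hc⟩ := h E0
    choose! r hr hb using hc
    have key : ∀ g : ℕ → 𝒜, (∀ n, n0 ≤ n → C.nrm (g n) ≤ c * ((n : ℝ) + 1) ^ K) →
        C.Sz (d + K) fun n => w n ^ j • g n := fun g hg => by
      have h1 : C.Sz K g := by
        refine IsBigO.of_bound c ((eventually_ge_atTop n0).mono fun n hn => ?_)
        rw [Real.norm_of_nonneg (apply_nonneg _ _), zpow_natCast, norm_pow, norm_w]
        exact hg n hn
      exact (h1.bsmul (van_bd_zpow j)).mono (by omega)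
    refine ⟨fun n => w n ^ j • r n, (eventually_ge_atTop n0).mono fun n hn => ?_, fun b i k => ?_⟩
    · simp only [map_smul]
      rw [smul_comm, ← smul_add, hr n hn]
    · simp only [Pi.smul_apply, Derivation.map_smul]
      exact ⟨key _ fun n hn => (hb n hn b i k).1, key _ fun n hn => (hb n hn b i k).2.1,
        key _ fun n hn => (hb n hn b i k).2.2⟩
  | zero =>
    refine ⟨0, Eventually.of_forall fun n => by simp, fun b i k => ?_⟩
    simp only [Pi.zero_apply, map_zero]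
    exact ⟨.zero C _, .zero C _, .zero C _⟩
  | add F G _ _ hF hG =>
    obtain ⟨r, hr, hs⟩ := hF
    obtain ⟨r', hr', hs'⟩ := hG
    refine ⟨r + r', (hr.and hr').mono fun n hn => ?_, fun b i k => ?_⟩
    · simp only [Pi.add_apply, map_add, smul_add, ← hn.1, ← hn.2]
      abel
    · simp only [Pi.add_apply, map_add]
      exact ⟨(hs b i k).1.add (hs' b i k).1, (hs b i k).2.1.add (hs' b i k).2.1,
        (hs b i k).2.2.add (hs' b i k).2.2⟩
  | smul z F _ hF =>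
    obtain ⟨r, hr, hs⟩ := hF
    refine ⟨z • r, hr.mono fun n hn => ?_, fun b i k => ?_⟩
    · simp only [Pi.smul_apply, map_smul, ← hn]
      rw [smul_comm, smul_add]
    · simp only [Pi.smul_apply, Derivation.map_smul]
      exact ⟨(hs b i k).1.smul z, (hs b i k).2.1.smul z, (hs b i k).2.2.smul z⟩

theorem van_av {C : Ctx 𝒜} (L : Lame 𝒜) {c : ℤ} {V : ℕ → I4 → 𝒜} (hV : C.Sz2 c V) (i : Fin 3) :
    C.Sz c fun n => C.av L (V n) i :=
  (hV (some i) 0 0).1.add ((hV none i 0).2.1.cmul _)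

theorem van_divT {C : Ctx 𝒜} (L : Lame 𝒜) (θ : C3) {c : ℤ} {V : ℕ → I4 → 𝒜} (hV : C.Sz2 c V) :
    C.Sz (c + 2) fun n => C.divT L (w n • θ) (V n) := by
  simp only [DA.divT, DA.div_R, DA.lap_apply, dot]
  refine Ctx.Sz.add (Ctx.Sz.mono ?_ (by omega : c ≤ c + 2))
    (Ctx.Sz.sum _ fun i _ => ((van_av L hV i).bsmul (van_bd_w θ i)).mono (by omega))
  exact (Ctx.Sz.sum _ fun i _ => (hV (some i) i 0).2.1).add
    (((Ctx.Sz.sum _ fun i _ => (hV none i i).2.2).cmul _).sub ((hV none 0 0).1.mulc _))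

theorem van_strT {C : Ctx 𝒜} (L : Lame 𝒜) (θ : C3) {c : ℤ} {V : ℕ → I4 → 𝒜} (hV : C.Sz2 c V)
    (i j : Fin 3) : C.Sz (c + 2) fun n => C.strT L (w n • θ) (V n) i j := by
  simp only [DA.strT, DA.str_R]
  refine (((Ctx.Sz.mono ?_ (by omega : c ≤ c + 2)).add
    (((van_av L hV j).bsmul (van_bd_w θ i)).mono (by omega))).add
    (((van_av L hV i).bsmul (van_bd_w θ j)).mono (by omega))).add
    ((((hV none 0 0).1.cmul _).bsmul (van_bd_ww θ i j)).mono (by omega))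
  exact ((hV (some j) i 0).2.1.add (hV (some i) j 0).2.1).add
    ((((hV none i j).2.2.cmul _).sub ((hV none 0 0).1.mulc _)).cmul _)

/-- `den_tw`; closure of `Sz` under sums, products (`nrm_mul`), multiplication by fixed elements, by scalars and by `w n`;
`div_R`, `str_R` express `div (R V)`, `str (R V)` by at most two derivatives; `divT`, `strT` have size `c + 2`. -/
theorem Ctx.bd_ev_bf (C : Ctx 𝒜) {I : Fnl 𝒜} {cI : ℝ} (hI : ∀ f, ‖I f‖ ≤ cI * C.nrm f)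
    (L1 L2 : Lame 𝒜) {θ : C3} (hθ : Null θ) {c c' : ℤ} {V Y : ℕ → I4 → 𝒜} (hV : C.Sz2 c V)
    (hY : C.Sz2 c' Y) : Bd (c + c' + 4) (C.ev (C.bf I L1 L2) θ V Y) := by
  have h1 := ((((van_divT L1 θ hV).mul (van_divT L2 (-θ) hY)).cmul (2 * (L2.lam - L1.lam))).add
    ((Ctx.Sz.sum univ fun i _ => Ctx.Sz.sum univ fun j _ =>
      (van_strT L1 θ hV i j).mul (van_strT L2 (-θ) hY i j)).cmul (L2.mu - L1.mu))).mono
    (show c + 2 + (c' + 2) ≤ c + c' + 4 by omega)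
  refine IsBigO.trans (IsBigO.of_bound cI (Eventually.of_forall fun n => ?_)) h1
  have h2 : ∑ j, (w n • θ) j ^ 2 = 0 := by
    simp only [Pi.smul_apply, smul_eq_mul, mul_pow, ← mul_sum, hθ.1, mul_zero]
  rw [EA.ev, DA.bf_apply, C.den_tw L1 L2 _ h2, Real.norm_of_nonneg (apply_nonneg _ _), ← smul_neg]
  exact hI _

/-- Correct `V`, `Y` to exact solutions `V - r`, `Y - r'` (`exists_corr` for `sys L1, th s` and `sys L2, -th s`).  Eventually
`P (tw ζ (V - r)) = 0` (`P_tw_null`), so `lame (R ..) = 0` (`lame_R`) and `ev b (V - r) (Y - r') = 0` by `hA`; hence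
`ev b V Y = ev b r Y + ev b V r' - ev b r r'`.  Take `c = K₁ + K₂ + 4` (`bd_ev_bf`, `sz2_of_deg`, `Bd.mono`). -/
theorem Ctx.van_bf (C : Ctx 𝒜) {I : Fnl 𝒜} {cI : ℝ} (hI : ∀ f, ‖I f‖ ≤ cI * C.nrm f)
    (L1 L2 : Lame 𝒜)
    (hA : ∀ u v, (∀ i, C.lame L1 u i = 0) → (∀ i, C.lame L2 v i = 0) → I (C.den L1 L2 u v) = 0) :
    C.Van (C.sys L1) (C.sys L2) (C.bf I L1 L2) := by
  intro s
  obtain ⟨K1, h1⟩ := C.exists_corr (C.sys L1) (null_th s)
  obtain ⟨K2, h2⟩ := C.exists_corr (C.sys L2) (null_th s).neg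
  refine ⟨K1 + K2 + 4, fun N V Y hV hY => ?_⟩
  obtain ⟨r, hr, hs⟩ := h1 _ _ hV.2
  obtain ⟨r', hr', hs'⟩ := h2 _ _ hY.2
  have a1 := (C.bd_ev_bf hI L1 L2 (null_th s) hs (C.sz2_of_deg hY.1)).mono
    (show _ ≤ (K1 : ℤ) + K2 + 4 - N by omega)
  have a2 := (C.bd_ev_bf hI L1 L2 (null_th s) (C.sz2_of_deg hV.1) hs').mono
    (show _ ≤ (K1 : ℤ) + K2 + 4 - N by omega)
  have a3 := (C.bd_ev_bf hI L1 L2 (null_th s) hs hs').mono (show _ ≤ (K1 : ℤ) + K2 + 4 - N by omega)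
  refine IsBigO.congr' ((a1.add a2).sub a3) ((hr.and hr').mono fun n hn => ?_) EventuallyEq.rfl
  have key : ∀ (L : Lame 𝒜) (θ : C3) (U U' : I4 → 𝒜), Null θ →
      C.P (C.sys L) U' + w n • C.T (C.sys L).A θ U' = C.P (C.sys L) U + w n • C.T (C.sys L).A θ U →
      ∀ i, C.lame L (C.R L (C.tw (w n • θ) (U - U'))) i = 0 := fun L θ U U' hθ h i => by
    have h0 : C.P (C.sys L) (U - U') + w n • C.T (C.sys L).A θ (U - U') = 0 := by
      rw [map_sub, map_sub, smul_sub, sub_add_sub_comm, h, sub_self]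
    rw [DA.lame_R, C.P_tw_null _ hθ.1, h0]
    simp [EA.tw]
  have h3 := hA _ _ (key L1 _ _ _ (null_th s) hn.1) (key L2 _ _ _ (null_th s).neg hn.2)
  rw [← DA.bf_apply, smul_neg, EA.tw_sub, EA.tw_sub] at h3
  simp only [map_sub, LinearMap.sub_apply] at h3
  simp only [EA.ev]
  linear_combination -h3

end Crest.Agent.R80
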