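import Crest.Agent.R80.FinA
import Crest.Agent.R80.Ind
import Crest.Agent.R80.Van

/-!
# R80: the final algebra
-/

set_option autoImplicit false

namespace Crest.Agent.R80

open Finset

variable {𝒜 : Type} [CommRing 𝒜] [Algebra ℂ 𝒜]

theorem quad_zero {M : Fin 3 → Fin 3 → ℂ} (hs : ∀ j k, M j k = M k j)
    (h : ∀ s, ∑ j, ∑ k, th s j * th s k * M j k = 0) (j k : Fin 3) :
    M j k = if j = k then M 0 0 else 0 := by
  have key : ∀ s : ℂ, s ^ 4 * ((M 0 0 - M 1 1) / 4 - Complex.I * M 0 1 / 2) +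
      s ^ 3 * (M 0 2 - Complex.I * M 1 2) + s ^ 2 * (M 2 2 - (M 0 0 + M 1 1) / 2) +
      s * (-M 0 2 - Complex.I * M 1 2) + ((M 0 0 - M 1 1) / 4 + Complex.I * M 0 1 / 2) = 0 := by
    intro s
    have := h s
    simp only [th, Fin.sum_univ_three, Matrix.cons_val_zero, Matrix.cons_val_one, Matrix.cons_val,
      hs 1 0, hs 2 0, hs 2 1] at this
    linear_combination this - ((s ^ 2 + 1) ^ 2 / 4 * M 1 1) * Complex.I_sq
  have hc := coeff_zero_of_sum (m := 5) (c := fun i => match i with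
    | 0 => (M 0 0 - M 1 1) / 4 + Complex.I * M 0 1 / 2
    | 1 => -M 0 2 - Complex.I * M 1 2
    | 2 => M 2 2 - (M 0 0 + M 1 1) / 2
    | 3 => M 0 2 - Complex.I * M 1 2
    | _ => (M 0 0 - M 1 1) / 4 - Complex.I * M 0 1 / 2) (fun s => by
      simp only [sum_range_succ, range_zero, sum_empty]
      linear_combination key s)
  have h0 := hc 0 (by norm_num)
  have h1 := hc 1 (by norm_num)
  have h2 := hc 2 (by norm_num)
  have h3 := hc 3 (by norm_num)
  have h4 := hc 4 (by norm_num)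
  simp only at h0 h1 h2 h3 h4
  have e11 : M 1 1 = M 0 0 := by linear_combination -2 * h0 - 2 * h4
  have e01 : M 0 1 = 0 := by linear_combination -Complex.I * (h0 - h4) + M 0 1 * Complex.I_sq
  have e02 : M 0 2 = 0 := by linear_combination (h3 - h1) / 2
  have e12 : M 1 2 = 0 := by
    linear_combination Complex.I * (h3 + h1) / 2 + M 1 2 * Complex.I_sq
  have e22 : M 2 2 = M 0 0 := by linear_combination h2 + e11 / 2
  have e10 := (hs 1 0).trans e01
  have e20 := (hs 2 0).trans e02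
  have e21 := (hs 2 1).trans e12
  fin_cases j <;> fin_cases k <;> simp <;> assumption

theorem dot_smul_const (θ c : C3) (f : 𝒜) : dot θ (fun i => c i • f) = (∑ i, θ i * c i) • f := by
  simp only [dot, smul_smul, sum_smul]

theorem Null.exists_dual {θ : C3} (h : Null θ) : ∃ c : C3, ∑ i, θ i * c i = 1 := by
  obtain ⟨i, hi⟩ := Function.ne_iff.1 h.2
  refine ⟨Pi.single i (θ i)⁻¹, ?_⟩
  rw [Finset.sum_eq_single i (fun j _ hj => by simp [hj]) (by simp)]
  simp only [Pi.single_eq_same]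
  exact mul_inv_cancel₀ hi

theorem Null.sq {θ : C3} (h : Null θ) : ∑ i, θ i * θ i = 0 := by
  simpa [pow_two] using h.1

theorem DA.dir_m (D : DA 𝒜) (L : Lame 𝒜) (θ : C3) : D.dir θ L.m = -(L.m * L.m * D.dir θ L.mu) := by
  have h := congrArg (D.dir θ) L.mu_m
  rw [D.dir_mul] at h
  have h1 : D.dir θ (1 : 𝒜) = 0 := by simp [DA.dir_apply]
  rw [h1] at h
  linear_combination L.m * h - D.dir θ L.m * L.mu_m

/-- `(φ c, g)` -/
noncomputable def vec (c : C3) (φ g : 𝒜) : I4 → 𝒜
  | some i => c i • φ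
  | none => g

theorem Ctx.zero_of_dotw (C : Ctx 𝒜) (L : Lame 𝒜) {θ : C3} (hθ : Null θ) (ℓ : Fnl 𝒜)
    (h : ∀ V, C.T (C.sys L).A θ V = 0 → ∀ φ, ℓ ((dot θ fun k => V (some k)) * φ) = 0) : ℓ = 0 := by
  have := C.eq_zero_of_sol (C.sys L).A hθ (fun b => b.elim 0 fun k => θ k • ℓ) (fun V hV φ => by
    rw [← h V hV φ]
    simp [Fintype.sum_option, dot, sum_mul])
  obtain ⟨i, hi⟩ := Function.ne_iff.1 hθ.2
  have h2 := this (some i)
  simp only [Option.elim] at h2
  exact (smul_eq_zero.1 h2).resolve_left hi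

theorem Ctx.scalar_surj (C : Ctx 𝒜) (a : Fin 3 → 𝒜) {θ : C3} (hθ : Null θ) (χ : 𝒜) :
    ∃ φ, (2 : ℂ) • C.dir θ φ + dot θ a * φ = χ := by
  obtain ⟨U, hU⟩ := C.surj Unit (fun j _ _ => a j) θ hθ fun _ => χ
  refine ⟨U (), ?_⟩
  have := congrFun hU ()
  rw [DA.T_apply] at this
  rw [← this]
  simp [dot, sum_mul]

theorem Ctx.dir_surj (C : Ctx 𝒜) {θ : C3} (hθ : Null θ) (χ : 𝒜) : ∃ φ, C.dir θ φ = χ := by
  obtain ⟨φ, hφ⟩ := C.scalar_surj 0 hθ χ
  exact ⟨(2 : ℂ) • φ, by simpa [dot] using hφ⟩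

theorem DA.dot_av (D : DA 𝒜) (L : Lame 𝒜) (θ : C3) (V : I4 → 𝒜) :
    dot θ (D.av L V) = (dot θ fun k => V (some k)) + 2 * L.m * D.dir θ (V none) := by
  simp only [dot, DA.av, DA.dir_apply, smul_add, sum_add_distrib, mul_sum, mul_smul_comm]

theorem DA.dot_R (D : DA 𝒜) (L : Lame 𝒜) (θ : C3) (V : I4 → 𝒜) :
    dot θ (D.R L V) = (dot θ fun k => V (some k)) + L.m * D.dir θ (V none) -
      V none * D.dir θ L.m := by
  simp only [dot, DA.R, DA.dir_apply, smul_add, smul_sub, sum_add_distrib, sum_sub_distrib, mul_sum,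
    mul_smul_comm]

theorem dot_vec (θ c : C3) (φ g : 𝒜) :
    (dot θ fun k => vec c φ g (some k)) = (∑ i, θ i * c i) • φ := dot_smul_const θ c φ

theorem two_smul' (f : 𝒜) : (2 : ℂ) • f = 2 * f := by
  rw [two_smul, two_mul]

theorem Ctx.abstract_main (C : Ctx 𝒜) {I : Fnl 𝒜} (hg : I ∈ C.Good) {cI : ℝ}
    (hI : ∀ f, ‖I f‖ ≤ cI * C.nrm f) (L1 L2 : Lame 𝒜)
    (hA : ∀ u v, (∀ i, C.lame L1 u i = 0) → (∀ i, C.lame L2 v i = 0) → I (C.den L1 L2 u v) = 0) :
    (∀ ψ, I ((L2.mu - L1.mu) * ψ) = 0) ∧ ∀ ψ, I ((L2.lam - L1.lam) * ψ) = 0 := by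
  obtain ⟨T1, T0, j0, κ, hκ, hT⟩ :=
    C.main_T (C.bf_mem hg L1 L2) (C.ord_bf I L1 L2) (C.van_bf hI L1 L2 hA)
  have hlead := C.fin_lead hκ hT
  have hsymm := C.fin_symm hT
  -- Step 1: the `w`-part of the symbol is `k0 (θ · w)`
  have hk : ∀ j a k, T1 j a (some k) = if j = k then T1 0 a (some 0) else 0 := by
    intro j a k
    ext φ
    have := quad_zero (M := fun j k => T1 j a (some k) φ) (fun j k => by rw [hsymm a j k])
      (fun s => by
        have hθ := null_th s
        obtain ⟨Y, hY⟩ := C.surj I4 (C.sys L2).A (th s) hθ (Pi.single a (L1.mu * φ))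
        have h0 : C.T (C.sys L1).A (th s) (vec (th s) L1.m 0) = 0 := by
          funext b
          rcases b with _ | i
          · rw [DA.T_sys_none, dot_vec, hθ.sq]
            simp [vec]
          · rw [DA.T_sys_some, dot_vec, hθ.sq]
            have e1 : ∑ k, vec (th s) L1.m 0 (some k) * C.d k L1.mu = L1.m * C.dir (th s) L1.mu := by
              simp only [vec, DA.dir_apply, mul_sum, smul_mul_assoc, mul_smul_comm]
            rw [e1]
            simp only [vec, map_smul, C.toDA.dir_m L1, zero_smul, Pi.zero_apply, two_smul']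
            simp only [Algebra.smul_def]
            ring
        have h1 := hlead s _ Y h0
        have h2 : C.den2 L1 L2 (th s) (vec (th s) L1.m 0) Y = 0 := by
          simp only [DA.den2, DA.dot_av, DA.dot_R, dot_vec, hθ.sq]
          simp [vec]
        rw [h2, map_zero, hY] at h1
        have h3 : ∀ j, ∑ a', ∑ b, T1 j a' b (vec (th s) L1.m 0 b * Pi.single (M := fun _ => 𝒜) a
            (L1.mu * φ) a') = ∑ k, th s k * T1 j a (some k) φ := by
          intro j
          rw [Finset.sum_eq_single a (fun a' _ ha' => by simp [ha']) (by simp)]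
          have e2 : L1.m * (L1.mu * φ) = φ := by linear_combination φ * L1.mu_m
          simp [Fintype.sum_option, vec, e2]
        simp only [h3, mul_sum] at h1
        rw [eq_comm, neg_eq_zero] at h1
        rw [← h1]
        simp only [mul_assoc]) j k
    rw [this]
    split_ifs <;> rfl
  set k0 : I4 → Fnl 𝒜 := fun a => T1 0 a (some 0) with hk0
  have hn := C.fin_ker hκ hT (k0 := k0) hk
  have hlead2 : ∀ s V0 Y, C.T (C.sys L1).A (th s) V0 = 0 → I (C.den2 L1 L2 (th s) V0 Y) =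
      -∑ a, k0 a ((dot (th s) fun k => V0 (some k)) * C.T (C.sys L2).A (th s) Y a) := by
    intro s V0 Y h0
    rw [hlead s V0 Y h0]
    congr 1
    simp only [mul_sum]
    rw [Finset.sum_comm]
    refine Finset.sum_congr rfl fun a _ => ?_
    simp only [Fintype.sum_option, hn, LinearMap.zero_apply, mul_zero, zero_add, dot, sum_mul,
      map_sum, smul_mul_assoc, map_smul, smul_eq_mul]
    refine Finset.sum_congr rfl fun j _ => ?_
    rw [Finset.sum_eq_single j (fun k _ hk' => by rw [hk, if_neg (Ne.symm hk')]; simp) (by simp),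
      hk, if_pos rfl]
  -- Step 3: `k0 (some k) = 0`
  have hk1 : ∀ k, k0 (some k) = 0 := by
    intro k
    ext φ
    refine lin_zero (c := fun k => k0 (some k) φ) (fun s => ?_) k
    have hθ := null_th s
    have := C.zero_of_dotw L1 hθ (∑ k, th s k • k0 (some k)) (fun V hV χ => by
      obtain ⟨g, hg⟩ := C.scalar_surj (fun j => 2 * L2.m * C.d j L2.mu) hθ χ
      have h1 := hlead2 s V (vec (th s) g 0) hV
      have h2 : C.den2 L1 L2 (th s) V (vec (th s) g 0) = 0 := by
        simp only [DA.den2, C.toDA.dot_av L2, C.toDA.dot_R L2, dot_vec, hθ.sq]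
        simp [vec]
      have h3 : C.T (C.sys L2).A (th s) (vec (th s) g 0) none = 0 := by
        rw [DA.T_sys_none, dot_vec, hθ.sq]
        simp [vec]
      have h4 : ∀ i, C.T (C.sys L2).A (th s) (vec (th s) g 0) (some i) = th s i • χ := by
        intro i
        rw [DA.T_sys_some, dot_vec, hθ.sq]
        have e1 : ∑ k, vec (th s) g 0 (some k) * C.d k L2.mu = g * C.dir (th s) L2.mu := by
          simp only [vec, DA.dir_apply, mul_sum, smul_mul_assoc, mul_smul_comm]
        have e2 : dot (th s) (fun j => 2 * L2.m * C.d j L2.mu) = 2 * L2.m * C.dir (th s) L2.mu := by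
          simp only [dot, DA.dir_apply, mul_sum, mul_smul_comm]
        rw [e1, ← hg, e2]
        simp only [vec, map_smul, zero_smul, two_smul']
        simp only [Algebra.smul_def]
        ring
      rw [h2, map_zero, Fintype.sum_option, h3, eq_comm, neg_eq_zero] at h1
      simpa [h4, LinearMap.sum_apply] using h1)
    simpa [LinearMap.sum_apply] using LinearMap.congr_fun this φ
  have hθ := null_th 0
  set θ := th 0 with hθdef
  obtain ⟨c, hc⟩ := hθ.exists_dual
  have hlead3 : ∀ V0 Y, C.T (C.sys L1).A θ V0 = 0 → I (C.den2 L1 L2 θ V0 Y) =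
      -k0 none ((dot θ fun k => V0 (some k)) * C.T (C.sys L2).A θ Y none) := by
    intro V0 Y h0
    rw [hlead2 0 V0 Y h0, Fintype.sum_option]
    simp [hk1, hθdef]
  have hf : ∀ V0, C.T (C.sys L1).A θ V0 = 0 → 2 * C.dir θ (V0 none) =
      -(L1.p * (L1.lam + L1.mu) * dot θ fun k => V0 (some k)) := by
    intro V0 h0
    have := congrFun h0 none
    rw [DA.T_sys_none, two_smul'] at this
    exact eq_neg_of_add_eq_zero_left this
  have hav : ∀ V0, C.T (C.sys L1).A θ V0 = 0 →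
      dot θ (C.av L1 V0) = L1.p * dot θ fun k => V0 (some k) := by
    intro V0 h0
    rw [DA.dot_av]
    linear_combination L1.m * hf V0 h0 - (dot θ fun k => V0 (some k)) * L1.p_mul -
      (L1.p * dot θ fun k => V0 (some k)) * L1.mu_m
  have hY1 : ∀ V0 φ, C.T (C.sys L1).A θ V0 = 0 → C.den2 L1 L2 θ V0 (vec c φ 0) =
      -2 * (L2.lam - L1.lam + (L2.mu - L1.mu)) * L1.p * ((dot θ fun k => V0 (some k)) * φ) +
        4 * (L2.mu - L1.mu) * L1.m * (V0 none * C.dir θ φ) := by
    intro V0 φ h0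
    simp only [DA.den2, hav V0 h0, C.toDA.dot_av L2, C.toDA.dot_R L2, dot_vec, hc]
    simp only [vec, map_zero, one_smul]
    ring_nf
  have hY2 : ∀ φ, C.T (C.sys L2).A θ (vec c φ 0) none = L2.p * (L2.lam + L2.mu) * φ := by
    intro φ
    rw [DA.T_sys_none, dot_vec, hc]
    simp [vec]
  -- Step 4: `μ₁ = μ₂`
  have hmu : ∀ ψ, I ((L2.mu - L1.mu) * ψ) = 0 := by
    have := C.eq_zero_of_sol (C.sys L1).A hθ (fun b => b.elim
      (I ∘ₗ LinearMap.mulLeft ℂ (4 * (L2.mu - L1.mu) * L1.m) ∘ₗ C.dir θ)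
      fun k => θ k • (I ∘ₗ LinearMap.mulLeft ℂ (-2 * (L2.lam - L1.lam + (L2.mu - L1.mu)) * L1.p +
        2 * (L2.mu - L1.mu) * L1.m * (L1.p * (L1.lam + L1.mu))) +
        k0 none ∘ₗ LinearMap.mulLeft ℂ (L2.p * (L2.lam + L2.mu)))) (fun V hV φ => by
      have h1 := hlead3 V (vec c φ 0) hV
      rw [hY1 V φ hV, hY2] at h1
      have h2 : ∀ ℓ : Fnl 𝒜, ∑ k, (θ k • ℓ) (V (some k) * φ) = ℓ ((dot θ fun k => V (some k)) * φ) := by
        intro ℓ
        simp [dot, sum_mul]
      rw [Fintype.sum_option]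
      simp only [Option.elim]
      rw [h2]
      simp only [LinearMap.comp_apply, LinearMap.add_apply, LinearMap.mulLeft_apply]
      have h3 : L2.p * (L2.lam + L2.mu) * ((dot θ fun k => V (some k)) * φ) =
          (dot θ fun k => V (some k)) * (L2.p * (L2.lam + L2.mu) * φ) := by ring
      rw [h3, ← add_assoc, ← map_add, add_eq_zero_iff_eq_neg, ← h1]
      congr 1
      rw [C.toDA.dir_mul]
      linear_combination (2 * (L2.mu - L1.mu) * L1.m * φ) * hf V hV) none
    intro ψ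
    obtain ⟨Φ, hΦ⟩ := C.dir_surj hθ ((4 : ℂ)⁻¹ • (L1.mu * ψ))
    have h5 := LinearMap.congr_fun this Φ
    simp only [Option.elim, LinearMap.comp_apply, LinearMap.mulLeft_apply, hΦ,
      LinearMap.zero_apply] at h5
    rw [← h5]
    congr 1
    have e4 : (4 : 𝒜) = algebraMap ℂ 𝒜 4 := (map_ofNat (algebraMap ℂ 𝒜) 4).symm
    rw [mul_smul_comm, e4, mul_assoc, mul_assoc, ← Algebra.smul_def, smul_smul]
    norm_num
    linear_combination (-(L2.mu - L1.mu) * ψ) * L1.mu_m
  refine ⟨hmu, ?_⟩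
  -- Step 5: `k0 none = 0`
  have hk2 : k0 none = 0 := by
    refine C.zero_of_dotw L1 hθ _ fun V hV χ => ?_
    obtain ⟨g, hg⟩ := C.dir_surj hθ ((2 : ℂ)⁻¹ • ((L2.lam * L2.m + 2) * χ))
    have hg2 : 2 * C.dir θ g = (L2.lam * L2.m + 2) * χ := by
      rw [← two_smul', hg, smul_smul]
      norm_num
    have h1 := hlead3 V (vec c (-(2 * L2.m * C.dir θ g)) g) hV
    have h2 : dot θ (C.av L2 (vec c (-(2 * L2.m * C.dir θ g)) g)) = 0 := by
      rw [DA.dot_av, dot_vec, hc]
      simp [vec]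
    have h3 : C.T (C.sys L2).A θ (vec c (-(2 * L2.m * C.dir θ g)) g) none = χ := by
      rw [DA.T_sys_none, dot_vec, hc, two_smul', one_smul]
      simp only [vec]
      linear_combination (1 - L2.p * (L2.lam + L2.mu) * L2.m) * hg2 +
        (χ - (L2.lam * L2.m + 2) * χ + χ - χ) * L2.p_mul -
        (L2.p * (L2.lam * L2.m + 2) * χ) * L2.mu_m
    rw [h3, DA.den2, h2, mul_zero, mul_zero, zero_add, mul_assoc, mul_left_comm, hmu] at h1
    exact neg_eq_zero.1 h1.symm
  -- Step 6: `λ₁ = λ₂`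
  have := C.zero_of_dotw L1 hθ (I ∘ₗ LinearMap.mulLeft ℂ (-2 * (L2.lam - L1.lam) * L1.p))
    fun V hV φ => by
      have h1 := hlead3 V (vec c φ 0) hV
      rw [hY1 V φ hV, hk2] at h1
      have h2 := hmu (-2 * L1.p * ((dot θ fun k => V (some k)) * φ) +
        4 * L1.m * (V none * C.dir θ φ))
      simp only [LinearMap.zero_apply, neg_zero] at h1
      simp only [LinearMap.comp_apply, LinearMap.mulLeft_apply]
      rw [← sub_eq_zero.2 (h1.trans h2.symm), ← map_sub]
      congr 1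
      ring
  intro ψ
  have h5 := LinearMap.congr_fun this ((-2 : ℂ)⁻¹ • ((L1.lam * L1.m + 2) * ψ))
  simp only [LinearMap.comp_apply, LinearMap.mulLeft_apply, LinearMap.zero_apply] at h5
  rw [← h5]
  congr 1
  have e4 : (-2 : 𝒜) = algebraMap ℂ 𝒜 (-2) := by rw [map_neg, map_ofNat]
  rw [mul_smul_comm, e4, mul_assoc, mul_assoc, ← Algebra.smul_def, smul_smul]
  norm_num
  linear_combination (-(L2.lam - L1.lam) * ψ) * L1.p_mul

end Crest.Agent.R80
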