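import Crest.Agent.R80.Sm

/-!
# R80: the weighted Cauchy operator on bounded continuous functions
-/

set_option autoImplicit false

namespace Crest.Agent.R80

open MeasureTheory
open scoped BoundedContinuousFunction

/-- phase of the magnetic translation -/
noncomputable def mt (κ : ℝ) (y0 z : ℂ) : ℂ :=
  Complex.exp (-((κ : ℂ) / 2) * ((starRingEnd ℂ) y0 * z - y0 * (starRingEnd ℂ) z))

theorem norm_mt (κ : ℝ) (y0 z : ℂ) : ‖mt κ y0 z‖ = 1 := by
  unfold mt
  rw [Complex.norm_exp]
  have : (-((κ : ℂ) / 2) * ((starRingEnd ℂ) y0 * z - y0 * (starRingEnd ℂ) z)).re = 0 := by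
    have h2 : ((κ : ℂ) / 2) = ((κ / 2 : ℝ) : ℂ) := by push_cast; ring
    rw [h2, ← Complex.ofReal_neg, Complex.re_ofReal_mul]
    simp
  rw [this, Real.exp_zero]

theorem mt_zero (κ : ℝ) (y0 : ℂ) : mt κ y0 0 = 1 := by
  simp [mt]

theorem gk_shift (κ : ℝ) (y0 z y : ℂ) :
    gk κ (z + y0) y * mt κ y0 z = gk κ z y * mt κ y0 (z - y) := by
  unfold gk mt
  rw [mul_assoc, mul_assoc ((((Real.pi : ℂ) * y)⁻¹)), ← Complex.exp_add, ← Complex.exp_add]
  congr 2
  simp only [map_add, map_sub]
  ring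

theorem norm_gk (κ : ℝ) (z y : ℂ) :
    ‖gk κ z y‖ = (Real.pi * ‖y‖)⁻¹ * Real.exp (-(κ / 2) * ‖y‖ ^ 2) := by
  unfold gk
  rw [norm_mul, norm_inv, norm_mul, Complex.norm_real, Real.norm_of_nonneg Real.pi_pos.le,
    Complex.norm_exp]
  congr 2
  have h2 : ((κ : ℂ) / 2) = ((κ / 2 : ℝ) : ℂ) := by push_cast; ring
  rw [h2, Complex.re_ofReal_mul, Complex.sq_norm, Complex.normSq_apply]
  simp only [Complex.sub_re, Complex.mul_re, Complex.conj_re, Complex.conj_im]
  ring

theorem measurable_gk (κ : ℝ) (z : ℂ) : Measurable (gk κ z) := by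
  unfold gk
  have hc : Continuous fun y : ℂ => Complex.exp ((κ : ℂ) / 2 *
      ((starRingEnd ℂ) z * y - z * (starRingEnd ℂ) y - y * (starRingEnd ℂ) y)) := by
    have := Complex.continuous_conj
    fun_prop
  exact ((measurable_const.mul measurable_id).inv).mul hc.measurable

/-- E.g. `MeasureTheory.integrable_fun_norm_addHaar` (`finrank ℝ ℂ = 2`: the radial integrand is `π⁻¹ exp (-κ r² / 2)`), or polar coordinates.
The factor `1 + ‖y‖` is needed for differentiation under the integral sign. -/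
theorem integrable_gk_bound {κ : ℝ} (hκ : 0 < κ) :
    Integrable fun y : ℂ => (1 + ‖y‖) * ((Real.pi * ‖y‖)⁻¹ * Real.exp (-(κ / 2) * ‖y‖ ^ 2)) := by
  rw [integrable_fun_norm_addHaar (volume : Measure ℂ)
    (f := fun r : ℝ => (1 + r) * ((Real.pi * r)⁻¹ * Real.exp (-(κ / 2) * r ^ 2)))]
  have hb : 0 < κ / 2 := by positivity
  have h1 := ((integrable_exp_neg_mul_sq hb).add (integrable_mul_exp_neg_mul_sq hb)).const_mul
    (Real.pi)⁻¹
  refine (h1.integrableOn (s := Set.Ioi 0)).congr_fun ?_ measurableSet_Ioi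
  intro r hr
  have hr' : r ≠ 0 := ne_of_gt hr
  have hpi : Real.pi ≠ 0 := Real.pi_pos.ne'
  simp only [Complex.finrank_real_complex, Pi.add_apply, smul_eq_mul]
  norm_num
  field_simp

theorem integrable_gk {κ : ℝ} (hκ : 0 < κ) (z : ℂ) : Integrable (gk κ z) := by
  refine (integrable_gk_bound hκ).mono' (measurable_gk κ z).aestronglyMeasurable
    (Filter.Eventually.of_forall fun y => ?_)
  rw [norm_gk]
  have : 0 ≤ (Real.pi * ‖y‖)⁻¹ * Real.exp (-(κ / 2) * ‖y‖ ^ 2) := by
    have := Real.pi_pos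
    positivity
  nlinarith [norm_nonneg y]

/-- dominated convergence along `κ = n + 1 → ∞` (or scaling) -/
theorem exists_gk_small {ε : ℝ} (hε : 0 < ε) : ∃ κ : ℝ, 0 < κ ∧ ∀ z, ∫ y, ‖gk κ z y‖ ≤ ε := by
  have hlim : Filter.Tendsto (fun n : ℕ => ∫ y : ℂ,
      (Real.pi * ‖y‖)⁻¹ * Real.exp (-(((n : ℝ) + 1) / 2) * ‖y‖ ^ 2)) Filter.atTop
      (nhds (∫ _ : ℂ, (0 : ℝ))) := by
    refine tendsto_integral_of_dominated_convergence
      (fun y : ℂ => (1 + ‖y‖) * ((Real.pi * ‖y‖)⁻¹ * Real.exp (-(1 / 2) * ‖y‖ ^ 2))) ?_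
      (integrable_gk_bound one_pos) ?_ ?_
    · intro n
      refine Measurable.aestronglyMeasurable ?_
      exact ((measurable_const.mul measurable_norm).inv).mul
        (by fun_prop : Continuous fun y : ℂ =>
          Real.exp (-(((n : ℝ) + 1) / 2) * ‖y‖ ^ 2)).measurable
    · intro n
      refine Filter.Eventually.of_forall fun y => ?_
      have hpi := Real.pi_pos
      have h0 : 0 ≤ (Real.pi * ‖y‖)⁻¹ := by positivity
      have h1 : Real.exp (-(((n : ℝ) + 1) / 2) * ‖y‖ ^ 2) ≤ Real.exp (-(1 / 2) * ‖y‖ ^ 2) := by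
        apply Real.exp_le_exp.2
        have : (0 : ℝ) ≤ n := Nat.cast_nonneg n
        nlinarith [sq_nonneg ‖y‖]
      rw [Real.norm_of_nonneg (by positivity)]
      have h2 := mul_le_mul_of_nonneg_left h1 h0
      have h3 : 0 ≤ (Real.pi * ‖y‖)⁻¹ * Real.exp (-(1 / 2) * ‖y‖ ^ 2) := by positivity
      nlinarith [norm_nonneg y]
    · refine Filter.Eventually.of_forall fun y => ?_
      by_cases hy : y = 0
      · simp [hy]
      · have hpos : 0 < ‖y‖ ^ 2 := by positivity
        have h1 : Filter.Tendsto (fun n : ℕ => -(((n : ℝ) + 1) / 2) * ‖y‖ ^ 2) Filter.atTop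
            Filter.atBot := by
          refine Filter.Tendsto.atBot_mul_const hpos ?_
          refine Filter.tendsto_neg_atTop_atBot.comp ?_
          refine Filter.Tendsto.atTop_div_const two_pos ?_
          exact Filter.tendsto_atTop_add_const_right _ _ tendsto_natCast_atTop_atTop
        have h2 := (Real.tendsto_exp_atBot.comp h1).const_mul (Real.pi * ‖y‖)⁻¹
        simpa using h2
  rw [integral_zero] at hlim
  obtain ⟨n, hn⟩ := (hlim.eventually (ge_mem_nhds hε)).exists
  refine ⟨(n : ℝ) + 1, by positivity, fun z => ?_⟩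
  simp only [norm_gk]
  exact hn

/-- continuity in `z` by `continuous_of_dominated`; `LinearMap.mkContinuous` -/
theorem exists_Sop {κ ε : ℝ} (hκ : 0 < κ) (h : ∀ z, ∫ y, ‖gk κ z y‖ ≤ ε) :
    ∃ S : (ℂ →ᵇ ℂ) →L[ℂ] (ℂ →ᵇ ℂ), ‖S‖ ≤ ε ∧ ∀ f z, S f z = ∫ y, gk κ z y * f (z - y) := by
  have hε : 0 ≤ ε := le_trans (integral_nonneg fun y => norm_nonneg _) (h 0)
  have hint : ∀ (f : ℂ →ᵇ ℂ) (z : ℂ), Integrable fun y => gk κ z y * f (z - y) := by
    intro f z
    refine (integrable_gk hκ z).mul_bdd (c := ‖f‖) ?_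
      (Filter.Eventually.of_forall fun y => f.norm_coe_le_norm _)
    exact (f.continuous.comp (continuous_const.sub continuous_id)).aestronglyMeasurable
  have hcont : ∀ f : ℂ →ᵇ ℂ, Continuous fun z => ∫ y, gk κ z y * f (z - y) := by
    intro f
    refine continuous_of_dominated (bound := fun y => ‖gk κ 0 y‖ * ‖f‖)
      (fun z => (hint f z).aestronglyMeasurable) (fun z => Filter.Eventually.of_forall fun y => ?_)
      ((integrable_gk hκ 0).norm.mul_const _) (Filter.Eventually.of_forall fun y => ?_)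
    · rw [norm_mul, norm_gk, norm_gk]
      have hpi := Real.pi_pos
      exact mul_le_mul_of_nonneg_left (f.norm_coe_le_norm _) (by positivity)
    · refine Continuous.mul ?_ (f.continuous.comp (continuous_id.sub continuous_const))
      unfold gk
      have := Complex.continuous_conj
      fun_prop
  have hbd : ∀ (f : ℂ →ᵇ ℂ) (z : ℂ), ‖∫ y, gk κ z y * f (z - y)‖ ≤ ε * ‖f‖ := by
    intro f z
    calc ‖∫ y, gk κ z y * f (z - y)‖ ≤ ∫ y, ‖gk κ z y‖ * ‖f‖ := by
          refine norm_integral_le_of_norm_le ((integrable_gk hκ z).norm.mul_const _)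
            (Filter.Eventually.of_forall fun y => ?_)
          rw [norm_mul]
          exact mul_le_mul_of_nonneg_left (f.norm_coe_le_norm _) (norm_nonneg _)
      _ = (∫ y, ‖gk κ z y‖) * ‖f‖ := integral_mul_const _ _
      _ ≤ ε * ‖f‖ := mul_le_mul_of_nonneg_right (h z) (norm_nonneg _)
  let L : (ℂ →ᵇ ℂ) →ₗ[ℂ] (ℂ →ᵇ ℂ) :=
    { toFun := fun f => BoundedContinuousFunction.ofNormedAddCommGroup
        (fun z => ∫ y, gk κ z y * f (z - y)) (hcont f) (ε * ‖f‖) (hbd f)
      map_add' := fun f g => by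
        ext z
        simp only [BoundedContinuousFunction.coe_ofNormedAddCommGroup,
          BoundedContinuousFunction.add_apply, mul_add]
        exact integral_add (hint f z) (hint g z)
      map_smul' := fun c f => by
        ext z
        simp only [BoundedContinuousFunction.coe_ofNormedAddCommGroup,
          BoundedContinuousFunction.smul_apply, RingHom.id_apply, smul_eq_mul]
        rw [← integral_const_mul]
        congr 1
        funext y
        ring }
  have hL : ∀ f, ‖L f‖ ≤ ε * ‖f‖ := fun f =>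
    BoundedContinuousFunction.norm_ofNormedAddCommGroup_le (hcont f)
      (mul_nonneg hε (norm_nonneg _)) (hbd f)
  exact ⟨L.mkContinuous ε hL, L.mkContinuous_norm_le hε hL, fun f z => rfl⟩

end Crest.Agent.R80
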