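import Crest.Agent.R80.Sm

/-!
# R80: the Cauchy-Pompeiu formula
-/

set_option autoImplicit false

namespace Crest.Agent.R80

open MeasureTheory

/-- `e^{it}` -/
noncomputable def pompE (t : ℝ) : ℂ := Real.cos t + Real.sin t * Complex.I
/-- `i e^{it}` -/
noncomputable def pompE' (t : ℝ) : ℂ := (-Real.sin t : ℝ) + Real.cos t * Complex.I

theorem pomp_deriv (t : ℝ) : HasDerivAt pompE (pompE' t) t :=
  (Real.hasDerivAt_cos t).ofReal_comp.add ((Real.hasDerivAt_sin t).ofReal_comp.mul_const Complex.I)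

theorem pomp_norm (t : ℝ) : ‖pompE t‖ = 1 := by
  rw [pompE, Complex.ofReal_cos, Complex.ofReal_sin]
  exact Complex.norm_cos_add_sin_mul_I t

theorem pomp_lin (L : ℂ →L[ℝ] ℂ) (a b : ℝ) : L (a + b * Complex.I) = a * L 1 + b * L Complex.I := by
  rw [← Complex.real_smul, ← Complex.real_smul, ← Complex.real_smul, ← map_smul, ← map_smul, ← map_add,
    Complex.real_smul (x := a), mul_one]

theorem pomp_alg (L : ℂ →L[ℝ] ℂ) {r : ℝ} (hr : r ≠ 0) (t : ℝ) :
    r • (((Real.pi : ℂ) * (r * pompE t))⁻¹ * ((L 1 + Complex.I * L Complex.I) / 2)) =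
      (2 * Real.pi : ℂ)⁻¹ * (L (pompE t) + Complex.I * L (pompE' t)) := by
  have h0 : pompE t ≠ 0 := norm_ne_zero_iff.1 (by rw [pomp_norm]; exact one_ne_zero)
  have h1 : (r : ℂ) ≠ 0 := Complex.ofReal_ne_zero.2 hr
  have h2 : (Real.pi : ℂ) ≠ 0 := Complex.ofReal_ne_zero.2 Real.pi_ne_zero
  have h3 : (Real.cos t : ℂ) ^ 2 + (Real.sin t : ℂ) ^ 2 = 1 := by exact_mod_cast Real.cos_sq_add_sin_sq t
  have h4 : pompE t * (L (pompE t) + Complex.I * L (pompE' t)) = L 1 + Complex.I * L Complex.I := by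
    rw [pompE, pompE', pomp_lin, pomp_lin, Complex.ofReal_neg]
    linear_combination (L 1 + Complex.I * L Complex.I) * h3 +
      (Real.sin t * Real.cos t * L Complex.I - (Real.sin t : ℂ) ^ 2 * L 1) * Complex.I_sq
  rw [← h4, Complex.real_smul]
  field_simp

/-- Polar coordinates (`Complex.integral_comp_polarCoord_symm`): with `g (r, t) = Φ (r e^{it})`,
`r * ((π y)⁻¹ * dbar Φ y) = (2 π)⁻¹ * (∂_r g + i * h (r, t))` for `r > 0`, where `h (r, t) = fderiv Φ y (i e^{it})`, `r * h = ∂_t g`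
(real-linearity of `fderiv ℝ Φ y`: `e^{it} = cos t • 1 + sin t • I`).  Both terms are continuous and vanish for `r ≥ R`, so one may integrate over
`Ioo 0 R ×ˢ Ioo (-π) π` and use Fubini in the convenient order: `∫ ∂_r g dr = -Φ 0`, and `∫ h (r, t) dt = r⁻¹ (g (r, π) - g (r, -π)) = 0`. -/
theorem pompeiu (Φ : ℂ → ℂ) (h1 : ContDiff ℝ 1 Φ) (hc : HasCompactSupport Φ) :
    ∫ y : ℂ, ((Real.pi : ℂ) * y)⁻¹ * dbar Φ y = -Φ 0 := by
  have hd : ∀ y, HasFDerivAt Φ (fderiv ℝ Φ y) y := fun y => (h1.differentiable one_ne_zero y).hasFDerivAt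
  obtain ⟨R, hR0, hR⟩ := hc.isCompact.isBounded.subset_ball_lt 0 0
  have hout : ∀ r, R ≤ r → ∀ t, (r : ℂ) * pompE t ∉ tsupport Φ := fun r hr t h => by
    have := mem_ball_zero_iff.1 (hR h)
    rw [norm_mul, pomp_norm, mul_one, Complex.norm_real, Real.norm_of_nonneg (by linarith)] at this
    linarith
  have cE : Continuous pompE := continuous_iff_continuousAt.2 fun t => (pomp_deriv t).continuousAt
  have cE' : Continuous pompE' := by
    unfold pompE'
    fun_prop
  have cL : Continuous fun p : ℝ × ℝ => fderiv ℝ Φ (p.1 * pompE p.2) :=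
    (h1.continuous_fderiv one_ne_zero).comp (by fun_prop)
  have cA : Continuous fun p : ℝ × ℝ => fderiv ℝ Φ (p.1 * pompE p.2) (pompE p.2) :=
    cL.clm_apply (cE.comp continuous_snd)
  have cB : Continuous fun p : ℝ × ℝ => fderiv ℝ Φ (p.1 * pompE p.2) (pompE' p.2) :=
    cL.clm_apply (cE'.comp continuous_snd)
  have hint : ∀ {F : ℝ × ℝ → ℂ}, Continuous F →
      IntegrableOn F (Set.Ioc 0 R ×ˢ Set.Ioo (-Real.pi) Real.pi) (volume.prod volume) := fun hF =>
    (hF.continuousOn.integrableOn_compact (isCompact_Icc.prod isCompact_Icc)).mono_set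
      (Set.prod_mono Set.Ioc_subset_Icc_self Set.Ioo_subset_Icc_self)
  have hπ : -Real.pi ≤ Real.pi := by linarith [Real.pi_pos]
  have iA : ∫ p in Set.Ioc 0 R ×ˢ Set.Ioo (-Real.pi) Real.pi, fderiv ℝ Φ (p.1 * pompE p.2) (pompE p.2)
      ∂(volume.prod volume) = (2 * Real.pi : ℂ) * -Φ 0 := by
    have hi := hint cA
    rw [IntegrableOn, ← Measure.prod_restrict] at hi
    rw [← Measure.prod_restrict, integral_prod_symm _ hi]
    have e : ∀ t : ℝ, ∫ r in Set.Ioc 0 R, fderiv ℝ Φ (r * pompE t) (pompE t) = -Φ 0 := by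
      intro t
      rw [← intervalIntegral.integral_of_le hR0.le,
        intervalIntegral.integral_eq_sub_of_hasDerivAt (f := fun r : ℝ => Φ (r * pompE t))]
      · rw [image_eq_zero_of_notMem_tsupport (hout R le_rfl t)]
        simp
      · intro r _
        have := (hd _).comp_hasDerivAt r (((hasDerivAt_id r).ofReal_comp).mul_const (pompE t))
        rwa [Complex.ofReal_one, one_mul] at this
      · exact (cA.comp (continuous_id.prodMk continuous_const)).intervalIntegrable _ _
    simp only [e]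
    rw [setIntegral_const, Real.volume_real_Ioo_of_le hπ, Complex.real_smul]
    push_cast
    ring
  have iB : ∫ p in Set.Ioc 0 R ×ˢ Set.Ioo (-Real.pi) Real.pi, fderiv ℝ Φ (p.1 * pompE p.2) (pompE' p.2)
      ∂(volume.prod volume) = 0 := by
    rw [setIntegral_prod _ (hint cB)]
    refine setIntegral_eq_zero_of_forall_eq_zero fun r hr => ?_
    refine (mul_eq_zero.1 ?_).resolve_left (Complex.ofReal_ne_zero.2 hr.1.ne')
    rw [← integral_const_mul, ← integral_Ioc_eq_integral_Ioo, ← intervalIntegral.integral_of_le hπ,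
      intervalIntegral.integral_eq_sub_of_hasDerivAt (f := fun t : ℝ => Φ (r * pompE t))]
    · simp [pompE]
    · intro t _
      have := (hd _).comp_hasDerivAt t ((pomp_deriv t).const_mul (r : ℂ))
      rwa [← Complex.real_smul (z := pompE' t), map_smul, Complex.real_smul] at this
    · exact (continuous_const.mul (cB.comp (continuous_const.prodMk continuous_id))).intervalIntegrable _ _
  rw [← Complex.integral_comp_polarCoord_symm, polarCoord_target,
    setIntegral_congr_fun (measurableSet_Ioi.prod measurableSet_Ioo)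
      (g := fun p : ℝ × ℝ => (2 * Real.pi : ℂ)⁻¹ * (fderiv ℝ Φ (p.1 * pompE p.2) (pompE p.2) +
        Complex.I * fderiv ℝ Φ (p.1 * pompE p.2) (pompE' p.2))) fun p hp => by
      simp only [Complex.polarCoord_symm_apply]
      exact pomp_alg _ (ne_of_gt hp.1) _,
    setIntegral_eq_of_subset_of_forall_sdiff_eq_zero (measurableSet_Ioi.prod measurableSet_Ioo)
      (Set.prod_mono Set.Ioc_subset_Ioi_self subset_rfl : Set.Ioc 0 R ×ˢ _ ⊆ _) fun p hp => by
      have : R ≤ p.1 := le_of_lt (not_le.1 fun h => hp.2 ⟨⟨hp.1.1, h⟩, hp.1.2⟩)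
      simp [fderiv_of_notMem_tsupport ℝ (hout _ this p.2)],
    integral_const_mul, Measure.volume_eq_prod, integral_add (hint cA) ((hint cB).const_mul _),
    integral_const_mul, iA, iB, mul_zero, add_zero, inv_mul_cancel_left₀]
  exact mul_ne_zero two_ne_zero (Complex.ofReal_ne_zero.2 Real.pi_ne_zero)

end Crest.Agent.R80
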