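import Crest.Agent.R80.GkA
import Crest.Agent.R80.Pomp

/-!
# R80: the weighted Cauchy operator is a right inverse of `dbar + κ z / 2`
-/

set_option autoImplicit false

namespace Crest.Agent.R80

open MeasureTheory

/-- the exponential factor of `gk` -/
noncomputable def gkbE (κ : ℝ) (z y : ℂ) : ℂ :=
  Complex.exp ((κ : ℂ) / 2 *
    ((starRingEnd ℂ) z * y - z * (starRingEnd ℂ) y - y * (starRingEnd ℂ) y))

theorem gkb_gk (κ : ℝ) (z y : ℂ) : gk κ z y = ((Real.pi : ℂ) * y)⁻¹ * gkbE κ z y := rfl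

/-- complex conjugation -/
noncomputable def gkbC : ℂ →L[ℝ] ℂ := Complex.conjCLE

theorem gkbC_apply (v : ℂ) : gkbC v = (starRingEnd ℂ) v := rfl

theorem gkb_conj (x : ℂ) : HasFDerivAt (fun z : ℂ => (starRingEnd ℂ) z) gkbC x :=
  gkbC.hasFDerivAt

/-- derivative of the exponent in `z` -/
noncomputable def gkbL (κ : ℝ) (y : ℂ) : ℂ →L[ℝ] ℂ :=
  ((κ : ℂ) / 2) • (y • gkbC - (starRingEnd ℂ) y • ContinuousLinearMap.id ℝ ℂ)

theorem gkbL_apply (κ : ℝ) (y v : ℂ) :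
    gkbL κ y v = (κ : ℂ) / 2 * (y * (starRingEnd ℂ) v - (starRingEnd ℂ) y * v) := rfl

theorem gkbL_norm {κ : ℝ} (hκ : 0 < κ) (y : ℂ) : ‖gkbL κ y‖ ≤ κ * ‖y‖ := by
  refine ContinuousLinearMap.opNorm_le_bound _ (by positivity) fun v => ?_
  rw [gkbL_apply, norm_mul]
  have h1 : ‖y * (starRingEnd ℂ) v - (starRingEnd ℂ) y * v‖ ≤ ‖y‖ * ‖v‖ + ‖y‖ * ‖v‖ := by
    refine (norm_sub_le _ _).trans (le_of_eq ?_)
    rw [norm_mul, norm_mul, Complex.norm_conj, Complex.norm_conj]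
  have h2 : ‖(κ : ℂ) / 2‖ = κ / 2 := by
    rw [norm_div, Complex.norm_real, Real.norm_of_nonneg hκ.le]
    simp
  rw [h2]
  calc κ / 2 * ‖y * (starRingEnd ℂ) v - (starRingEnd ℂ) y * v‖
      ≤ κ / 2 * (‖y‖ * ‖v‖ + ‖y‖ * ‖v‖) := by gcongr
    _ = κ * ‖y‖ * ‖v‖ := by ring

theorem gkbL_continuous (κ : ℝ) : Continuous (gkbL κ) := by
  unfold gkbL
  have := Complex.continuous_conj
  fun_prop

theorem gkbE_z (κ : ℝ) (z y : ℂ) :
    HasFDerivAt (fun z => gkbE κ z y) (gkbE κ z y • gkbL κ y) z := by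
  have h := (((((gkb_conj z).mul_const y).sub ((hasFDerivAt_id z).mul_const
    ((starRingEnd ℂ) y))).sub_const (y * (starRingEnd ℂ) y)).const_mul ((κ : ℂ) / 2)).cexp
  exact h

/-- derivative of the exponent in `y` -/
noncomputable def gkbM (κ : ℝ) (z y : ℂ) : ℂ →L[ℝ] ℂ :=
  ((κ : ℂ) / 2) • ((starRingEnd ℂ) z • ContinuousLinearMap.id ℝ ℂ - z • gkbC -
    (y • gkbC + (starRingEnd ℂ) y • ContinuousLinearMap.id ℝ ℂ))

theorem gkbM_apply (κ : ℝ) (z y v : ℂ) :
    gkbM κ z y v = (κ : ℂ) / 2 * ((starRingEnd ℂ) z * v - z * (starRingEnd ℂ) v -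
      (y * (starRingEnd ℂ) v + (starRingEnd ℂ) y * v)) := rfl

theorem gkbE_y (κ : ℝ) (z y : ℂ) :
    HasFDerivAt (fun y => gkbE κ z y) (gkbE κ z y • gkbM κ z y) y := by
  have h := ((((((hasFDerivAt_id y).const_mul ((starRingEnd ℂ) z)).sub
    ((gkb_conj y).const_mul z))).sub ((hasFDerivAt_id y).mul (gkb_conj y))).const_mul
      ((κ : ℂ) / 2)).cexp
  exact h

theorem gkbE_contDiff (κ : ℝ) (z : ℂ) : ContDiff ℝ 1 (gkbE κ z) := by
  have hc : ContDiff ℝ 1 fun y : ℂ => (starRingEnd ℂ) y := gkbC.contDiff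
  exact (contDiff_const.mul (((contDiff_const.mul contDiff_id).sub (contDiff_const.mul hc)).sub
    (contDiff_id.mul hc))).cexp

/-- derivative of the integrand -/
noncomputable def gkbF (κ : ℝ) (f : ℂ → ℂ) (z y : ℂ) : ℂ →L[ℝ] ℂ :=
  gk κ z y • (fderiv ℝ f (z - y) + f (z - y) • gkbL κ y)

theorem gkbF_deriv (κ : ℝ) {f : ℂ → ℂ} (h1 : ContDiff ℝ 1 f) (z y : ℂ) :
    HasFDerivAt (fun z => gk κ z y * f (z - y)) (gkbF κ f z y) z := by
  have hf : HasFDerivAt (fun z => f (z - y)) (fderiv ℝ f (z - y)) z := by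
    have := (h1.differentiable one_ne_zero (z - y)).hasFDerivAt.comp z
      ((hasFDerivAt_id z).sub_const y)
    exact this.congr_fderiv (by ext <;> simp)
  have h := ((gkbE_z κ z y).const_mul (((Real.pi : ℂ) * y)⁻¹)).mul hf
  refine h.congr_fderiv ?_
  ext v <;> simp [gkbF, gkb_gk] <;> ring

theorem gkbF_bound {κ : ℝ} (hκ : 0 < κ) {f : ℂ → ℂ} {M0 M1 : ℝ} (h0 : ∀ x, ‖f x‖ ≤ M0)
    (hM : ∀ x, ‖fderiv ℝ f x‖ ≤ M1) (z y : ℂ) :
    ‖gkbF κ f z y‖ ≤ (M1 + M0 * κ) *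
      ((1 + ‖y‖) * ((Real.pi * ‖y‖)⁻¹ * Real.exp (-(κ / 2) * ‖y‖ ^ 2))) := by
  have hM0 : 0 ≤ M0 := (norm_nonneg _).trans (h0 0)
  have hM1 : 0 ≤ M1 := (norm_nonneg _).trans (hM 0)
  rw [gkbF, norm_smul, ← norm_gk κ z y]
  have h2 : ‖fderiv ℝ f (z - y) + f (z - y) • gkbL κ y‖ ≤ (M1 + M0 * κ) * (1 + ‖y‖) := by
    refine (norm_add_le _ _).trans ?_
    rw [norm_smul]
    have h3 : ‖f (z - y)‖ * ‖gkbL κ y‖ ≤ M0 * (κ * ‖y‖) :=
      mul_le_mul (h0 _) (gkbL_norm hκ y) (norm_nonneg _) hM0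
    have h4 := hM (z - y)
    have h5 : 0 ≤ M1 * ‖y‖ := by positivity
    have h6 : 0 ≤ M0 * κ := by positivity
    nlinarith
  calc ‖gk κ z y‖ * ‖fderiv ℝ f (z - y) + f (z - y) • gkbL κ y‖
      ≤ ‖gk κ z y‖ * ((M1 + M0 * κ) * (1 + ‖y‖)) := by gcongr
    _ = _ := by ring

theorem gkbF_meas (κ : ℝ) {f : ℂ → ℂ} (h1 : ContDiff ℝ 1 f) (z : ℂ) :
    AEStronglyMeasurable (gkbF κ f z) volume := by
  have hd : Continuous (fderiv ℝ f) := h1.continuous_fderiv one_ne_zero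
  have hf := h1.continuous
  have hL := gkbL_continuous κ
  have h2 : Continuous fun y => fderiv ℝ f (z - y) + f (z - y) • gkbL κ y := by fun_prop
  exact (measurable_gk κ z).aestronglyMeasurable.smul h2.aestronglyMeasurable

theorem gkb_dbar_Φ (κ : ℝ) {f : ℂ → ℂ} (h1 : ContDiff ℝ 1 f) (z y : ℂ) :
    ((Real.pi : ℂ) * y)⁻¹ * dbar (fun y => gkbE κ z y * f (z - y)) y =
      -((gkbF κ f z y 1 + Complex.I * gkbF κ f z y Complex.I) / 2 +
        (κ : ℂ) / 2 * z * (gk κ z y * f (z - y))) := by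
  have hf : HasFDerivAt (fun y => f (z - y)) (-fderiv ℝ f (z - y)) y := by
    have := (h1.differentiable one_ne_zero (z - y)).hasFDerivAt.comp y
      ((hasFDerivAt_id y).const_sub z)
    exact this.congr_fderiv (by ext <;> simp)
  have h : HasFDerivAt (fun y => gkbE κ z y * f (z - y)) _ y := (gkbE_y κ z y).mul hf
  rw [dbar, h.fderiv]
  simp only [gkbF, gkb_gk, _root_.add_apply, _root_.smul_apply,
    _root_.neg_apply, smul_eq_mul, gkbL_apply, gkbM_apply, map_one, Complex.conj_I]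
  linear_combination (((Real.pi : ℂ) * y)⁻¹ * gkbE κ z y * f (z - y) * (κ : ℂ) / 4 *
    ((starRingEnd ℂ) z + z - 2 * (starRingEnd ℂ) y)) * Complex.I_mul_I

/-- Differentiate under the integral sign (`hasFDerivAt_integral_of_dominated_of_fderiv_le`, bound `C * (1 + ‖y‖) * ‖gk‖`, `integrable_gk_bound`;
`f` and `fderiv f` are bounded).  With `E z y = exp (κ/2 (z̄ y - z ȳ - y ȳ))`:
`dbar_z (E z y * f (z - y)) = E z y * (κ/2 * y * f (z - y) + dbar f (z - y))` and for `Φ y = E z y * f (z - y)` (`C¹`, compact support)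
`dbar Φ y = E z y * (-(κ/2) * (z + y) * f (z - y) - dbar f (z - y))`.  So the left side is `-∫ (π y)⁻¹ * dbar Φ y = Φ 0 = f z` (`pompeiu`). -/
theorem Sop_eq {κ : ℝ} (hκ : 0 < κ) (f : ℂ → ℂ) (h1 : ContDiff ℝ 1 f) (hc : HasCompactSupport f)
    (z : ℂ) : dbar (fun z => ∫ y, gk κ z y * f (z - y)) z +
      (κ : ℂ) / 2 * z * ∫ y, gk κ z y * f (z - y) = f z := by
  obtain ⟨M0, h0⟩ := h1.continuous.bounded_above_of_compact_support hc
  obtain ⟨M1, hM⟩ := (h1.continuous_fderiv one_ne_zero).bounded_above_of_compact_support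
    (hc.fderiv ℝ)
  have hb := (integrable_gk_bound hκ).const_mul (M1 + M0 * κ)
  have hint : ∀ z, Integrable fun y => gk κ z y * f (z - y) := fun z =>
    (integrable_gk hκ z).mul_bdd (c := M0)
      (h1.continuous.comp (continuous_const.sub continuous_id)).aestronglyMeasurable
      (Filter.Eventually.of_forall fun y => h0 _)
  have hF : Integrable (gkbF κ f z) :=
    hb.mono' (gkbF_meas κ h1 z) (Filter.Eventually.of_forall fun y => gkbF_bound hκ h0 hM z y)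
  have hD : HasFDerivAt (fun z => ∫ y, gk κ z y * f (z - y)) (∫ y, gkbF κ f z y) z :=
    hasFDerivAt_integral_of_dominated_of_fderiv_le (s := Set.univ) Filter.univ_mem
      (Filter.Eventually.of_forall fun z => (hint z).aestronglyMeasurable) (hint z)
      (gkbF_meas κ h1 z)
      (Filter.Eventually.of_forall fun y z _ => gkbF_bound hκ h0 hM z y) hb
      (Filter.Eventually.of_forall fun y z _ => gkbF_deriv κ h1 z y)
  have hv : ∀ v, Integrable fun y => gkbF κ f z y v := fun v => hF.apply_continuousLinearMap v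
  have hΦ := pompeiu (fun y => gkbE κ z y * f (z - y))
    ((gkbE_contDiff κ z).mul (h1.comp (contDiff_const.sub contDiff_id)))
    (hc.comp_homeomorph (Homeomorph.subLeft z)).mul_left
  simp only [gkb_dbar_Φ κ h1 z] at hΦ
  have hv2 : Integrable fun y => (gkbF κ f z y 1 + Complex.I * gkbF κ f z y Complex.I) / 2 :=
    ((hv 1).add ((hv Complex.I).const_mul _)).div_const 2
  rw [integral_neg, neg_inj, integral_add hv2
    ((hint z).const_mul _), integral_div, integral_add (hv 1) ((hv Complex.I).const_mul _),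
    integral_const_mul, integral_const_mul] at hΦ
  rw [dbar, hD.fderiv, ContinuousLinearMap.integral_apply hF, ContinuousLinearMap.integral_apply hF,
    hΦ]
  simp [gkbE]

end Crest.Agent.R80
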