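import Mathlib

/-!
# R80: differentiability across a hypersurface; sublevel sets
-/

set_option autoImplicit false

namespace Crest.Agent.R80

open Set Filter Topology

variable {E : Type} [NormedAddCommGroup E] [NormedSpace ℝ E]

theorem glue_exists_one {L : E →L[ℝ] ℝ} (hL : L ≠ 0) : ∃ v, L v = 1 := by
  obtain ⟨w, hw⟩ : ∃ w, L w ≠ 0 := by
    by_contra h
    push Not at h
    exact hL (ContinuousLinearMap.ext h)
  exact ⟨(L w)⁻¹ • w, by simp [hw]⟩

theorem glue_line (x w : E) (t : ℝ) : HasDerivAt (fun t : ℝ => x + t • w) w t := by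
  simpa using ((hasDerivAt_id t).smul_const w).const_add x

theorem glue_cone {F : Type} [NormedAddCommGroup F] [NormedSpace ℝ F] [CompleteSpace F]
    {B : Set E} (_hBo : IsOpen B) (hB : Convex ℝ B) {ρ : E → ℝ} (hρ : ContDiff ℝ 1 ρ) {u : E → F}
    {D : E → E →L[ℝ] F} (hu : ContinuousOn u B) (hD : ContinuousOn D B)
    (hd : ∀ x ∈ B, ρ x ≠ 0 → HasFDerivAt u (D x) x) {A : E →L[ℝ] F} {ε : ℝ}
    (hA : ∀ x ∈ B, ‖D x - A‖ ≤ ε) {x w : E} (hx : x ∈ B) (hxw : x + w ∈ B)
    (hw : ∀ y ∈ B, 0 < fderiv ℝ ρ y w) : ‖u (x + w) - u x - A w‖ ≤ ε * ‖w‖ := by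
  have hseg : ∀ t ∈ Icc (0 : ℝ) 1, x + t • w ∈ B := fun t ht => by
    simpa using hB.add_smul_mem hx hxw ht
  have hρd : Differentiable ℝ ρ := hρ.differentiable (by simp)
  have hder : ∀ t : ℝ, HasDerivAt (fun t : ℝ => ρ (x + t • w)) (fderiv ℝ ρ (x + t • w) w) t :=
    fun t => (hρd _).hasFDerivAt.comp_hasDerivAt t (glue_line x w t)
  have hmono : StrictMonoOn (fun t : ℝ => ρ (x + t • w)) (Icc 0 1) := by
    refine strictMonoOn_of_deriv_pos (convex_Icc 0 1)
      (fun t _ => (hder t).continuousAt.continuousWithinAt) fun t ht => ?_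
    rw [(hder t).deriv]
    exact hw _ (hseg t (interior_subset ht))
  have hs : ({t ∈ Icc (0 : ℝ) 1 | ρ (x + t • w) = 0}).Countable := by
    refine Set.Subsingleton.countable fun a ha b hb => hmono.injOn ha.1 hb.1 ?_
    simp only [ha.2, hb.2]
  have hlc : Continuous fun t : ℝ => x + t • w := by fun_prop
  have hf'c : ContinuousOn (fun t : ℝ => (D (x + t • w) - A) w) (Icc 0 1) :=
    ((hD.comp hlc.continuousOn hseg).sub continuousOn_const).clm_apply continuousOn_const
  have key := MeasureTheory.integral_eq_of_hasDerivAt_off_countable_of_le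
    (fun t : ℝ => u (x + t • w) - t • A w) (fun t => (D (x + t • w) - A) w) zero_le_one hs
    ((hu.comp hlc.continuousOn hseg).sub (by fun_prop))
    (fun t ht => by
      have ht' : t ∈ Icc (0 : ℝ) 1 := Ioo_subset_Icc_self ht.1
      have h1 := (hd _ (hseg t ht') fun h => ht.2 ⟨ht', h⟩).comp_hasDerivAt t (glue_line x w t)
      have h2 : HasDerivAt (fun t : ℝ => t • A w) (A w) t := by
        simpa using (hasDerivAt_id t).smul_const (A w)
      exact h1.sub h2)
    (by
      apply ContinuousOn.intervalIntegrable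
      rwa [uIcc_of_le zero_le_one])
  have h3 : u (x + w) - u x - A w = ∫ t in (0 : ℝ)..1, (D (x + t • w) - A) w := by
    rw [key]
    simp only [one_smul, zero_smul, add_zero, sub_zero]
    abel
  rw [h3]
  have := intervalIntegral.norm_integral_le_of_norm_le_const (a := 0) (b := 1) (C := ε * ‖w‖)
    (f := fun t : ℝ => (D (x + t • w) - A) w) fun t ht => by
      rw [uIoc_of_le zero_le_one] at ht
      exact ((D (x + t • w) - A).le_opNorm w).trans
        (mul_le_mul_of_nonneg_right (hA _ (hseg t (Ioc_subset_Icc_self ht))) (norm_nonneg _))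
  simpa using this

/-- Let `L = fderiv ℝ ρ x0`, `v` with `L v = 1`, `c > 0` small.  In a small ball `B ⊆ U` around `x0`, `‖fderiv ρ x - L‖ < c` and `‖D x - D x0‖ ≤ ε`.  If `L w ≥ c ‖w‖`, `w ≠ 0`
and the segment from `x` to `x + w` lies in `B`, then `t ↦ ρ (x + t w)` is strictly increasing, so it has at most one zero, and
`‖u (x + w) - u x - D x0 w‖ ≤ ε ‖w‖` (`MeasureTheory.integral_eq_of_hasDerivAt_off_countable_of_le`).  A general `w` is `w₁ - w₂` with `w₂ = K ‖w‖ • v`, `w₁ = w + w₂`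
(`K = ‖L‖ + 1`; both in the cone for suitable `c`): `u (x0 + w) - u x0 = (u (x0 + w₁) - u x0) - (u ((x0 + w) + w₂) - u (x0 + w))`. -/
theorem hasFDerivAt_glue {F : Type} [NormedAddCommGroup F] [NormedSpace ℝ F] [CompleteSpace F]
    {U : Set E} (hU : IsOpen U) {ρ : E → ℝ} (hρ : ContDiff ℝ 1 ρ) {u : E → F} {D : E → E →L[ℝ] F}
    (hu : ContinuousOn u U) (hD : ContinuousOn D U)
    (hd : ∀ x ∈ U, ρ x ≠ 0 → HasFDerivAt u (D x) x) {x0 : E} (hx : x0 ∈ U)
    (h0 : fderiv ℝ ρ x0 ≠ 0) : HasFDerivAt u (D x0) x0 := by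
  set L := fderiv ℝ ρ x0 with hL
  obtain ⟨v, hv⟩ := glue_exists_one h0
  set K : ℝ := ‖L‖ + 1 with hK
  have hK1 : 1 ≤ K := by have := norm_nonneg L; linarith
  set M : ℝ := 1 + K * ‖v‖ with hM
  have hM1 : 1 ≤ M := by have := mul_nonneg (zero_le_one.trans hK1) (norm_nonneg v); linarith
  have hM0 : 0 < M := by linarith
  rw [hasFDerivAt_iff_isLittleO_nhds_zero, Asymptotics.isLittleO_iff]
  intro c hc
  set ε : ℝ := c / (2 * M) with hε
  have hε0 : 0 < ε := by positivity
  have e1 : ∀ᶠ y in 𝓝 x0, y ∈ U := hU.mem_nhds hx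
  have e2 : ∀ᶠ y in 𝓝 x0, ‖D y - D x0‖ ≤ ε := by
    have := (hD.continuousAt (hU.mem_nhds hx)).tendsto
    filter_upwards [this (Metric.closedBall_mem_nhds _ hε0)] with y hy
    simpa [dist_eq_norm] using hy
  have e3 : ∀ᶠ y in 𝓝 x0, ‖fderiv ℝ ρ y - L‖ ≤ 1 / (2 * M) := by
    have := ((hρ.continuous_fderiv (by simp)).continuousAt (x := x0)).tendsto
    filter_upwards [this (Metric.closedBall_mem_nhds _ (show 0 < 1 / (2 * M) by positivity))]
      with y hy
    simpa [dist_eq_norm] using hy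
  obtain ⟨δ, hδ, hball⟩ := Metric.eventually_nhds_iff_ball.1 (e1.and (e2.and e3))
  have hBU : Metric.ball x0 δ ⊆ U := fun y hy => (hball y hy).1
  have cone : ∀ x w : E, x ∈ Metric.ball x0 δ → x + w ∈ Metric.ball x0 δ → 0 < L w →
      ‖w‖ ≤ M * L w → ‖u (x + w) - u x - D x0 w‖ ≤ ε * ‖w‖ := fun x w hx hxw hw hw' => by
    refine glue_cone Metric.isOpen_ball (convex_ball x0 δ) hρ (hu.mono hBU) (hD.mono hBU)
      (fun y hy => hd y (hBU hy)) (fun y hy => (hball y hy).2.1) hx hxw fun y hy => ?_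
    have h1 : ‖(fderiv ℝ ρ y - L) w‖ ≤ 1 / (2 * M) * (M * L w) :=
      ((fderiv ℝ ρ y - L).le_opNorm w).trans
        (mul_le_mul (hball y hy).2.2 hw' (norm_nonneg _) (by positivity))
    have h2 : 1 / (2 * M) * (M * L w) = L w / 2 := by field_simp
    rw [h2, Real.norm_eq_abs, abs_le] at h1
    have h3 := h1.1
    simp only [FunLike.coe_sub, Pi.sub_apply] at h3
    linarith
  filter_upwards [Metric.ball_mem_nhds (0 : E) (show 0 < δ / M by positivity)] with w hw
  rcases eq_or_ne w 0 with rfl | hw0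
  · simp
  have hwp : 0 < ‖w‖ := norm_pos_iff.2 hw0
  have hwδ : M * ‖w‖ < δ := by
    have : ‖w‖ < δ / M := by simpa using hw
    rwa [lt_div_iff₀' hM0] at this
  set w2 : E := (K * ‖w‖) • v with hw2
  have n2 : ‖w2‖ = K * ‖v‖ * ‖w‖ := by
    rw [hw2, norm_smul, Real.norm_of_nonneg (by positivity)]; ring
  have L2 : L w2 = K * ‖w‖ := by simp [hw2, hv]
  have n2' : ‖w2‖ ≤ M * ‖w‖ := by rw [n2, hM]; nlinarith
  have n1 : ‖w + w2‖ ≤ M * ‖w‖ := by
    refine (norm_add_le _ _).trans (le_of_eq ?_)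
    rw [n2, hM]; ring
  have L1 : ‖w‖ ≤ L (w + w2) := by
    have h1 := L.le_opNorm w
    rw [Real.norm_eq_abs, abs_le] at h1
    rw [map_add, L2, hK]
    linarith [h1.1]
  have L2' : ‖w‖ ≤ L w2 := by rw [L2]; nlinarith
  have m0 : x0 + w ∈ Metric.ball x0 δ := by
    simp only [Metric.mem_ball, dist_eq_norm, add_sub_cancel_left]
    nlinarith
  have m1 : x0 + (w + w2) ∈ Metric.ball x0 δ := by
    simp only [Metric.mem_ball, dist_eq_norm, add_sub_cancel_left]
    linarith
  have c1 := cone x0 (w + w2) (Metric.mem_ball_self hδ) m1 (by linarith)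
    (n1.trans (mul_le_mul_of_nonneg_left L1 hM0.le))
  have c2 := cone (x0 + w) w2 m0 (by rwa [add_assoc]) (by linarith)
    (n2'.trans (mul_le_mul_of_nonneg_left L2' hM0.le))
  have e : u (x0 + w) - u x0 - D x0 w = (u (x0 + (w + w2)) - u x0 - D x0 (w + w2)) -
      (u (x0 + w + w2) - u (x0 + w) - D x0 w2) := by
    rw [map_add, add_assoc]; abel
  rw [e]
  refine (norm_sub_le _ _).trans ?_
  have h1 : ε * ‖w + w2‖ ≤ ε * (M * ‖w‖) := mul_le_mul_of_nonneg_left n1 hε0.le
  have h2 : ε * ‖w2‖ ≤ ε * (M * ‖w‖) := mul_le_mul_of_nonneg_left n2' hε0.le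
  have h3 : ε * (M * ‖w‖) = c * ‖w‖ / 2 := by rw [hε]; field_simp
  linarith

/-- If `ρ x = 0` take `v` with `fderiv ρ x v = 1`; `ρ (x - t v) < 0` for small `t > 0`. -/
theorem closure_sublevel {ρ : E → ℝ} (hρ : ContDiff ℝ 1 ρ) (h : ∀ x, ρ x = 0 → fderiv ℝ ρ x ≠ 0) :
    closure {x | ρ x < 0} = {x | ρ x ≤ 0} := by
  refine Subset.antisymm (closure_minimal (fun x (hx : ρ x < 0) => hx.le)
    (isClosed_le hρ.continuous continuous_const)) fun x (hx : ρ x ≤ 0) => ?_
  rcases hx.lt_or_eq with hx | hx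
  · exact subset_closure hx
  obtain ⟨v, hv⟩ := glue_exists_one (h x hx)
  have hder : HasDerivAt (fun t : ℝ => ρ (x + t • v)) 1 0 := by
    have h1 : HasFDerivAt ρ (fderiv ℝ ρ x) (x + (0 : ℝ) • v) := by
      simpa using (hρ.differentiable (by simp) x).hasFDerivAt
    have h2 := h1.comp_hasDerivAt (0 : ℝ) (glue_line x v 0)
    rw [hv] at h2
    exact h2
  have hev : ∀ᶠ t in 𝓝[<] (0 : ℝ), ρ (x + t • v) < 0 := by
    have h1 := (hasDerivAt_iff_tendsto_slope_left_right.1 hder).1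
    filter_upwards [h1 (Ioi_mem_nhds zero_lt_one), self_mem_nhdsWithin] with t ht ht0
    have ht1 : 0 < slope (fun t : ℝ => ρ (x + t • v)) 0 t := ht
    rw [slope_def_field] at ht1
    simp only [zero_smul, add_zero, hx, sub_zero] at ht1
    have ht0' : t < 0 := ht0
    by_contra hh
    push Not at hh
    exact absurd (div_nonpos_of_nonneg_of_nonpos hh ht0'.le) (not_le.2 ht1)
  have hlim : Tendsto (fun t : ℝ => x + t • v) (𝓝[<] 0) (𝓝 x) := by
    have : Continuous fun t : ℝ => x + t • v := by fun_prop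
    have h2 := (this.tendsto 0).mono_left (nhdsWithin_le_nhds (s := Iio 0))
    simpa using h2
  exact mem_closure_of_tendsto hlim hev

/-- At a point with `ρ x = 0`, `L = fderiv ρ x`, `L v = 1`: the convex set `K = {y ∈ ball x δ | L (y - x) ≤ -c ‖y - x‖}` is contained in `{ρ ≤ 0}` for small `δ`, contains `x`
and has nonempty interior if `c ‖v‖ < 1`; `uniqueDiffWithinAt_convex`, `UniqueDiffWithinAt.mono`. -/
theorem uniqueDiffOn_sublevel {ρ : E → ℝ} (hρ : ContDiff ℝ 1 ρ)
    (h : ∀ x, ρ x = 0 → fderiv ℝ ρ x ≠ 0) : UniqueDiffOn ℝ {x | ρ x ≤ 0} := by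
  intro x (hx : ρ x ≤ 0)
  rcases hx.lt_or_eq with hx | hx
  · refine uniqueDiffWithinAt_of_mem_nhds ?_
    filter_upwards [(isOpen_lt hρ.continuous continuous_const).mem_nhds hx] with y hy
    exact le_of_lt hy
  obtain ⟨v, hv⟩ := glue_exists_one (h x hx)
  set L := fderiv ℝ ρ x with hL
  set c : ℝ := 1 / (‖v‖ + 1) with hc
  have hc0 : 0 < c := by positivity
  have hcv : c * ‖v‖ < 1 := by
    rw [hc, div_mul_eq_mul_div, div_lt_one (by positivity)]; linarith
  have hF : HasFDerivAt ρ L x := (hρ.differentiable (by simp) x).hasFDerivAt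
  have h1 := Asymptotics.isLittleO_iff.1 hF.isLittleO hc0
  obtain ⟨δ, hδ, hball⟩ := Metric.eventually_nhds_iff_ball.1 h1
  let g : E → ℝ := fun y => L (y - x) + c * ‖y - x‖
  have hgc : Continuous g := by fun_prop
  have hg : ConvexOn ℝ univ g := by
    refine ⟨convex_univ, fun a _ b _ s t hs ht hst => ?_⟩
    have e : s • a + t • b - x = s • (a - x) + t • (b - x) := by
      have : x = (s + t) • x := by rw [hst, one_smul]
      conv_lhs => rw [this]
      module
    simp only [g, e, map_add, map_smul, smul_eq_mul]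
    have h2 : ‖s • (a - x) + t • (b - x)‖ ≤ s * ‖a - x‖ + t * ‖b - x‖ := by
      refine (norm_add_le _ _).trans (le_of_eq ?_)
      rw [norm_smul, norm_smul, Real.norm_of_nonneg hs, Real.norm_of_nonneg ht]
    nlinarith [mul_le_mul_of_nonneg_left h2 hc0.le]
  have hKc : Convex ℝ (Metric.ball x δ ∩ {y | g y ≤ 0}) :=
    (convex_ball x δ).inter (by simpa using hg.convex_le 0)
  have hxK : x ∈ Metric.ball x δ ∩ {y | g y ≤ 0} := ⟨Metric.mem_ball_self hδ, by simp [g]⟩
  have hint : (interior (Metric.ball x δ ∩ {y | g y ≤ 0})).Nonempty := by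
    have hsub : Metric.ball x δ ∩ {y | g y < 0} ⊆ interior (Metric.ball x δ ∩ {y | g y ≤ 0}) :=
      interior_maximal (inter_subset_inter_right _ fun y (hy : g y < 0) => hy.le)
        (Metric.isOpen_ball.inter (isOpen_lt hgc continuous_const))
    have ht : 0 < δ * c := by positivity
    refine ⟨x - (δ * c) • v, hsub ⟨?_, ?_⟩⟩
    · simp only [Metric.mem_ball, dist_eq_norm, sub_sub_cancel_left, norm_neg, norm_smul,
        Real.norm_of_nonneg ht.le]
      nlinarith
    · change g _ < 0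
      simp only [g, sub_sub_cancel_left, norm_neg, norm_smul, Real.norm_of_nonneg ht.le, map_neg,
        map_smul, hv, smul_eq_mul]
      nlinarith
  refine (uniqueDiffWithinAt_convex hKc hint (subset_closure hxK)).mono fun y hy => ?_
  have h2 := hball y hy.1
  have h3 : g y ≤ 0 := hy.2
  rw [Real.norm_eq_abs, abs_le] at h2
  change ρ y ≤ 0
  simp only [g] at h3
  linarith [h2.2]

end Crest.Agent.R80
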