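import Crest.Agent.R80.Sm

/-!
# R80: jointly smooth families and good functionals
-/

set_option autoImplicit false

namespace Crest.Agent.R80

open MeasureTheory Finset Metric
open scoped ContDiff

theorem JS.const (f : Sm) : JS fun _ => f :=
  f.smooth.comp contDiff_snd

theorem JS.add {F G : ℂ → Sm} (hF : JS F) (hG : JS G) : JS fun s => F s + G s :=
  ContDiff.add hF hG

theorem JS.mul {F G : ℂ → Sm} (hF : JS F) (hG : JS G) : JS fun s => F s * G s :=
  ContDiff.mul hF hG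

theorem JS.smul {F : ℂ → Sm} (hF : JS F) {c : ℂ → ℂ} (hc : ContDiff ℝ ∞ c) :
    JS fun s => c s • F s :=
  ContDiff.mul (hc.comp contDiff_fst) hF

theorem JS.sum {κ : Type*} {t : Finset κ} {F : κ → ℂ → Sm} (h : ∀ i ∈ t, JS (F i)) :
    JS fun s => ∑ i ∈ t, F i s := by
  unfold JS
  simp only [Sm.sum_apply]
  exact ContDiff.sum h

theorem good_snd {u : ℂ × E3 → ℂ} (hu : ContDiff ℝ ∞ u) (s : ℂ) (x : E3) :
    HasFDerivAt (fun y => u (s, y)) ((fderiv ℝ u (s, x)).comp (ContinuousLinearMap.inr ℝ ℂ E3)) x :=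
  (hu.differentiable (by simp) (s, x)).hasFDerivAt.comp x (hasFDerivAt_prodMk_right s x)

theorem good_fst {u : ℂ × E3 → ℂ} (hu : ContDiff ℝ ∞ u) (s : ℂ) (x : E3) :
    HasFDerivAt (fun s' => u (s', x)) ((fderiv ℝ u (s, x)).comp (ContinuousLinearMap.inl ℝ ℂ E3))
      s :=
  (hu.differentiable (by simp) (s, x)).hasFDerivAt.comp s (hasFDerivAt_prodMk_left s x)

theorem good_dir {u : ℂ × E3 → ℂ} (hu : ContDiff ℝ ∞ u) (v : ℂ × E3) :
    ContDiff ℝ ∞ fun p => fderiv ℝ u p v :=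
  (hu.fderiv_right (m := ∞) (by simp)).clm_apply contDiff_const

theorem good_pd_eq {F : ℂ → Sm} (hF : JS F) (j : Fin 3) (s : ℂ) (x : E3) :
    pd j (F s) x = fderiv ℝ (fun p : ℂ × E3 => F p.1 p.2) (s, x) (0, e j) := by
  rw [pd_apply, (good_snd hF s x).fderiv]
  simp

theorem good_ds_eq {F : ℂ → Sm} (hF : JS F) (s v : ℂ) (x : E3) :
    fderiv ℝ (fun s' => F s' x) s v = fderiv ℝ (fun p : ℂ × E3 => F p.1 p.2) (s, x) (v, 0) := by
  rw [(good_fst hF s x).fderiv]
  simp

/-- `pd j (F s) x = fderiv ℝ (uncurried F) (s, x) (0, e j)` -/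
theorem JS.pd {F : ℂ → Sm} (hF : JS F) (j : Fin 3) : JS fun s => pd j (F s) := by
  unfold JS
  simp only [good_pd_eq hF]
  exact good_dir hF _

theorem JS.differentiableAt {F : ℂ → Sm} (hF : JS F) (s : ℂ) (x : E3) :
    DifferentiableAt ℝ (fun s' => F s' x) s :=
  (good_fst hF s x).differentiableAt

/-- a smooth function of `(s, x)` as a family -/
theorem exists_JS {u : ℂ × E3 → ℂ} (hu : ContDiff ℝ ∞ u) :
    ∃ F : ℂ → Sm, JS F ∧ ∀ s x, F s x = u (s, x) :=
  ⟨fun s => Sm.mk' (fun x => u (s, x)) (hu.comp (contDiff_prodMk_right s)), hu, fun _ _ => rfl⟩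

/-- `F' s x = fderiv ℝ (uncurried F) (s, x) (v, 0)` -/
theorem JS.exists_deriv {F : ℂ → Sm} (hF : JS F) (v : ℂ) :
    ∃ F' : ℂ → Sm, JS F' ∧ ∀ s x, F' s x = fderiv ℝ (fun s' => F s' x) s v := by
  obtain ⟨F', h1, h2⟩ := exists_JS (good_dir hF (v, 0))
  exact ⟨F', h1, fun s x => by rw [h2, good_ds_eq hF]⟩

theorem good_symm {u : ℂ × E3 → ℂ} (hu : ContDiff ℝ ∞ u) (p a b : ℂ × E3) :
    fderiv ℝ (fun q => fderiv ℝ u q a) p b = fderiv ℝ (fun q => fderiv ℝ u q b) p a := by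
  have hd : DifferentiableAt ℝ (fderiv ℝ u) p :=
    ((hu.fderiv_right (m := ∞) (by simp)).differentiable (by simp)) p
  have key : ∀ a b : ℂ × E3, fderiv ℝ (fun y => fderiv ℝ u y a) p b =
      fderiv ℝ (fderiv ℝ u) p b a := fun a b => by
    rw [fderiv_clm_apply hd (differentiableAt_const a)]
    simp
  rw [key, key]
  exact (hu.contDiffAt.isSymmSndFDerivAt (by simp; exact ENat.LEInfty.out)).eq _ _

/-- symmetry of second derivatives of the uncurried function (`ContDiffAt.isSymmSndFDerivAt`, compare `pd_comm`) -/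
theorem JS.pd_deriv {F : ℂ → Sm} (hF : JS F) {s v : ℂ} {g : Sm}
    (hg : ∀ x, g x = fderiv ℝ (fun s' => F s' x) s v) (j : Fin 3) (x : E3) :
    R80.pd j g x = fderiv ℝ (fun s' => R80.pd j (F s') x) s v := by
  have h1 : (g : E3 → ℂ) =
      fun y => fderiv ℝ (fun p : ℂ × E3 => F p.1 p.2) (s, y) (v, 0) := by
    funext y
    rw [hg, good_ds_eq hF]
  have h2 : (fun s' => R80.pd j (F s') x) =
      fun s' => fderiv ℝ (fun p : ℂ × E3 => F p.1 p.2) (s', x) (0, e j) := by
    funext s'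
    exact good_pd_eq hF j s' x
  rw [pd_apply, h1, h2, (good_snd (good_dir hF (v, 0)) s x).fderiv,
    (good_fst (good_dir hF (0, e j)) s x).fderiv]
  simp only [ContinuousLinearMap.comp_apply, ContinuousLinearMap.inr_apply,
    ContinuousLinearMap.inl_apply]
  exact good_symm hF _ _ _

theorem GoodS.zero (R : ℝ) : GoodS R 0 := by
  refine ⟨fun _ _ => rfl, fun F _ s => ⟨by simp, fun v g _ => by simp⟩⟩

theorem GoodS.add {R : ℝ} {ℓ ℓ' : Fnl Sm} (h : GoodS R ℓ) (h' : GoodS R ℓ') : GoodS R (ℓ + ℓ') := by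
  refine ⟨fun f hf => by simp [h.1 f hf, h'.1 f hf], fun F hF s => ?_⟩
  obtain ⟨a1, a2⟩ := h.2 F hF s
  obtain ⟨b1, b2⟩ := h'.2 F hF s
  simp only [LinearMap.add_apply]
  refine ⟨a1.add b1, fun v g hg => ?_⟩
  rw [fderiv_fun_add a1 b1, ContinuousLinearMap.add_apply, a2 v g hg, b2 v g hg]

theorem GoodS.smul {R : ℝ} {ℓ : Fnl Sm} (h : GoodS R ℓ) (c : ℂ) : GoodS R (c • ℓ) := by
  refine ⟨fun f hf => by simp [h.1 f hf], fun F hF s => ?_⟩
  obtain ⟨a1, a2⟩ := h.2 F hF s
  simp only [LinearMap.smul_apply]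
  refine ⟨a1.const_smul c, fun v g hg => ?_⟩
  rw [fderiv_fun_const_smul a1, ContinuousLinearMap.smul_apply, a2 v g hg]

theorem GoodS.sum {R : ℝ} {κ : Type*} {t : Finset κ} {ℓ : κ → Fnl Sm} (h : ∀ i ∈ t, GoodS R (ℓ i)) :
    GoodS R (∑ i ∈ t, ℓ i) :=
  Finset.sum_induction ℓ (GoodS R) (fun _ _ => GoodS.add) (GoodS.zero R) h

theorem GoodS.mulLeft {R : ℝ} {ℓ : Fnl Sm} (h : GoodS R ℓ) (a : Sm) :
    GoodS R (ℓ ∘ₗ LinearMap.mulLeft ℂ a) := by
  refine ⟨fun f hf => h.1 _ ((vanI R).mul_mem_left a hf), fun F hF s => ?_⟩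
  obtain ⟨a1, a2⟩ := h.2 (fun s => a * F s) ((JS.const a).mul hF) s
  refine ⟨a1, fun v g hg => a2 v (a * g) fun x => ?_⟩
  simp only [Sm.mul_apply]
  rw [fderiv_const_mul (hF.differentiableAt s x), hg]
  simp

theorem GoodS.comp_pd {R : ℝ} {ℓ : Fnl Sm} (h : GoodS R ℓ) (j : Fin 3) :
    GoodS R (ℓ ∘ₗ (pd j : Sm →ₗ[ℂ] Sm)) := by
  refine ⟨fun f hf => h.1 _ (pd_mem_vanI hf j), fun F hF s => ?_⟩
  obtain ⟨a1, a2⟩ := h.2 (fun s => pd j (F s)) (hF.pd j) s
  exact ⟨a1, fun v g hg => a2 v (pd j g) fun x => hF.pd_deriv hg j x⟩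

theorem GoodS.congr {R : ℝ} {ℓ : Fnl Sm} (h : GoodS R ℓ) {f g : Sm} (hfg : f - g ∈ vanI R) :
    ℓ f = ℓ g := by
  have := h.1 _ hfg
  rwa [map_sub, sub_eq_zero] at this

theorem good_integrableOn {G : Type*} [NormedAddCommGroup G] {f : E3 → G} (hf : Continuous f)
    {Ω : Set E3} (hb : Bornology.IsBounded Ω) : IntegrableOn f Ω :=
  (hf.continuousOn.integrableOn_compact hb.isCompact_closure).mono_set subset_closure

theorem Sm.integrableOn (f : Sm) {Ω : Set E3} (hb : Bornology.IsBounded Ω) :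
    IntegrableOn (f : E3 → ℂ) Ω :=
  good_integrableOn f.cont hb

/-- `hasFDerivAt_integral_of_dominated_of_fderiv_le` (the `s`-derivative is bounded on `closedBall s 1 ×ˢ closedBall 0 R`),
`ContinuousLinearMap.integral_apply` -/
theorem exists_intS {Ω : Set E3} (hΩ : MeasurableSet Ω) {R : ℝ} (hR : Ω ⊆ ball 0 R) :
    ∃ I : Fnl Sm, (∀ f, I f = ∫ x in Ω, f x) ∧ GoodS R I := by
  have hb : Bornology.IsBounded Ω := isBounded_ball.subset hR
  let I : Fnl Sm :=
    { toFun := fun f => ∫ x in Ω, f x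
      map_add' := fun f g => by
        simp only [Sm.add_apply]
        exact integral_add (f.integrableOn hb) (g.integrableOn hb)
      map_smul' := fun c f => by
        simp only [Sm.smul_apply, RingHom.id_apply, smul_eq_mul]
        exact integral_const_mul c _ }
  refine ⟨I, fun _ => rfl, fun f hf => ?_, fun F hF s => ?_⟩
  · change ∫ x in Ω, f x = 0
    rw [setIntegral_congr_fun hΩ (g := fun _ => 0) fun x hx => hf x (hR hx)]
    simp
  · set u : ℂ × E3 → ℂ := fun p => F p.1 p.2 with hu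
    have hu' : ContDiff ℝ ∞ u := hF
    let D : ℂ → E3 → ℂ →L[ℝ] ℂ := fun s x =>
      (fderiv ℝ u (s, x)).comp (ContinuousLinearMap.inl ℝ ℂ E3)
    have hDc : Continuous fun p : ℂ × E3 => D p.1 p.2 :=
      (hu'.continuous_fderiv (by simp)).clm_comp continuous_const
    obtain ⟨C, hC⟩ := ((isCompact_closedBall s 1).prod
      (isCompact_closedBall (0 : E3) R)).exists_bound_of_continuousOn hDc.continuousOn
    have hfin : IsFiniteMeasure (volume.restrict Ω) :=
      ⟨by simpa using hb.measure_lt_top⟩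
    have hDs : Continuous (D s) := hDc.comp (Continuous.prodMk_right s)
    have key : HasFDerivAt (fun s => ∫ x in Ω, F s x) (∫ x in Ω, D s x) s := by
      refine hasFDerivAt_integral_of_dominated_of_fderiv_le (bound := fun _ => C)
        (ball_mem_nhds s one_pos)
        (Filter.Eventually.of_forall fun s' => (F s').cont.aestronglyMeasurable)
        ((F s).integrableOn hb) hDs.aestronglyMeasurable ?_ (integrable_const C) ?_
      · refine (ae_restrict_mem hΩ).mono fun x hx s' hs' => ?_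
        exact hC (s', x) ⟨ball_subset_closedBall hs', ball_subset_closedBall (hR hx)⟩
      · exact Filter.Eventually.of_forall fun x s' _ => good_fst hu' s' x
    refine ⟨key.differentiableAt, fun v g hg => ?_⟩
    change fderiv ℝ (fun s => ∫ x in Ω, F s x) s v = ∫ x in Ω, g x
    rw [key.fderiv, ContinuousLinearMap.integral_apply (good_integrableOn hDs hb)]
    refine integral_congr_ae (Filter.Eventually.of_forall fun x => ?_)
    simp only
    rw [hg, (good_fst hu' s x).fderiv]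

end Crest.Agent.R80
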