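import Mathlib

/-!
# R80: entire functions of polynomial growth
-/

set_option autoImplicit false

namespace Crest.Agent.R80

open Finset

/-- Induction on `k`.  `k = 0`: `f → 0` at infinity (`Differentiable.apply_eq_of_tendsto_cocompact`).  Step: apply the hypothesis to `dslope f 0`
(`Complex.differentiableOn_dslope`), `f s = f 0 + s * dslope f 0 s`. -/
theorem poly_of_growth (k : ℕ) (f : ℂ → ℂ) (hf : Differentiable ℂ f) (C : ℝ)
    (h : ∀ s, 1 ≤ ‖s‖ → ‖f s‖ * ‖s‖ ≤ C * ‖s‖ ^ k) :
    ∃ p : Polynomial ℂ, p.degree < k ∧ ∀ s, f s = p.eval s := by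
  induction k generalizing f C with
  | zero =>
    refine ⟨0, by simp, fun s => ?_⟩
    rw [Polynomial.eval_zero]
    refine hf.apply_eq_of_tendsto_cocompact s ?_
    rw [tendsto_zero_iff_norm_tendsto_zero]
    have h1 : Filter.Tendsto (fun s : ℂ => C * ‖s‖⁻¹) (Filter.cocompact ℂ) (nhds 0) := by
      simpa using (tendsto_inv_atTop_zero.comp (tendsto_norm_cocompact_atTop (E := ℂ))).const_mul C
    refine squeeze_zero' (Filter.Eventually.of_forall fun _ => norm_nonneg _) ?_ h1
    filter_upwards [(tendsto_norm_cocompact_atTop (E := ℂ)).eventually_ge_atTop 1] with s hs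
    have := h s hs
    rw [pow_zero, mul_one] at this
    rwa [← div_eq_mul_inv, le_div_iff₀ (by linarith)]
  | succ k ih =>
    have hg : Differentiable ℂ (dslope f 0) := by
      rw [← differentiableOn_univ, Complex.differentiableOn_dslope Filter.univ_mem]
      exact hf.differentiableOn
    have he : ∀ s, s * dslope f 0 s = f s - f 0 := fun s => by
      simpa using sub_smul_dslope f 0 s
    obtain ⟨p, hp, hp'⟩ := ih (dslope f 0) hg (C + ‖f 0‖) fun s hs => by
      have h1 : ‖f s‖ ≤ C * ‖s‖ ^ k := by
        have := h s hs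
        rw [pow_succ, ← mul_assoc] at this
        exact le_of_mul_le_mul_right this (by linarith)
      have h2 : 1 ≤ ‖s‖ ^ k := one_le_pow₀ hs
      rw [mul_comm, ← norm_mul, he]
      refine (norm_sub_le _ _).trans ?_
      nlinarith [norm_nonneg (f 0)]
    refine ⟨Polynomial.C (f 0) + Polynomial.X * p, ?_, fun s => ?_⟩
    · refine (Polynomial.degree_add_le _ _).trans_lt (max_lt ?_ ?_)
      · exact Polynomial.degree_C_le.trans_lt (by exact_mod_cast Nat.succ_pos k)
      · rw [mul_comm, Polynomial.degree_mul_X]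
        rcases eq_or_ne p 0 with rfl | h0
        · simp
        · rw [Polynomial.degree_eq_natDegree h0] at hp ⊢
          exact_mod_cast Nat.succ_lt_succ (by exact_mod_cast hp)
    · simp [← hp', he]

/-- coefficients of a polynomial of degree `< k` from its values at `0, …, k - 1` (`Lagrange.eq_interpolate`, `c i j = (Lagrange.basis (range k) (↑) j).coeff i`) -/
theorem exists_interp (k : ℕ) : ∃ c : ℕ → ℕ → ℂ, ∀ p : Polynomial ℂ, p.degree < k → ∀ s,
    p.eval s = ∑ i ∈ range k, s ^ i * ∑ j ∈ range k, c i j * p.eval (j : ℂ) := by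
  refine ⟨fun i j => (Lagrange.basis (range k) (fun j : ℕ => (j : ℂ)) j).coeff i, fun p hp s => ?_⟩
  have hinj : Set.InjOn (fun j : ℕ => (j : ℂ)) (range k : Finset ℕ) :=
    Nat.cast_injective.injOn
  have h1 := Lagrange.eq_interpolate (f := p) hinj (by simpa using hp)
  have h2 : ∀ i, p.coeff i = ∑ j ∈ range k,
      (Lagrange.basis (range k) (fun j : ℕ => (j : ℂ)) j).coeff i * p.eval (j : ℂ) := fun i => by
    conv_lhs => rw [h1]
    simp [Lagrange.interpolate_apply, mul_comm]
  simp only [← h2]
  rcases eq_or_ne p 0 with rfl | h0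
  · simp
  · rw [Polynomial.eval_eq_sum_range' ((Polynomial.natDegree_lt_iff_degree_lt h0).2 hp)]
    exact Finset.sum_congr rfl fun i _ => mul_comm _ _

end Crest.Agent.R80
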