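import Crest.Agent.R80.TransT
import Crest.Agent.R80.HolA
import Crest.Agent.R80.DegB

/-!
# R80: holomorphic dependence on the null vector
-/

set_option autoImplicit false

namespace Crest.Agent.R80

open Finset Metric
open scoped ContDiff

/-- `w` is the defect of the Cauchy-Riemann equation of `u` at `s` -/
def HolCR (u : ℂ → ℂ) (s w : ℂ) : Prop :=
  DifferentiableAt ℝ u s ∧ fderiv ℝ u s Complex.I - Complex.I * fderiv ℝ u s 1 = w

theorem HolCR.add {u v : ℂ → ℂ} {s w w' : ℂ} (h : HolCR u s w) (h' : HolCR v s w') :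
    HolCR (fun z => u z + v z) s (w + w') := by
  refine ⟨h.1.add h'.1, ?_⟩
  rw [fderiv_fun_add h.1 h'.1, ← h.2, ← h'.2]
  simp only [add_apply]
  ring

theorem HolCR.const (c s : ℂ) : HolCR (fun _ => c) s 0 :=
  ⟨differentiableAt_const c, by simp⟩

theorem HolCR.sum {κ : Type} {t : Finset κ} {u : κ → ℂ → ℂ} {s : ℂ} {w : κ → ℂ}
    (h : ∀ i ∈ t, HolCR (u i) s (w i)) : HolCR (fun z => ∑ i ∈ t, u i z) s (∑ i ∈ t, w i) := by
  classical
  induction t using Finset.induction_on with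
  | empty => simpa using HolCR.const 0 s
  | insert i t hi ih =>
    simp only [sum_insert hi]
    exact (h i (mem_insert_self i t)).add (ih fun j hj => h j (mem_insert_of_mem hj))

theorem HolCR.hol_mul {c u : ℂ → ℂ} {s w : ℂ} (hc : DifferentiableAt ℂ c s) (h : HolCR u s w) :
    HolCR (fun z => c z * u z) s (c s * w) := by
  obtain ⟨h1, h2⟩ := differentiableAt_complex_iff_differentiableAt_real.1 hc
  refine ⟨h1.mul h.1, ?_⟩
  rw [fderiv_fun_mul h1 h.1, ← h.2]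
  simp only [add_apply, smul_apply, h2, smul_eq_mul]
  ring

theorem HolCR.of_good {R : ℝ} {ℓ : Fnl Sm} (hℓ : GoodS R ℓ) {F : ℂ → Sm} (hF : JS F) {s : ℂ} {g1 gI : Sm}
    (h1 : ∀ x, g1 x = fderiv ℝ (fun s' => F s' x) s 1)
    (hI : ∀ x, gI x = fderiv ℝ (fun s' => F s' x) s Complex.I) :
    HolCR (fun z => ℓ (F z)) s (ℓ (gI - Complex.I • g1)) := by
  obtain ⟨h, h'⟩ := hℓ.2 F hF s
  exact ⟨h, by rw [h' _ _ h1, h' _ _ hI, map_sub, map_smul, smul_eq_mul]⟩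

theorem HolCR.eq_zero {u : ℂ → ℂ} {s w c : ℂ} (h : HolCR u s w) (hc : u =ᶠ[nhds s] fun _ => c) : w = 0 := by
  rw [← h.2, hc.fderiv_eq]
  simp

theorem HolCR.differentiableAt {u : ℂ → ℂ} {s : ℂ} (h : HolCR u s 0) : DifferentiableAt ℂ u s :=
  differentiableAt_complex_iff_differentiableAt_real.2 ⟨h.1, sub_eq_zero.1 h.2⟩

theorem hol_good_eval {R : ℝ} {x : E3} (hx : x ∈ ball (0 : E3) R) : GoodS R (Sm.evalAt x).toLinearMap :=
  ⟨fun _ hf => hf x hx, fun _ hF s => ⟨hF.differentiableAt s x, fun _ _ hg => (hg x).symm⟩⟩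

theorem hol_th (j : Fin 3) : Differentiable ℂ fun s => th s j := by
  fin_cases j <;> simp [th] <;> fun_prop

theorem hol_contDiff_th : ContDiff ℝ ∞ th := by
  refine contDiff_pi.2 fun j => ?_
  fin_cases j <;> simp [th] <;> fun_prop

theorem hol_contDiff_th' : ContDiff ℝ ∞ th' := by
  refine contDiff_pi.2 fun j => ?_
  fin_cases j <;> simp [th'] <;> fun_prop

theorem hol_near (s0 : ℂ) : ∀ᶠ s in nhds s0, ‖s‖ ≤ ‖s0‖ + 1 :=
  (continuous_norm.tendsto s0).eventually (eventually_le_nhds (lt_add_one _))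

section
variable {R : ℝ} {ι : Type} [Fintype ι] {A : Fin 3 → ι → ι → Sm} {N : ℕ} {n : ℕ → ι → Fnl Sm}

theorem hol_differentiable (hn : ∀ i a, GoodS R (n i a))
    (h : ∀ s (Z : ι → Sm), (∀ a, sm.T A (th s) Z a ∈ vanI R) →
      ∑ i ∈ range N, s ^ i * ∑ a, n i a (Z a) = 0) (ψ : ι → Sm) {f : ℂ → ℂ}
    (hf : ∀ s (Z : ι → Sm), (∀ a, sm.T A (th s) Z a - ψ a ∈ vanI R) →
      f s = ∑ i ∈ range N, s ^ i * ∑ a, n i a (Z a)) : Differentiable ℂ f := by
  intro s0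
  obtain ⟨Z, hZ, hT⟩ := surj_fam A th hol_contDiff_th null_th (fun _ => ψ) (fun a => JS.const _) R (‖s0‖ + 1)
  choose Z1 _ h1 using fun a => (hZ a).exists_deriv 1
  choose ZI _ hI using fun a => (hZ a).exists_deriv Complex.I
  have key : ∀ {ℓ : Fnl Sm}, GoodS R ℓ → ∀ a,
      HolCR (fun z => ℓ (Z z a)) s0 (ℓ (ZI a s0 - Complex.I • Z1 a s0)) :=
    fun hℓ a => HolCR.of_good hℓ (hZ a) (h1 a s0) (hI a s0)
  have h0 := h s0 (fun a => ZI a s0 - Complex.I • Z1 a s0) fun a x hx => by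
    refine HolCR.eq_zero (u := fun s => sm.T A (th s) (Z s) a x) (s := s0) (c := ψ a x) ?_
      ((hol_near s0).mono fun s hs => sub_eq_zero.1 (hT s hs a x hx))
    simp only [T_apply_pt]
    exact (HolCR.hol_mul (differentiableAt_const 2) (HolCR.sum fun j _ => HolCR.hol_mul (hol_th j s0)
      (key ((hol_good_eval hx).comp_pd j) a))).add (HolCR.sum fun j _ => HolCR.sum fun b _ =>
        HolCR.hol_mul (hol_th j s0) (HolCR.hol_mul (differentiableAt_const _) (key (hol_good_eval hx) b)))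
  have h2 := HolCR.sum (t := range N) fun i _ => HolCR.hol_mul (c := fun s => s ^ i) (by fun_prop)
    (HolCR.sum (t := univ) fun a _ => key (hn i a) a)
  rw [h0] at h2
  exact h2.differentiableAt.congr_of_eventuallyEq ((hol_near s0).mono fun s hs => hf s (Z s) (hT s hs))

theorem hol_growth (hn : ∀ i a, GoodS R (n i a)) (ψ : ι → Sm) {f : ℂ → ℂ} {m : ℕ} (hm : N ≤ m + 2)
    (hf : ∀ s (Z : ι → Sm), (∀ a, sm.T A (th s) Z a - ψ a ∈ vanI R) →
      f s = ∑ i ∈ range N, s ^ i * ∑ a, n i a (Z a)) :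
    ∃ C : ℝ, ∀ s, 1 ≤ ‖s‖ → ‖f s‖ * ‖s‖ ≤ C * ‖s‖ ^ m := by
  obtain ⟨Z, hZ, hT⟩ := surj_fam A th' hol_contDiff_th' null_th' (fun _ => ψ) (fun a => JS.const _) R 1
  have hc : ∀ i, Continuous fun r => ∑ a, n i a (Z r a) := fun i =>
    continuous_finsetSum _ fun a _ => continuous_iff_continuousAt.2 fun r =>
      ((hn i a).2 _ (hZ a) r).1.continuousAt
  choose C hC using fun i => (isCompact_closedBall (0 : ℂ) 1).exists_bound_of_continuousOn (hc i).continuousOn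
  refine ⟨∑ i ∈ range N, C i, fun s hs => ?_⟩
  have h0 : 0 < ‖s‖ := one_pos.trans_le hs
  have hs0 : s ≠ 0 := norm_pos_iff.1 h0
  have hs1 : ‖s⁻¹‖ ≤ 1 := by
    rw [norm_inv]
    exact inv_le_one_of_one_le₀ hs
  rw [hf s ((s ^ 2)⁻¹ • Z s⁻¹) fun a => by
    rw [th_eq_smul hs0, sm.T_smul, map_smul, smul_smul, mul_inv_cancel₀ (pow_ne_zero 2 hs0), one_smul]
    exact hT _ hs1 a, sum_mul]
  refine (mul_le_mul_of_nonneg_right (norm_sum_le _ _) h0.le).trans ?_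
  rw [sum_mul]
  refine sum_le_sum fun i hi => ?_
  have h1 := hC i s⁻¹ (mem_closedBall_zero_iff.2 hs1)
  have h2 : ‖s‖ ^ i ≤ ‖s‖ ^ (m + 1) := pow_le_pow_right₀ hs (by have := mem_range.1 hi; omega)
  simp only [Pi.smul_apply, map_smul, smul_eq_mul, ← mul_sum, norm_mul, norm_inv, norm_pow]
  calc ‖s‖ ^ i * ((‖s‖ ^ 2)⁻¹ * ‖∑ a, n i a (Z s⁻¹ a)‖) * ‖s‖
      ≤ ‖s‖ ^ (m + 1) * ((‖s‖ ^ 2)⁻¹ * C i) * ‖s‖ := by gcongr
    _ = C i * ‖s‖ ^ m := by
      field_simp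
      ring

end

/-- For each `s` take `t s` from `exists_t` (`n s a = ∑ s ^ i • n i a`).  Fix `ψ` and let `f s = ∑ a, t s a (ψ a)`; whenever `T (th s) Z - ψ ∈ vanI R` one has
`f s = ∑ s ^ i * ∑ n i a (Z a)` (`GoodS.congr`).
Holomorphy at `s0`: take `Z` from `surj_fam` (`ρ = ‖s0‖ + 1`), use `differentiableAt_complex_iff_differentiableAt_real`; with the derivative families `Z1`, `ZI`
(directions `1`, `I`) put `W = ZI s0 - I • Z1 s0`; differentiating `T_apply_pt` in `s` (the functions `s ↦ th s j`, `s ↦ s ^ i` are holomorphic) gives `T (th s0) W ∈ vanI R`,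
so `∑ s0 ^ i * ∑ n i a (W a) = 0` by `h`, which is the Cauchy-Riemann equation.
Growth: take `Z'` from `surj_fam` for `th'` (`ρ = 1`); for `‖s‖ ≥ 1`, `Z = (s ^ 2)⁻¹ • Z' s⁻¹` solves the equation at `th s` (`th_eq_smul`, `T_smul`), and `r ↦ n i a (Z' r a)` is
continuous, hence bounded on the unit disc; so `‖f s‖ ≤ C ‖s‖ ^ (2 k) / ‖s‖ ^ 2`.  `poly_of_growth (2 k - 1)`, `exists_interp`: `t i a = ∑ j, c i j • t j a`. -/
theorem holS (R : ℝ) (ι : Type) [Fintype ι] (A : Fin 3 → ι → ι → Sm) (k : ℕ) (n : ℕ → ι → Fnl Sm)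
    (hn : ∀ i a, GoodS R (n i a))
    (h : ∀ s (Z : ι → Sm), (∀ a, sm.T A (th s) Z a ∈ vanI R) →
      ∑ i ∈ range (2 * k + 1), s ^ i * ∑ a, n i a (Z a) = 0) :
    ∃ t : ℕ → ι → Fnl Sm, (∀ i a, GoodS R (t i a)) ∧
      ∀ s (Z : ι → Sm), ∑ i ∈ range (2 * k + 1), s ^ i * ∑ a, n i a (Z a) =
        ∑ i ∈ range (2 * k - 1), s ^ i * ∑ a, t i a (sm.T A (th s) Z a) := by
  have e : ∀ (s : ℂ) (Z : ι → Sm), ∑ a, (∑ i ∈ range (2 * k + 1), s ^ i • n i a) (Z a) =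
      ∑ i ∈ range (2 * k + 1), s ^ i * ∑ a, n i a (Z a) := by
    intro s Z
    simp only [LinearMap.sum_apply, LinearMap.smul_apply, smul_eq_mul, mul_sum]
    exact sum_comm
  choose t ht ht' using fun s => exists_t R A (null_th s) (fun a => ∑ i ∈ range (2 * k + 1), s ^ i • n i a)
    (fun a => GoodS.sum fun i _ => (hn i a).smul _) fun Z hZ => (e s Z).trans (h s Z hZ)
  obtain ⟨c, hc⟩ := exists_interp (2 * k - 1)
  refine ⟨fun i a => ∑ j ∈ range (2 * k - 1), c i j • t j a,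
    fun i a => GoodS.sum fun j _ => (ht j a).smul _, fun s Z => ?_⟩
  have hf : ∀ s' (Z' : ι → Sm), (∀ a, sm.T A (th s') Z' a - sm.T A (th s) Z a ∈ vanI R) →
      ∑ a, t s' a (sm.T A (th s) Z a) = ∑ i ∈ range (2 * k + 1), s' ^ i * ∑ a, n i a (Z' a) := by
    intro s' Z' hZ'
    rw [← e, ht']
    exact sum_congr rfl fun a _ => ((ht s' a).congr (hZ' a)).symm
  obtain ⟨C, hC⟩ := hol_growth (m := 2 * k - 1) hn _ (by omega) hf
  obtain ⟨p, hp, hp'⟩ := poly_of_growth _ _ (hol_differentiable hn h _ hf) C hC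
  rw [← e, ht', hp', hc p hp]
  refine sum_congr rfl fun i _ => congrArg _ ?_
  simp only [← hp', LinearMap.sum_apply, LinearMap.smul_apply, smul_eq_mul, mul_sum]
  exact sum_comm

end Crest.Agent.R80
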