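import Crest.Agent.R80.Sm

/-!
# R80: integration by parts on a bounded open set
-/

set_option autoImplicit false

namespace Crest.Agent.R80

open MeasureTheory

theorem ibp_lip {Ω : Set E3} (ho : IsOpen Ω) {F : E3 → ℝ} {K : NNReal} (hK : LipschitzOnWith K F (closure Ω))
    (h0 : ∀ x ∈ frontier Ω, F x = 0) : LipschitzWith K (Ω.indicator F) := by
  have key : ∀ x ∈ Ω, ∀ y ∉ Ω, dist (F x) 0 ≤ K * dist x y := by
    intro x hx y hy
    obtain ⟨z, hz, hz'⟩ : ∃ z, z ∈ closure Ω ∩ segment ℝ x y ∧ z ∉ Ω :=
      Set.not_subset.1 fun h => hy ((convex_segment x y).isPreconnected.subset_of_closure_inter_subset ho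
        ⟨x, left_mem_segment _ _ _, hx⟩ h (right_mem_segment _ _ _))
    rw [← h0 z (ho.frontier_eq ▸ ⟨hz.1, hz'⟩)]
    refine (hK.dist_le_mul x (subset_closure hx) z hz.1).trans (mul_le_mul_of_nonneg_left ?_ K.2)
    linarith [dist_add_dist_of_mem_segment hz.2, dist_nonneg (x := z) (y := y)]
  refine LipschitzWith.of_dist_le_mul fun x y => ?_
  by_cases hx : x ∈ Ω <;> by_cases hy : y ∈ Ω
  · rw [Set.indicator_of_mem hx, Set.indicator_of_mem hy]
    exact hK.dist_le_mul x (subset_closure hx) y (subset_closure hy)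
  · rw [Set.indicator_of_mem hx, Set.indicator_of_notMem hy]
    exact key x hx y hy
  · rw [Set.indicator_of_notMem hx, Set.indicator_of_mem hy, dist_comm, dist_comm x]
    exact key y hy x hx
  · rw [Set.indicator_of_notMem hx, Set.indicator_of_notMem hy, dist_self]
    positivity

theorem ibp_zero {G : E3 → ℝ} {K : NNReal} (hG : LipschitzWith K G) (v : E3) :
    ∀ᵐ x, G x = 0 → HasLineDerivAt ℝ (fun y => max (G y) 0) 0 x v := by
  filter_upwards [(hG.max_const 0).ae_lineDifferentiableAt v] with x hx h0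
  have : IsLocalMin (fun y => max (G y) 0) x :=
    Filter.Eventually.of_forall fun y => by simp [h0]
  have h1 := hx.hasLineDerivAt
  rwa [this.hasLineDerivAt_eq_zero h1] at h1

/-- `G = Ω.indicator F` is Lipschitz: `F` is `L`-Lipschitz on a closed ball containing `closure Ω` (`C¹`, convex compact); for `x ∈ Ω`, `y ∉ Ω` the segment from `x` to `y`
meets `frontier Ω` at some `z` (connectedness), `|G x - G y| = |F x - F z| ≤ L ‖x - z‖ ≤ L ‖x - y‖`.  `LipschitzWith.integral_lineDeriv_mul_eq` with the constant `1` gives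
`∫ lineDeriv ℝ G x v = 0`.  On `Ω`, `lineDeriv G x v = fderiv F x v`.  For a.e. `x ∉ Ω`, the Lipschitz functions `max G 0`, `max (-G) 0` are line differentiable at `x`
(`LipschitzWith.ae_lineDifferentiableAt`) and have a minimum `0` there, so their line derivatives vanish (`IsLocalMin.hasDerivAt_eq_zero`), hence `lineDeriv G x v = 0`. -/
theorem integral_fderiv_eq_zero_of_frontier {Ω : Set E3} (ho : IsOpen Ω)
    (hb : Bornology.IsBounded Ω) {F : E3 → ℝ} (hF : ContDiff ℝ 1 F) (h0 : ∀ x ∈ frontier Ω, F x = 0)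
    (v : E3) : ∫ x in Ω, fderiv ℝ F x v = 0 := by
  obtain ⟨K, hK⟩ := (hF.locallyLipschitz.locallyLipschitzOn (s := closure Ω)).exists_lipschitzOnWith_of_compact
    hb.isCompact_closure
  have hG := ibp_lip ho hK h0
  have hc : HasCompactSupport (Ω.indicator F) :=
    HasCompactSupport.intro hb.isCompact_closure fun x hx =>
      Set.indicator_of_notMem (fun h => hx (subset_closure h)) _
  have h1 := (LipschitzWith.const (1 : ℝ)).integral_lineDeriv_mul_eq (μ := volume) hG hc (-v)
  simp only [lineDeriv, deriv_const', zero_mul, integral_zero, mul_one, neg_neg] at h1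
  rw [← integral_indicator ho.measurableSet]
  refine (integral_congr_ae ?_).trans h1.symm
  filter_upwards [ibp_zero hG v, ibp_zero hG.neg v] with x h2 h3
  by_cases hx : x ∈ Ω
  · rw [Set.indicator_of_mem hx, ← (hF.differentiable one_ne_zero x).lineDeriv_eq_fderiv]
    exact Filter.EventuallyEq.lineDeriv_eq
      (Filter.eventually_of_mem (ho.mem_nhds hx) fun y hy => (Set.indicator_of_mem hy F).symm)
  · have hx0 : Ω.indicator F x = 0 := Set.indicator_of_notMem hx _
    have := HasDerivAt.sub (h2 hx0) (h3 (by simp [hx0]))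
    rw [Set.indicator_of_notMem hx]
    refine ((sub_zero 0).symm.trans this.deriv.symm).trans ?_
    congr 1
    funext t
    exact max_zero_sub_max_neg_zero_eq_self _

end Crest.Agent.R80
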