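import Crest.Agent.R80.IdR
import Crest.Agent.R80.Good

/-!
# R80: the integral identity for complex solutions
-/

set_option autoImplicit false

namespace Crest.Agent.R80

open MeasureTheory Finset
open scoped ContDiff
open Crest.AnalysisR.VecCalc3 Crest.AnalysisR.PDE.Elasticity

/-- the real field `ℓ ∘ u` -/
noncomputable def idcPart (ℓ : ℂ →L[ℝ] ℝ) (u : Fin 3 → Sm) (x : R3) : R3 := WithLp.toLp 2 fun i => ℓ (u i x)

theorem idc_smooth (ℓ : ℂ →L[ℝ] ℝ) (u : Fin 3 → Sm) : ContDiff ℝ ∞ (idcPart ℓ u) :=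
  contDiff_euclidean.2 fun i => ℓ.contDiff.comp (u i).smooth

theorem idc_pd (ℓ : ℂ →L[ℝ] ℝ) (f : Sm) (i : Fin 3) (x : R3) :
    pderiv (fun y => ℓ (f y)) i x = ℓ (pd i f x) :=
  congrArg (fun L : R3 →L[ℝ] ℝ => L (e i)) (ℓ.hasFDerivAt.comp x (f.diff x).hasFDerivAt).fderiv

theorem idc_div (ℓ : ℂ →L[ℝ] ℝ) (u : Fin 3 → Sm) (x : R3) : div3 (idcPart ℓ u) x = ℓ (sm.div u x) := by
  rw [DA.div, Sm.sum_apply, map_sum]
  exact sum_congr rfl fun i _ => idc_pd ℓ (u i) i x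

theorem idc_sym (ℓ : ℂ →L[ℝ] ℝ) (u : Fin 3 → Sm) (i j : Fin 3) (x : R3) :
    symGrad (idcPart ℓ u) i j x = ℓ (sm.str u i j x) / 2 := by
  rw [DA.str, Sm.add_apply, map_add]
  exact congrArg (· / 2) (congrArg₂ (· + ·) (idc_pd ℓ (u j) i x) (idc_pd ℓ (u i) j x))

theorem idc_solves (ℓ : ℂ →L[ℝ] ℝ) {Ω : Set R3} {lam mu : R3 → ℝ} {L : Lame Sm}
    (hL : ∀ x, L.lam x = lam x ∧ L.mu x = mu x) {u : Fin 3 → Sm} (hu : ∀ i, ∀ x ∈ Ω, sm.lame L u i x = 0) :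
    SolvesOn Ω lam mu (idcPart ℓ u) := by
  intro x hx i
  have h1 : (fun y => lam y * div3 (idcPart ℓ u) y) = fun y => ℓ ((L.lam * sm.div u) y) := by
    funext y
    rw [idc_div, Sm.mul_apply, (hL y).1, ← Complex.real_smul, map_smul, smul_eq_mul]
  have h2 : ∀ j, (fun y => 2 * mu y * symGrad (idcPart ℓ u) i j y) =
      fun y => ℓ ((L.mu * sm.str u i j) y) := by
    intro j
    funext y
    rw [idc_sym, Sm.mul_apply, (hL y).2, ← Complex.real_smul, map_smul, smul_eq_mul]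
    ring
  have h3 := congrArg ℓ (hu i x hx)
  rw [DA.lame, Sm.add_apply, Sm.sum_apply, map_add, map_sum, map_zero] at h3
  simp only [h1, h2, idc_pd]
  exact h3

/-- For a real linear `ℓ : ℂ →L[ℝ] ℝ` (`reCLM`, `imCLM`) let `part ℓ u x = WithLp.toLp 2 fun i => ℓ (u i x)`: smooth, `pderiv (fun y => ℓ (f y)) i x = ℓ (pd i f x)`,
`div3 (part ℓ u) = ℓ ∘ div u`, `2 * symGrad (part ℓ u) i j = ℓ ∘ str u i j`; since `lam`, `mu` are real, `part ℓ u` solves the real system on `Ω`.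
Expand `den u v x` in real and imaginary parts: `den u v x = 2 * (δ(re u, re v) - δ(im u, im v)) + 2 i * (δ(re u, im v) + δ(im u, re v))` with
`δ = bilD lam₂ mu₂ - bilD lam₁ mu₁`; each of the four integrals vanishes by `real_identity`. -/
theorem complex_identity {Ω : Set R3} (ho : IsOpen Ω) (hb : Bornology.IsBounded Ω)
    {lam₁ mu₁ lam₂ mu₂ : R3 → ℝ} (hl₁ : ContDiff ℝ ∞ lam₁) (hm₁ : ContDiff ℝ ∞ mu₁)
    (hl₂ : ContDiff ℝ ∞ lam₂) (hm₂ : ContDiff ℝ ∞ mu₂)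
    (hpos : ∀ x, 0 < mu₁ x ∧ 0 < 3 * lam₁ x + 2 * mu₁ x)
    (hdata : SameBoundaryData Ω lam₁ mu₁ lam₂ mu₂) (L1 L2 : Lame Sm)
    (e₁ : ∀ x, L1.lam x = lam₁ x ∧ L1.mu x = mu₁ x) (e₂ : ∀ x, L2.lam x = lam₂ x ∧ L2.mu x = mu₂ x)
    (u v : Fin 3 → Sm) (hu : ∀ i, ∀ x ∈ Ω, sm.lame L1 u i x = 0)
    (hv : ∀ i, ∀ x ∈ Ω, sm.lame L2 v i x = 0) : ∫ x in Ω, sm.den L1 L2 u v x = 0 := by
  have h1 : (1 : WithTop ℕ∞) ≤ ∞ := by exact_mod_cast le_top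
  have hi : ∀ {lam mu : R3 → ℝ}, ContDiff ℝ ∞ lam → ContDiff ℝ ∞ mu → ∀ ℓ ℓ' : ℂ →L[ℝ] ℝ,
      IntegrableOn (bilD lam mu (idcPart ℓ u) (idcPart ℓ' v)) Ω := fun hl hm ℓ ℓ' =>
    IdR_integrableOn hb (IdR_bilD_cont hl.continuous hm.continuous ((idc_smooth ℓ u).of_le h1)
      ((idc_smooth ℓ' v).of_le h1))
  obtain ⟨δ, hδ, hδi, hδ0⟩ : ∃ δ : (ℂ →L[ℝ] ℝ) → (ℂ →L[ℝ] ℝ) → R3 → ℝ,
      (∀ ℓ ℓ' x, δ ℓ ℓ' x = bilD lam₂ mu₂ (idcPart ℓ u) (idcPart ℓ' v) x -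
        bilD lam₁ mu₁ (idcPart ℓ u) (idcPart ℓ' v) x) ∧ (∀ ℓ ℓ', IntegrableOn (δ ℓ ℓ') Ω) ∧
      ∀ ℓ ℓ', ∫ x in Ω, δ ℓ ℓ' x = 0 := by
    refine ⟨_, fun _ _ _ => rfl, fun ℓ ℓ' => (hi hl₂ hm₂ ℓ ℓ').sub (hi hl₁ hm₁ ℓ ℓ'), fun ℓ ℓ' => ?_⟩
    rw [integral_sub (hi hl₂ hm₂ ℓ ℓ') (hi hl₁ hm₁ ℓ ℓ'), real_identity ho hb hl₁ hm₁ hl₂ hm₂ hpos hdata
      (idc_smooth ℓ u) (idc_smooth ℓ' v) (idc_solves ℓ e₁ hu) (idc_solves ℓ' e₂ hv), sub_self]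
  have hI := (sm.den L1 L2 u v).integrableOn hb
  have hre : ∀ x, Complex.reCLM (sm.den L1 L2 u v x) =
      2 * (δ Complex.reCLM Complex.reCLM x - δ Complex.imCLM Complex.imCLM x) := by
    intro x
    simp only [hδ, bilD, idc_div, idc_sym, DA.den, Sm.add_apply, Sm.mul_apply, Sm.sub_apply, Sm.two_apply,
      (e₁ x).1, (e₁ x).2, (e₂ x).1, (e₂ x).2, Fin.sum_univ_three, Complex.reCLM_apply, Complex.imCLM_apply,
      Complex.add_re, Complex.mul_re, Complex.add_im, Complex.mul_im, Complex.sub_re, Complex.sub_im,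
      Complex.ofReal_re, Complex.ofReal_im, Complex.re_ofNat, Complex.im_ofNat]
    ring
  have him : ∀ x, Complex.imCLM (sm.den L1 L2 u v x) =
      2 * (δ Complex.reCLM Complex.imCLM x + δ Complex.imCLM Complex.reCLM x) := by
    intro x
    simp only [hδ, bilD, idc_div, idc_sym, DA.den, Sm.add_apply, Sm.mul_apply, Sm.sub_apply, Sm.two_apply,
      (e₁ x).1, (e₁ x).2, (e₂ x).1, (e₂ x).2, Fin.sum_univ_three, Complex.reCLM_apply, Complex.imCLM_apply,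
      Complex.add_re, Complex.mul_re, Complex.add_im, Complex.mul_im, Complex.sub_re, Complex.sub_im,
      Complex.ofReal_re, Complex.ofReal_im, Complex.re_ofNat, Complex.im_ofNat]
    ring
  apply Complex.ext
  · refine (Complex.reCLM.integral_comp_comm hI).symm.trans ?_
    simp only [hre]
    rw [integral_const_mul, integral_sub (hδi _ _) (hδi _ _), hδ0, hδ0, sub_zero, mul_zero, Complex.zero_re]
  · refine (Complex.imCLM.integral_comp_comm hI).symm.trans ?_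
    simp only [him]
    rw [integral_const_mul, integral_add (hδi _ _) (hδi _ _), hδ0, hδ0, add_zero, mul_zero, Complex.zero_im]

end Crest.Agent.R80
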