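import Crest.Agent.R80.Ibp
import Crest.Prelude.Def_Elasticity

/-!
# R80: the integral identity for real solutions
-/

set_option autoImplicit false

namespace Crest.Agent.R80

open MeasureTheory Finset
open scoped ContDiff
open Crest.AnalysisR.VecCalc3 Crest.AnalysisR.PDE.Elasticity

/-- density of the polarised energy -/
noncomputable def bilD (lam mu : R3 → ℝ) (u v : R3 → R3) (x : R3) : ℝ :=
  lam x * (div3 u x * div3 v x) + 2 * mu x * ∑ i, ∑ j, symGrad u i j x * symGrad v i j x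

/-- `u` solves the Lamé system in `Ω` -/
def SolvesOn (Ω : Set R3) (lam mu : R3 → ℝ) (u : R3 → R3) : Prop :=
  ∀ x ∈ Ω, ∀ i, pderiv (fun y => lam y * div3 u y) i x +
    ∑ j, pderiv (fun y => 2 * mu y * symGrad u i j y) j x = 0

theorem sameBoundaryData_congr {Ω : Set R3} (hΩ : MeasurableSet Ω)
    {lam₁ mu₁ lam₂ mu₂ lam₁' mu₁' lam₂' mu₂' : R3 → ℝ} (h : SameBoundaryData Ω lam₁ mu₁ lam₂ mu₂)
    (e : ∀ x ∈ Ω, lam₁' x = lam₁ x ∧ mu₁' x = mu₁ x ∧ lam₂' x = lam₂ x ∧ mu₂' x = mu₂ x) :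
    SameBoundaryData Ω lam₁' mu₁' lam₂' mu₂' := by
  have h1 : ∀ u, elasticEnergy Ω lam₁' mu₁' u = elasticEnergy Ω lam₁ mu₁ u := fun u =>
    setIntegral_congr_fun hΩ fun x hx => by
      simp only [energyDensity, (e x hx).1, (e x hx).2.1]
  have h2 : ∀ u, elasticEnergy Ω lam₂' mu₂' u = elasticEnergy Ω lam₂ mu₂ u := fun u =>
    setIntegral_congr_fun hΩ fun x hx => by
      simp only [energyDensity, (e x hx).2.2.1, (e x hx).2.2.2]
  intro φ hφ
  simp only [h1, h2]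
  exact h φ hφ

theorem IdR_comp {n : WithTop ℕ∞} {u : R3 → R3} (hu : ContDiff ℝ n u) (i : Fin 3) :
    ContDiff ℝ n fun y => u y i :=
  (EuclideanSpace.proj (𝕜 := ℝ) i).contDiff.comp hu

theorem IdR_pd_contDiff {n m : WithTop ℕ∞} {g : R3 → ℝ} (hg : ContDiff ℝ n g) (h : m + 1 ≤ n)
    (i : Fin 3) : ContDiff ℝ m (pderiv g i) :=
  (hg.fderiv_right h).clm_apply contDiff_const

theorem IdR_div_contDiff {n m : WithTop ℕ∞} {u : R3 → R3} (hu : ContDiff ℝ n u) (h : m + 1 ≤ n) :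
    ContDiff ℝ m (div3 u) :=
  ContDiff.sum fun i _ => IdR_pd_contDiff (IdR_comp hu i) h i

theorem IdR_sym_contDiff {n m : WithTop ℕ∞} {u : R3 → R3} (hu : ContDiff ℝ n u) (h : m + 1 ≤ n)
    (i j : Fin 3) : ContDiff ℝ m (symGrad u i j) :=
  ((IdR_pd_contDiff (IdR_comp hu j) h i).add (IdR_pd_contDiff (IdR_comp hu i) h j)).div_const 2

theorem IdR_pd_add {f g : R3 → ℝ} {x : R3} (hf : DifferentiableAt ℝ f x)
    (hg : DifferentiableAt ℝ g x) (i : Fin 3) :
    pderiv (fun y => f y + g y) i x = pderiv f i x + pderiv g i x := by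
  unfold pderiv
  rw [fderiv_fun_add hf hg]; rfl

theorem IdR_pd_mul {f g : R3 → ℝ} {x : R3} (hf : DifferentiableAt ℝ f x)
    (hg : DifferentiableAt ℝ g x) (i : Fin 3) :
    pderiv (fun y => f y * g y) i x = f x * pderiv g i x + g x * pderiv f i x := by
  unfold pderiv
  rw [fderiv_fun_mul hf hg]; rfl

theorem IdR_pd_const_mul {g : R3 → ℝ} {x : R3} (t : ℝ) (hg : DifferentiableAt ℝ g x) (i : Fin 3) :
    pderiv (fun y => t * g y) i x = t * pderiv g i x := by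
  unfold pderiv
  rw [fderiv_const_mul hg]; rfl

theorem IdR_pd_sum {f : Fin 3 → R3 → ℝ} {x : R3} (hf : ∀ k, DifferentiableAt ℝ (f k) x)
    (i : Fin 3) : pderiv (fun y => ∑ k, f k y) i x = ∑ k, pderiv (f k) i x := by
  unfold pderiv
  rw [fderiv_fun_sum fun k _ => hf k]
  simp only [FunLike.coe_sum, Finset.sum_apply]

theorem IdR_pd_lin {a b : R3 → R3} (ha : ContDiff ℝ 1 a) (hb : ContDiff ℝ 1 b) (t : ℝ)
    (i j : Fin 3) (x : R3) :
    pderiv (fun y => (a y + t • b y) j) i x =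
      pderiv (fun y => a y j) i x + t * pderiv (fun y => b y j) i x := by
  have h1 := ((IdR_comp ha j).differentiable one_ne_zero) x
  have h2 := ((IdR_comp hb j).differentiable one_ne_zero) x
  rw [← IdR_pd_const_mul t h2, ← IdR_pd_add h1 (h2.const_mul t)]
  rfl

theorem IdR_bilD_lin (lam mu : R3 → ℝ) {a b : R3 → R3} (ha : ContDiff ℝ 1 a) (hb : ContDiff ℝ 1 b)
    (t : ℝ) (c : R3 → R3) (x : R3) :
    bilD lam mu (fun y => a y + t • b y) c x = bilD lam mu a c x + t * bilD lam mu b c x := by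
  simp only [bilD, div3, symGrad, IdR_pd_lin ha hb, Fin.sum_univ_three]
  ring

theorem IdR_bilD_symm (lam mu : R3 → ℝ) (a c : R3 → R3) (x : R3) :
    bilD lam mu a c x = bilD lam mu c a x := by
  simp only [bilD, Fin.sum_univ_three]
  ring

theorem IdR_energy (Ω : Set R3) (lam mu : R3 → ℝ) (a : R3 → R3) :
    elasticEnergy Ω lam mu a = ∫ x in Ω, bilD lam mu a a x := by
  simp only [elasticEnergy, energyDensity, bilD, sq]

theorem IdR_integrableOn {Ω : Set R3} (hb : Bornology.IsBounded Ω) {f : R3 → ℝ}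
    (hf : Continuous f) : IntegrableOn f Ω :=
  (hf.continuousOn.integrableOn_compact hb.isCompact_closure).mono_set subset_closure

theorem IdR_bilD_cont {lam mu : R3 → ℝ} (hl : Continuous lam) (hm : Continuous mu) {a c : R3 → R3}
    (ha : ContDiff ℝ 1 a) (hc : ContDiff ℝ 1 c) : Continuous (bilD lam mu a c) := by
  have h1 : ∀ {u : R3 → R3}, ContDiff ℝ 1 u → Continuous (div3 u) := fun hu =>
    (IdR_div_contDiff (m := 0) hu (by simp)).continuous
  have h2 : ∀ {u : R3 → R3}, ContDiff ℝ 1 u → ∀ i j, Continuous (symGrad u i j) := fun hu i j =>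
    (IdR_sym_contDiff (m := 0) hu (by simp) i j).continuous
  unfold bilD
  exact (hl.mul ((h1 ha).mul (h1 hc))).add ((continuous_const.mul hm).mul
    (continuous_finsetSum _ fun i _ => continuous_finsetSum _ fun j _ =>
      (h2 ha i j).mul (h2 hc i j)))

/-- the polarised energy -/
noncomputable def IdR_B (Ω : Set R3) (lam mu : R3 → ℝ) (a c : R3 → R3) : ℝ :=
  ∫ x in Ω, bilD lam mu a c x

theorem IdR_B_symm (Ω : Set R3) (lam mu : R3 → ℝ) (a c : R3 → R3) :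
    IdR_B Ω lam mu a c = IdR_B Ω lam mu c a := by
  simp only [IdR_B, IdR_bilD_symm lam mu a c]

theorem IdR_B_lin {Ω : Set R3} (hb : Bornology.IsBounded Ω) {lam mu : R3 → ℝ}
    (hl : Continuous lam) (hm : Continuous mu) {a b c : R3 → R3} (ha : ContDiff ℝ 1 a)
    (hb' : ContDiff ℝ 1 b) (hc : ContDiff ℝ 1 c) (t : ℝ) :
    IdR_B Ω lam mu (fun y => a y + t • b y) c = IdR_B Ω lam mu a c + t * IdR_B Ω lam mu b c := by
  simp only [IdR_B, IdR_bilD_lin lam mu ha hb']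
  rw [integral_add (IdR_integrableOn hb (IdR_bilD_cont hl hm ha hc))
    ((IdR_integrableOn hb (IdR_bilD_cont hl hm hb' hc)).const_mul t), integral_const_mul]

theorem IdR_B_sq {Ω : Set R3} (hb : Bornology.IsBounded Ω) {lam mu : R3 → ℝ}
    (hl : Continuous lam) (hm : Continuous mu) {a b : R3 → R3} (ha : ContDiff ℝ 1 a)
    (hb' : ContDiff ℝ 1 b) (t : ℝ) :
    IdR_B Ω lam mu (fun y => a y + t • b y) (fun y => a y + t • b y) =
      IdR_B Ω lam mu a a + 2 * t * IdR_B Ω lam mu a b + t ^ 2 * IdR_B Ω lam mu b b := by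
  have h : ContDiff ℝ 1 fun y => a y + t • b y := ha.add (hb'.const_smul t)
  rw [IdR_B_lin hb hl hm ha hb' h, IdR_B_symm _ _ _ a, IdR_B_symm _ _ _ b,
    IdR_B_lin hb hl hm ha hb' ha, IdR_B_lin hb hl hm ha hb' hb', IdR_B_symm _ _ _ b a]
  ring

theorem IdR_bilD_nonneg {lam mu : R3 → ℝ} {x : R3} (h1 : 0 < mu x) (h2 : 0 < 3 * lam x + 2 * mu x)
    (a : R3 → R3) : 0 ≤ bilD lam mu a a x := by
  have e : ∀ i, pderiv (fun y => a y i) i x = symGrad a i i x := fun i => by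
    simp only [symGrad]; ring
  simp only [bilD, div3, e, Fin.sum_univ_three]
  generalize symGrad a 0 0 x = p, symGrad a 1 1 x = q, symGrad a 2 2 x = r,
    symGrad a 0 1 x = s1, symGrad a 0 2 x = s2, symGrad a 1 0 x = s3, symGrad a 1 2 x = s4,
    symGrad a 2 0 x = s5, symGrad a 2 1 x = s6
  have k1 := mul_nonneg h2.le (sq_nonneg (p + q + r))
  have k2 := mul_nonneg h1.le (show 0 ≤ (p - q) ^ 2 + (q - r) ^ 2 + (p - r) ^ 2 +
    3 * (s1 ^ 2 + s2 ^ 2 + s3 ^ 2 + s4 ^ 2 + s5 ^ 2 + s6 ^ 2) by positivity)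
  nlinarith [k1, k2]

/-- With `σ i j = (if i = j then lam * div u else 0) + 2 mu e_ij(u)` (symmetric, smooth): `bilD lam mu u η = ∑ i j, σ i j * ∂ⱼ ηᵢ = ∑ j, ∂ⱼ (∑ i, σ i j * ηᵢ)` on `Ω`;
`integral_fderiv_eq_zero_of_frontier`. -/
theorem integral_bilD_eq_zero {Ω : Set R3} (ho : IsOpen Ω) (hb : Bornology.IsBounded Ω)
    {lam mu : R3 → ℝ} (hl : ContDiff ℝ ∞ lam) (hm : ContDiff ℝ ∞ mu) {u η : R3 → R3}
    (hu : ContDiff ℝ ∞ u) (hs : SolvesOn Ω lam mu u) (hη : ContDiff ℝ 1 η)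
    (h0 : ∀ x ∈ frontier Ω, η x = 0) : ∫ x in Ω, bilD lam mu u η x = 0 := by
  set p : R3 → ℝ := fun y => lam y * div3 u y with hp
  set q : Fin 3 → Fin 3 → R3 → ℝ := fun i j y => 2 * mu y * symGrad u i j y with hq
  have h12 : (1 : WithTop ℕ∞) + 1 ≤ ∞ := by
    have : ((1 + 1 : ℕ∞) : WithTop ℕ∞) ≤ ((⊤ : ℕ∞) : WithTop ℕ∞) := WithTop.coe_le_coe.2 le_top
    exact this
  have h1 : (1 : WithTop ℕ∞) ≤ ∞ := by exact_mod_cast le_top
  have hpc : ContDiff ℝ 1 p := (hl.of_le h1).mul (IdR_div_contDiff hu h12)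
  have hqc : ∀ i j, ContDiff ℝ 1 (q i j) := fun i j =>
    (contDiff_const.mul (hm.of_le h1)).mul (IdR_sym_contDiff hu h12 i j)
  have hηc := IdR_comp hη
  set F : Fin 3 → R3 → ℝ := fun j y => p y * η y j + ∑ i, q i j y * η y i with hF
  have hFc : ∀ j, ContDiff ℝ 1 (F j) := fun j =>
    (hpc.mul (hηc j)).add (ContDiff.sum fun i _ => (hqc i j).mul (hηc i))
  have hF0 : ∀ j, ∀ x ∈ frontier Ω, F j x = 0 := fun j x hx => by
    simp [hF, h0 x hx]
  have hI : ∀ j, ∫ x in Ω, pderiv (F j) j x = 0 := fun j =>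
    integral_fderiv_eq_zero_of_frontier ho hb (hFc j) (hF0 j) _
  have hE : ∀ x ∈ Ω, bilD lam mu u η x = ∑ j, pderiv (F j) j x := by
    intro x hx
    have dp := hpc.differentiable one_ne_zero x
    have dq := fun i j => (hqc i j).differentiable one_ne_zero x
    have dη := fun i => (hηc i).differentiable one_ne_zero x
    have e : ∀ j, pderiv (F j) j x = (p x * pderiv (fun y => η y j) j x + η x j * pderiv p j x) +
        ∑ i, (q i j x * pderiv (fun y => η y i) j x + η x i * pderiv (q i j) j x) := by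
      intro j
      show pderiv (fun y => p y * η y j + ∑ i, q i j y * η y i) j x = _
      rw [IdR_pd_add (dp.fun_mul (dη j))
          (DifferentiableAt.fun_sum fun i _ => (dq i j).fun_mul (dη i)),
        IdR_pd_mul dp (dη j), IdR_pd_sum fun i => (dq i j).fun_mul (dη i)]
      congr 1
      exact Finset.sum_congr rfl fun i _ => IdR_pd_mul (dq i j) (dη i) j
    have s0 : pderiv p 0 x + ∑ j, pderiv (q 0 j) j x = 0 := hs x hx 0
    have s1 : pderiv p 1 x + ∑ j, pderiv (q 1 j) j x = 0 := hs x hx 1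
    have s2 : pderiv p 2 x + ∑ j, pderiv (q 2 j) j x = 0 := hs x hx 2
    simp only [e]
    simp only [Fin.sum_univ_three] at s0 s1 s2 ⊢
    have ep : p x = lam x * div3 u x := rfl
    have eq' : ∀ i j, q i j x = 2 * mu x * symGrad u i j x := fun i j => rfl
    simp only [ep, eq', bilD, Fin.sum_univ_three, symGrad]
    generalize div3 u x = d
    simp only [div3, Fin.sum_univ_three]
    linear_combination (-η x 0) * s0 - η x 1 * s1 - η x 2 * s2
  rw [setIntegral_congr_fun ho.measurableSet hE, integral_finsetSum]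
  · simp only [hI, Finset.sum_const_zero]
  · intro j _
    exact IdR_integrableOn hb (IdR_pd_contDiff (m := 0) (hFc j) (by simp) j).continuous

/-- Write `Eⱼ` for the energies, `Bⱼ` for the integrals of `bilD`; `Eⱼ (a + b) = Eⱼ a + 2 Bⱼ (a, b) + Eⱼ b` for `C¹` fields, `Bⱼ` is bilinear and symmetric, `E₁ ≥ 0`
(`(tr e)² ≤ 3 ∑ e_ii²`).  Fix `t : ℝ`, `ε > 0`.  `hdata u` gives a competitor `w` for `u` with `E₂ w < E₁ u + ε`; `w + t v` is a competitor for `u + t v` and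
`E₂ (w + t v) = E₂ w + 2 t B₂ (u, v) + t² E₂ v` (`integral_bilD_eq_zero` for `v` and `η = w - u`); `hdata (u + t v)` gives `w'` with `E₁ w' < E₂ (w + t v) + ε`, and
`E₁ w' = E₁ u + 2 B₁ (u, w' - u) + E₁ (w' - u) ≥ E₁ u + 2 t B₁ (u, v)`.  So `2 t (B₁ - B₂) ≤ t² E₂ v` for all real `t`. -/
theorem real_identity {Ω : Set R3} (ho : IsOpen Ω) (hb : Bornology.IsBounded Ω)
    {lam₁ mu₁ lam₂ mu₂ : R3 → ℝ} (hl₁ : ContDiff ℝ ∞ lam₁) (hm₁ : ContDiff ℝ ∞ mu₁)
    (hl₂ : ContDiff ℝ ∞ lam₂) (hm₂ : ContDiff ℝ ∞ mu₂)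
    (hpos : ∀ x, 0 < mu₁ x ∧ 0 < 3 * lam₁ x + 2 * mu₁ x)
    (hdata : SameBoundaryData Ω lam₁ mu₁ lam₂ mu₂) {u v : R3 → R3} (hu : ContDiff ℝ ∞ u)
    (hv : ContDiff ℝ ∞ v) (hsu : SolvesOn Ω lam₁ mu₁ u) (hsv : SolvesOn Ω lam₂ mu₂ v) :
    ∫ x in Ω, bilD lam₁ mu₁ u v x = ∫ x in Ω, bilD lam₂ mu₂ u v x := by
  have h1 : (1 : WithTop ℕ∞) ≤ ∞ := by exact_mod_cast le_top
  have hu1 := hu.of_le h1
  have hv1 := hv.of_le h1
  have cl₁ := hl₁.continuous
  have cm₁ := hm₁.continuous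
  have cl₂ := hl₂.continuous
  have cm₂ := hm₂.continuous
  have hE : ∀ lam mu a, elasticEnergy Ω lam mu a = IdR_B Ω lam mu a a := IdR_energy Ω
  show IdR_B Ω lam₁ mu₁ u v = IdR_B Ω lam₂ mu₂ u v
  have key : ∀ t : ℝ, 2 * t * (IdR_B Ω lam₁ mu₁ u v - IdR_B Ω lam₂ mu₂ u v) ≤
      t ^ 2 * IdR_B Ω lam₂ mu₂ v v := by
    intro t
    refine le_of_forall_pos_le_add fun ε hε => ?_
    obtain ⟨w, ⟨hw, hw0⟩, hwE⟩ := (hdata u hu1).1 u ⟨hu1, fun _ _ => rfl⟩ (ε / 2) (by positivity)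
    have hφ : ContDiff ℝ 1 fun y => u y + t • v y := hu1.add (hv1.const_smul t)
    obtain ⟨w', ⟨hw', hw0'⟩, hwE'⟩ := (hdata _ hφ).2 (fun y => w y + t • v y)
      ⟨hw.add (hv1.const_smul t), fun x hx => by simp only [hw0 x hx]⟩ (ε / 2) (by positivity)
    rw [hE, hE] at hwE hwE'
    rw [IdR_B_sq hb cl₂ cm₂ hw hv1] at hwE'
    have a1 : IdR_B Ω lam₂ mu₂ w v = IdR_B Ω lam₂ mu₂ u v := by
      have hη : ContDiff ℝ 1 fun y => w y - u y := hw.sub hu1
      have e : w = fun y => u y + (1 : ℝ) • (w y - u y) := by funext y; simp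
      have z : IdR_B Ω lam₂ mu₂ v (fun y => w y - u y) = 0 :=
        integral_bilD_eq_zero ho hb hl₂ hm₂ hv hsv hη fun x hx => by rw [hw0 x hx, sub_self]
      conv_lhs => rw [e]
      rw [IdR_B_lin hb cl₂ cm₂ hu1 hη hv1, IdR_B_symm _ _ _ _ v, IdR_B_symm _ _ _ (fun y => _) v, z]
      ring
    have hd : ContDiff ℝ 1 fun y => w' y - u y := hw'.sub hu1
    have a2 : IdR_B Ω lam₁ mu₁ u (fun y => w' y - u y) = t * IdR_B Ω lam₁ mu₁ u v := by
      have hη : ContDiff ℝ 1 fun y => w' y - (u y + t • v y) := hw'.sub hφ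
      have e : (fun y => w' y - u y) = fun y => (w' y - (u y + t • v y)) + t • v y := by
        funext y; abel
      have z : IdR_B Ω lam₁ mu₁ u (fun y => w' y - (u y + t • v y)) = 0 :=
        integral_bilD_eq_zero ho hb hl₁ hm₁ hu hsu hη fun x hx => by rw [hw0' x hx, sub_self]
      rw [e, IdR_B_symm, IdR_B_lin hb cl₁ cm₁ hη hv1 hu1, IdR_B_symm, z, IdR_B_symm]
      ring
    have a3 : IdR_B Ω lam₁ mu₁ w' w' = IdR_B Ω lam₁ mu₁ u u + 2 * 1 * (t * IdR_B Ω lam₁ mu₁ u v) +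
        1 ^ 2 * IdR_B Ω lam₁ mu₁ (fun y => w' y - u y) (fun y => w' y - u y) := by
      have e : w' = fun y => u y + (1 : ℝ) • (w' y - u y) := by funext y; simp
      rw [← a2, ← IdR_B_sq hb cl₁ cm₁ hu1 hd, ← e]
    have a4 : 0 ≤ IdR_B Ω lam₁ mu₁ (fun y => w' y - u y) (fun y => w' y - u y) :=
      integral_nonneg fun x => IdR_bilD_nonneg (hpos x).1 (hpos x).2 _
    rw [a1, a3] at hwE'
    linarith
  generalize IdR_B Ω lam₁ mu₁ u v = B₁ at key ⊢
  generalize IdR_B Ω lam₂ mu₂ u v = B₂ at key ⊢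
  generalize IdR_B Ω lam₂ mu₂ v v = e at key
  by_contra hne
  have hd : 0 < (B₁ - B₂) ^ 2 := by have := sub_ne_zero.2 hne; positivity
  have hs : 0 < 1 / (|e| + 1) := by positivity
  have hs' : 1 / (|e| + 1) * e ≤ 1 := by
    rw [one_div, inv_mul_le_iff₀ (by positivity)]
    linarith [le_abs_self e]
  have k := key (1 / (|e| + 1) * (B₁ - B₂))
  generalize 1 / (|e| + 1) = s at hs hs' k
  have k2 : 0 < s * (B₁ - B₂) ^ 2 := mul_pos hs hd
  have k3 := mul_le_mul_of_nonneg_left hs' k2.le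
  nlinarith

end Crest.Agent.R80
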