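import Crest.Agent.R80.NF
import Crest.Agent.R80.Compl

/-!
# R80: leading terms and order reduction
-/

set_option autoImplicit false

namespace Crest.Agent.R80

open Finset

variable {𝒜 : Type} [CommRing 𝒜] [Algebra ℂ 𝒜] {ι : Type} [Fintype ι]

theorem EA.Ord.mono {X : EA 𝒜} {S : Sys 𝒜 ι} {k k' : ℤ} {β : Bil 𝒜 ι} (h : X.Ord S k β)
    (hk : k ≤ k') : X.Ord S k' β := by
  intro s
  obtain ⟨N, hN⟩ := h s
  exact ⟨N, fun V hV Y => (hN V hV Y).mono hk⟩

/-- a polynomial vanishing identically has zero coefficients (`Polynomial.funext` or Vandermonde) -/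
theorem coeff_zero_of_sum {m : ℕ} {c : ℕ → ℂ} (h : ∀ s : ℂ, ∑ i ∈ range m, s ^ i * c i = 0) (i : ℕ)
    (hi : i < m) : c i = 0 := by
  have hp : (∑ i ∈ range m, Polynomial.monomial i (c i) : Polynomial ℂ) = 0 := by
    refine Polynomial.funext fun s => ?_
    rw [Polynomial.eval_zero, ← h s, Polynomial.eval_finsetSum]
    exact Finset.sum_congr rfl fun i _ => by rw [Polynomial.eval_monomial, mul_comm]
  have := congrArg (fun p : Polynomial ℂ => p.coeff i) hp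
  simp only [Polynomial.finsetSum_coeff, Polynomial.coeff_monomial, Polynomial.coeff_zero] at this
  rwa [Finset.sum_ite_eq', if_pos (mem_range.2 hi)] at this

/-- The leading term of a form in `FN (k + 1)`: write `β - nf k n = β' + κ ∘ P` (`β' ∈ F k`, `κ ∈ F j`), take `N = j + 1`;
`ev_nf`, `ev_deg`, `ev_neg`, `Deg.bd`. -/
theorem Ctx.lead (C : Ctx 𝒜) {S : Sys 𝒜 ι} {k : ℕ} {β : Bil 𝒜 ι} {n : ℕ → ι → ι → Fnl 𝒜}
    (h : C.FN S k (β - C.nf k n)) : ∃ N : ℕ, ∀ (s : ℂ) (V Y : ℕ → ι → 𝒜) (V0 Y0 : ι → 𝒜),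
      C.App S (th s) N V → (fun m => V m - V0) ∈ Deg (ι → 𝒜) (-1) →
      (fun m => Y m - Y0) ∈ Deg (ι → 𝒜) (-1) →
      Bd ((k : ℤ) - 1) fun m => C.ev β (th s) V Y m -
        w m ^ k * ∑ i ∈ range (2 * k + 1), s ^ i * ∑ a, ∑ b, n i a b (V0 b * Y0 a) := by
  obtain ⟨β', h1, j, κ, h2, h3⟩ := h
  refine ⟨j + 1, fun s V Y V0 Y0 hA hV hY => Deg.bd ?_⟩
  have e1 := C.ev_nf k n s hV hY
  have e2 := Deg.mono' (C.ev_deg h1 (th s) hA.1 (Deg.of_lead hY)) (show _ ≤ (k : ℤ) - 1 by omega)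
  have e3 := Deg.mono' (C.ev_neg h2 (null_th s) hA (Deg.of_lead hY))
    (show _ ≤ (k : ℤ) - 1 by push_cast; omega)
  have := Deg.add e1 (Deg.add e2 e3)
  convert this using 2 with m
  rw [sub_eq_iff_eq_add'.1 h3]
  simp only [EA.ev, LinearMap.add_apply]
  ring

/-- Order reduction.  Take `n` from `FN.exists_nf`.  For every `s`, every transport solution `V0` (use `wkb` with large `N`) and `Y`:
`∑ s ^ i * ∑ n i a b (V0 b * Y a) = 0` (`lead`, `Bd.lead_eq`).  With `Y = Pi.single a φ` and `eq_zero_of_sol`,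
`∑ s ^ i • n i a b = 0` for all `s`, so `n i a b = 0` for `i < 2 k + 1` (`coeff_zero_of_sum`) and `nf k n = 0`. -/
theorem Ctx.reduce (C : Ctx 𝒜) {S : Sys 𝒜 ι} {k : ℕ} {β : Bil 𝒜 ι} (h : C.FN S (k + 1) β)
    (ho : C.Ord S ((k : ℤ) - 1) β) : C.FN S k β := by
  classical
  obtain ⟨n, hn, h1⟩ := h.exists_nf
  obtain ⟨N, hN⟩ := C.lead h1
  have key : ∀ (s : ℂ) a b, ∑ i ∈ range (2 * k + 1), s ^ i • n i a b = 0 := by
    intro s a
    refine C.eq_zero_of_sol S.A (null_th s) _ fun V0 h0 φ => ?_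
    obtain ⟨N', hN'⟩ := ho s
    obtain ⟨V, hV, hV0⟩ := C.wkb S (null_th s) h0 (max N N')
    have e1 := hN s V (fun _ => Pi.single a φ) V0 (Pi.single a φ) (hV.mono (le_max_left _ _)) hV0
      (by simpa using Deg.zero' (M := ι → 𝒜) _)
    have e2 := hN' V (hV.mono (le_max_right _ _)) (Pi.single a φ)
    have e3 := Bd.lead_eq (c' := 0) e1 (by simpa using e2)
    rw [← e3]
    simp only [LinearMap.sum_apply, LinearMap.smul_apply, smul_eq_mul]
    rw [Finset.sum_comm]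
    refine Finset.sum_congr rfl fun i _ => ?_
    rw [← mul_sum]
    congr 1
    symm
    rw [Finset.sum_eq_single a (fun a' _ ha => by simp [ha]) (by simp)]
    simp
  have h2 : C.nf k n = 0 := by
    refine LinearMap.ext₂ fun V Y => ?_
    simp only [DA.nf, LinearMap.sum_apply, pr_apply, LinearMap.zero_apply]
    refine Finset.sum_eq_zero fun i hi => Finset.sum_eq_zero fun a _ =>
      Finset.sum_eq_zero fun b _ => ?_
    generalize (C.N k i ∘ₗ LinearMap.proj b) V * (LinearMap.proj a : (ι → 𝒜) →ₗ[ℂ] 𝒜) Y = f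
    refine coeff_zero_of_sum (c := fun i => n i a b f) (fun s => ?_) i (mem_range.1 hi)
    simpa [LinearMap.sum_apply] using LinearMap.congr_fun (key s a b) f
  rwa [h2, sub_zero] at h1

/-- `ev_compl₂`, `ev_deg` -/
theorem Ctx.van_sub (C : Ctx 𝒜) {S1 S2 : Sys 𝒜 ι} {β γ : Bil 𝒜 ι} (hv : C.Van S1 S2 β) {j : ℕ}
    (hγ : γ ∈ C.F ι j) : C.Van S1 S2 (β - γ.compl₂ (C.P S2)) := by
  intro s
  obtain ⟨c, hc⟩ := hv s
  refine ⟨max c j, fun N V Y hV hY => ?_⟩
  have e1 := (hc N V Y hV hY).mono (show _ ≤ max c j - N by omega)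
  have e2 := (Deg.bd (C.ev_deg hγ (th s) hV.1 hY.2)).mono (show _ ≤ max c j - N by omega)
  rw [← C.ev_compl₂ γ S2 (null_th s)] at e2
  exact e1.sub e2

/-- A family in `Deg 0` has a leading term. (span induction: `w ^ j • m` has leading term `m` if `j = 0` and `0` if `j < 0`.)
If moreover `P V + w T V ∈ Deg (-N)` then `T V0 = 0`: for every linear functional `ℓ` on `ι → 𝒜`,
`w n * ℓ (T V0) = O (1)`, so `ℓ (T V0) = 0` (`Bd.coeff_zero`, `Module.forall_dual_apply_eq_zero_iff`). -/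
theorem DA.App.exists_lead {D : DA 𝒜} {S : Sys 𝒜 ι} {θ : C3} {N : ℕ} {V : ℕ → ι → 𝒜}
    (h : D.App S θ N V) : ∃ V0, D.T S.A θ V0 = 0 ∧ (fun n => V n - V0) ∈ Deg (ι → 𝒜) (-1) := by
  have key : ∀ F ∈ Deg (ι → 𝒜) 0, ∃ V0, (fun n => F n - V0) ∈ Deg (ι → 𝒜) (-1) := by
    intro F hF
    induction hF using Submodule.span_induction with
    | mem F h =>
      obtain ⟨j, hj, m, rfl⟩ := h
      rcases hj.eq_or_lt with rfl | hj
      · exact ⟨m, by simpa using Deg.zero' (M := ι → 𝒜) _⟩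
      · exact ⟨0, by simpa using Deg.monomial (show j ≤ -1 by omega) m⟩
    | zero => exact ⟨0, by simpa using Deg.zero' (M := ι → 𝒜) _⟩
    | add F G _ _ h1 h2 =>
      obtain ⟨a, ha⟩ := h1
      obtain ⟨b, hb⟩ := h2
      refine ⟨a + b, ?_⟩
      convert Deg.add ha hb using 2 with n
      exact add_sub_add_comm _ _ _ _
    | smul c F _ h1 =>
      obtain ⟨a, ha⟩ := h1
      refine ⟨c • a, ?_⟩
      convert Deg.smul ha c using 2 with n
      exact (smul_sub c (F n) a).symm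
  obtain ⟨V0, hV⟩ := key V h.1
  refine ⟨V0, (Module.forall_dual_apply_eq_zero_iff ℂ _).1 fun ℓ => ?_, hV⟩
  have e1 := Deg.sub (Deg.sub (Deg.mono' h.2 (show _ ≤ (0 : ℤ) by omega)) (Deg.map h.1 (D.P S)))
    (Deg.mono' (Deg.w_smul (Deg.map hV (D.T S.A θ))) (show _ ≤ (0 : ℤ) by omega))
  refine Bd.coeff_zero (k := 1) ((Deg.bd (Deg.map e1 ℓ)).congr fun n => ?_)
  simp [smul_sub]

end Crest.Agent.R80
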