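import Crest.Agent.R80.Cgo
import Crest.Agent.R80.Hol

/-!
# R80: smooth functions on a ball form a `Ctx`
-/

set_option autoImplicit false

namespace Crest.Agent.R80

open Finset Metric

/-- smooth functions on the ball of radius `R` (restrictions of elements of `Sm`) -/
abbrev Aq (R : ℝ) : Type := Sm ⧸ vanI R

/-- the quotient map -/
noncomputable def mq (R : ℝ) : Sm →ₐ[ℂ] Aq R := Ideal.Quotient.mkₐ ℂ (vanI R)

theorem mq_surj (R : ℝ) : Function.Surjective (mq R) := Ideal.Quotient.mkₐ_surjective ℂ _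

theorem mq_eq_zero {R : ℝ} {f : Sm} : mq R f = 0 ↔ f ∈ vanI R := Ideal.Quotient.eq_zero_iff_mem

theorem quot_eq {R : ℝ} {f g : Sm} (h : f - g ∈ vanI R) : mq R f = mq R g := by
  rw [← sub_eq_zero, ← map_sub]
  exact mq_eq_zero.2 h

theorem quot_det (R : ℝ) {ι : Type} [Fintype ι] [DecidableEq ι] (C : Matrix ι ι Sm) :
    mq R C.det = ((mq R).mapMatrix C).det := by
  simp only [Matrix.det_apply', map_sum, map_mul, map_prod, map_intCast, AlgHom.mapMatrix_apply,
    Matrix.map_apply]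

/-- the partial derivatives on the quotient -/
noncomputable def quotD (R : ℝ) (j : Fin 3) : Derivation ℂ (Aq R) (Aq R) :=
  Derivation.liftOfSurjective (mq_surj R) (d := pd j) fun _ hf =>
    mq_eq_zero.2 (pd_mem_vanI (mq_eq_zero.1 hf) j)

theorem quotD_mq (R : ℝ) (j : Fin 3) (f : Sm) : quotD R j (mq R f) = mq R (pd j f) :=
  Derivation.liftOfSurjective_apply _ _ _

/-- the quotient as a differential algebra with exponentials -/
noncomputable def quotEA (R : ℝ) : EA (Aq R) where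
  d := quotD R
  comm i j f := by
    obtain ⟨f, rfl⟩ := mq_surj R f
    simp only [quotD_mq, pd_comm i j]
  ex ζ := mq R (exS ζ)
  ex_neg ζ := by
    rw [← map_mul, show exS ζ * exS (-ζ) = 1 from sm.ex_neg ζ, map_one]
  d_ex ζ j := by
    rw [quotD_mq, show pd j (exS ζ) = ζ j • exS ζ from sm.d_ex ζ j, map_smul]

theorem quotEA_d (R : ℝ) (j : Fin 3) (f : Sm) : (quotEA R).d j (mq R f) = mq R (pd j f) :=
  quotD_mq R j f

theorem quot_T (R : ℝ) {ι : Type} [Fintype ι] (A : Fin 3 → ι → ι → Sm) (θ : C3) (V : ι → Sm) :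
    (quotEA R).T (fun j a b => mq R (A j a b)) θ (fun a => mq R (V a)) =
      fun a => mq R (sm.T A θ V a) := by
  funext a
  simp only [DA.T_apply, DA.dir_apply, quotEA_d, map_add, map_smul, map_sum, map_mul, sm_d]

theorem quot_P (R : ℝ) {ι : Type} [Fintype ι] (A : Fin 3 → ι → ι → Sm) (Q : ι → ι → Sm)
    (V : ι → Sm) :
    (quotEA R).P ⟨fun j a b => mq R (A j a b), fun a b => mq R (Q a b)⟩ (fun a => mq R (V a)) =
      fun a => mq R (sm.P ⟨A, Q⟩ V a) := by
  funext a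
  simp only [DA.P_apply, DA.lap_apply, quotEA_d, map_add, map_sum, map_mul, sm_d]

theorem quot_lift1 {R : ℝ} {ι : Type} (V : ι → Aq R) : ∃ V' : ι → Sm, (fun a => mq R (V' a)) = V := by
  choose V' h using fun a => mq_surj R (V a)
  exact ⟨V', funext h⟩

theorem quot_lift2 {R : ℝ} {ι : Type} (Q : ι → ι → Aq R) :
    ∃ Q' : ι → ι → Sm, (fun a b => mq R (Q' a b)) = Q := by
  choose Q' h using fun a b => mq_surj R (Q a b)
  exact ⟨Q', funext₂ h⟩

theorem quot_lift3 {R : ℝ} {ι : Type} (A : Fin 3 → ι → ι → Aq R) :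
    ∃ A' : Fin 3 → ι → ι → Sm, (fun j a b => mq R (A' j a b)) = A := by
  choose A' h using fun j a b => mq_surj R (A j a b)
  exact ⟨A', funext₃ h⟩

theorem quot_desc {R : ℝ} {ℓ : Fnl Sm} (h : GoodS R ℓ) :
    ∃ ℓ' : Fnl (Aq R), ℓ' ∘ₗ (mq R).toLinearMap = ℓ := by
  obtain ⟨σ, hσ⟩ := (mq R).toLinearMap.exists_rightInverse_of_surjective
    (LinearMap.range_eq_top.2 (mq_surj R))
  refine ⟨ℓ ∘ₗ σ, LinearMap.ext fun f => h.congr (mq_eq_zero.1 ?_)⟩
  rw [map_sub, sub_eq_zero]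
  exact LinearMap.congr_fun hσ (mq R f)

/-- the good functionals -/
noncomputable def quotGood (R : ℝ) : Submodule ℂ (Fnl (Aq R)) where
  carrier := {ℓ | GoodS R (ℓ ∘ₗ (mq R).toLinearMap)}
  add_mem' ha hb := GoodS.add ha hb
  zero_mem' := GoodS.zero R
  smul_mem' c _ h := GoodS.smul h c

/-- evaluation at a point of the ball -/
noncomputable def quotEv (R : ℝ) (x : ball (0 : E3) R) : Aq R →ₐ[ℂ] ℂ :=
  Ideal.Quotient.liftₐ (vanI R) (Sm.evalAt x) fun _ hf => hf x x.2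

theorem quotEv_mq (R : ℝ) (x : ball (0 : E3) R) (f : Sm) : quotEv R x (mq R f) = f x := rfl

theorem quot_bdd (R : ℝ) (g : Aq R) :
    BddAbove (Set.range fun x : ball (0 : E3) R => ‖quotEv R x g‖) := by
  obtain ⟨f, rfl⟩ := mq_surj R g
  obtain ⟨C, hC⟩ := (isCompact_closedBall (0 : E3) R).exists_bound_of_continuousOn
    f.cont.continuousOn
  refine ⟨C, ?_⟩
  rintro _ ⟨x, rfl⟩
  exact hC x (ball_subset_closedBall x.2)

theorem quot_le (R : ℝ) (g : Aq R) (x : ball (0 : E3) R) :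
    ‖quotEv R x g‖ ≤ ⨆ x : ball (0 : E3) R, ‖quotEv R x g‖ := le_ciSup (quot_bdd R g) x

theorem quot_nonneg (R : ℝ) (g : Aq R) : 0 ≤ ⨆ x : ball (0 : E3) R, ‖quotEv R x g‖ :=
  Real.iSup_nonneg fun _ => norm_nonneg _

/-- the supremum norm on the ball -/
noncomputable def quotN (R : ℝ) : Seminorm ℂ (Aq R) :=
  Seminorm.of (fun g => ⨆ x : ball (0 : E3) R, ‖quotEv R x g‖)
    (fun g g' => Real.iSup_le (fun x => by
        rw [map_add]
        exact (norm_add_le _ _).trans (add_le_add (quot_le R g x) (quot_le R g' x)))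
      (add_nonneg (quot_nonneg R g) (quot_nonneg R g')))
    (fun c g => by
      rw [Real.mul_iSup_of_nonneg (norm_nonneg c)]
      simp only [map_smul, norm_smul])

theorem quotN_apply (R : ℝ) (g : Aq R) : quotN R g = ⨆ x : ball (0 : E3) R, ‖quotEv R x g‖ := rfl

theorem quotN_le {R : ℝ} {f : Sm} {c : ℝ} (h : ∀ x, ‖f x‖ ≤ c) : quotN R (mq R f) ≤ c :=
  Real.iSup_le (fun x => h x) ((norm_nonneg _).trans (h 0))

/-- the context -/
noncomputable def quotCtx (R : ℝ) : Ctx (Aq R) where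
  toEA := quotEA R
  x j := mq R (xS j)
  d_x i j := by
    rw [quotEA_d, pd_xS]
    split_ifs
    exacts [map_one _, map_zero _]
  Good := quotGood R
  good_mul n hn a := by
    obtain ⟨a, rfl⟩ := mq_surj R a
    have e : (n ∘ₗ LinearMap.mulLeft ℂ (mq R a)) ∘ₗ (mq R).toLinearMap =
        (n ∘ₗ (mq R).toLinearMap) ∘ₗ LinearMap.mulLeft ℂ a :=
      LinearMap.ext fun f => congrArg n (map_mul (mq R) a f).symm
    change GoodS R _
    rw [e]
    exact GoodS.mulLeft hn a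
  good_d n hn j := by
    have e : (n ∘ₗ ((quotEA R).d j : Aq R →ₗ[ℂ] Aq R)) ∘ₗ (mq R).toLinearMap =
        (n ∘ₗ (mq R).toLinearMap) ∘ₗ (pd j : Sm →ₗ[ℂ] Sm) :=
      LinearMap.ext fun f => congrArg n (quotEA_d R j f)
    change GoodS R _
    rw [e]
    exact GoodS.comp_pd hn j
  nrm := quotN R
  nrm_mul f g := Real.iSup_le (fun x => by
      rw [map_mul, norm_mul]
      exact mul_le_mul (quot_le R f x) (quot_le R g x) (norm_nonneg _) (quot_nonneg R f))
    (mul_nonneg (quot_nonneg R f) (quot_nonneg R g))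
  surj ι _ A θ hθ ψ := by
    obtain ⟨A, rfl⟩ := quot_lift3 A
    obtain ⟨ψ, rfl⟩ := quot_lift1 ψ
    obtain ⟨Z, hZ⟩ := surjS A hθ ψ R
    exact ⟨fun a => mq R (Z a), (quot_T R A θ Z).trans (funext fun a => quot_eq (hZ a))⟩
  gen ι _ _ A θ hθ := by
    obtain ⟨A, rfl⟩ := quot_lift3 A
    obtain ⟨n, C, G, h1, h2⟩ := genS A hθ R
    refine ⟨n, fun i => (mq R).mapMatrix (C i), fun i => mq R (G i), fun i k => ?_, ?_⟩
    · exact (quot_T R A θ fun a => C i a k).trans (funext fun a => mq_eq_zero.2 (h1 i k a))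
    · have := quot_eq h2
      rw [map_one, map_sum] at this
      rw [← this]
      refine sum_congr rfl fun i _ => ?_
      rw [map_mul, quot_det]
  hol ι _ A k n hn h := by
    obtain ⟨A, rfl⟩ := quot_lift3 A
    obtain ⟨t, ht, h'⟩ := holS R ι A k (fun i a => n i a ∘ₗ (mq R).toLinearMap) hn fun s Z hZ =>
      h s (fun a => mq R (Z a)) ((quot_T R A _ Z).trans (funext fun a => mq_eq_zero.2 (hZ a)))
    choose t' ht' using fun i a => quot_desc (ht i a)
    refine ⟨t', fun i a => ?_, fun s Z => ?_⟩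
    · change GoodS R _
      rw [ht']
      exact ht i a
    · obtain ⟨Z, rfl⟩ := quot_lift1 Z
      rw [quot_T]
      refine (h' s Z).trans ?_
      simp only [← ht']
      rfl
  cgo ι _ S θ hθ := by
    obtain ⟨A, Q⟩ := S
    obtain ⟨A, rfl⟩ := quot_lift3 A
    obtain ⟨Q, rfl⟩ := quot_lift2 Q
    obtain ⟨K, n0, h⟩ := cgoS R ι ⟨A, Q⟩ hθ
    refine ⟨K, n0, fun E => ?_⟩
    obtain ⟨E, rfl⟩ := quot_lift1 E
    obtain ⟨C, hC⟩ := h E
    refine ⟨C, fun n hn => ?_⟩
    obtain ⟨r, hr, hb⟩ := hC n hn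
    refine ⟨fun a => mq R (r a), ?_, fun b i j => ?_⟩
    · rw [quot_P, quot_T]
      funext a
      rw [← quot_eq (hr a)]
      simp only [Pi.add_apply, Pi.smul_apply, map_add, map_smul]
    · simp only [quotEA_d]
      exact ⟨quotN_le fun x => (hb b i j x).1, quotN_le fun x => (hb b i j x).2.1,
        quotN_le fun x => (hb b i j x).2.2⟩

/-- `d j = Derivation.liftOfSurjective (mq_surj R) ..` (`pd_mem_vanI`), `ex ζ = mq (exS ζ)`, `x j = mq (xS j)`,
`Good = {ℓ | GoodS R (ℓ ∘ mq)}`, `nrm (mq f) = ⨆ x : ball 0 R, ‖f x‖` (define it through `Ideal.Quotient.lift` of the evaluations `Sm.evalAt x`, `x ∈ ball 0 R`: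
`nrm g = ⨆ x : ball 0 R, ‖ev x g‖`, bounded above by compactness of the closed ball; `Real.iSup_le`, `le_ciSup`, `Seminorm.of`).
Naturality: `T (mq ∘ A) θ (mq ∘ V) a = mq (T A θ V a)`, the same for `P`; lift all data along `mq_surj` (`choose`); a good functional on `Sm` descends
(`Submodule.liftQ` or `Ideal.Quotient.lift`-like); `AlgHom.map_det`.  Fields: `surjS`, `genS`, `holS`, `cgoS`, `GoodS.*`. -/
theorem exists_ctx (R : ℝ) : ∃ C : Ctx (Aq R), (∀ j f, C.d j (mq R f) = mq R (pd j f)) ∧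
    (∀ ℓ : Fnl (Aq R), GoodS R (ℓ ∘ₗ (mq R).toLinearMap) → ℓ ∈ C.Good) ∧
    ∀ (f : Sm), ∀ x ∈ ball (0 : E3) R, ‖f x‖ ≤ C.nrm (mq R f) := by
  exact ⟨quotCtx R, quotEA_d R, fun _ h => h, fun f x hx => quot_le R (mq R f) ⟨x, hx⟩⟩

end Crest.Agent.R80
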