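import Crest.Agent.R80.FinB
import Crest.Agent.R80.Quot
import Crest.Agent.R80.IdC
import Crest.Agent.R80.Ext

/-!
# R80: assembly
-/

set_option autoImplicit false

namespace Crest.Agent.R80

open MeasureTheory Finset Metric
open scoped ContDiff
open Crest.AnalysisR.VecCalc3 Crest.AnalysisR.PDE.Elasticity

/-- image of Lamé data under a ring homomorphism -/
def Lame.map {𝒜 ℬ : Type} [CommRing 𝒜] [CommRing ℬ] (L : Lame 𝒜) (φ : 𝒜 →+* ℬ) : Lame ℬ where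
  lam := φ L.lam
  mu := φ L.mu
  m := φ L.m
  p := φ L.p
  mu_m := by rw [← map_mul, L.mu_m, map_one]
  p_mul := by
    have := congrArg φ L.p_mul
    simpa [map_ofNat] using this

theorem exists_lame {lam mu : R3 → ℝ} (hl : ContDiff ℝ ∞ lam) (hm : ContDiff ℝ ∞ mu)
    (hpos : ∀ x, 0 < mu x ∧ 0 < 3 * lam x + 2 * mu x) :
    ∃ L : Lame Sm, ∀ x, L.lam x = lam x ∧ L.mu x = mu x := by
  have h1 : ∀ x, mu x ≠ 0 := fun x => (hpos x).1.ne'
  have h2 : ∀ x, lam x + 2 * mu x ≠ 0 := fun x => by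
    have := hpos x
    have : 0 < lam x + 2 * mu x := by linarith [this.1, this.2]
    exact this.ne'
  refine ⟨⟨Sm.ofR lam hl, Sm.ofR mu hm, Sm.ofR (fun x => (mu x)⁻¹) (hm.inv h1),
    Sm.ofR (fun x => mu x / (lam x + 2 * mu x)) (hm.div (hl.add (contDiff_const.mul hm)) h2),
    Sm.ext' fun x => ?_, Sm.ext' fun x => ?_⟩, fun x => ⟨rfl, rfl⟩⟩
  · simp only [Sm.mul_apply, Sm.ofR_apply, Sm.one_apply]
    exact_mod_cast mul_inv_cancel₀ (h1 x)
  · simp only [Sm.mul_apply, Sm.add_apply, Sm.ofR_apply, Sm.one_apply, Sm.two_apply]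
    have e : mu x / (lam x + 2 * mu x) * (lam x * (mu x)⁻¹ + 2) = 1 := by
      have h3 : lam x * (mu x)⁻¹ + 2 = (lam x + 2 * mu x) / mu x := by
        have := h1 x
        field_simp
      rw [h3, div_mul_div_comm, mul_comm, div_self (mul_ne_zero (h2 x) (h1 x))]
    exact_mod_cast e

theorem eq_zero_of_integral_sq {Ω : Set R3} (ho : IsOpen Ω) (hb : Bornology.IsBounded Ω) {f : Sm}
    {g : R3 → ℝ} (hg : Continuous g) (e : ∀ x, f x = g x) (h : ∫ x in Ω, (f * f) x = 0) :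
    ∀ x ∈ Ω, g x = 0 := by
  have h1 : ∫ x in Ω, g x * g x = 0 := by
    have : ∀ x, (f * f) x = ((g x * g x : ℝ) : ℂ) := fun x => by simp [e]
    simp only [this] at h
    rw [integral_complex_ofReal] at h
    exact_mod_cast h
  have hi : IntegrableOn (fun x => g x * g x) Ω :=
    ((hg.mul hg).continuousOn.integrableOn_compact hb.isCompact_closure).mono_set subset_closure
  rw [setIntegral_eq_zero_iff_of_nonneg_ae (Filter.Eventually.of_forall fun x => mul_self_nonneg _)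
    hi] at h1
  have := Measure.eqOn_open_of_ae_eq h1 ho (hg.mul hg).continuousOn continuousOn_const
  intro x hx
  exact mul_self_eq_zero.1 (this hx)

theorem main_smooth {Ω : Set R3} (ho : IsOpen Ω) (hb : Bornology.IsBounded Ω)
    {lam₁ mu₁ lam₂ mu₂ : R3 → ℝ} (hl₁ : ContDiff ℝ ∞ lam₁) (hm₁ : ContDiff ℝ ∞ mu₁)
    (hl₂ : ContDiff ℝ ∞ lam₂) (hm₂ : ContDiff ℝ ∞ mu₂)
    (hpos₁ : ∀ x, 0 < mu₁ x ∧ 0 < 3 * lam₁ x + 2 * mu₁ x)
    (hpos₂ : ∀ x, 0 < mu₂ x ∧ 0 < 3 * lam₂ x + 2 * mu₂ x)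
    (hdata : SameBoundaryData Ω lam₁ mu₁ lam₂ mu₂) :
    ∀ x ∈ Ω, lam₁ x = lam₂ x ∧ mu₁ x = mu₂ x := by
  obtain ⟨R, hR⟩ := hb.subset_ball (0 : E3)
  obtain ⟨C, hd, hgood, hnrm⟩ := exists_ctx R
  obtain ⟨I0, hI0, hI0g⟩ := exists_intS ho.measurableSet hR
  obtain ⟨L1, e₁⟩ := exists_lame hl₁ hm₁ hpos₁
  obtain ⟨L2, e₂⟩ := exists_lame hl₂ hm₂ hpos₂
  obtain ⟨g, hg⟩ := (mq R).toLinearMap.exists_rightInverse_of_surjective
    (LinearMap.range_eq_top.2 (mq_surj R))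
  have hg' : ∀ a, mq R (g a) = a := fun a => LinearMap.congr_fun hg a
  set I : Fnl (Aq R) := I0 ∘ₗ g with hIdef
  have hI : ∀ f, I (mq R f) = I0 f := fun f =>
    hI0g.congr (mq_eq_zero.1 (by rw [map_sub, hg', sub_self]))
  have hIg : I ∈ C.Good := hgood I (by
    have : I ∘ₗ (mq R).toLinearMap = I0 := LinearMap.ext hI
    rwa [this])
  have hvol : volume Ω < ⊤ := hb.measure_lt_top
  have hIb : ∀ f, ‖I f‖ ≤ volume.real Ω * C.nrm f := fun f => by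
    obtain ⟨f, rfl⟩ := mq_surj R f
    rw [hI, hI0, mul_comm]
    exact norm_setIntegral_le_of_norm_le_const hvol fun x hx => hnrm f x (hR hx)
  have hdiv : ∀ u : Fin 3 → Sm, C.div (fun i => mq R (u i)) = mq R (sm.div u) := fun u => by
    simp [DA.div, hd]
  have hstr : ∀ (u : Fin 3 → Sm) i j, C.str (fun i => mq R (u i)) i j = mq R (sm.str u i j) :=
    fun u i j => by simp [DA.str, hd]
  have hlame : ∀ (L : Lame Sm) (u : Fin 3 → Sm) i,
      C.lame (L.map (mq R : Sm →+* Aq R)) (fun i => mq R (u i)) i = mq R (sm.lame L u i) := by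
    intro L u i
    simp only [DA.lame, hdiv, hstr, Lame.map, RingHom.coe_coe, ← map_mul, hd, map_add, map_sum, sm_d]
  have key := C.abstract_main hIg hIb (L1.map (mq R : Sm →+* Aq R)) (L2.map (mq R : Sm →+* Aq R))
    (fun u v hu hv => by
      choose u' hu' using fun i => mq_surj R (u i)
      choose v' hv' using fun i => mq_surj R (v i)
      obtain rfl : u = fun i => mq R (u' i) := (funext hu').symm
      obtain rfl : v = fun i => mq R (v' i) := (funext hv').symm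
      have e : C.den (L1.map (mq R : Sm →+* Aq R)) (L2.map (mq R : Sm →+* Aq R))
          (fun i => mq R (u' i)) (fun i => mq R (v' i)) = mq R (sm.den L1 L2 u' v') := by
        simp only [DA.den, hdiv, hstr, Lame.map, RingHom.coe_coe, map_add, map_mul, map_sub, map_sum,
          map_ofNat]
      rw [e, hI, hI0]
      refine complex_identity ho hb hl₁ hm₁ hl₂ hm₂ hpos₁ hdata L1 L2 e₁ e₂ u' v' ?_ ?_
      · intro i x hx
        exact mq_eq_zero.1 ((hlame L1 u' i).symm.trans (hu i)) x (hR hx)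
      · intro i x hx
        exact mq_eq_zero.1 ((hlame L2 v' i).symm.trans (hv i)) x (hR hx))
  have k1 := key.1 (mq R (L2.mu - L1.mu))
  have k2 := key.2 (mq R (L2.lam - L1.lam))
  simp only [Lame.map, RingHom.coe_coe, ← map_sub, ← map_mul, hI, hI0] at k1 k2
  have z1 := eq_zero_of_integral_sq ho hb (g := fun x => mu₂ x - mu₁ x)
    (hm₂.continuous.sub hm₁.continuous) (fun x => by simp [(e₁ x).2, (e₂ x).2]) k1
  have z2 := eq_zero_of_integral_sq ho hb (g := fun x => lam₂ x - lam₁ x)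
    (hl₂.continuous.sub hl₁.continuous) (fun x => by simp [(e₁ x).1, (e₂ x).1]) k2
  intro x hx
  exact ⟨(sub_eq_zero.1 (z2 x hx)).symm, (sub_eq_zero.1 (z1 x hx)).symm⟩

theorem exists_ext_pair {ρ : R3 → ℝ} (hρ : ContDiff ℝ ∞ ρ) (h : ∀ x, ρ x = 0 → fderiv ℝ ρ x ≠ 0)
    {lam mu : R3 → ℝ} (hl : ContDiffOn ℝ ∞ lam {x | ρ x ≤ 0}) (hm : ContDiffOn ℝ ∞ mu {x | ρ x ≤ 0})
    (hpos : ∀ x, ρ x ≤ 0 → 0 < mu x ∧ 0 < 3 * lam x + 2 * mu x) :
    ∃ lam' mu' : R3 → ℝ, ContDiff ℝ ∞ lam' ∧ ContDiff ℝ ∞ mu' ∧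
      (∀ x, 0 < mu' x ∧ 0 < 3 * lam' x + 2 * mu' x) ∧
      ∀ x, ρ x ≤ 0 → lam' x = lam x ∧ mu' x = mu x := by
  have hKo : IsOpen {y : ℝ × ℝ | 0 < y.2 ∧ 0 < 3 * y.1 + 2 * y.2} :=
    (isOpen_lt continuous_const continuous_snd).inter (isOpen_lt continuous_const
      (show Continuous fun y : ℝ × ℝ => 3 * y.1 + 2 * y.2 by fun_prop))
  have hKc : Convex ℝ {y : ℝ × ℝ | 0 < y.2 ∧ 0 < 3 * y.1 + 2 * y.2} := by
    intro a ha b hb s t hs ht hst
    simp only [Set.mem_setOf_eq, Prod.snd_add, Prod.fst_add, Prod.smul_snd, Prod.smul_fst,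
      smul_eq_mul] at ha hb ⊢
    rcases hs.eq_or_lt with rfl | hs'
    · obtain rfl : t = 1 := by linarith
      simpa using hb
    · constructor
      · nlinarith [mul_pos hs' ha.1, mul_nonneg ht hb.1.le]
      · nlinarith [mul_pos hs' ha.2, mul_nonneg ht hb.2.le]
  obtain ⟨g, hg, hK, he⟩ := exists_extension hρ h (f := fun x => (lam x, mu x)) (hl.prodMk hm) hKo hKc
    ⟨(0, 1), by norm_num⟩ hpos
  exact ⟨fun x => (g x).1, fun x => (g x).2, hg.fst, hg.snd, hK, fun x hx => by simp [he x hx]⟩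

theorem main {Ω : Set R3} (hopen : IsOpen Ω) (hbdd : Bornology.IsBounded Ω) {ρ : R3 → ℝ}
    (hρ : ContDiff ℝ ∞ ρ) (hΩ : Ω = {x | ρ x < 0}) (h : ∀ x, ρ x = 0 → fderiv ℝ ρ x ≠ 0)
    (lam₁ mu₁ lam₂ mu₂ : R3 → ℝ)
    (hl₁ : ContDiffOn ℝ ∞ lam₁ (closure Ω)) (hm₁ : ContDiffOn ℝ ∞ mu₁ (closure Ω))
    (hl₂ : ContDiffOn ℝ ∞ lam₂ (closure Ω)) (hm₂ : ContDiffOn ℝ ∞ mu₂ (closure Ω))
    (hpos : ∀ x ∈ closure Ω, 0 < mu₁ x ∧ 0 < 3 * lam₁ x + 2 * mu₁ x ∧ 0 < mu₂ x ∧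
      0 < 3 * lam₂ x + 2 * mu₂ x)
    (hdata : SameBoundaryData Ω lam₁ mu₁ lam₂ mu₂) :
    ∀ x ∈ Ω, lam₁ x = lam₂ x ∧ mu₁ x = mu₂ x := by
  have hc : closure Ω = {x | ρ x ≤ 0} := by
    rw [hΩ]
    exact closure_sublevel (hρ.of_le (by simp)) h
  rw [hc] at hl₁ hm₁ hl₂ hm₂ hpos
  obtain ⟨l1, m1, a1, b1, c1, d1⟩ := exists_ext_pair hρ h hl₁ hm₁ fun x hx =>
    ⟨(hpos x hx).1, (hpos x hx).2.1⟩
  obtain ⟨l2, m2, a2, b2, c2, d2⟩ := exists_ext_pair hρ h hl₂ hm₂ fun x hx => (hpos x hx).2.2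
  have hle : ∀ x ∈ Ω, ρ x ≤ 0 := fun x hx => by
    rw [hΩ] at hx
    exact le_of_lt hx
  have := main_smooth hopen hbdd a1 b1 a2 b2 c1 c2
    (sameBoundaryData_congr hopen.measurableSet hdata fun x hx =>
      ⟨(d1 x (hle x hx)).1, (d1 x (hle x hx)).2, (d2 x (hle x hx)).1, (d2 x (hle x hx)).2⟩)
  intro x hx
  have h1 := this x hx
  rw [(d1 x (hle x hx)).1, (d1 x (hle x hx)).2, (d2 x (hle x hx)).1, (d2 x (hle x hx)).2] at h1
  exact h1

end Crest.Agent.R80
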