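import Crest.Agent.R80.NFa

/-!
# R80: orders of differential expressions and normal forms modulo `P`
-/

set_option autoImplicit false

namespace Crest.Agent.R80

open Finset

variable {𝒜 : Type} [CommRing 𝒜] [Algebra ℂ 𝒜] {ι : Type}

theorem Ctx.pr_mem_F_proj (C : Ctx 𝒜) {n : Fnl 𝒜} (hn : n ∈ C.Good) {k : ℕ} {X : (ι → 𝒜) →ₗ[ℂ] 𝒜}
    (hX : X ∈ C.Op ι k) (a : ι) : pr n X (LinearMap.proj a) ∈ C.F ι k :=
  Submodule.subset_span ⟨n, hn, X, hX, a, rfl⟩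

theorem Ctx.nf_pr_dw (C : Ctx 𝒜) (β : List (Fin 3)) (a : ι) {n : Fnl 𝒜} (hn : n ∈ C.Good) {k : ℕ}
    {X : (ι → 𝒜) →ₗ[ℂ] 𝒜} (hX : X ∈ C.Op ι k) :
    pr n X (C.dw β ∘ₗ LinearMap.proj a) ∈ C.F ι (k + β.length) := by
  induction β generalizing n X k with
  | nil => exact C.pr_mem_F_proj hn hX a
  | cons j β ih =>
    have e : pr n X (C.dw (j :: β) ∘ₗ LinearMap.proj a) =
        pr (n ∘ₗ (C.d j : 𝒜 →ₗ[ℂ] 𝒜)) X (C.dw β ∘ₗ LinearMap.proj a) -
          pr n ((C.d j : 𝒜 →ₗ[ℂ] 𝒜) ∘ₗ X) (C.dw β ∘ₗ LinearMap.proj a) := by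
      refine LinearMap.ext₂ fun V Y => ?_
      simp only [pr_apply, LinearMap.sub_apply, LinearMap.comp_apply, DA.dw, Derivation.coeFn_coe,
        C.toDA.d_mul, map_add, mul_comm (C.d j (X V))]
      ring
    rw [e]
    refine Submodule.sub_mem _ (C.F_mono (by simp) (ih (C.good_d n hn j) hX)) ?_
    have := ih hn (C.d_comp_mem_Op hX j)
    rwa [add_assoc, add_comm 1] at this

/-- Integration by parts.  Reduce to `X' = c • (dw β ∘ proj a)` (`good_mul` absorbs `c`), then induction on `β` for all `n, X, k`: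
`n (X V * d j g) = (n ∘ d j) (X V * g) - n (d j (X V) * g)`. -/
theorem Ctx.pr_mem_F (C : Ctx 𝒜) {n : Fnl 𝒜} (hn : n ∈ C.Good) {k k' : ℕ}
    {X X' : (ι → 𝒜) →ₗ[ℂ] 𝒜} (hX : X ∈ C.Op ι (k + 1)) (hX' : X' ∈ C.Op ι (k' + 1)) :
    pr n X X' ∈ C.F ι (k + k' + 1) := by
  induction hX' using Submodule.span_induction generalizing n with
  | mem X' h =>
    obtain ⟨β, a, hβ, rfl⟩ := h
    exact C.F_mono (by omega) (C.nf_pr_dw β a hn hX)
  | zero =>
    have : pr n X (0 : (ι → 𝒜) →ₗ[ℂ] 𝒜) = 0 := by refine LinearMap.ext₂ fun V Y => ?_; simp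
    rw [this]
    exact Submodule.zero_mem _
  | add Z Z' _ _ h h' =>
    have : pr n X (Z + Z') = pr n X Z + pr n X Z' := by refine LinearMap.ext₂ fun V Y => ?_; simp [mul_add]
    rw [this]
    exact Submodule.add_mem _ (h hn) (h' hn)
  | smul c Z _ h =>
    have : pr n X (c • Z) = pr (n ∘ₗ LinearMap.mulLeft ℂ c) X Z := by
      refine LinearMap.ext₂ fun V Y => ?_; simp [mul_left_comm]
    rw [this]
    exact h (C.good_mul n hn c)

variable [Fintype ι]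

theorem Ctx.nf_mem (C : Ctx 𝒜) (k : ℕ) {n : ℕ → ι → ι → Fnl 𝒜} (hn : ∀ i a b, n i a b ∈ C.Good) :
    C.nf k n ∈ C.F ι (k + 1) := by
  refine Submodule.sum_mem _ fun i hi => Submodule.sum_mem _ fun a _ => Submodule.sum_mem _ fun b _ =>
    C.pr_mem_F_proj (hn i a b) (C.N_mem_Op k i (by have := mem_range.1 hi; omega) b) a

theorem Ctx.nf_compl_mem (C : Ctx 𝒜) (k : ℕ) {n : ℕ → ι → ι → Fnl 𝒜}
    (hn : ∀ i a b, n i a b ∈ C.Good) (S : Sys 𝒜 ι) :
    (C.nf k n).compl₂ (C.P S) ∈ C.F ι (k + 3) := by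
  have e : (C.nf k n).compl₂ (C.P S) = ∑ i ∈ range (2 * k + 1), ∑ a, ∑ b,
      pr (n i a b) (C.N k i ∘ₗ LinearMap.proj b) (LinearMap.proj a ∘ₗ C.P S) := by
    refine LinearMap.ext₂ fun V Y => ?_
    simp [DA.nf, LinearMap.sum_apply]
  rw [e]
  exact Submodule.sum_mem _ fun i hi => Submodule.sum_mem _ fun a _ => Submodule.sum_mem _ fun b _ =>
    C.pr_mem_F (k' := 2) (hn i a b) (C.N_mem_Op k i (by have := mem_range.1 hi; omega) b)
      (C.P_mem_Op S a)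

theorem Ctx.FN.of_mem {C : Ctx 𝒜} {S : Sys 𝒜 ι} {k : ℕ} {β : Bil 𝒜 ι} (h : β ∈ C.F ι k) :
    C.FN S k β := by
  exact ⟨β, h, 0, 0, Submodule.zero_mem _, by simp⟩

theorem Ctx.FN.mono {C : Ctx 𝒜} {S : Sys 𝒜 ι} {k k' : ℕ} {β : Bil 𝒜 ι} (h : C.FN S k β)
    (hk : k ≤ k') : C.FN S k' β := by
  obtain ⟨β', h1, j, κ, h2, h3⟩ := h
  exact ⟨β', C.F_mono hk h1, j, κ, h2, h3⟩

theorem Ctx.FN.add {C : Ctx 𝒜} {S : Sys 𝒜 ι} {k : ℕ} {β β' : Bil 𝒜 ι} (h : C.FN S k β)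
    (h' : C.FN S k β') : C.FN S k (β + β') := by
  obtain ⟨β1, h1, j, κ, h2, rfl⟩ := h
  obtain ⟨β2, h3, j', κ', h4, rfl⟩ := h'
  refine ⟨β1 + β2, Submodule.add_mem _ h1 h3, max j j', κ + κ',
    Submodule.add_mem _ (C.F_mono (le_max_left _ _) h2) (C.F_mono (le_max_right _ _) h4), ?_⟩
  rw [LinearMap.add_comp]
  abel

theorem Ctx.FN.smul {C : Ctx 𝒜} {S : Sys 𝒜 ι} {k : ℕ} {β : Bil 𝒜 ι} (h : C.FN S k β) (c : ℂ) :
    C.FN S k (c • β) := by
  obtain ⟨β1, h1, j, κ, h2, rfl⟩ := h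
  exact ⟨c • β1, Submodule.smul_mem _ _ h1, j, c • κ, Submodule.smul_mem _ _ h2,
    by rw [smul_add, LinearMap.smul_comp]⟩

/-- existence of a normal form -/
def Ctx.nfH (C : Ctx 𝒜) (S : Sys 𝒜 ι) (k : ℕ) (β : Bil 𝒜 ι) : Prop :=
  ∃ n : ℕ → ι → ι → Fnl 𝒜, (∀ i a b, n i a b ∈ C.Good) ∧ C.FN S k (β - C.nf k n)

theorem Ctx.nfH.of_FN {C : Ctx 𝒜} {S : Sys 𝒜 ι} {k : ℕ} {β : Bil 𝒜 ι} (h : C.FN S k β) :
    C.nfH S k β := by
  refine ⟨0, fun _ _ _ => Submodule.zero_mem _, ?_⟩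
  have : C.nf k (0 : ℕ → ι → ι → Fnl 𝒜) = 0 := by
    refine LinearMap.ext₂ fun V Y => ?_
    simp [DA.nf, LinearMap.sum_apply]
  rwa [this, sub_zero]

theorem Ctx.nfH.add {C : Ctx 𝒜} {S : Sys 𝒜 ι} {k : ℕ} {β β' : Bil 𝒜 ι} (h : C.nfH S k β)
    (h' : C.nfH S k β') : C.nfH S k (β + β') := by
  obtain ⟨n, hn, h⟩ := h
  obtain ⟨n', hn', h'⟩ := h'
  refine ⟨n + n', fun i a b => Submodule.add_mem _ (hn i a b) (hn' i a b), ?_⟩
  have : C.nf k (n + n') = C.nf k n + C.nf k n' := by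
    refine LinearMap.ext₂ fun V Y => ?_
    simp [DA.nf, LinearMap.sum_apply, sum_add_distrib]
  rw [this, add_sub_add_comm]
  exact h.add h'

theorem Ctx.nfH.smul {C : Ctx 𝒜} {S : Sys 𝒜 ι} {k : ℕ} {β : Bil 𝒜 ι} (h : C.nfH S k β) (c : ℂ) :
    C.nfH S k (c • β) := by
  obtain ⟨n, hn, h⟩ := h
  refine ⟨c • n, fun i a b => Submodule.smul_mem _ c (hn i a b), ?_⟩
  have : C.nf k (c • n) = c • C.nf k n := by
    refine LinearMap.ext₂ fun V Y => ?_
    simp [DA.nf, LinearMap.sum_apply, mul_sum]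
  have e : c • β - c • C.nf k n = c • (β - C.nf k n) := (smul_sub c β _).symm
  rw [this, e]
  exact h.smul c

theorem Ctx.nfH_red (C : Ctx 𝒜) (S : Sys 𝒜 ι) {n : Fnl 𝒜} (hn : n ∈ C.Good) (a b : ι) {k : ℕ}
    {E : Module.End ℂ 𝒜}
    (hE : E ∈ Submodule.span ℂ {E : Module.End ℂ 𝒜 | ∃ i, i ≤ 2 * k ∧ E = C.N k i} ⊔
      Submodule.span ℂ {E : Module.End ℂ 𝒜 | ∃ β : List (Fin 3), β.length + 2 = k ∧
        E = C.dw β ∘ₗ C.lap}) :
    C.nfH S k (pr n (E ∘ₗ LinearMap.proj b) (LinearMap.proj a)) := by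
  classical
  rw [← Submodule.span_union] at hE
  induction hE using Submodule.span_induction with
  | mem E h =>
    rcases h with ⟨i, hi, rfl⟩ | ⟨β, hβ, rfl⟩
    · refine ⟨fun i' a' b' => if i' = i ∧ a' = a ∧ b' = b then n else 0, fun i' a' b' => ?_, ?_⟩
      · dsimp only
        split_ifs
        · exact hn
        · exact Submodule.zero_mem _
      · have : C.nf k (fun i' a' b' => if i' = i ∧ a' = a ∧ b' = b then n else 0) =
            pr n (C.N k i ∘ₗ LinearMap.proj b) (LinearMap.proj a) := by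
          refine LinearMap.ext₂ fun V Y => ?_
          simp only [DA.nf, LinearMap.sum_apply, pr_apply]
          rw [Finset.sum_eq_single i (fun i' _ h => by simp [h]) (fun h => by simp at h; omega),
            Finset.sum_eq_single a (fun a' _ h => by simp [h]) (by simp),
            Finset.sum_eq_single b (fun b' _ h => by simp [h]) (by simp)]
          simp
        rw [this, sub_self]
        exact Ctx.FN.of_mem (Submodule.zero_mem _)
    · refine Ctx.nfH.of_FN ?_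
      set Z : (ι → 𝒜) →ₗ[ℂ] 𝒜 := ∑ j, ∑ c, S.A j b c • (C.dw [j] ∘ₗ LinearMap.proj c) +
        ∑ c, S.Q b c • (C.dw [] ∘ₗ LinearMap.proj c) with hZ
      have hZ2 : Z ∈ C.Op ι 2 := by
        refine Submodule.add_mem _
          (Submodule.sum_mem _ fun j _ => Submodule.sum_mem _ fun c _ => Submodule.smul_mem _ _ ?_)
          (Submodule.sum_mem _ fun c _ => Submodule.smul_mem _ _ ?_)
        · exact Submodule.subset_span ⟨_, _, by simp, rfl⟩
        · exact Submodule.subset_span ⟨_, _, by simp, rfl⟩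
      have hZV : ∀ V, C.lap (V b) = C.P S V b - Z V := fun V => by
        simp [hZ, DA.P_apply, DA.dw, LinearMap.sum_apply, add_assoc]
      refine ⟨-pr n (C.dw β ∘ₗ Z) (LinearMap.proj a), Submodule.neg_mem _ ?_, β.length + 1,
        pr n (C.dw β ∘ₗ LinearMap.proj b) (LinearMap.proj a),
        C.pr_mem_F_proj hn (Submodule.subset_span ⟨β, b, by simp, rfl⟩) a, ?_⟩
      · have := C.pr_mem_F_proj hn (C.dw_comp_mem_Op hZ2 β) a
        rwa [add_comm, hβ] at this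
      · refine LinearMap.ext₂ fun V Y => ?_
        simp only [pr_apply, LinearMap.comp_apply, LinearMap.proj_apply, LinearMap.add_apply,
          LinearMap.neg_apply, hZV, map_sub, sub_mul]
        ring
  | zero =>
    have : pr n ((0 : Module.End ℂ 𝒜) ∘ₗ LinearMap.proj b) (LinearMap.proj a : (ι → 𝒜) →ₗ[ℂ] 𝒜) =
        0 := by refine LinearMap.ext₂ fun V Y => ?_; simp
    rw [this]
    exact Ctx.nfH.of_FN (Ctx.FN.of_mem (Submodule.zero_mem _))
  | add E E' _ _ h h' =>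
    have : pr n ((E + E') ∘ₗ LinearMap.proj b) (LinearMap.proj a : (ι → 𝒜) →ₗ[ℂ] 𝒜) =
        pr n (E ∘ₗ LinearMap.proj b) (LinearMap.proj a) +
          pr n (E' ∘ₗ LinearMap.proj b) (LinearMap.proj a) := by refine LinearMap.ext₂ fun V Y => ?_; simp [add_mul]
    rw [this]
    exact h.add h'
  | smul c E _ h =>
    have : pr n ((c • E) ∘ₗ LinearMap.proj b) (LinearMap.proj a : (ι → 𝒜) →ₗ[ℂ] 𝒜) =
        c • pr n (E ∘ₗ LinearMap.proj b) (LinearMap.proj a) := by refine LinearMap.ext₂ fun V Y => ?_; simp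
    rw [this]
    exact h.smul c

/-- Span induction on `β` (`nf` is additive and homogeneous in `n`), then on `X`: generators `pr n (dw α ∘ proj b) (proj a)`
(`good_mul` absorbs coefficients).  If `α.length < k` take `n = 0`.  If `α.length = k` use `dw_mem_red` (span induction again);
`lap (V b) = P V b - (first order terms)`, so `pr n (dw β ∘ lap ∘ proj b) (proj a)` is
`pr n (dw β ∘ proj b) (proj a) ∘ P` minus an element of `F k` (`dw_comp_mem_Op`). -/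
theorem Ctx.exists_nf_mem (C : Ctx 𝒜) (S : Sys 𝒜 ι) {k : ℕ} {β : Bil 𝒜 ι} (h : β ∈ C.F ι (k + 1)) :
    ∃ n : ℕ → ι → ι → Fnl 𝒜, (∀ i a b, n i a b ∈ C.Good) ∧ C.FN S k (β - C.nf k n) := by
  change C.nfH S k β
  induction h using Submodule.span_induction with
  | mem β h =>
    obtain ⟨n, hn, X, hX, a, rfl⟩ := h
    induction hX using Submodule.span_induction generalizing n with
    | mem X h =>
      obtain ⟨α, b, hα, rfl⟩ := h
      rcases (Nat.lt_succ_iff.1 hα).lt_or_eq with h | h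
      · exact Ctx.nfH.of_FN (Ctx.FN.of_mem
          (C.pr_mem_F_proj hn (Submodule.subset_span ⟨α, b, h, rfl⟩) a))
      · subst h
        exact C.nfH_red S hn a b (C.dw_mem_red α)
    | zero =>
      have : pr n (0 : (ι → 𝒜) →ₗ[ℂ] 𝒜) (LinearMap.proj a) = 0 := by refine LinearMap.ext₂ fun V Y => ?_; simp
      rw [this]
      exact Ctx.nfH.of_FN (Ctx.FN.of_mem (Submodule.zero_mem _))
    | add Z Z' _ _ h h' =>
      have : pr n (Z + Z') (LinearMap.proj a) =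
          pr n Z (LinearMap.proj a) + pr n Z' (LinearMap.proj a) := by refine LinearMap.ext₂ fun V Y => ?_; simp [add_mul]
      rw [this]
      exact (h n hn).add (h' n hn)
    | smul c Z _ h =>
      have : pr n (c • Z) (LinearMap.proj a) =
          pr (n ∘ₗ LinearMap.mulLeft ℂ c) Z (LinearMap.proj a) := by
        refine LinearMap.ext₂ fun V Y => ?_; simp [mul_assoc]
      rw [this]
      exact h _ (C.good_mul n hn c)
  | zero => exact Ctx.nfH.of_FN (Ctx.FN.of_mem (Submodule.zero_mem _))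
  | add β β' _ _ h h' => exact h.add h'
  | smul c β _ h => exact h.smul c

theorem Ctx.FN.exists_nf {C : Ctx 𝒜} {S : Sys 𝒜 ι} {k : ℕ} {β : Bil 𝒜 ι} (h : C.FN S (k + 1) β) :
    ∃ n : ℕ → ι → ι → Fnl 𝒜, (∀ i a b, n i a b ∈ C.Good) ∧ C.FN S k (β - C.nf k n) := by
  obtain ⟨β1, h1, j, κ, h2, rfl⟩ := h
  obtain ⟨n, hn, h3⟩ := C.exists_nf_mem S h1
  refine ⟨n, hn, ?_⟩
  have h4 : C.FN S k (κ ∘ₗ C.P S) := ⟨0, Submodule.zero_mem _, j, κ, h2, by simp⟩
  have := h3.add h4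
  rwa [sub_add_eq_add_sub] at this

/-- `V ↦ R V i` is a linear map in `Op 2`, `div` and `str` of it lie in `Op 3`; `pr_mem_F`, `good_mul`. -/
theorem Ctx.bf_mem (C : Ctx 𝒜) {I : Fnl 𝒜} (hI : I ∈ C.Good) (L1 L2 : Lame 𝒜) :
    C.bf I L1 L2 ∈ C.F I4 5 := by
  have hR : ∀ (L : Lame 𝒜) (i : Fin 3), ∃ X ∈ C.Op I4 2, ∀ V, X V = C.R L V i := fun L i => by
    refine ⟨LinearMap.proj (some i) + L.m • ((C.d i : 𝒜 →ₗ[ℂ] 𝒜) ∘ₗ LinearMap.proj none) -
      C.d i L.m • LinearMap.proj none, ?_, fun V => ?_⟩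
    · exact Submodule.sub_mem _ (Submodule.add_mem _ (C.Op_mono (by norm_num) (C.proj_mem_Op _))
        (Submodule.smul_mem _ _ (C.d_comp_mem_Op (C.proj_mem_Op _) i)))
        (Submodule.smul_mem _ _ (C.Op_mono (by norm_num) (C.proj_mem_Op _)))
    · simp [DA.R, mul_comm]
  choose X hX hX' using hR
  have hd : ∀ L : Lame 𝒜, ∃ Z ∈ C.Op I4 3, ∀ V, Z V = C.div (C.R L V) := fun L =>
    ⟨∑ i, (C.d i : 𝒜 →ₗ[ℂ] 𝒜) ∘ₗ X L i,
      Submodule.sum_mem _ fun i _ => C.d_comp_mem_Op (hX L i) i,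
      fun V => by simp [DA.div, LinearMap.sum_apply, hX']⟩
  have hs : ∀ (L : Lame 𝒜) i j, ∃ Z ∈ C.Op I4 3, ∀ V, Z V = C.str (C.R L V) i j := fun L i j =>
    ⟨(C.d i : 𝒜 →ₗ[ℂ] 𝒜) ∘ₗ X L j + (C.d j : 𝒜 →ₗ[ℂ] 𝒜) ∘ₗ X L i,
      Submodule.add_mem _ (C.d_comp_mem_Op (hX L j) i) (C.d_comp_mem_Op (hX L i) j),
      fun V => by simp [DA.str, hX']⟩
  choose Zd hZd hZd' using hd
  choose Zs hZs hZs' using hs
  have e : C.bf I L1 L2 = pr (I ∘ₗ LinearMap.mulLeft ℂ (2 * (L2.lam - L1.lam))) (Zd L1) (Zd L2) +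
      ∑ i, ∑ j, pr (I ∘ₗ LinearMap.mulLeft ℂ (L2.mu - L1.mu)) (Zs L1 i j) (Zs L2 i j) := by
    refine LinearMap.ext₂ fun V Y => ?_
    simp only [DA.bf_apply, DA.den, LinearMap.add_apply, LinearMap.sum_apply, pr_apply,
      LinearMap.comp_apply, LinearMap.mulLeft_apply, hZd', hZs', map_add, mul_sum, map_sum]
  rw [e]
  exact Submodule.add_mem _ (C.pr_mem_F (k := 2) (k' := 2) (C.good_mul I hI _) (hZd L1) (hZd L2))
    (Submodule.sum_mem _ fun i _ => Submodule.sum_mem _ fun j _ =>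
      C.pr_mem_F (k := 2) (k' := 2) (C.good_mul I hI _) (hZs L1 i j) (hZs L2 i j))

end Crest.Agent.R80
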