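import Crest.Agent.R80.DegB

/-!
# R80: orders of differential expressions and normal forms of words
-/

set_option autoImplicit false

namespace Crest.Agent.R80

open Finset

variable {𝒜 : Type} [CommRing 𝒜] [Algebra ℂ 𝒜] {ι : Type}

theorem DA.proj_mem_Op (D : DA 𝒜) (b : ι) : (LinearMap.proj b : (ι → 𝒜) →ₗ[ℂ] 𝒜) ∈ D.Op ι 1 := by
  exact Submodule.subset_span ⟨[], b, by simp, rfl⟩

/-- span induction; `d j (a * Z V) = a * d j (Z V) + d j a * Z V` -/
theorem DA.d_comp_mem_Op (D : DA 𝒜) {k : ℕ} {Z : (ι → 𝒜) →ₗ[ℂ] 𝒜} (hZ : Z ∈ D.Op ι k) (j : Fin 3) :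
    (D.d j : 𝒜 →ₗ[ℂ] 𝒜) ∘ₗ Z ∈ D.Op ι (k + 1) := by
  induction hZ using Submodule.span_induction with
  | mem Z h =>
    obtain ⟨α, b, hα, rfl⟩ := h
    exact Submodule.subset_span ⟨j :: α, b, by simpa using hα, rfl⟩
  | zero => simp
  | add Z Z' _ _ h h' =>
    rw [LinearMap.comp_add]
    exact Submodule.add_mem _ h h'
  | smul c Z hZ h =>
    have e : (D.d j : 𝒜 →ₗ[ℂ] 𝒜) ∘ₗ (c • Z) =
        c • ((D.d j : 𝒜 →ₗ[ℂ] 𝒜) ∘ₗ Z) + D.d j c • Z := by
      refine LinearMap.ext fun V => ?_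
      simp only [LinearMap.comp_apply, LinearMap.smul_apply, LinearMap.add_apply, smul_eq_mul,
        Derivation.coeFn_coe, D.d_mul]
      ring
    rw [e]
    exact Submodule.add_mem _ (Submodule.smul_mem _ _ h)
      (Submodule.smul_mem _ _ (D.Op_mono (Nat.le_succ k) hZ))

theorem DA.dw_comp_mem_Op (D : DA 𝒜) {k : ℕ} {Z : (ι → 𝒜) →ₗ[ℂ] 𝒜} (hZ : Z ∈ D.Op ι k)
    (α : List (Fin 3)) : D.dw α ∘ₗ Z ∈ D.Op ι (k + α.length) := by
  induction α with
  | nil => exact hZ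
  | cons j α ih => exact D.d_comp_mem_Op ih j

/-- constant coefficient operators of pure order `k` -/
noncomputable def DA.nfaW (D : DA 𝒜) (k : ℕ) : Submodule ℂ (Module.End ℂ 𝒜) :=
  Submodule.span ℂ {E | ∃ β : List (Fin 3), β.length = k ∧ E = D.dw β}

theorem DA.nfa_W_comp (D : DA 𝒜) {k k' : ℕ} {E : Module.End ℂ 𝒜} (hE : E ∈ D.nfaW k)
    {Z : (ι → 𝒜) →ₗ[ℂ] 𝒜} (hZ : Z ∈ D.Op ι k') : E ∘ₗ Z ∈ D.Op ι (k + k') := by
  induction hE using Submodule.span_induction with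
  | mem E h =>
    obtain ⟨β, rfl, rfl⟩ := h
    rw [add_comm]
    exact D.dw_comp_mem_Op hZ β
  | zero => simp
  | add E E' _ _ h h' =>
    rw [LinearMap.add_comp]
    exact Submodule.add_mem _ h h'
  | smul c E _ h =>
    rw [LinearMap.smul_comp]
    exact Submodule.smul_of_tower_mem _ c h

theorem DA.nfa_d_mul (D : DA 𝒜) {k : ℕ} {E : Module.End ℂ 𝒜} (hE : E ∈ D.nfaW k) (j : Fin 3) :
    ((D.d j : 𝒜 →ₗ[ℂ] 𝒜) * E : Module.End ℂ 𝒜) ∈ D.nfaW (k + 1) := by
  induction hE using Submodule.span_induction with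
  | mem E h =>
    obtain ⟨β, rfl, rfl⟩ := h
    exact Submodule.subset_span ⟨j :: β, rfl, rfl⟩
  | zero => simp
  | add E E' _ _ h h' =>
    rw [mul_add]
    exact Submodule.add_mem _ h h'
  | smul c E _ h =>
    rw [mul_smul_comm]
    exact Submodule.smul_mem _ _ h

theorem DA.nfa_pow_mul (D : DA 𝒜) {G : Module.End ℂ 𝒜}
    (hG : ∀ k, ∀ E ∈ D.nfaW k, G * E ∈ D.nfaW (k + 1)) (m : ℕ) {k : ℕ} {E : Module.End ℂ 𝒜}
    (hE : E ∈ D.nfaW k) : G ^ m * E ∈ D.nfaW (k + m) := by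
  induction m with
  | zero => simpa using hE
  | succ m ih =>
    rw [pow_succ', mul_assoc]
    exact hG _ _ ih

theorem DA.nfa_N_mem (D : DA 𝒜) (k i : ℕ) (hi : i ≤ 2 * k) : D.N k i ∈ D.nfaW k := by
  have h0 : ∀ k, ∀ E ∈ D.nfaW k, D.D0 * E ∈ D.nfaW (k + 1) := fun k E hE => by
    rw [DA.D0, add_mul, smul_mul_assoc]
    exact Submodule.add_mem _ (D.nfa_d_mul hE 0) (Submodule.smul_mem _ _ (D.nfa_d_mul hE 1))
  have h1 : ∀ k, ∀ E ∈ D.nfaW k, D.D1 * E ∈ D.nfaW (k + 1) := fun k E hE => D.nfa_d_mul hE 2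
  have h2 : ∀ k, ∀ E ∈ D.nfaW k, D.D2 * E ∈ D.nfaW (k + 1) := fun k E hE => by
    rw [DA.D2, add_mul, smul_mul_assoc]
    exact Submodule.add_mem _ (Submodule.neg_mem _ (D.nfa_d_mul hE 0))
      (Submodule.smul_mem _ _ (D.nfa_d_mul hE 1))
  have h : (1 : Module.End ℂ 𝒜) ∈ D.nfaW 0 := Submodule.subset_span ⟨[], rfl, rfl⟩
  have := D.nfa_pow_mul h0 (i / 2) (D.nfa_pow_mul h1 (i % 2) (D.nfa_pow_mul h2 (k - i / 2 - i % 2) h))
  rw [mul_one, ← mul_assoc, show 0 + (k - i / 2 - i % 2) + i % 2 + i / 2 = k by omega] at this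
  exact this

theorem DA.nfa_c01 (D : DA 𝒜) : Commute D.D0 D.D1 := by
  refine LinearMap.ext fun f => ?_
  simp [DA.D0, DA.D1, D.comm 2]

theorem DA.nfa_c02 (D : DA 𝒜) : Commute D.D0 D.D2 := by
  refine LinearMap.ext fun f => ?_
  simp only [DA.D0, DA.D2, Module.End.mul_apply, LinearMap.add_apply, LinearMap.smul_apply,
    LinearMap.neg_apply, Derivation.coeFn_coe, map_add, map_neg, Derivation.map_smul, D.comm 1 0]
  abel

theorem DA.nfa_c12 (D : DA 𝒜) : Commute D.D1 D.D2 := by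
  refine LinearMap.ext fun f => ?_
  simp [DA.D2, DA.D1, D.comm 2]

theorem DA.nfa_lap (D : DA 𝒜) : D.D1 * D.D1 = D.D0 * D.D2 + (D.lap : Module.End ℂ 𝒜) := by
  refine LinearMap.ext fun f => ?_
  simp only [DA.D0, DA.D1, DA.D2, Module.End.mul_apply, LinearMap.add_apply, LinearMap.smul_apply,
    LinearMap.neg_apply, Derivation.coeFn_coe, map_add, map_neg, Derivation.map_smul, D.comm 1 0,
    DA.lap_apply, Fin.sum_univ_three, smul_smul, Complex.I_mul_I, neg_smul,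
    one_smul]
  abel

theorem DA.nfa_d_eq (D : DA 𝒜) (j : Fin 3) : ∃ c0 c1 c2 : ℂ,
    ((D.d j : 𝒜 →ₗ[ℂ] 𝒜) : Module.End ℂ 𝒜) = c0 • D.D0 + c1 • D.D1 + c2 • D.D2 := by
  fin_cases j
  · refine ⟨2⁻¹, 0, -2⁻¹, ?_⟩
    simp only [DA.D0, DA.D2, Fin.zero_eta]
    module
  · refine ⟨-Complex.I / 2, 0, -Complex.I / 2, ?_⟩
    simp only [DA.D0, DA.D2, Fin.mk_one]
    match_scalars
    · linear_combination Complex.I_sq
    · ring
    · ring
  · exact ⟨0, 1, 0, by simp [DA.D1]⟩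

theorem DA.nfa_D0_N (D : DA 𝒜) (k i : ℕ) : D.D0 * D.N k i = D.N (k + 1) (i + 2) := by
  simp only [DA.N]
  rw [show (i + 2) / 2 = i / 2 + 1 by omega, show (i + 2) % 2 = i % 2 by omega,
    show k + 1 - (i / 2 + 1) - i % 2 = k - i / 2 - i % 2 by omega, pow_succ']
  simp only [mul_assoc]

theorem DA.nfa_D2_N (D : DA 𝒜) (k i : ℕ) (hi : i ≤ 2 * k) : D.D2 * D.N k i = D.N (k + 1) i := by
  simp only [DA.N]
  rw [show k + 1 - i / 2 - i % 2 = k - i / 2 - i % 2 + 1 by omega, pow_succ', ← mul_assoc,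
    ← mul_assoc (D.D0 ^ _ * D.D1 ^ _),
    ((D.nfa_c02.pow_left _).mul_left (D.nfa_c12.pow_left _)).eq]

theorem DA.nfa_D1_N_even (D : DA 𝒜) (k i : ℕ) (hi : i ≤ 2 * k) (h : i % 2 = 0) :
    D.D1 * D.N k i = D.N (k + 1) (i + 1) := by
  simp only [DA.N]
  rw [show (i + 1) / 2 = i / 2 by omega, show (i + 1) % 2 = 1 by omega, h,
    show k + 1 - i / 2 - 1 = k - i / 2 - 0 by omega, pow_zero, mul_one, pow_one, ← mul_assoc,
    (D.nfa_c01.pow_left _).eq]

theorem DA.nfa_D1_N_odd (D : DA 𝒜) (k i : ℕ) (hi : i ≤ 2 * k) (h : i % 2 = 1) :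
    D.D1 * D.N k i = D.N (k + 1) (i + 1) + D.N (k - 1) (i - 1) * (D.lap : Module.End ℂ 𝒜) := by
  simp only [DA.N]
  rw [show (i + 1) / 2 = i / 2 + 1 by omega, show (i + 1) % 2 = 0 by omega, h,
    show (i - 1) / 2 = i / 2 by omega, show (i - 1) % 2 = 0 by omega,
    show k + 1 - (i / 2 + 1) - 0 = k - i / 2 - 1 + 1 by omega,
    show k - 1 - i / 2 - 0 = k - i / 2 - 1 by omega]
  generalize i / 2 = a
  generalize k - a - 1 = c
  have e1 : D.D1 * (D.D0 ^ a * D.D1 ^ 1 * D.D2 ^ c) = D.D0 ^ a * D.D2 ^ c * (D.D1 * D.D1) := by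
    rw [pow_one, mul_assoc (D.D0 ^ a), (D.nfa_c12.pow_right c).eq, ← mul_assoc (D.D0 ^ a),
      ← mul_assoc, ((D.nfa_c01.symm.pow_right a).mul_right (D.nfa_c12.pow_right c)).eq, mul_assoc]
  have e2 : D.D0 ^ a * D.D2 ^ c * (D.D0 * D.D2) = D.D0 ^ (a + 1) * D.D2 ^ (c + 1) := by
    rw [pow_succ, pow_succ, mul_assoc, mul_assoc, ← mul_assoc (D.D2 ^ c),
      ← (D.nfa_c02.pow_right c).eq, mul_assoc]
  rw [e1, D.nfa_lap, mul_add, e2]
  simp

theorem DA.N_mem_Op (D : DA 𝒜) (k i : ℕ) (hi : i ≤ 2 * k) (b : ι) :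
    D.N k i ∘ₗ (LinearMap.proj b : (ι → 𝒜) →ₗ[ℂ] 𝒜) ∈ D.Op ι (k + 1) := by
  exact D.nfa_W_comp (D.nfa_N_mem k i hi) (by simpa [add_comm] using D.proj_mem_Op b)

/-- Normal form of a word modulo the Laplacian.  Induction on `α`.  `∂₀ = (D0 - D2) / 2`, `∂₁ = (D0 + D2) / (2 i)`, `∂₂ = D1`;
`D0, D1, D2` commute (`D.comm`), `D0 * N k i = N (k+1) (i+2)`, `D2 * N k i = N (k+1) i`, `D1 * N k i = N (k+1) (i+1)` for even `i`;
for odd `i = 2 a + 1`, `D1 * N k i = D0 ^ a * D2 ^ c * (lap + D0 * D2)` (`c = k - a - 1`) and `D0 ^ (a+1) * D2 ^ (c+1) = N (k+1) (i+1)`,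
while `D0 ^ a * D2 ^ c` lies in the span of the words of length `a + c`. -/
theorem DA.dw_mem_red (D : DA 𝒜) (α : List (Fin 3)) :
    D.dw α ∈ Submodule.span ℂ {E : Module.End ℂ 𝒜 | ∃ i, i ≤ 2 * α.length ∧ E = D.N α.length i} ⊔
      Submodule.span ℂ {E : Module.End ℂ 𝒜 | ∃ β : List (Fin 3), β.length + 2 = α.length ∧
        E = D.dw β ∘ₗ D.lap} := by
  induction α with
  | nil =>
    refine Submodule.mem_sup_left (Submodule.subset_span ⟨0, le_rfl, ?_⟩)
    simp only [DA.N, DA.dw, List.length_nil, Nat.zero_div, Nat.zero_mod, pow_zero, mul_one]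
    rfl
  | cons j α ih =>
    have hd := D.nfa_d_eq j
    change ((D.d j : 𝒜 →ₗ[ℂ] 𝒜) * D.dw α : Module.End ℂ 𝒜) ∈ _
    obtain ⟨E1, h1, E2, h2, he⟩ := Submodule.mem_sup.1 ih
    rw [← he, mul_add]
    refine Submodule.add_mem _ ?_ (Submodule.mem_sup_right ?_)
    · clear he
      simp only [List.length_cons]
      generalize α.length = k at *
      induction h1 using Submodule.span_induction with
      | mem E h =>
        obtain ⟨i, hi, rfl⟩ := h
        obtain ⟨c0, c1, c2, hd⟩ := hd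
        rw [hd, add_mul, add_mul, smul_mul_assoc, smul_mul_assoc, smul_mul_assoc]
        refine Submodule.add_mem _ (Submodule.add_mem _ (Submodule.smul_mem _ _ ?_)
          (Submodule.smul_mem _ _ ?_)) (Submodule.smul_mem _ _ ?_)
        · exact Submodule.mem_sup_left
            (Submodule.subset_span ⟨i + 2, by omega, D.nfa_D0_N k i⟩)
        · rcases Nat.mod_two_eq_zero_or_one i with h | h
          · exact Submodule.mem_sup_left
              (Submodule.subset_span ⟨i + 1, by omega, D.nfa_D1_N_even k i hi h⟩)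
          · rw [D.nfa_D1_N_odd k i hi h]
            refine Submodule.add_mem _ (Submodule.mem_sup_left
              (Submodule.subset_span ⟨i + 1, by omega, rfl⟩)) (Submodule.mem_sup_right ?_)
            have hW := D.nfa_N_mem (k - 1) (i - 1) (by omega)
            generalize D.N (k - 1) (i - 1) = E at hW
            induction hW using Submodule.span_induction with
            | mem E h =>
              obtain ⟨β, hβ, rfl⟩ := h
              exact Submodule.subset_span ⟨β, by omega, rfl⟩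
            | zero => simp
            | add E E' _ _ h h' =>
              rw [add_mul]
              exact Submodule.add_mem _ h h'
            | smul c E _ h =>
              rw [smul_mul_assoc]
              exact Submodule.smul_mem _ _ h
        · exact Submodule.mem_sup_left
            (Submodule.subset_span ⟨i, by omega, D.nfa_D2_N k i hi⟩)
      | zero => simp
      | add E E' _ _ h h' =>
        rw [mul_add _ E E']
        exact Submodule.add_mem _ h h'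
      | smul c E _ h =>
        rw [mul_smul_comm]
        exact Submodule.smul_mem _ _ h
    · clear he
      induction h2 using Submodule.span_induction with
      | mem E h =>
        obtain ⟨β, hβ, rfl⟩ := h
        exact Submodule.subset_span ⟨j :: β, by simp [← hβ], rfl⟩
      | zero => simp
      | add E E' _ _ h h' =>
        rw [mul_add]
        exact Submodule.add_mem _ h h'
      | smul c E _ h =>
        rw [mul_smul_comm]
        exact Submodule.smul_mem _ _ h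

variable [Fintype ι]

theorem DA.P_mem_Op (D : DA 𝒜) (S : Sys 𝒜 ι) (a : ι) :
    (LinearMap.proj a : (ι → 𝒜) →ₗ[ℂ] 𝒜) ∘ₗ D.P S ∈ D.Op ι 3 := by
  have e : (LinearMap.proj a : (ι → 𝒜) →ₗ[ℂ] 𝒜) ∘ₗ D.P S =
      ∑ j, D.dw [j, j] ∘ₗ LinearMap.proj a + ∑ j, ∑ b, S.A j a b • (D.dw [j] ∘ₗ LinearMap.proj b) +
        ∑ b, S.Q a b • (D.dw [] ∘ₗ LinearMap.proj b) := by
    refine LinearMap.ext fun V => ?_
    simp [DA.P_apply, DA.lap_apply, DA.dw, LinearMap.sum_apply]
  rw [e]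
  refine Submodule.add_mem _ (Submodule.add_mem _ (Submodule.sum_mem _ fun j _ => ?_)
    (Submodule.sum_mem _ fun j _ => Submodule.sum_mem _ fun b _ => Submodule.smul_mem _ _ ?_))
    (Submodule.sum_mem _ fun b _ => Submodule.smul_mem _ _ ?_)
  · exact Submodule.subset_span ⟨_, _, by simp, rfl⟩
  · exact Submodule.subset_span ⟨_, _, by simp, rfl⟩
  · exact Submodule.subset_span ⟨_, _, by simp, rfl⟩

end Crest.Agent.R80
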