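import Crest.Agent.R80.Glue

/-!
# R80: local Seeley extension without flattening the boundary
-/

set_option autoImplicit false

namespace Crest.Agent.R80

open Set Filter Topology Metric
open scoped ContDiff

/-- `a k = (-1) ^ k (π / 2) ^ (2 k + 1) / (2 k + 1)!`, `b k = 2 * 2 ^ (2 k + 1)`: `∑ a k * b k ^ j = 2 ^ j * sin (π / 2 * 2 ^ j)` (`Real.hasSum_sin`),
summability of `|a k| * b k ^ j` by `Real.hasSum_sinh`. -/
theorem exists_seeley_coeff : ∃ a b : ℕ → ℝ, (∀ k, 4 ≤ b k) ∧ Tendsto b atTop atTop ∧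
    (∀ j : ℕ, Summable fun k => |a k| * b k ^ j) ∧
    ∀ j : ℕ, HasSum (fun k => a k * b k ^ j) (if j = 0 then 1 else 0) := by
  refine ⟨fun k => (-1) ^ k * (Real.pi / 2) ^ (2 * k + 1) / (2 * k + 1).factorial,
    fun k => 2 * 2 ^ (2 * k + 1), fun k => ?_, ?_, fun j => ?_, fun j => ?_⟩
  · have : (2 : ℝ) ^ 1 ≤ 2 ^ (2 * k + 1) := pow_le_pow_right₀ one_le_two (by omega)
    linarith
  · refine Tendsto.const_mul_atTop two_pos
      ((tendsto_pow_atTop_atTop_of_one_lt one_lt_two).comp ?_)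
    exact tendsto_atTop_mono (fun k => by simp only [id]; omega) tendsto_id
  · refine ((Real.hasSum_sinh (Real.pi / 2 * 2 ^ j)).mul_left (2 ^ j)).summable.congr fun k => ?_
    have := Real.pi_pos
    simp only [abs_div, abs_mul, abs_pow, abs_neg, abs_one, one_pow, one_mul, Nat.abs_cast,
      abs_of_pos this, abs_two, mul_pow, ← pow_mul, mul_comm (2 * k + 1) j]
    ring
  · have h := (Real.hasSum_sin (Real.pi / 2 * 2 ^ j)).mul_left (2 ^ j)
    have e : (2 : ℝ) ^ j * Real.sin (Real.pi / 2 * 2 ^ j) = if j = 0 then 1 else 0 := by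
      rcases j with _ | j
      · simp
      · have : Real.pi / 2 * 2 ^ (j + 1) = ((2 ^ j : ℕ) : ℝ) * Real.pi := by push_cast; ring
        rw [this, Real.sin_nat_mul_pi]
        simp
    rw [e] at h
    have e2 : (fun k : ℕ => (-1) ^ k * (Real.pi / 2) ^ (2 * k + 1) / ((2 * k + 1).factorial : ℝ) *
        (2 * 2 ^ (2 * k + 1)) ^ j) = fun k : ℕ => 2 ^ j *
          ((-1) ^ k * (Real.pi / 2 * 2 ^ j) ^ (2 * k + 1) / ((2 * k + 1).factorial : ℝ)) := by
      funext k
      simp only [mul_pow, ← pow_mul, mul_comm (2 * k + 1) j]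
      ring
    exact e2 ▸ h

variable {E : Type} [NormedAddCommGroup E] [NormedSpace ℝ E]

/-- the Seeley type operators -/
noncomputable def seeH {F : Type} [NormedAddCommGroup F] [NormedSpace ℝ F] (a b : ℕ → ℝ) (ρ : E → ℝ)
    (v : E) (ψ : ℝ → ℝ) (j : ℕ) (f : E → F) (x : E) : F :=
  if 0 < ρ x then ∑' k, (a k * b k ^ j * ψ (b k * ρ x)) • f (x - (b k * ρ x) • v)
  else if j = 0 then ψ 0 • f x else 0

/-- the geometric data -/
structure SeeD (a b : ℕ → ℝ) (ρ : E → ℝ) (v : E) (U Kc : Set E) (δ : ℝ) : Prop where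
  b4 : ∀ k, 4 ≤ b k
  bt : Tendsto b atTop atTop
  sm : ∀ j : ℕ, Summable fun k => |a k| * b k ^ j
  hs : ∀ j : ℕ, HasSum (fun k => a k * b k ^ j) (if j = 0 then 1 else 0)
  hρ : ContDiff ℝ ∞ ρ
  hne : ∀ x, ρ x = 0 → fderiv ℝ ρ x ≠ 0
  hU : IsOpen U
  hK : IsCompact Kc
  geo : ∀ x ∈ U, ∀ t, 0 ≤ t → t < δ → x - t • v ∈ Kc ∧ ρ (x - t • v) ≤ ρ x - t / 2

section

variable {a b : ℕ → ℝ} {ρ : E → ℝ} {v : E} {U Kc : Set E} {δ : ℝ}

theorem SeeD.mem (H : SeeD a b ρ v U Kc δ) {x : E} (hx : x ∈ U) (h0 : 0 ≤ ρ x) {k : ℕ}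
    (hk : b k * ρ x < δ) : x - (b k * ρ x) • v ∈ Kc ∧ ρ (x - (b k * ρ x) • v) ≤ -ρ x := by
  have h4 := H.b4 k
  obtain ⟨h1, h2⟩ := H.geo x hx _ (mul_nonneg (by linarith) h0) hk
  exact ⟨h1, by nlinarith⟩

theorem see_cont (H : SeeD a b ρ v U Kc δ) {F : Type} [NormedAddCommGroup F] [NormedSpace ℝ F]
    [CompleteSpace F] {f : E → F} (hf : ContinuousOn f {x | ρ x ≤ 0}) {ψ : ℝ → ℝ}
    (hψ : Continuous ψ) (hs : ∀ t ∈ tsupport ψ, t < δ) (j : ℕ) :
    ContinuousOn (seeH a b ρ v ψ j f) U := by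
  have hρc : Continuous ρ := H.hρ.continuous
  have hSc : IsClosed {x | ρ x ≤ 0} := isClosed_le hρc continuous_const
  obtain ⟨Cf, hCf⟩ := (H.hK.inter_right hSc).exists_bound_of_continuousOn
    (hf.mono inter_subset_right)
  obtain ⟨Cψ, hCψ⟩ := (isCompact_Icc (a := (0 : ℝ)) (b := δ)).exists_bound_of_continuousOn
    hψ.continuousOn
  set T : ℕ → E → F := fun k x =>
    (a k * b k ^ j * ψ (b k * ρ x)) • f (x - (b k * ρ x) • v) with hT
  have hTc : ∀ k, ContinuousOn (T k) (U ∩ {x | 0 ≤ ρ x}) := by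
    intro k x hx
    have hc : Continuous fun x => b k * ρ x := continuous_const.mul hρc
    by_cases h : b k * ρ x < δ
    · refine ContinuousWithinAt.smul (continuous_const.mul (hψ.comp hc)).continuousWithinAt ?_
      have h1 : {y | b k * ρ y < δ} ∈ 𝓝 x := (isOpen_lt hc continuous_const).mem_nhds h
      rw [← continuousWithinAt_inter h1]
      have hm : MapsTo (fun y => y - (b k * ρ y) • v) ((U ∩ {x | 0 ≤ ρ x}) ∩ {y | b k * ρ y < δ})
          {x | ρ x ≤ 0} := fun y hy =>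
        (H.mem hy.1.1 hy.1.2 hy.2).2.trans (neg_nonpos.2 hy.1.2)
      exact (hf.comp (continuous_id.sub (hc.smul continuous_const)).continuousOn hm) x ⟨hx, h⟩
    · have h1 : b k * ρ x ∉ tsupport ψ := fun h' => h (hs _ h')
      have h2 : ∀ᶠ y in 𝓝 x, ψ (b k * ρ y) = 0 :=
        hc.continuousAt.eventually (notMem_tsupport_iff_eventuallyEq.1 h1)
      refine ContinuousAt.continuousWithinAt (continuousAt_const (y := (0 : F)).congr ?_)
      filter_upwards [h2] with y hy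
      simp only [hT, hy, mul_zero, zero_smul]
  have hTb : ∀ k x, x ∈ U ∩ {x | 0 ≤ ρ x} → ‖T k x‖ ≤ |a k| * b k ^ j * (|Cψ| * |Cf|) := by
    intro k x hx
    have h4 := H.b4 k
    have hb0 : 0 ≤ b k := by linarith
    by_cases h : b k * ρ x < δ
    · obtain ⟨h1, h2⟩ := H.mem hx.1 hx.2 h
      have h3 := (hCf _ ⟨h1, h2.trans (neg_nonpos.2 hx.2)⟩).trans (le_abs_self _)
      have h5 := (hCψ _ ⟨mul_nonneg hb0 hx.2, h.le⟩).trans (le_abs_self _)
      simp only [hT, norm_smul, norm_mul, norm_pow, Real.norm_eq_abs, abs_of_nonneg hb0] at h5 ⊢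
      rw [mul_assoc]
      gcongr
    · have h1 : ψ (b k * ρ x) = 0 := image_eq_zero_of_notMem_tsupport fun h' => h (hs _ h')
      simp only [hT, h1, mul_zero, zero_smul, norm_zero]
      positivity
  have hA : ContinuousOn (seeH a b ρ v ψ j f) (U ∩ {x | 0 ≤ ρ x}) := by
    refine (continuousOn_tsum hTc ((H.sm j).mul_right _) hTb).congr fun x hx => ?_
    rcases (show 0 ≤ ρ x from hx.2).lt_or_eq with h | h
    · simp only [seeH, if_pos h, hT]
    · have h2 := (((H.hs j).mul_right (ψ 0)).smul_const (f x)).tsum_eq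
      simp only [seeH, hT, ← h, mul_zero, zero_smul, sub_zero, h2]
      split_ifs <;> simp
  have hB : ContinuousOn (seeH a b ρ v ψ j f) (U ∩ {x | ρ x ≤ 0}) := by
    have h1 : ContinuousOn (fun x => if j = 0 then ψ 0 • f x else 0) (U ∩ {x | ρ x ≤ 0}) := by
      split_ifs
      · exact (hf.mono inter_subset_right).const_smul _
      · exact continuousOn_const
    refine h1.congr fun x hx => ?_
    simp only [seeH, if_neg (not_lt.2 (show ρ x ≤ 0 from hx.2))]
  have hUe : U = (U ∩ {x | 0 ≤ ρ x}) ∪ (U ∩ {x | ρ x ≤ 0}) := by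
    rw [← inter_union_distrib_left]
    exact (inter_eq_left.2 fun x _ => le_total 0 (ρ x)).symm
  intro x hx
  rw [hUe, continuousWithinAt_union]
  constructor
  · by_cases h : 0 ≤ ρ x
    · exact hA x ⟨hx, h⟩
    · exact continuousWithinAt_of_notMem_closure fun h' => h
        (closure_minimal inter_subset_right (isClosed_le continuous_const hρc) h')
  · by_cases h : ρ x ≤ 0
    · exact hB x ⟨hx, h⟩
    · exact continuousWithinAt_of_notMem_closure fun h' => h
        (closure_minimal inter_subset_right hSc h')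

/-- derivative of one term -/
theorem see_term (H : SeeD a b ρ v U Kc δ) {F : Type} [NormedAddCommGroup F] [NormedSpace ℝ F]
    {f : E → F} (hf : DifferentiableOn ℝ f {x | ρ x ≤ 0}) {ψ : ℝ → ℝ}
    (hψ : Differentiable ℝ ψ) (hs : ∀ t ∈ tsupport ψ, t < δ) (j k : ℕ) {x : E} (hx : x ∈ U)
    (h0 : 0 < ρ x) :
    HasFDerivAt (fun y => (a k * b k ^ j * ψ (b k * ρ y)) • f (y - (b k * ρ y) • v))
      ((fderiv ℝ ρ x).smulRight
        ((a k * b k ^ (j + 1) * deriv ψ (b k * ρ x)) • f (x - (b k * ρ x) • v) -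
          (a k * b k ^ (j + 1) * ψ (b k * ρ x)) •
            fderivWithin ℝ f {x | ρ x ≤ 0} (x - (b k * ρ x) • v) v) +
        (a k * b k ^ j * ψ (b k * ρ x)) •
          fderivWithin ℝ f {x | ρ x ≤ 0} (x - (b k * ρ x) • v)) x := by
  have hρc : Continuous ρ := H.hρ.continuous
  have hd : HasFDerivAt ρ (fderiv ℝ ρ x) x := (H.hρ.differentiable (by simp) x).hasFDerivAt
  have h1 : HasFDerivAt (fun y => b k * ρ y) (b k • fderiv ℝ ρ x) x := hd.const_mul (b k)
  by_cases h : b k * ρ x < δ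
  · have h2 : ρ (x - (b k * ρ x) • v) < 0 := (H.mem hx h0.le h).2.trans_lt (by linarith)
    have h3 : {x | ρ x ≤ 0} ∈ 𝓝 (x - (b k * ρ x) • v) :=
      mem_of_superset ((isOpen_lt hρc continuous_const).mem_nhds h2) fun y hy => le_of_lt (show ρ y < 0 from hy)
    have h4 : HasFDerivAt f (fderivWithin ℝ f {x | ρ x ≤ 0} (x - (b k * ρ x) • v))
        (x - (b k * ρ x) • v) := (hf _ h2.le).hasFDerivWithinAt.hasFDerivAt h3
    have h5 : HasFDerivAt (fun y => y - (b k * ρ y) • v)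
        (ContinuousLinearMap.id ℝ E - (b k • fderiv ℝ ρ x).smulRight v) x :=
      (hasFDerivAt_id x).sub (h1.smul_const v)
    have h6 := HasFDerivAt.comp x (f := fun y => y - (b k * ρ y) • v) h4 h5
    have h7 := ((hψ (b k * ρ x)).hasDerivAt.comp_hasFDerivAt x h1).const_mul (a k * b k ^ j)
    refine (h7.smul h6).congr_fderiv ?_
    ext w
    simp only [_root_.add_apply, _root_.smul_apply, ContinuousLinearMap.comp_apply,
      _root_.sub_apply, ContinuousLinearMap.id_apply, ContinuousLinearMap.smulRight_apply, map_sub,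
      map_smul, Function.comp_apply, smul_eq_mul]
    module
  · have h2 : b k * ρ x ∉ tsupport ψ := fun h' => h (hs _ h')
    have h3 := notMem_tsupport_iff_eventuallyEq.1 h2
    have h4 : ψ (b k * ρ x) = 0 := image_eq_zero_of_notMem_tsupport h2
    have h5 : deriv ψ (b k * ρ x) = 0 := by rw [h3.deriv_eq]; exact deriv_const _ _
    have h6 : ∀ᶠ y in 𝓝 x, ψ (b k * ρ y) = 0 := h1.continuousAt.eventually h3
    simp only [h4, h5, mul_zero, zero_smul, sub_zero, add_zero, ContinuousLinearMap.smulRight_zero]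
    refine (hasFDerivAt_const (0 : F) x).congr_of_eventuallyEq ?_
    filter_upwards [h6] with y hy
    simp only [hy, mul_zero, zero_smul]

theorem see_finite {F : Type} [NormedAddCommGroup F] [NormedSpace ℝ F] (f : E → F) {ψ : ℝ → ℝ}
    (hs : ∀ t ∈ tsupport ψ, t < δ) (j : ℕ) {N : ℕ} {x : E} (h0 : 0 < ρ x)
    (hN : ∀ k, N ≤ k → δ ≤ b k * ρ x) :
    seeH a b ρ v ψ j f x = ∑ k ∈ Finset.range N,
      (a k * b k ^ j * ψ (b k * ρ x)) • f (x - (b k * ρ x) • v) := by
  rw [seeH, if_pos h0]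
  refine tsum_eq_sum fun k hk => ?_
  have h1 : ψ (b k * ρ x) = 0 := image_eq_zero_of_notMem_tsupport fun h' =>
    (not_lt.2 (hN k (not_lt.1 fun h => hk (Finset.mem_range.2 h)))) (hs _ h')
  rw [h1, mul_zero, zero_smul]

theorem see_deriv (H : SeeD a b ρ v U Kc δ) {F : Type} [NormedAddCommGroup F] [NormedSpace ℝ F]
    {f : E → F} (hf : DifferentiableOn ℝ f {x | ρ x ≤ 0}) {ψ : ℝ → ℝ}
    (hψ : Differentiable ℝ ψ) (hs : ∀ t ∈ tsupport ψ, t < δ) (j : ℕ) {x : E} (hx : x ∈ U)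
    (h0 : ρ x ≠ 0) :
    HasFDerivAt (seeH a b ρ v ψ j f)
      ((fderiv ℝ ρ x).smulRight (seeH a b ρ v (deriv ψ) (j + 1) f x -
          seeH a b ρ v ψ (j + 1) (fun y => fderivWithin ℝ f {x | ρ x ≤ 0} y v) x) +
        seeH a b ρ v ψ j (fderivWithin ℝ f {x | ρ x ≤ 0}) x) x := by
  have hρc : Continuous ρ := H.hρ.continuous
  rcases lt_or_gt_of_ne h0 with h | h
  · have h2 : {x | ρ x < 0} ∈ 𝓝 x := (isOpen_lt hρc continuous_const).mem_nhds h
    have h3 : {x | ρ x ≤ 0} ∈ 𝓝 x := mem_of_superset h2 fun y hy => le_of_lt (show ρ y < 0 from hy)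
    have h4 : HasFDerivAt f (fderivWithin ℝ f {x | ρ x ≤ 0} x) x :=
      (hf _ h.le).hasFDerivWithinAt.hasFDerivAt h3
    have h5 : HasFDerivAt (fun y => if j = 0 then ψ 0 • f y else 0)
        (if j = 0 then ψ 0 • fderivWithin ℝ f {x | ρ x ≤ 0} x else 0) x := by
      split_ifs
      · exact h4.const_smul _
      · exact hasFDerivAt_const _ _
    refine (h5.congr_of_eventuallyEq ?_).congr_fderiv ?_
    · filter_upwards [h2] with y hy
      simp only [seeH, if_neg (not_lt.2 (le_of_lt (show ρ y < 0 from hy)))]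
    · simp [seeH, if_neg (not_lt.2 h.le)]
  · obtain ⟨N, hN⟩ := eventually_atTop.1 (H.bt.eventually_ge_atTop (2 * |δ| / ρ x))
    have hN' : ∀ y, ρ x / 2 < ρ y → ∀ k, N ≤ k → δ ≤ b k * ρ y := fun y hy k hk => by
      have h1 := hN k hk
      rw [div_le_iff₀ h] at h1
      have h4 := H.b4 k
      nlinarith [le_abs_self δ]
    have hs' : ∀ t ∈ tsupport (deriv ψ), t < δ := fun t ht =>
      hs t (closure_minimal (support_deriv_subset (f := ψ)) (isClosed_tsupport ψ) ht)
    have h2 := HasFDerivAt.fun_sum (u := Finset.range N) fun k _ => see_term H hf hψ hs j k hx h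
    refine (h2.congr_of_eventuallyEq ?_).congr_fderiv ?_
    · filter_upwards [(isOpen_lt continuous_const hρc).mem_nhds (half_lt_self h)] with y hy
      exact see_finite f hs j ((half_pos h).trans hy) (hN' y hy)
    · rw [see_finite f hs' (j + 1) h (hN' x (half_lt_self h)),
        see_finite _ hs (j + 1) h (hN' x (half_lt_self h)),
        see_finite _ hs j h (hN' x (half_lt_self h)), Finset.sum_add_distrib,
        ← Finset.sum_sub_distrib]
      congr 1
      ext w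
      simp only [_root_.sum_apply, ContinuousLinearMap.smulRight_apply, Finset.smul_sum]

theorem see_smooth (H : SeeD a b ρ v U Kc δ) (n : ℕ) : ∀ (F : Type) [NormedAddCommGroup F]
    [NormedSpace ℝ F] [CompleteSpace F] (f : E → F), ContDiffOn ℝ ∞ f {x | ρ x ≤ 0} →
    ∀ ψ : ℝ → ℝ, ContDiff ℝ ∞ ψ → (∀ t ∈ tsupport ψ, t < δ) → ∀ j : ℕ,
      ContDiffOn ℝ n (seeH a b ρ v ψ j f) U := by
  have hρ1 : ContDiff ℝ 1 ρ := H.hρ.of_le (by exact_mod_cast le_top)
  have hS := uniqueDiffOn_sublevel hρ1 H.hne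
  induction n with
  | zero =>
    intro F _ _ _ f hf ψ hψ hs j
    exact contDiffOn_zero.2 (see_cont H hf.continuousOn hψ.continuous hs j)
  | succ n ih =>
    intro F _ _ _ f hf ψ hψ hs j
    have hf' : ContDiffOn ℝ ∞ (fderivWithin ℝ f {x | ρ x ≤ 0}) {x | ρ x ≤ 0} :=
      hf.fderivWithin hS (by simp)
    have hs' : ∀ t ∈ tsupport (deriv ψ), t < δ := fun t ht =>
      hs t (closure_minimal (support_deriv_subset (f := ψ)) (isClosed_tsupport ψ) ht)
    have hψ' : ContDiff ℝ ∞ (deriv ψ) := (contDiff_infty_iff_deriv.1 hψ).2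
    have hρ' : ContDiff ℝ n (fderiv ℝ ρ) := H.hρ.fderiv_right (by exact_mod_cast le_top)
    have hD : ContDiffOn ℝ n (fun x => (fderiv ℝ ρ x).smulRight
        (seeH a b ρ v (deriv ψ) (j + 1) f x -
          seeH a b ρ v ψ (j + 1) (fun y => fderivWithin ℝ f {x | ρ x ≤ 0} y v) x) +
        seeH a b ρ v ψ j (fderivWithin ℝ f {x | ρ x ≤ 0}) x) U :=
      (hρ'.contDiffOn.smulRight ((ih F f hf _ hψ' hs' (j + 1)).sub
        (ih F _ (hf'.clm_apply contDiffOn_const) ψ hψ hs (j + 1)))).add (ih _ _ hf' ψ hψ hs j)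
    have hd := fun x (hx : x ∈ U) => see_deriv H (hf.differentiableOn (by simp))
      (hψ.differentiable (by simp)) hs j hx
    have hall : ∀ x ∈ U, HasFDerivAt (seeH a b ρ v ψ j f) ((fderiv ℝ ρ x).smulRight
        (seeH a b ρ v (deriv ψ) (j + 1) f x -
          seeH a b ρ v ψ (j + 1) (fun y => fderivWithin ℝ f {x | ρ x ≤ 0} y v) x) +
        seeH a b ρ v ψ j (fderivWithin ℝ f {x | ρ x ≤ 0}) x) x := fun x hx => by
      by_cases h : ρ x = 0
      · exact hasFDerivAt_glue H.hU hρ1 (see_cont H hf.continuousOn hψ.continuous hs j)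
          hD.continuousOn hd hx (H.hne x h)
      · exact hd x hx h
    rw [Nat.cast_succ, contDiffOn_succ_iff_fderiv_of_isOpen H.hU]
    exact ⟨fun x hx => (hall x hx).differentiableAt.differentiableWithinAt, by simp,
      hD.congr fun x hx => (hall x hx).fderiv⟩

end

/-- Let `S = {ρ ≤ 0}` (`uniqueDiffOn_sublevel`), `fderiv ρ x0 v = 1`, `δ > 0` with `fderiv ρ x v ≥ 1/2` on `ball x0 (2 δ)`, `δ' > 0` with `δ' ‖v‖ < δ`, `U = ball x0 δ`.
For `x ∈ U` with `0 < b k * ρ x < δ'` the point `y = x - (b k * ρ x) • v` lies in `ball x0 (2 δ)` and `ρ y ≤ ρ x - b k * ρ x / 2 < 0`.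
Claim, by induction on `n : ℕ`, for all complete `F : Type`, all `f` with `ContDiffOn ℝ ∞ f S`, all smooth `ψ` with `tsupport ψ ⊆ Ioo (-δ') δ'` and all `j`:
`ContDiffOn ℝ n (seeH a b ρ v ψ j f) U`.
`n = 0`: on `U ∩ {0 ≤ ρ}` the series (also at `ρ x = 0`, where its sum is `if j = 0 then ψ 0 • f x else 0`) is a uniform limit of continuous functions (`continuousOn_tsum`, `f` bounded on
`S ∩ closedBall x0 (2 δ)`); on `U ∩ S` it is `ψ 0 • f` or `0`; `ContinuousOn.union_continuousAt`-like gluing of two relatively closed pieces (`ContinuousOn.union_of_isClosed` or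
`continuousWithinAt_union`).
Step: with `f' = fderivWithin ℝ f S`, `D x = (fderiv ℝ ρ x).smulRight (seeH (deriv ψ) (j+1) f x - seeH ψ (j+1) (fun y => f' y v) x) + seeH ψ j f' x` is `C^n` on `U`, and
`HasFDerivAt (seeH ψ j f) (D x) x` for `ρ x < 0` (locally `ψ 0 • f` or `0`), for `ρ x > 0` (near `x` only finitely many terms are nonzero since `b k → ∞`), and for `ρ x = 0` by
`hasFDerivAt_glue`; `contDiffOn_succ_iff_fderiv_of_isOpen`.  Finally take a bump `ψ` with `ψ 0 = 1`, `j = 0`. -/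
theorem seeley_local [FiniteDimensional ℝ E] {F : Type} [NormedAddCommGroup F] [NormedSpace ℝ F]
    [CompleteSpace F] {ρ : E → ℝ} (hρ : ContDiff ℝ ∞ ρ) (h : ∀ x, ρ x = 0 → fderiv ℝ ρ x ≠ 0)
    {f : E → F} (hf : ContDiffOn ℝ ∞ f {x | ρ x ≤ 0}) {x0 : E} (h0 : ρ x0 = 0) :
    ∃ U ∈ 𝓝 x0, ∃ g : E → F, ContDiffOn ℝ ∞ g U ∧ ∀ x ∈ U, ρ x ≤ 0 → g x = f x := by
  obtain ⟨a, b, b4, bt, sm, hs⟩ := exists_seeley_coeff
  have : ProperSpace E := FiniteDimensional.proper_real E
  obtain ⟨v, hv⟩ : ∃ v, fderiv ℝ ρ x0 v = 1 := by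
    obtain ⟨w, hw⟩ := DFunLike.ne_iff.1 (h x0 h0)
    refine ⟨(fderiv ℝ ρ x0 w)⁻¹ • w, ?_⟩
    rw [map_smul, smul_eq_mul]
    exact inv_mul_cancel₀ hw
  have hc : Continuous fun x => fderiv ℝ ρ x v :=
    (hρ.continuous_fderiv (by simp)).clm_apply continuous_const
  obtain ⟨r, hr, hb⟩ := Metric.mem_nhds_iff.1
    ((isOpen_lt continuous_const hc).mem_nhds (show 1 / 2 < fderiv ℝ ρ x0 v by rw [hv]; norm_num))
  have hd : Differentiable ℝ ρ := hρ.differentiable (by simp)
  set δ : ℝ := r / 2 / (‖v‖ + 1) with hδ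
  have hδ0 : 0 < δ := by positivity
  have hball : ∀ x ∈ ball x0 (r / 2), ∀ t, 0 ≤ t → t < δ → x - t • v ∈ ball x0 r := by
    intro x hx t ht0 ht
    rw [mem_ball_iff_norm] at hx ⊢
    rw [hδ, lt_div_iff₀ (by positivity)] at ht
    have h1 : x - t • v - x0 = (x - x0) - t • v := by abel
    rw [h1]
    refine (norm_sub_le _ _).trans_lt ?_
    rw [norm_smul, Real.norm_of_nonneg ht0]
    nlinarith
  have H : SeeD a b ρ v (ball x0 (r / 2)) (closedBall x0 r) δ :=
    ⟨b4, bt, sm, hs, hρ, h, isOpen_ball, isCompact_closedBall x0 r, fun x hx t ht0 ht => by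
      refine ⟨ball_subset_closedBall (hball x hx t ht0 ht), ?_⟩
      have hg : ∀ s : ℝ, HasDerivAt (fun s : ℝ => ρ (x - s • v) + s / 2)
          (fderiv ℝ ρ (x - s • v) (-v) + 1 / 2) s := fun s => by
        refine HasDerivAt.add ?_ ((hasDerivAt_id s).div_const 2)
        refine (hd _).hasFDerivAt.comp_hasDerivAt s (f := fun s : ℝ => x - s • v) ?_
        simpa using ((hasDerivAt_id s).smul_const v).const_sub x
      have hanti : AntitoneOn (fun s : ℝ => ρ (x - s • v) + s / 2) (Icc 0 t) := by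
        refine antitoneOn_of_deriv_nonpos (convex_Icc 0 t)
          (fun s _ => (hg s).continuousAt.continuousWithinAt)
          (fun s _ => (hg s).differentiableAt.differentiableWithinAt) fun s hs => ?_
        have hs' := interior_subset hs
        have h1 : 1 / 2 < fderiv ℝ ρ (x - s • v) v := hb (hball x hx s hs'.1 (hs'.2.trans_lt ht))
        rw [(hg s).deriv, map_neg]
        linarith
      have := hanti (left_mem_Icc.2 ht0) (right_mem_Icc.2 ht0) ht0
      simp only [zero_smul, sub_zero, zero_div, add_zero] at this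
      linarith⟩
  let χ : ContDiffBump (0 : ℝ) := ⟨δ / 4, δ / 2, by positivity, by linarith⟩
  have hχ : ∀ t ∈ tsupport χ, t < δ := fun t ht => by
    rw [χ.tsupport_eq, mem_closedBall_zero_iff, Real.norm_eq_abs] at ht
    have h1 : |t| ≤ δ / 2 := ht
    linarith [le_abs_self t]
  refine ⟨ball x0 (r / 2), ball_mem_nhds x0 (half_pos hr), seeH a b ρ v χ 0 f,
    contDiffOn_infty.2 fun n => see_smooth H n F f hf χ χ.contDiff hχ 0, fun x _ hx => ?_⟩
  have h1 : χ 0 = 1 := χ.one_of_mem_closedBall (mem_closedBall_self χ.rIn_pos.le)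
  simp only [seeH, if_neg (not_lt.2 hx), if_true, h1, one_smul]

end Crest.Agent.R80
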