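import Crest.Agent.R80.Core2

/-!
# R80: peaked solutions and transport equations on the planes spanned by `Re θ`, `Im θ`
-/

set_option autoImplicit false

namespace Crest.Agent.R80

open MeasureTheory Finset
open scoped ContDiff

/-- directional derivatives only depend on the restriction to the line -/
theorem slice_dir {E F : Type} [NormedAddCommGroup E] [NormedSpace ℝ E] [NormedAddCommGroup F]
    [NormedSpace ℝ F] {f : E → ℂ} {g : F → ℂ} {x v : E} {z w : F} (hf : DifferentiableAt ℝ f x)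
    (hg : DifferentiableAt ℝ g z) (h : ∀ t : ℝ, f (x + t • v) = g (z + t • w)) :
    fderiv ℝ f x v = fderiv ℝ g z w := by
  rw [← hf.lineDeriv_eq_fderiv, ← hg.lineDeriv_eq_fderiv]
  simp only [lineDeriv, h]

/-- the vector with coordinates `r` -/
noncomputable def slVec (r : Fin 3 → ℝ) : E3 := ∑ j, r j • e j

theorem slVec_apply (r : Fin 3 → ℝ) (k : Fin 3) : slVec r k = r k := by
  fin_cases k <;> simp [slVec, Fin.sum_univ_three]

/-- `Re θ` -/
noncomputable def slA (θ : C3) : E3 := slVec fun j => (θ j).re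
/-- `Im θ` -/
noncomputable def slB (θ : C3) : E3 := slVec fun j => (θ j).im
/-- `‖Re θ‖ ^ 2` -/
noncomputable def slL (θ : C3) : ℝ := ∑ j, (θ j).re ^ 2
/-- the complex coordinate on the planes -/
noncomputable def slZ (θ : C3) (x : E3) : ℂ := (slL θ)⁻¹ • ∑ j, x j • θ j
/-- the projection along the planes -/
noncomputable def slP (θ : C3) (x : E3) : E3 := x - (slZ θ x).re • slA θ - (slZ θ x).im • slB θ

theorem slice_null {θ : C3} (h : Null θ) :
    ∑ j, (θ j).im ^ 2 = slL θ ∧ ∑ j, (θ j).re * (θ j).im = 0 ∧ slL θ ≠ 0 := by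
  have h1 := congrArg Complex.re h.1
  have h2 := congrArg Complex.im h.1
  simp only [Fin.sum_univ_three, pow_two, Complex.add_re, Complex.mul_re, Complex.zero_re,
    Complex.add_im, Complex.mul_im, Complex.zero_im] at h1 h2
  simp only [slL, Fin.sum_univ_three]
  refine ⟨by linarith, by linarith, fun h0 => h.2 ?_⟩
  have a0 : (θ 0).re = 0 := by nlinarith [sq_nonneg (θ 0).re, sq_nonneg (θ 1).re, sq_nonneg (θ 2).re]
  have a1 : (θ 1).re = 0 := by nlinarith [sq_nonneg (θ 0).re, sq_nonneg (θ 1).re, sq_nonneg (θ 2).re]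
  have a2 : (θ 2).re = 0 := by nlinarith [sq_nonneg (θ 0).re, sq_nonneg (θ 1).re, sq_nonneg (θ 2).re]
  rw [a0, a1, a2] at h1
  have b0 : (θ 0).im = 0 := by nlinarith [sq_nonneg (θ 0).im, sq_nonneg (θ 1).im, sq_nonneg (θ 2).im]
  have b1 : (θ 1).im = 0 := by nlinarith [sq_nonneg (θ 0).im, sq_nonneg (θ 1).im, sq_nonneg (θ 2).im]
  have b2 : (θ 2).im = 0 := by nlinarith [sq_nonneg (θ 0).im, sq_nonneg (θ 1).im, sq_nonneg (θ 2).im]
  funext j
  fin_cases j
  · exact Complex.ext a0 b0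
  · exact Complex.ext a1 b1
  · exact Complex.ext a2 b2

theorem slZ_add (θ : C3) (x v : E3) (t : ℝ) : slZ θ (x + t • v) = slZ θ x + t • slZ θ v := by
  simp only [slZ, PiLp.add_apply, PiLp.smul_apply, smul_eq_mul, add_smul, mul_smul,
    Finset.sum_add_distrib, smul_add, ← Finset.smul_sum]
  rw [smul_comm t]

theorem slZ_A {θ : C3} (h : Null θ) : slZ θ (slA θ) = 1 := by
  obtain ⟨-, h2, h3⟩ := slice_null h
  have : ∑ j, slA θ j • θ j = (slL θ : ℂ) := by
    apply Complex.ext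
    · simp [slA, slVec_apply, slL, pow_two]
    · simpa [slA, slVec_apply] using h2
  rw [slZ, this, Complex.real_smul, ← Complex.ofReal_mul, inv_mul_cancel₀ h3, Complex.ofReal_one]

theorem slZ_B {θ : C3} (h : Null θ) : slZ θ (slB θ) = Complex.I := by
  obtain ⟨h1, h2, h3⟩ := slice_null h
  have : ∑ j, slB θ j • θ j = (slL θ : ℂ) * Complex.I := by
    apply Complex.ext
    · simpa [slB, slVec_apply, mul_comm] using h2
    · simpa [slB, slVec_apply, pow_two] using h1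
  rw [slZ, this, Complex.real_smul, ← mul_assoc, ← Complex.ofReal_mul, inv_mul_cancel₀ h3,
    Complex.ofReal_one, one_mul]

theorem slP_A {θ : C3} (h : Null θ) (x : E3) (t : ℝ) : slP θ (x + t • slA θ) = slP θ x := by
  simp only [slP, slZ_add, slZ_A h, Complex.add_re, Complex.add_im, Complex.smul_re, Complex.smul_im,
    Complex.one_re, Complex.one_im, smul_eq_mul, mul_one, mul_zero, add_zero, add_smul]
  abel

theorem slP_B {θ : C3} (h : Null θ) (x : E3) (t : ℝ) : slP θ (x + t • slB θ) = slP θ x := by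
  simp only [slP, slZ_add, slZ_B h, Complex.add_re, Complex.add_im, Complex.smul_re, Complex.smul_im,
    Complex.I_re, Complex.I_im, smul_eq_mul, mul_one, mul_zero, add_zero, add_smul]
  abel

theorem slice_sum (θ : C3) (D : E3 →L[ℝ] ℂ) :
    ∑ j, θ j * D (e j) = D (slA θ) + Complex.I * D (slB θ) := by
  simp only [slA, slB, slVec, map_sum, map_smul, Complex.real_smul, Finset.mul_sum,
    ← Finset.sum_add_distrib]
  refine Finset.sum_congr rfl fun j _ => ?_
  nth_rewrite 1 [← Complex.re_add_im (θ j)]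
  ring

section smooth
variable {P : Type} [NormedAddCommGroup P] [NormedSpace ℝ P] {θ : P → C3}

theorem slice_re (hθ : ContDiff ℝ ∞ θ) (j : Fin 3) : ContDiff ℝ ∞ fun p => (θ p j).re :=
  Complex.reCLM.contDiff.comp (contDiff_pi.1 hθ j)

theorem slice_im (hθ : ContDiff ℝ ∞ θ) (j : Fin 3) : ContDiff ℝ ∞ fun p => (θ p j).im :=
  Complex.imCLM.contDiff.comp (contDiff_pi.1 hθ j)

theorem slA_smooth (hθ : ContDiff ℝ ∞ θ) : ContDiff ℝ ∞ fun p => slA (θ p) :=
  ContDiff.sum (s := Finset.univ) (f := fun j p => (θ p j).re • e j) fun j _ => (slice_re hθ j).smul contDiff_const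

theorem slB_smooth (hθ : ContDiff ℝ ∞ θ) : ContDiff ℝ ∞ fun p => slB (θ p) :=
  ContDiff.sum (s := Finset.univ) (f := fun j p => (θ p j).im • e j) fun j _ => (slice_im hθ j).smul contDiff_const

theorem slZ_smooth (hθ : ContDiff ℝ ∞ θ) (hn : ∀ p, Null (θ p)) {x : P → E3}
    (hx : ContDiff ℝ ∞ x) : ContDiff ℝ ∞ fun p => slZ (θ p) (x p) := by
  have h1 : ContDiff ℝ ∞ fun p => slL (θ p) := ContDiff.sum fun j _ => (slice_re hθ j).pow 2
  refine (h1.inv fun p => (slice_null (hn p)).2.2).smul (ContDiff.sum fun j _ => ?_)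
  exact ((EuclideanSpace.proj j : E3 →L[ℝ] ℝ).contDiff.comp hx).smul (contDiff_pi.1 hθ j)

theorem slP_smooth (hθ : ContDiff ℝ ∞ θ) (hn : ∀ p, Null (θ p)) {x : P → E3}
    (hx : ContDiff ℝ ∞ x) : ContDiff ℝ ∞ fun p => slP (θ p) (x p) :=
  (hx.sub ((Complex.reCLM.contDiff.comp (slZ_smooth hθ hn hx)).smul (slA_smooth hθ))).sub
    ((Complex.imCLM.contDiff.comp (slZ_smooth hθ hn hx)).smul (slB_smooth hθ))

end smooth

/-- Let `α s, β s : E3` be the real and imaginary parts of `θ s`, `ℓ s = ‖α s‖² = ‖β s‖² > 0`, `⟪α, β⟫ = 0` (from `Null`);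
`zc (s, x) = (∑ j, θ s j * x j) / ℓ s`, `π (s, x) = x - (zc).re • α s - (zc).im • β s`.  Parameter space `Q = ℂ × E3`.
Let `χ` be a smooth bump on `ℂ × (ℂ × E3)` equal to `1` on the (bounded) image of `closedBall 0 ρ ×ˢ closedBall 0 R` under `(s, x) ↦ (zc, (s, π))`;
apply `core2` to `a' i j (z, (s, y)) = χ * a i j (s, y + z.re • α s + z.im • β s) / 2`, the same for `g`, and `z0 = zc (s0, x0)`;
`u i (s, x) = U i (zc (s, x), (s, π (s, x)))`.  For fixed `s` the map `x ↦ (zc, π)` is real linear and sends `α ↦ (1, 0)`, `β ↦ (I, 0)`, so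
`∑ j, θ j * ∂ⱼ u = D u α + I * D u β = 2 * dbar U`. -/
theorem slice (ι : Type) [Fintype ι] (θ : ℂ → C3) (hθ : ContDiff ℝ ∞ θ) (hn : ∀ s, Null (θ s))
    (a : ι → ι → ℂ × E3 → ℂ) (g : ι → ℂ × E3 → ℂ) (ha : ∀ i j, ContDiff ℝ ∞ (a i j))
    (hg : ∀ i, ContDiff ℝ ∞ (g i)) (ρ R : ℝ) (s0 : ℂ) (x0 : E3) (c : ι → ℂ) (ε : ℝ) (hε : 0 < ε) :
    ∃ u : ι → ℂ × E3 → ℂ, (∀ i, ContDiff ℝ ∞ (u i)) ∧
      (∀ s x, ‖s‖ ≤ ρ → ‖x‖ ≤ R → ∀ i,
        ∑ j, θ s j * fderiv ℝ (fun x => u i (s, x)) x (e j) =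
          ∑ j, a i j (s, x) * u j (s, x) + g i (s, x)) ∧
      ((∀ i p, g i p = 0) → ∀ i, ‖u i (s0, x0) - c i‖ ≤ ε) := by
  have hθ1 : ContDiff ℝ ∞ fun p : ℂ × E3 => θ p.1 := hθ.comp contDiff_fst
  obtain ⟨Φ, hΦ⟩ : ∃ Φ : ℂ × E3 → ℂ × (ℂ × E3),
      Φ = fun p => (slZ (θ p.1) p.2, (p.1, slP (θ p.1) p.2)) := ⟨_, rfl⟩
  obtain ⟨Ψ, hΨ⟩ : ∃ Ψ : ℂ × (ℂ × E3) → ℂ × E3,
      Ψ = fun q => (q.2.1, q.2.2 + q.1.re • slA (θ q.2.1) + q.1.im • slB (θ q.2.1)) := ⟨_, rfl⟩
  have hΦs : ContDiff ℝ ∞ Φ := by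
    rw [hΦ]
    exact (slZ_smooth hθ1 (fun p => hn p.1) contDiff_snd).prodMk
      (contDiff_fst.prodMk (slP_smooth hθ1 (fun p => hn p.1) contDiff_snd))
  have hΨs : ContDiff ℝ ∞ Ψ := by
    rw [hΨ]
    have h2 : ContDiff ℝ ∞ fun q : ℂ × (ℂ × E3) => θ q.2.1 := hθ.comp contDiff_snd.fst
    exact contDiff_snd.fst.prodMk ((contDiff_snd.snd.add
      ((Complex.reCLM.contDiff.comp contDiff_fst).smul (slA_smooth h2))).add
      ((Complex.imCLM.contDiff.comp contDiff_fst).smul (slB_smooth h2)))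
  have hΨΦ : ∀ p, Ψ (Φ p) = p := fun p => by
    rw [hΨ, hΦ]
    refine Prod.ext rfl ?_
    simp only [slP]
    abel
  have hK : IsCompact (Metric.closedBall (0 : ℂ) ρ ×ˢ Metric.closedBall (0 : E3) R) :=
    (isCompact_closedBall _ _).prod (isCompact_closedBall _ _)
  obtain ⟨r, hr, hsub⟩ := (hK.image hΦs.continuous).isBounded.subset_closedBall_lt 0 0
  let χ : ContDiffBump (0 : ℂ × (ℂ × E3)) := ⟨r, r + 1, hr, by linarith⟩
  have hχ1 : ∀ s x, ‖s‖ ≤ ρ → ‖x‖ ≤ R → χ (Φ (s, x)) = 1 := fun s x hs hx =>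
    χ.one_of_mem_closedBall (hsub ⟨(s, x), ⟨by simpa using hs, by simpa using hx⟩, rfl⟩)
  have hcut : ∀ {f : ℂ × E3 → ℂ}, ContDiff ℝ ∞ f →
      ContDiff ℝ ∞ (fun q => (χ q / 2) • f (Ψ q)) ∧ HasCompactSupport fun q => (χ q / 2) • f (Ψ q) :=
    fun hf => ⟨(χ.contDiff.div_const 2).smul (hf.comp hΨs),
      χ.hasCompactSupport.mono fun q hq h0 => hq (by simp [h0])⟩
  obtain ⟨U, hU, hUe, hUc⟩ := core2 ι (ℂ × E3) (fun i j q => (χ q / 2) • a i j (Ψ q))
    (fun i q => (χ q / 2) • g i (Ψ q)) (fun i j => (hcut (ha i j)).1) (fun i j => (hcut (ha i j)).2)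
    (fun i => (hcut (hg i)).1) (fun i => (hcut (hg i)).2) (slZ (θ s0) x0) c ε hε
  refine ⟨fun i p => U i (Φ p), fun i => (hU i).comp hΦs, fun s x hs hx i => ?_, fun h0 i => ?_⟩
  · have hd1 : DifferentiableAt ℝ (fun x => U i (Φ (s, x))) x :=
      (((hU i).comp (hΦs.comp (contDiff_const.prodMk contDiff_id))).differentiable (by simp)) x
    have hd2 : DifferentiableAt ℝ (fun z => U i (z, (s, slP (θ s) x))) (slZ (θ s) x) :=
      (((hU i).comp (contDiff_id.prodMk contDiff_const)).differentiable (by simp)) _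
    have e1 := slice_dir (v := slA (θ s)) (w := 1) hd1 hd2 fun t => by
      simp only [hΦ, slZ_add, slZ_A (hn s), slP_A (hn s)]
    have e2 := slice_dir (v := slB (θ s)) (w := Complex.I) hd1 hd2 fun t => by
      simp only [hΦ, slZ_add, slZ_B (hn s), slP_B (hn s)]
    have e3 := hUe i (slZ (θ s) x) (s, slP (θ s) x)
    have e4 : (slZ (θ s) x, (s, slP (θ s) x)) = Φ (s, x) := by rw [hΦ]
    simp only [dbar, e4, hχ1 s x hs hx, hΨΦ, Complex.real_smul, mul_assoc, ← Finset.mul_sum] at e3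
    rw [slice_sum, e1, e2]
    push_cast at e3
    linear_combination 2 * e3
  · have := hUc (fun i p => by simp [h0]) i (s0, slP (θ s0) x0)
    simpa only [hΦ] using this

end Crest.Agent.R80
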