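import Crest.Agent.R80.Defs

/-!
# R80: the differential algebra of smooth functions on `ℝ³`.  DO NOT CHANGE (owner helper71).
-/

set_option autoImplicit false

namespace Crest.Agent.R80

open Finset MeasureTheory Metric
open scoped ContDiff

abbrev E3 : Type := EuclideanSpace ℝ (Fin 3)

/-- standard basis -/
noncomputable abbrev e (j : Fin 3) : E3 := EuclideanSpace.single j 1

/-- smooth complex functions on `ℝ³` -/
noncomputable def SmA : Subalgebra ℂ (E3 → ℂ) where
  carrier := {f | ContDiff ℝ ∞ f}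
  mul_mem' := fun {f g} (hf : ContDiff ℝ ∞ f) (hg : ContDiff ℝ ∞ g) =>
    (hf.mul hg : ContDiff ℝ ∞ fun x => f x * g x)
  add_mem' := fun {f g} (hf : ContDiff ℝ ∞ f) (hg : ContDiff ℝ ∞ g) =>
    (hf.add hg : ContDiff ℝ ∞ fun x => f x + g x)
  algebraMap_mem' := fun c => (contDiff_const : ContDiff ℝ ∞ fun _ : E3 => c)

/-- smooth complex functions on `ℝ³`, as a type -/
abbrev Sm : Type := SmA

instance : CoeFun Sm fun _ => E3 → ℂ := ⟨Subtype.val⟩

namespace Sm

theorem smooth (f : Sm) : ContDiff ℝ ∞ (f : E3 → ℂ) := f.2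

theorem cont (f : Sm) : Continuous (f : E3 → ℂ) := f.smooth.continuous

theorem diff (f : Sm) : Differentiable ℝ (f : E3 → ℂ) := f.smooth.differentiable (by simp)

/-- constructor -/
def mk' (f : E3 → ℂ) (hf : ContDiff ℝ ∞ f) : Sm := ⟨f, hf⟩

@[simp] theorem mk'_apply (f : E3 → ℂ) (hf : ContDiff ℝ ∞ f) (x : E3) : mk' f hf x = f x := rfl

theorem ext' {f g : Sm} (h : ∀ x, f x = g x) : f = g := Subtype.ext (funext h)

@[simp] theorem add_apply (f g : Sm) (x : E3) : (f + g) x = f x + g x := rfl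
@[simp] theorem sub_apply (f g : Sm) (x : E3) : (f - g) x = f x - g x := rfl
@[simp] theorem mul_apply (f g : Sm) (x : E3) : (f * g) x = f x * g x := rfl
@[simp] theorem neg_apply (f : Sm) (x : E3) : (-f) x = -f x := rfl
@[simp] theorem smul_apply (c : ℂ) (f : Sm) (x : E3) : (c • f) x = c * f x := rfl
@[simp] theorem zero_apply (x : E3) : (0 : Sm) x = 0 := rfl
@[simp] theorem one_apply (x : E3) : (1 : Sm) x = 1 := rfl
@[simp] theorem two_apply (x : E3) : (2 : Sm) x = 2 := rfl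
@[simp] theorem pow_apply (f : Sm) (n : ℕ) (x : E3) : (f ^ n) x = f x ^ n := rfl
@[simp] theorem algebraMap_apply (c : ℂ) (x : E3) : (algebraMap ℂ Sm c) x = c := rfl

/-- evaluation at a point -/
noncomputable def evalAt (x : E3) : Sm →ₐ[ℂ] ℂ := (Pi.evalAlgHom ℂ (fun _ : E3 => ℂ) x).comp SmA.val

@[simp] theorem evalAt_apply (x : E3) (f : Sm) : evalAt x f = f x := rfl

@[simp] theorem sum_apply {κ : Type*} (s : Finset κ) (f : κ → Sm) (x : E3) :
    (∑ i ∈ s, f i) x = ∑ i ∈ s, f i x := map_sum (evalAt x) f s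

end Sm

theorem contDiff_fderiv_e {f : E3 → ℂ} (hf : ContDiff ℝ ∞ f) (v : E3) :
    ContDiff ℝ ∞ fun x => fderiv ℝ f x v :=
  (hf.fderiv_right (m := ∞) (by simp)).clm_apply contDiff_const

/-- partial derivative -/
noncomputable def pd (j : Fin 3) : Derivation ℂ Sm Sm :=
  Derivation.mk'
    { toFun := fun f => Sm.mk' (fun x => fderiv ℝ (f : E3 → ℂ) x (e j)) (contDiff_fderiv_e f.smooth _)
      map_add' := fun f g => Sm.ext' fun x => by
        have : ((f + g : Sm) : E3 → ℂ) = (f : E3 → ℂ) + (g : E3 → ℂ) := rfl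
        simp only [Sm.mk'_apply, Sm.add_apply]
        rw [this, fderiv_add (f.diff x) (g.diff x)]
        rfl
      map_smul' := fun c f => Sm.ext' fun x => by
        have : ((c • f : Sm) : E3 → ℂ) = c • (f : E3 → ℂ) := rfl
        simp only [Sm.mk'_apply, RingHom.id_apply, Sm.smul_apply]
        rw [this, fderiv_const_smul (f.diff x)]
        rfl }
    fun f g => Sm.ext' fun x => by
      have : ((f * g : Sm) : E3 → ℂ) = (f : E3 → ℂ) * (g : E3 → ℂ) := rfl
      change fderiv ℝ ((f * g : Sm) : E3 → ℂ) x (e j) =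
        f x * fderiv ℝ (g : E3 → ℂ) x (e j) + g x * fderiv ℝ (f : E3 → ℂ) x (e j)
      rw [this, fderiv_mul (f.diff x) (g.diff x)]
      rfl

theorem pd_apply (j : Fin 3) (f : Sm) (x : E3) : pd j f x = fderiv ℝ (f : E3 → ℂ) x (e j) := rfl

theorem pd_comm (i j : Fin 3) (f : Sm) : pd i (pd j f) = pd j (pd i f) := by
  refine Sm.ext' fun x => ?_
  have hd : DifferentiableAt ℝ (fderiv ℝ (f : E3 → ℂ)) x :=
    ((f.smooth.fderiv_right (m := ∞) (by simp)).differentiable (by simp)) x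
  have key : ∀ a b : E3, fderiv ℝ (fun y => fderiv ℝ (f : E3 → ℂ) y a) x b =
      fderiv ℝ (fderiv ℝ (f : E3 → ℂ)) x b a := fun a b => by
    rw [fderiv_clm_apply hd (differentiableAt_const a)]
    simp
  change fderiv ℝ (fun y => fderiv ℝ (f : E3 → ℂ) y (e j)) x (e i) =
    fderiv ℝ (fun y => fderiv ℝ (f : E3 → ℂ) y (e i)) x (e j)
  rw [key, key]
  exact (f.smooth.contDiffAt.isSymmSndFDerivAt (by simp; exact ENat.LEInfty.out)).eq _ _

/-- coordinates -/
noncomputable def xS (j : Fin 3) : Sm :=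
  Sm.mk' (fun x => (x j : ℂ)) 
    (Complex.ofRealCLM.comp (EuclideanSpace.proj j : E3 →L[ℝ] ℝ)).contDiff

@[simp] theorem xS_apply (j : Fin 3) (x : E3) : xS j x = (x j : ℂ) := rfl

theorem pd_xS (i j : Fin 3) : pd i (xS j) = if i = j then 1 else 0 := by
  refine Sm.ext' fun x => ?_
  have h : HasFDerivAt (xS j : E3 → ℂ)
      (Complex.ofRealCLM.comp (EuclideanSpace.proj j : E3 →L[ℝ] ℝ)) x :=
    (Complex.ofRealCLM.comp (EuclideanSpace.proj j : E3 →L[ℝ] ℝ)).hasFDerivAt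
  rw [pd_apply, h.fderiv]
  by_cases hij : i = j
  · subst hij; simp
  · simp [hij, Ne.symm hij]

/-- exponential of a smooth function -/
noncomputable def Sm.exp (f : Sm) : Sm :=
  Sm.mk' (fun x => Complex.exp (f x)) ((Complex.contDiff_exp (𝕜 := ℝ)).comp f.smooth)

@[simp] theorem Sm.exp_apply (f : Sm) (x : E3) : f.exp x = Complex.exp (f x) := rfl

theorem pd_exp (j : Fin 3) (f : Sm) : pd j f.exp = f.exp * pd j f := by
  refine Sm.ext' fun x => ?_
  have h : HasFDerivAt (f.exp : E3 → ℂ) _ x := (f.diff x).hasFDerivAt.cexp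
  rw [pd_apply, h.fderiv]
  rfl

/-- complex conjugate -/
noncomputable def Sm.cj (f : Sm) : Sm :=
  Sm.mk' (fun x => (starRingEnd ℂ) (f x)) (Complex.conjCLE.contDiff.comp f.smooth)

@[simp] theorem Sm.cj_apply (f : Sm) (x : E3) : f.cj x = (starRingEnd ℂ) (f x) := rfl

theorem pd_cj (j : Fin 3) (f : Sm) : pd j f.cj = (pd j f).cj := by
  refine Sm.ext' fun x => ?_
  have h : HasFDerivAt (f.cj : E3 → ℂ) _ x :=
    Complex.conjCLE.toContinuousLinearMap.hasFDerivAt.comp x (f.diff x).hasFDerivAt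
  rw [pd_apply, h.fderiv]
  rfl

/-- a real smooth function as an element of `Sm` -/
noncomputable def Sm.ofR (f : E3 → ℝ) (hf : ContDiff ℝ ∞ f) : Sm :=
  Sm.mk' (fun x => (f x : ℂ)) (Complex.ofRealCLM.contDiff.comp hf)

@[simp] theorem Sm.ofR_apply (f : E3 → ℝ) (hf : ContDiff ℝ ∞ f) (x : E3) :
    Sm.ofR f hf x = (f x : ℂ) := rfl

/-- `e^{ζ · x}` -/
noncomputable def exS (ζ : C3) : Sm := (dot ζ xS).exp

theorem exS_apply (ζ : C3) (x : E3) : exS ζ x = Complex.exp (∑ j, ζ j * x j) := by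
  simp [exS, dot]

/-- smooth functions as a differential algebra with exponentials -/
noncomputable def sm : EA Sm where
  d := pd
  comm := pd_comm
  ex := exS
  ex_neg ζ := Sm.ext' fun x => by
    simp [exS_apply, ← Complex.exp_add]
  d_ex ζ j := by
    have : pd j (dot ζ xS) = ζ j • (1 : Sm) := by
      simp [dot, pd_xS]
    rw [exS, pd_exp, this, mul_smul_comm, mul_one]

@[simp] theorem sm_d : sm.d = pd := rfl

@[simp] theorem sm_ex : sm.ex = exS := rfl

/-- functions vanishing on the ball of radius `R` -/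
noncomputable def vanI (R : ℝ) : Ideal Sm where
  carrier := {f | ∀ x ∈ ball (0 : E3) R, f x = 0}
  add_mem' := fun {f g} hf hg x hx => by simp [hf x hx, hg x hx]
  zero_mem' := fun _ _ => rfl
  smul_mem' := fun c f hf x hx => by simp [hf x hx]

theorem mem_vanI {R : ℝ} {f : Sm} : f ∈ vanI R ↔ ∀ x ∈ ball (0 : E3) R, f x = 0 := Iff.rfl

theorem pd_mem_vanI {R : ℝ} {f : Sm} (hf : f ∈ vanI R) (j : Fin 3) : pd j f ∈ vanI R := by
  intro x hx
  have : (f : E3 → ℂ) =ᶠ[nhds x] fun _ => 0 :=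
    Filter.eventually_of_mem (isOpen_ball.mem_nhds hx) fun y hy => hf y hy
  rw [pd_apply, this.fderiv_eq]
  simp

/-- (compact) support in the ball of radius `R` -/
def Cs (R : ℝ) (f : Sm) : Prop := tsupport (f : E3 → ℂ) ⊆ ball 0 R

theorem Cs.compact {R : ℝ} {f : Sm} (h : Cs R f) : HasCompactSupport (f : E3 → ℂ) :=
  Metric.isCompact_of_isClosed_isBounded (isClosed_tsupport _) (isBounded_ball.subset h)

theorem Cs.pd {R : ℝ} {f : Sm} (h : Cs R f) (j : Fin 3) : Cs R (pd j f) :=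
  (tsupport_fderiv_apply_subset ℝ (e j)).trans h

theorem Cs.mul_left {R : ℝ} {f : Sm} (h : Cs R f) (g : Sm) : Cs R (g * f) :=
  (tsupport_mul_subset_right (f := (g : E3 → ℂ)) (g := (f : E3 → ℂ))).trans h

theorem Cs.mul_right {R : ℝ} {f : Sm} (h : Cs R f) (g : Sm) : Cs R (f * g) :=
  (tsupport_mul_subset_left (f := (f : E3 → ℂ)) (g := (g : E3 → ℂ))).trans h

theorem Cs.add {R : ℝ} {f g : Sm} (hf : Cs R f) (hg : Cs R g) : Cs R (f + g) :=
  (tsupport_add (f : E3 → ℂ) (g : E3 → ℂ)).trans (Set.union_subset hf hg)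

theorem Cs.zero (R : ℝ) : Cs R 0 := by
  simp [Cs]

theorem Cs.smul {R : ℝ} {f : Sm} (h : Cs R f) (c : ℂ) : Cs R (c • f) := by
  rw [Algebra.smul_def]
  exact h.mul_left _

theorem Cs.neg {R : ℝ} {f : Sm} (h : Cs R f) : Cs R (-f) := by
  simpa using h.smul (-1)

theorem Cs.sub {R : ℝ} {f g : Sm} (hf : Cs R f) (hg : Cs R g) : Cs R (f - g) := by
  rw [sub_eq_add_neg]
  exact hf.add hg.neg

theorem Cs.sum {R : ℝ} {κ : Type*} {s : Finset κ} {f : κ → Sm} (h : ∀ i ∈ s, Cs R (f i)) :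
    Cs R (∑ i ∈ s, f i) :=
  Finset.sum_induction f (Cs R) (fun _ _ => Cs.add) (Cs.zero R) h

theorem Cs.integrable {R : ℝ} {f : Sm} (h : Cs R f) : Integrable (f : E3 → ℂ) :=
  f.cont.integrable_of_hasCompactSupport h.compact

theorem Cs.integral_pd {R : ℝ} {f : Sm} (h : Cs R f) (j : Fin 3) : ∫ x, R80.pd j f x = 0 := by
  have := integral_mul_fderiv_eq_neg_fderiv_mul_of_integrable (μ := volume)
    (f := fun _ : E3 => (1 : ℂ)) (g := (f : E3 → ℂ)) (v := e j) (by simp)
    (by simp only [one_mul]; exact (h.pd j).integrable) (by simpa using h.integrable)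
    (fun _ _ => differentiableAt_const _) (fun x _ => f.diff x)
  simpa [pd_apply] using this

/-- jointly smooth families -/
def JS (F : ℂ → Sm) : Prop := ContDiff ℝ ∞ fun p : ℂ × E3 => F p.1 p.2

/-- functionals that see only the ball of radius `R` and commute with differentiation in a parameter -/
def GoodS (R : ℝ) (ℓ : Fnl Sm) : Prop :=
  (∀ f ∈ vanI R, ℓ f = 0) ∧ ∀ F : ℂ → Sm, JS F → ∀ s : ℂ,
    DifferentiableAt ℝ (fun s => ℓ (F s)) s ∧
      ∀ (v : ℂ) (g : Sm), (∀ x, g x = fderiv ℝ (fun s' => F s' x) s v) →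
        fderiv ℝ (fun s => ℓ (F s)) s v = ℓ g

/-- `∂/∂z̄` -/
noncomputable def dbar (u : ℂ → ℂ) (z : ℂ) : ℂ :=
  (fderiv ℝ u z 1 + Complex.I * fderiv ℝ u z Complex.I) / 2

/-- the Cauchy kernel with Gaussian weight (right inverse of `dbar + κ z / 2`) -/
noncomputable def gk (κ : ℝ) (z y : ℂ) : ℂ :=
  ((Real.pi : ℂ) * y)⁻¹ * Complex.exp ((κ : ℂ) / 2 *
    ((starRingEnd ℂ) z * y - z * (starRingEnd ℂ) y - y * (starRingEnd ℂ) y))

/-- the convexified Carleman weight -/
noncomputable def cw (α : E3) (κ τ : ℝ) (x : E3) : ℝ :=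
  τ * inner ℝ α x + κ * inner ℝ α x ^ 2 / 2

end Crest.Agent.R80
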