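import Crest.Agent.R80.Slice
import Crest.Agent.R80.Good

/-!
# R80: transport equations in `Sm`
-/

set_option autoImplicit false

namespace Crest.Agent.R80

open Finset Metric
open scoped ContDiff

variable {ι : Type} [Fintype ι]

theorem T_apply_pt (A : Fin 3 → ι → ι → Sm) (θ : C3) (V : ι → Sm) (a : ι) (x : E3) :
    sm.T A θ V a x = 2 * ∑ j, θ j * pd j (V a) x + ∑ j, ∑ b, θ j * (A j a b x * V b x) := by
  simp [DA.T_apply, DA.dir_apply]

theorem trans_fam (A : Fin 3 → ι → ι → Sm) (θ : ℂ → C3) (hθ : ContDiff ℝ ∞ θ) (hn : ∀ s, Null (θ s))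
    (ψ : ℂ → ι → Sm) (hψ : ∀ a, JS fun s => ψ s a) (R ρ : ℝ) (s0 : ℂ) (x0 : E3) (c : ι → ℂ) {ε : ℝ}
    (hε : 0 < ε) : ∃ Z : ℂ → ι → Sm, (∀ a, JS fun s => Z s a) ∧
      (∀ s, ‖s‖ ≤ ρ → ∀ a, sm.T A (θ s) (Z s) a - ψ s a ∈ vanI R) ∧
      ((∀ s a, ψ s a = 0) → ∀ a, ‖Z s0 a x0 - c a‖ ≤ ε) := by
  obtain ⟨u, hu, h1, h2⟩ := slice ι θ hθ hn (fun i j p => -(∑ l, θ p.1 l * A l i j p.2) / 2)
    (fun i p => ψ p.1 i p.2 / 2)
    (fun i j => (ContDiff.sum fun l _ => ((contDiff_pi.1 hθ l).comp contDiff_fst).mul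
      ((A l i j).smooth.comp contDiff_snd)).neg.div_const 2)
    (fun i => ContDiff.div_const (hψ i) 2) ρ R s0 x0 c ε hε
  choose Z hZ hZu using fun i => exists_JS (hu i)
  refine ⟨fun s i => Z i s, hZ, fun s hs a x hx => ?_, fun h0 a => ?_⟩
  · have e : ∀ j, pd j (Z a s) x = fderiv ℝ (fun x => u a (s, x)) x (e j) := fun j => by
      rw [pd_apply, show (Z a s : E3 → ℂ) = fun x => u a (s, x) from funext (hZu a s)]
    have h := h1 s x hs (mem_ball_zero_iff.1 hx).le a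
    rw [Sm.sub_apply, T_apply_pt]
    simp only [e, hZu]
    rw [h, sum_comm (f := fun j b => θ s j * _), mul_add, mul_sum, add_right_comm, ← sum_add_distrib,
      sum_eq_zero fun b _ => ?_]
    · ring
    · simp only [← mul_assoc, ← sum_mul]
      ring
  · rw [hZu]
    exact h2 (fun i p => by simp [h0]) a

/-- `slice` with `a i j (s, x) = -(∑ l, θ s l * A l i j x) / 2`, `g = ψ / 2`; `exists_JS` -/
theorem surj_fam (A : Fin 3 → ι → ι → Sm) (θ : ℂ → C3) (hθ : ContDiff ℝ ∞ θ) (hn : ∀ s, Null (θ s))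
    (ψ : ℂ → ι → Sm) (hψ : ∀ a, JS fun s => ψ s a) (R ρ : ℝ) :
    ∃ Z : ℂ → ι → Sm, (∀ a, JS fun s => Z s a) ∧
      ∀ s, ‖s‖ ≤ ρ → ∀ a, sm.T A (θ s) (Z s) a - ψ s a ∈ vanI R := by
  obtain ⟨Z, h1, h2, -⟩ := trans_fam A θ hθ hn ψ hψ R ρ 0 0 0 one_pos
  exact ⟨Z, h1, h2⟩

theorem surjS (A : Fin 3 → ι → ι → Sm) {θ : C3} (hθ : Null θ) (ψ : ι → Sm) (R : ℝ) :
    ∃ Z : ι → Sm, ∀ a, sm.T A θ Z a - ψ a ∈ vanI R := by
  obtain ⟨Z, -, h⟩ := surj_fam A (fun _ => θ) contDiff_const (fun _ => hθ) (fun _ => ψ) (fun a => JS.const _) R 0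
  exact ⟨Z 0, h 0 (by simp)⟩

theorem peakS (A : Fin 3 → ι → ι → Sm) {θ : C3} (hθ : Null θ) (R : ℝ) (x0 : E3) (c : ι → ℂ) {ε : ℝ}
    (hε : 0 < ε) : ∃ V : ι → Sm, (∀ a, sm.T A θ V a ∈ vanI R) ∧ ∀ a, ‖V a x0 - c a‖ ≤ ε := by
  obtain ⟨Z, -, h1, h2⟩ := trans_fam A (fun _ => θ) contDiff_const (fun _ => hθ) (fun _ _ => 0)
    (fun a => JS.const _) R 0 0 x0 c hε
  exact ⟨Z 0, fun a => by simpa using h1 0 (by simp) a, h2 fun _ _ => rfl⟩

theorem trans_mat [DecidableEq ι] (A : Fin 3 → ι → ι → Sm) {θ : C3} (hθ : Null θ) (R : ℝ) (x0 : E3) :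
    ∃ C : Matrix ι ι Sm, (∀ k a, sm.T A θ (fun a => C a k) a ∈ vanI R) ∧ C.det x0 ≠ 0 := by
  have hc : Continuous fun M : ι → ι → ℂ => (Matrix.of M).det := Continuous.matrix_det continuous_id
  obtain ⟨δ, hδ, h⟩ := Metric.continuousAt_iff.1 (hc.continuousAt (x := fun a k => (1 : Matrix ι ι ℂ) a k)) 1 one_pos
  choose V hV hV0 using fun k => peakS A hθ R x0 (fun a => (1 : Matrix ι ι ℂ) a k) (half_pos hδ)
  refine ⟨Matrix.of fun a k => V k a, hV, fun h0 => ?_⟩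
  have h1 : dist (fun a k => V k a x0) (fun a k => (1 : Matrix ι ι ℂ) a k) < δ :=
    lt_of_le_of_lt ((dist_pi_le_iff (half_pos hδ).le).2 fun a => (dist_pi_le_iff (half_pos hδ).le).2 fun k =>
      (dist_eq_norm _ _).trans_le (hV0 k a)) (half_lt_self hδ)
  have h2 := h h1
  have h3 : (Matrix.of fun a k => V k a x0).det = 0 := ((Sm.evalAt x0).map_det _).symm.trans h0
  have h4 : (Matrix.of fun a k => (1 : Matrix ι ι ℂ) a k).det = 1 := Matrix.det_one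
  rw [h3, h4] at h2
  simp at h2

/-- For every `x0` there is a matrix `C` of solutions (columns from `peakS` with `c = Pi.single k 1`) with `det (C x0) ≠ 0` (continuity of `det` at the identity
matrix; `(det C) x = det (C x)` by `AlgHom.map_det (Sm.evalAt x)`).  The open sets `{det C ≠ 0}` cover the compact `closedBall 0 R`; take a finite subcover
`C i`, `δ i = det (C i)`, `σ = ∑ δ i * cj (δ i) + η` with `η x = expNegInvGlue (‖x‖² - R²)` (zero on the ball; `σ x ≠ 0` everywhere if `R ≥ 0`; for `R < 0` everything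
lies in `vanI R`) and `G i = cj (δ i) / σ`. -/
theorem genS [DecidableEq ι] (A : Fin 3 → ι → ι → Sm) {θ : C3} (hθ : Null θ) (R : ℝ) :
    ∃ (n : ℕ) (C : Fin n → Matrix ι ι Sm) (G : Fin n → Sm),
      (∀ i k a, sm.T A θ (fun a => C i a k) a ∈ vanI R) ∧ ∑ i, G i * (C i).det - 1 ∈ vanI R := by
  choose C hC hC0 using trans_mat A hθ R
  obtain ⟨t, ht⟩ := (isCompact_closedBall (0 : E3) |R|).elim_finite_subcover
    (fun x0 => {x | (C x0).det x ≠ 0}) (fun x0 => isOpen_ne_fun (C x0).det.cont continuous_const)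
    fun x _ => Set.mem_iUnion.2 ⟨x, hC0 x⟩
  have hη : ContDiff ℝ ∞ fun x : E3 => expNegInvGlue (‖x‖ ^ 2 - R ^ 2) :=
    expNegInvGlue.contDiff.comp ((contDiff_norm_sq ℝ).sub contDiff_const)
  let σ : Sm := ∑ y ∈ t, (C y).det.cj * (C y).det + Sm.ofR _ hη
  have hσ : ∀ x, σ x ≠ 0 := by
    intro x
    have e : σ x = ((∑ y ∈ t, Complex.normSq ((C y).det x) + expNegInvGlue (‖x‖ ^ 2 - R ^ 2) : ℝ) : ℂ) := by
      simp [σ, Complex.normSq_eq_conj_mul_self]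
    rw [e, Complex.ofReal_ne_zero]
    refine ne_of_gt ?_
    by_cases hx : ‖x‖ ≤ |R|
    · obtain ⟨y, hy, hy0⟩ := Set.mem_iUnion₂.1 (ht (mem_closedBall_zero_iff.2 hx))
      exact add_pos_of_pos_of_nonneg (sum_pos' (fun _ _ => Complex.normSq_nonneg _) ⟨y, hy, Complex.normSq_pos.2 hy0⟩)
        (expNegInvGlue.nonneg _)
    · refine add_pos_of_nonneg_of_pos (sum_nonneg fun _ _ => Complex.normSq_nonneg _) (expNegInvGlue.pos_of_pos ?_)
      have := abs_nonneg R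
      rw [← sq_abs R]
      nlinarith [not_le.1 hx]
  let τ : Sm := Sm.mk' (fun x => (σ x)⁻¹) (σ.smooth.inv hσ)
  refine ⟨t.card, fun i => C (t.equivFin.symm i), fun i => τ * (C (t.equivFin.symm i)).det.cj,
    fun i => hC _, fun x hx => ?_⟩
  have h1 : expNegInvGlue (‖x‖ ^ 2 - R ^ 2) = 0 := by
    refine expNegInvGlue.zero_of_nonpos ?_
    have := mem_ball_zero_iff.1 hx
    nlinarith [norm_nonneg x]
  have h2 : σ x = ∑ y ∈ t, ((C y).det.cj * (C y).det) x := by simp [σ, h1]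
  rw [t.equivFin.symm.sum_comp fun y : t => τ * (C y).det.cj * (C y).det,
    sum_coe_sort t fun y => τ * (C y).det.cj * (C y).det]
  simp only [mul_assoc, ← mul_sum]
  rw [Sm.sub_apply, Sm.mul_apply, Sm.sum_apply, ← h2, Sm.one_apply, sub_eq_zero]
  exact inv_mul_cancel₀ (hσ x)

end Crest.Agent.R80
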