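import Crest.Agent.R80.Trans

/-!
# R80: transport equations in `Sm`
-/

set_option autoImplicit false

namespace Crest.Agent.R80

open Finset Metric
open scoped ContDiff

variable {ι : Type} [Fintype ι]

/-- `T` commutes with differentiation in the parameter -/
theorem transt_deriv (A : Fin 3 → ι → ι → Sm) (θ : C3) {Z : ℂ → ι → Sm} (hZ : ∀ a, JS fun s => Z s a)
    {s v : ℂ} {Z' : ι → Sm} (hZ' : ∀ a x, Z' a x = fderiv ℝ (fun s' => Z s' a x) s v) (b : ι) (x : E3) :
    sm.T A θ Z' b x = fderiv ℝ (fun s' => sm.T A θ (Z s') b x) s v := by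
  have h1 := fun j => (((hZ b).pd j).differentiableAt s x).hasFDerivAt
  have h2 := fun c => ((hZ c).differentiableAt s x).hasFDerivAt
  have h3 := ((HasFDerivAt.fun_sum (u := univ) fun j _ => (h1 j).const_mul (θ j)).const_mul 2).fun_add
    (HasFDerivAt.fun_sum (u := univ) fun j _ => HasFDerivAt.fun_sum (u := univ) fun c _ =>
      ((h2 c).const_mul (A j b c x)).const_mul (θ j))
  simp only [T_apply_pt]
  rw [h3.fderiv]
  simp only [add_apply, smul_apply, _root_.sum_apply, smul_eq_mul, ← hZ',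
    ← (hZ b).pd_deriv (hZ' b)]

/-- Define `t' ψ = ∑ a, n a (Z a)` with `Z` chosen by `surjS`; by `h` (and linearity of `T`) the value is the same for every `Z` with
`T Z - ψ ∈ vanI R`; hence `t'` is linear, vanishes if all `ψ a ∈ vanI R`, and `t' (T Z) = ∑ n a (Z a)`.  Put `t a φ = t' (Pi.single a φ)`.
Goodness at `s`: for a family `F` take `Z` from `surj_fam` (constant `θ`, `ψ s = Pi.single a (F s)`, `ρ = ‖s‖ + 1`); near `s`,
`t a (F s') = ∑ n b (Z s' b)`; differentiate; the derivative family `Z'` (`JS.exists_deriv`) satisfies `T Z' - Pi.single a g ∈ vanI R`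
(differentiate `T_apply_pt` in `s`, `JS.pd_deriv`). -/
theorem exists_t (R : ℝ) (A : Fin 3 → ι → ι → Sm) {θ : C3} (hθ : Null θ) (n : ι → Fnl Sm)
    (hn : ∀ a, GoodS R (n a)) (h : ∀ Z : ι → Sm, (∀ a, sm.T A θ Z a ∈ vanI R) → ∑ a, n a (Z a) = 0) :
    ∃ t : ι → Fnl Sm, (∀ a, GoodS R (t a)) ∧ ∀ Z : ι → Sm, ∑ a, n a (Z a) = ∑ a, t a (sm.T A θ Z a) := by
  classical
  choose Zc hZc using fun ψ => surjS A hθ ψ R
  have key : ∀ ψ Z : ι → Sm, (∀ a, sm.T A θ Z a - ψ a ∈ vanI R) →
      ∑ a, n a (Zc ψ a) = ∑ a, n a (Z a) := fun ψ Z hZ => by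
    have := h (Zc ψ - Z) fun a => by
      have := (vanI R).sub_mem (hZc ψ a) (hZ a)
      rwa [sub_sub_sub_cancel_right, ← Pi.sub_apply, ← map_sub] at this
    simpa only [Pi.sub_apply, map_sub, sum_sub_distrib, sub_eq_zero] using this
  let t' : (ι → Sm) →ₗ[ℂ] ℂ :=
    { toFun := fun ψ => ∑ a, n a (Zc ψ a)
      map_add' := fun ψ ψ' => by
        rw [key (ψ + ψ') (Zc ψ + Zc ψ') fun a => by
          have := (vanI R).add_mem (hZc ψ a) (hZc ψ' a)
          rwa [map_add, Pi.add_apply, Pi.add_apply, add_sub_add_comm]]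
        simp only [Pi.add_apply, map_add, sum_add_distrib]
      map_smul' := fun c ψ => by
        rw [key (c • ψ) (c • Zc ψ) fun a => by
          rw [map_smul, Pi.smul_apply, Pi.smul_apply, ← smul_sub]
          exact Submodule.smul_of_tower_mem _ c (hZc ψ a)]
        simp only [Pi.smul_apply, map_smul, RingHom.id_apply, smul_sum] }
  have ht' : ∀ ψ Z : ι → Sm, (∀ a, sm.T A θ Z a - ψ a ∈ vanI R) → t' ψ = ∑ a, n a (Z a) := key
  refine ⟨fun a => t' ∘ₗ LinearMap.single ℂ (fun _ : ι => Sm) a, fun a => ⟨fun f hf => ?_, fun F hF s => ?_⟩,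
    fun Z => ?_⟩
  · rw [LinearMap.comp_apply, ht' _ 0 fun b => ?_]
    · simp
    · rw [map_zero, Pi.zero_apply, zero_sub, neg_mem_iff, LinearMap.single_apply]
      rcases eq_or_ne b a with rfl | hb
      · rwa [Pi.single_eq_same]
      · rw [Pi.single_eq_of_ne hb]
        exact zero_mem _
  · obtain ⟨Z, hZ, hT⟩ := surj_fam A (fun _ => θ) contDiff_const (fun _ => hθ) (fun s => Pi.single a (F s))
      (fun b => by
        rcases eq_or_ne b a with rfl | hb
        · simpa only [Pi.single_eq_same] using hF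
        · simpa only [Pi.single_eq_of_ne hb] using JS.const 0) R (‖s‖ + 1)
    have hev : ∀ᶠ s' in nhds s, ‖s'‖ ≤ ‖s‖ + 1 :=
      (continuous_norm.continuousAt.eventually_lt_const (lt_add_one ‖s‖)).mono fun _ => le_of_lt
    have h1 : (fun s' => (t' ∘ₗ LinearMap.single ℂ (fun _ : ι => Sm) a) (F s')) =ᶠ[nhds s]
        fun s' => ∑ b, n b (Z s' b) := hev.mono fun s' hs' => ht' _ _ (hT s' hs')
    have h2 := fun b => (hn b).2 _ (hZ b) s
    refine ⟨(DifferentiableAt.fun_sum fun b _ => (h2 b).1).congr_of_eventuallyEq h1, fun v g hg => ?_⟩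
    choose Z' _ hZ' using fun b => (hZ b).exists_deriv v
    rw [h1.fderiv_eq, fderiv_fun_sum fun b _ => (h2 b).1, _root_.sum_apply,
      LinearMap.comp_apply, ht' _ (fun b => Z' b s) fun b x hx => ?_]
    · exact sum_congr rfl fun b _ => (h2 b).2 v _ (hZ' b s)
    · have h3 : (fun s' => sm.T A θ (Z s') b x) =ᶠ[nhds s] fun s' => (Pi.single a (F s') : ι → Sm) b x :=
        hev.mono fun s' hs' => sub_eq_zero.1 (hT s' hs' b x hx)
      rw [Sm.sub_apply, transt_deriv A θ hZ (fun b => hZ' b s), h3.fderiv_eq, LinearMap.single_apply, sub_eq_zero]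
      rcases eq_or_ne b a with rfl | hb
      · simp only [Pi.single_eq_same, hg]
      · simp [Pi.single_eq_of_ne hb]
  · simp only [LinearMap.comp_apply, LinearMap.single_apply]
    rw [← map_sum, univ_sum_single, ht' _ Z fun a => by rw [sub_self]; exact zero_mem _]

end Crest.Agent.R80
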