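import Crest.Agent.R80.DegB

/-!
# R80: the form `b` has order two
-/

set_option autoImplicit false

namespace Crest.Agent.R80

open Finset Filter Asymptotics

variable {𝒜 : Type} [CommRing 𝒜] [Algebra ℂ 𝒜]

/-- For fixed `Y` and null `θ`, `Φ c : V ↦ bf (tw (c • θ) V) (tw (-(c • θ)) Y)` is linear and equals `c ^ 2 * I (den2 ..) + c * B1 V + B0 V`
(`den_tw`, `den_expand`).  The three coefficients are the linear maps `(Φ 1 + Φ (-1)) / 2 - Φ 0`, `(Φ 1 - Φ (-1)) / 2`, `Φ 0`. -/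
theorem EA.exists_bf_expand (X : EA 𝒜) (I : Fnl 𝒜) (L1 L2 : Lame 𝒜) {θ : C3} (hθ : Null θ)
    (Y : I4 → 𝒜) : ∃ B2 B1 B0 : (I4 → 𝒜) →ₗ[ℂ] ℂ, (∀ V, B2 V = I (X.den2 L1 L2 θ V Y)) ∧
      ∀ (c : ℂ) V, X.bf I L1 L2 (X.tw (c • θ) V) (X.tw (-(c • θ)) Y) =
        c ^ 2 * B2 V + c * B1 V + B0 V := by
  let Φ : ℂ → (I4 → 𝒜) →ₗ[ℂ] ℂ := fun c =>
    { toFun := fun V => X.bf I L1 L2 (X.tw (c • θ) V) (X.tw (-(c • θ)) Y)
      map_add' := fun V W => by rw [X.tw_add, map_add, LinearMap.add_apply]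
      map_smul' := fun a V => by rw [X.tw_smul, map_smul, LinearMap.smul_apply, RingHom.id_apply] }
  have key : ∀ V, ∃ b1 b0 : ℂ, ∀ c : ℂ,
      Φ c V = c ^ 2 * I (X.den2 L1 L2 θ V Y) + c * b1 + b0 := by
    intro V
    refine ⟨?_, ?_, fun c => ?_⟩
    rotate_left 2
    · have hζ : ∑ j, (c • θ) j ^ 2 = 0 := by
        simp only [Pi.smul_apply, smul_eq_mul, mul_pow, ← mul_sum, hθ.1, mul_zero]
      change I _ = _
      rw [X.den_tw L1 L2 _ hζ, X.den_expand L1 L2 θ hθ.1, map_add, map_add, map_smul, map_smul,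
        smul_eq_mul, smul_eq_mul]
  refine ⟨(2 : ℂ)⁻¹ • (Φ 1 + Φ (-1)) - Φ 0, (2 : ℂ)⁻¹ • (Φ 1 - Φ (-1)), Φ 0, fun V => ?_,
    fun c V => ?_⟩
  · obtain ⟨b1, b0, h⟩ := key V
    simp only [LinearMap.sub_apply, LinearMap.smul_apply, LinearMap.add_apply, h, smul_eq_mul]
    ring
  · obtain ⟨b1, b0, h⟩ := key V
    change Φ c V = _
    simp only [LinearMap.sub_apply, LinearMap.smul_apply, LinearMap.add_apply, h, smul_eq_mul]
    ring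

theorem EA.ord_bf (X : EA 𝒜) (I : Fnl 𝒜) (L1 L2 : Lame 𝒜) :
    X.Ord (X.sys L1) 2 (X.bf I L1 L2) := by
  intro s
  refine ⟨0, fun V hV Y => Deg.bd ?_⟩
  obtain ⟨B2, B1, B0, -, h⟩ := X.exists_bf_expand I L1 L2 (null_th s) Y
  have := Deg.add (Deg.add (Deg.mono' (Deg.pow_smul (Deg.map hV.1 B2) 2) (show _ ≤ (2 : ℤ) by simp))
    (Deg.mono' (Deg.w_smul (Deg.map hV.1 B1)) (show _ ≤ (2 : ℤ) by simp)))
    (Deg.mono' (Deg.map hV.1 B0) (show _ ≤ (2 : ℤ) by simp))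
  convert this using 1
  funext n
  simp only [EA.ev, h, smul_eq_mul]

theorem EA.ev_bf_lead (X : EA 𝒜) (I : Fnl 𝒜) (L1 L2 : Lame 𝒜) {θ : C3} (hθ : Null θ)
    {V : ℕ → I4 → 𝒜} {V0 : I4 → 𝒜} (hV : (fun n => V n - V0) ∈ Deg (I4 → 𝒜) (-1)) (Y : I4 → 𝒜) :
    (fun n => X.ev (X.bf I L1 L2) θ V (fun _ => Y) n - w n ^ 2 * I (X.den2 L1 L2 θ V0 Y)) ∈
      Deg ℂ 1 := by
  obtain ⟨B2, B1, B0, h2, h⟩ := X.exists_bf_expand I L1 L2 hθ Y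
  have h0 := Deg.of_lead hV
  have := Deg.add (Deg.add (Deg.mono' (Deg.pow_smul (Deg.map hV B2) 2) (show _ ≤ (1 : ℤ) by simp))
    (Deg.mono' (Deg.w_smul (Deg.map h0 B1)) (show _ ≤ (1 : ℤ) by simp)))
    (Deg.mono' (Deg.map h0 B0) (show _ ≤ (1 : ℤ) by simp))
  convert this using 1
  funext n
  simp only [EA.ev, h, smul_eq_mul, map_sub, ← h2]
  ring

end Crest.Agent.R80
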